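import Vale.Agent.P049.Stmts

/-! The algorithm, as a functional program on lists of rationals. -/

namespace Vale.Agent.P049

open Matrix Finset

/-! ### Pairings -/

abbrev Prs := List (ℕ × ℕ)

/-- The half-edge `k` is not yet paired. -/
def fr (P : Prs) (k : ℕ) : Bool := P.all fun p => decide (k ≠ p.1 ∧ k ≠ p.2)

/-- The vertices `u` and `v` are joined by some pair. -/
def adj (d : ℕ) (P : Prs) (u v : ℕ) : Bool :=
  P.any fun p => decide ((p.1 / d = u ∧ p.2 / d = v) ∨ (p.1 / d = v ∧ p.2 / d = u))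

/-- Pairing `i` with `j` creates neither a loop nor a repeated edge. -/
def okp (d : ℕ) (P : Prs) (i j : ℕ) : Bool := decide (i / d ≠ j / d ∧ adj d P (i / d) (j / d) = false)

/-- An incomplete pairing of the half-edges below `m0` that gives a simple graph. -/
def Valid (d m0 : ℕ) : Prs → Prop
  | [] => True
  | p :: P => Valid d m0 P ∧ p.1 < m0 ∧ p.2 < m0 ∧ fr P p.1 = true ∧ fr P p.2 = true ∧
      okp d P p.1 p.2 = true

/-- The set of free half-edges. -/
def Fr (m0 : ℕ) (P : Prs) : Finset (Fin m0) := univ.filter fun k => fr P k = true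

/-! ### Matrices -/

abbrev LM := List (List ℚ)

def get (X : LM) (k l : ℕ) : ℚ := (X.getD k []).getD l 0
def tab (I : List ℕ) (f : ℕ → ℕ → ℚ) : LM := I.map fun k => I.map fun l => f k l
def sumq (I : List ℕ) (f : ℕ → ℚ) : ℚ := (I.map f).sum
def mulq (I : List ℕ) (X Y : LM) : LM := tab I fun k l => sumq I fun p => get X k p * get Y p l
def trq (I : List ℕ) (X : LM) : ℚ := sumq I fun k => get X k k
def rhoq (X : LM) (i j : ℕ) : ℚ := (1 - get X i j) ^ 2 - get X i i * get X j j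
def updq (I : List ℕ) (X : LM) (i j : ℕ) : LM := tab I fun k l =>
  if k = i ∨ k = j ∨ l = i ∨ l = j then 0 else
    get X k l + get X j j / rhoq X i j * (get X k i * get X l i) +
      get X i i / rhoq X i j * (get X k j * get X l j) +
      (1 - get X i j) / rhoq X i j * (get X k i * get X l j + get X k j * get X l i)
def flq (G x : ℚ) : ℚ := (⌊G * x⌋ : ℤ) / G
def ceq (G x : ℚ) : ℚ := (⌈G * x⌉ : ℤ) / G
def rq (up : Bool) (G x : ℚ) : ℚ := if up = true then ceq G x else flq G x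
def rndq (I : List ℕ) (up : Bool) (G : ℚ) (P : Prs) (X : LM) : LM := tab I fun k l =>
  if k = l then
    (if fr P k = true then 1 - sumq I (fun p => if p = k then 0 else rq up G (get X k p)) else 0)
  else rq up G (get X k l)
def T2q (I : List ℕ) (X : LM) : ℚ := trq I (mulq I X X)
def sideq (I : List ℕ) (t m ε : ℚ) (X : LM) : ℚ :=
  sideV t m ε (trq I X) (T2q I X) (trq I (mulq I (mulq I X X) X))
    (trq I (mulq I (mulq I (mulq I X X) X) X))
    (sumq I fun k => max (get (mulq I X X) k k - 1) 0 ^ 2 + max (get (mulq I X X) k k - 1) 0 ^ 4)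
    (sumq I fun k => get X k k ^ 2) (sumq I fun k => get X k k ^ 4)
def Phiq (I : List ℕ) (t m : ℚ) (X Y : LM) : ℚ :=
  sideq I t m 1 X + sideq I t m (-1) Y + trq I (mulq I (mulq I (mulq I X X) Y) Y) / BM t m
def small (I : List ℕ) (b : ℚ) (X : LM) : Bool :=
  I.all fun k => I.all fun l => decide (-b ≤ get X k l ∧ get X k l ≤ b)

/-- The real matrix given by a table. -/
def mat (m0 : ℕ) (X : LM) : Mat (Fin m0) := fun k l => (get X k l : ℝ)

/-! ### The two main phases -/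

abbrev State := Prs × LM × LM

/-- Number of free half-edges. -/
def fm (I : List ℕ) (s : State) : ℕ := I.length - 2 * s.1.length

def cand (I : List ℕ) (s : State) (p : ℕ × ℕ) : State :=
  (p :: s.1, rndq I false ((I.length : ℚ) ^ eG) (p :: s.1) (updq I s.2.1 p.1 p.2),
    rndq I true ((I.length : ℚ) ^ eG) (p :: s.1) (updq I s.2.2 p.1 p.2))

def good (I : List ℕ) (t : ℕ) (s s' : State) : Bool :=
  if t ^ en1 < fm I s then
    decide (Phiq I t ((fm I s : ℚ) - 2) s'.2.1 s'.2.2 ≤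
      Phiq I t (fm I s) s.2.1 s.2.2 + 10000 / ((t : ℚ) * fm I s))
  else decide ((T2q I s'.2.1 + T2q I s'.2.2 - 2) ^ 2 * (t : ℚ) ^ eC ≤ (fm I s : ℚ) - 2)

def chk (d : ℕ) (I : List ℕ) (t : ℕ) (s : State) (p : ℕ × ℕ) : Bool :=
  decide (fr s.1 p.1 = true ∧ fr s.1 p.2 = true ∧ okp d s.1 p.1 p.2 = true ∧
    0 < rhoq s.2.1 p.1 p.2 ∧ 0 < rhoq s.2.2 p.1 p.2 ∧
    small I ((I.length : ℚ) ^ 4) (cand I s p).2.1 = true ∧
    small I ((I.length : ℚ) ^ 4) (cand I s p).2.2 = true ∧ good I t s (cand I s p) = true)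

def allp (I : List ℕ) : Prs := I.flatMap fun i => I.map fun j => (i, j)

def step (d : ℕ) (I : List ℕ) (t : ℕ) (s : State) : State :=
  if t ^ en2 < fm I s ∧ ((allp I).find? (chk d I t s)).isSome = true then
    cand I s (((allp I).find? (chk d I t s)).getD (0, 0))
  else s

def tpar (I : List ℕ) : ℕ := (I.filter fun s => decide ((s + 1) ^ eN ≤ I.length)).length
def apar (d : ℕ) (I : List ℕ) (t : ℕ) : ℚ :=
  ((I.filter fun s => decide ((d - 1) * (s + 1) ^ 2 + 4 * t ^ eh * I.length ≤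
    I.length ^ 2)).length : ℚ) / I.length
def kpar (d : ℕ) (I : List ℕ) (t : ℕ) : ℚ := apar d I t - 64 * ((t : ℚ) ^ eh / I.length) ^ 2
def A0q (d : ℕ) (I : List ℕ) (a κ : ℚ) : LM := tab I fun k l =>
  (if k / d = l / d then a else 0) - (if k = l then κ else 0) + (1 - a * d + κ) / I.length
def B0q (d : ℕ) (I : List ℕ) (a κ : ℚ) : LM := tab I fun k l =>
  -(if k / d = l / d then a else 0) + (if k = l then κ else 0) + (1 + a * d - κ) / I.length
def init (d : ℕ) (I : List ℕ) (t : ℕ) : State :=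
  ([], A0q d I (apar d I t) (kpar d I t), B0q d I (apar d I t) (kpar d I t))

def phases (d : ℕ) (I : List ℕ) : Prs :=
  ((step d I (tpar I))^[I.length] (init d I (tpar I))).1

/-! ### The endgame -/

def swOk (d : ℕ) (P Q : Prs) (a b : ℕ) (q : ℕ × ℕ) : Bool :=
  decide (okp d (Q.filter (fun x => decide (x ≠ q)) ++ P) a q.1 = true ∧
    okp d ((a, q.1) :: (Q.filter (fun x => decide (x ≠ q)) ++ P)) b q.2 = true)

def swp (Q : Prs) (a b : ℕ) (q : ℕ × ℕ) : Prs :=
  (b, q.2) :: (a, q.1) :: Q.filter (fun x => decide (x ≠ q))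

def estep' (d : ℕ) (P Q : Prs) (fl : List ℕ) (a b : ℕ) : Prs :=
  if fl.length < 2 then Q
  else if (fl.find? (okp d (Q ++ P) a)).isSome = true then
    (a, (fl.find? (okp d (Q ++ P) a)).getD 0) :: Q
  else if (Q.find? (swOk d P Q a b)).isSome = true then
    swp Q a b ((Q.find? (swOk d P Q a b)).getD (0, 0))
  else Q

def estep (d : ℕ) (I : List ℕ) (P Q : Prs) : Prs :=
  estep' d P Q (I.filter (fr (Q ++ P))) ((I.filter (fr (Q ++ P))).getD 0 0)
    ((I.filter (fr (Q ++ P))).getD 1 0)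

def finish (d : ℕ) (I : List ℕ) (P : Prs) : Prs := (estep d I P)^[I.length] [] ++ P

def code (d n : ℕ) (P : Prs) : List Bool :=
  (List.range n).flatMap fun u => (List.range n).map fun v => adj d P u v

def algo (d n : ℕ) : List Bool :=
  code d n (finish d (List.range (n * d)) (phases d (List.range (n * d))))

/-! ### Interface statements -/

/-- Basic facts on valid pairings. -/
def OkS : Prop := ∀ (d m0 : ℕ) (P : Prs), 0 < d → Valid d m0 P →
  (Fr m0 P).card + 2 * P.length = m0 ∧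
  OkRel (fun i j : Fin m0 => okp d P i j = true) (Fr m0 P) (d ^ 2 + d) ∧
  ∀ i j : Fin m0, Fr m0 ((i.1, j.1) :: P) = ((Fr m0 P).erase i).erase j

def EndS : Prop := ∀ (d m0 : ℕ) (P : Prs), 0 < d → Valid d m0 P → Even m0 →
  10 * d ^ 2 + 10 * d + 10 + 2 * P.length ≤ m0 →
    Valid d m0 (finish d (List.range m0) P) ∧ ∀ k < m0, fr (finish d (List.range m0) P) k = false

def GraphS : Prop := ∀ (d n : ℕ) (P : Prs), 0 < d → Valid d (n * d) P →
  (∀ k < n * d, fr P k = false) →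
    ∃ (τ : Fin (n * d) → Fin (n * d)) (π : Fin (n * d) → Fin n) (G : SimpleGraph (Fin n))
      (_ : DecidableRel G.Adj), Function.Involutive τ ∧
      (∀ i j : Fin (n * d), (i.1, j.1) ∈ P → τ i = j) ∧ (∀ k, (π k).1 = k.1 / d) ∧
      (∀ u, (univ.filter fun k => π k = u).card = d) ∧ G.IsRegularOfDegree d ∧
      code d n P = ((List.finRange n).flatMap fun u =>
        (List.finRange n).map fun v => decide (G.Adj u v)) ∧
      ∀ v : Fin n → ℝ, v ⬝ᵥ G.adjMatrix ℝ *ᵥ v = ∑ k, v (π k) * v (π (τ k))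

/-- The list computations agree with the real matrices. -/
def CastS : Prop := ∀ (m0 : ℕ) (X Y : LM),
  (∀ i j : Fin m0, (rhoq X i j : ℝ) = rho (mat m0 X) i j) ∧
  (∀ i j : Fin m0, mat m0 (updq (List.range m0) X i j) = upd (mat m0 X) i j) ∧
  (∀ (G : ℚ) (P : Prs), mat m0 (rndq (List.range m0) false G P X) = rnd (fl G) (Fr m0 P) (mat m0 X) ∧
    mat m0 (rndq (List.range m0) true G P X) = rnd (ce G) (Fr m0 P) (mat m0 X)) ∧
  ((T2q (List.range m0) X : ℝ) = T2 (mat m0 X)) ∧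
  (∀ t m : ℚ, (Phiq (List.range m0) t m X Y : ℝ) = Phi t m (mat m0 X) (mat m0 Y)) ∧
  (∀ b : ℚ, small (List.range m0) b X = true ↔ ∀ k l, |mat m0 X k l| ≤ b) ∧
  (∀ (d : ℕ) (a κ : ℚ) (V : Type) [DecidableEq V] (π : Fin m0 → V),
    (∀ k l, π k = π l ↔ k.1 / d = l.1 / d) →
      mat m0 (A0q d (List.range m0) a κ) = A0 π d a κ ∧
      mat m0 (B0q d (List.range m0) a κ) = B0 π d a κ)

/-- The parameters computed by the algorithm. -/
def ParS : Prop := ∀ d : ℕ, 3 ≤ d → ∃ M : ℕ, ∀ m0 ≥ M, ∀ t : ℕ, t = tpar (List.range m0) →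
  10 ^ 40 ≤ (t : ℝ) ∧ 10 * d ^ 2 + 10 * d + 12 ≤ t ∧ (t : ℝ) ^ eN ≤ m0 ∧ (m0 : ℝ) ≤ 2 * t ^ eN ∧
  10000 / (t : ℝ) * (1 + Real.log m0) ≤ 1 / 2 ∧
  ∀ a : ℝ, a = apar d (List.range m0) t →
    0 ≤ a ∧ (d - 1) * a ^ 2 ≤ 1 - 4 * (t : ℝ) ^ eh / m0 ∧
    1 - 4 * (t : ℝ) ^ eh / m0 < (d - 1) * (a + 1 / m0) ^ 2

/-- Correctness of the algorithm. -/
def CorrectS : Prop := ∀ d : ℕ, 3 ≤ d → ∃ n0 : ℕ, ∀ n ≥ n0, Even (d * n) →
  ∃ (G : SimpleGraph (Fin n)) (_ : DecidableRel G.Adj), G.IsRegularOfDegree d ∧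
    algo d n = ((List.finRange n).flatMap fun u =>
      (List.finRange n).map fun v => decide (G.Adj u v)) ∧
    ∀ v : Fin n → ℝ, ∑ u, v u = 0 → |v ⬝ᵥ G.adjMatrix ℝ *ᵥ v| ≤ 2 * √(d - 1) * (v ⬝ᵥ v)

end Vale.Agent.P049
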