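import Vale.Agent.P049.Alg
import Vale.Agent.Lib.PolyTime.Raw
import Vale.Agent.Lib.PolyTime.More
import Vale.Agent.Lib.PolyTime.Rat

/-! The algorithm runs in polynomial time. -/

namespace Vale.Agent.P049

open Vale.Agent.Lib.PolyTime Vale.Agent.Lib.PolyTime.Q

namespace AlgPT

variable {α : Type} [Enc α]

@[fun_prop] theorem pt_fr {P : α → Prs} {k : α → ℕ} (hP : PT P) (hk : PT k) :
    PT fun a => fr (P a) (k a) := by
  unfold fr; fun_prop

@[fun_prop] theorem pt_adj (d : ℕ) {P : α → Prs} {u v : α → ℕ} (hP : PT P) (hu : PT u)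
    (hv : PT v) : PT fun a => adj d (P a) (u a) (v a) := by
  unfold adj; fun_prop

@[fun_prop] theorem pt_okp (d : ℕ) {P : α → Prs} {u v : α → ℕ} (hP : PT P) (hu : PT u)
    (hv : PT v) : PT fun a => okp d (P a) (u a) (v a) := by
  unfold okp; fun_prop

@[fun_prop] theorem pt_get {X : α → LM} {k l : α → ℕ} (hX : PT X) (hk : PT k) (hl : PT l) :
    PT fun a => get (X a) (k a) (l a) := by
  unfold get; fun_prop

@[fun_prop] theorem pt_mulq {I : α → List ℕ} {X Y : α → LM} (hI : PT I) (hX : PT X) (hY : PT Y) :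
    PT fun a => mulq (I a) (X a) (Y a) := by
  unfold mulq tab sumq; fun_prop

@[fun_prop] theorem pt_trq {I : α → List ℕ} {X : α → LM} (hI : PT I) (hX : PT X) :
    PT fun a => trq (I a) (X a) := by
  unfold trq sumq; fun_prop

@[fun_prop] theorem pt_rhoq {X : α → LM} {k l : α → ℕ} (hX : PT X) (hk : PT k) (hl : PT l) :
    PT fun a => rhoq (X a) (k a) (l a) := by
  unfold rhoq; fun_prop

@[fun_prop] theorem pt_updq {I : α → List ℕ} {X : α → LM} {k l : α → ℕ} (hI : PT I) (hX : PT X)
    (hk : PT k) (hl : PT l) : PT fun a => updq (I a) (X a) (k a) (l a) := by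
  unfold updq tab; fun_prop

@[fun_prop] theorem pt_rq (up : Bool) {G x : α → ℚ} (hG : PT G) (hx : PT x) :
    PT fun a => rq up (G a) (x a) := by
  unfold rq ceq flq; fun_prop

@[fun_prop] theorem pt_rndq (up : Bool) {I : α → List ℕ} {G : α → ℚ} {P : α → Prs} {X : α → LM}
    (hI : PT I) (hG : PT G) (hP : PT P) (hX : PT X) :
    PT fun a => rndq (I a) up (G a) (P a) (X a) := by
  unfold rndq tab sumq; fun_prop

@[fun_prop] theorem pt_T2q {I : α → List ℕ} {X : α → LM} (hI : PT I) (hX : PT X) :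
    PT fun a => T2q (I a) (X a) := by
  unfold T2q; fun_prop

@[fun_prop] theorem pt_bud (e x y : ℕ) {t m : α → ℚ} (ht : PT t) (hm : PT m) :
    PT fun a => bud e x y (t a) (m a) := by
  unfold bud; fun_prop

@[fun_prop] theorem pt_sideV {t m e x1 x2 x3 x4 xD xA xZ : α → ℚ} (ht : PT t) (hm : PT m)
    (he : PT e) (h1 : PT x1) (h2 : PT x2) (h3 : PT x3) (h4 : PT x4) (hD : PT xD) (hA : PT xA)
    (hZ : PT xZ) : PT fun a =>
      sideV (t a) (m a) (e a) (x1 a) (x2 a) (x3 a) (x4 a) (xD a) (xA a) (xZ a) := by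
  unfold sideV B1 B1' Te BS B3 B4 BD BA BZ; fun_prop

@[fun_prop] theorem pt_sideq {I : α → List ℕ} {t m e : α → ℚ} {X : α → LM} (hI : PT I)
    (ht : PT t) (hm : PT m) (he : PT e) (hX : PT X) :
    PT fun a => sideq (I a) (t a) (m a) (e a) (X a) := by
  unfold sideq sumq; fun_prop

@[fun_prop] theorem pt_Phiq {I : α → List ℕ} {t m : α → ℚ} {X Y : α → LM} (hI : PT I)
    (ht : PT t) (hm : PT m) (hX : PT X) (hY : PT Y) :
    PT fun a => Phiq (I a) (t a) (m a) (X a) (Y a) := by
  unfold Phiq BM; fun_prop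

@[fun_prop] theorem pt_small {I : α → List ℕ} {b : α → ℚ} {X : α → LM} (hI : PT I)
    (hb : PT b) (hX : PT X) : PT fun a => small (I a) (b a) (X a) := by
  unfold small; fun_prop

@[fun_prop] theorem pt_fm {I : α → List ℕ} {s : α → State} (hI : PT I) (hs : PT s) :
    PT fun a => fm (I a) (s a) := by
  unfold fm; fun_prop

@[fun_prop] theorem pt_cand {I : α → List ℕ} {s : α → State} {p : α → ℕ × ℕ} (hI : PT I)
    (hs : PT s) (hp : PT p) : PT fun a => cand (I a) (s a) (p a) := by
  unfold cand; fun_prop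

@[fun_prop] theorem pt_good {I : α → List ℕ} {t : α → ℕ} {s s' : α → State} (hI : PT I)
    (ht : PT t) (hs : PT s) (hs' : PT s') : PT fun a => good (I a) (t a) (s a) (s' a) := by
  unfold good; fun_prop

@[fun_prop] theorem pt_chk (d : ℕ) {I : α → List ℕ} {t : α → ℕ} {s : α → State} {p : α → ℕ × ℕ}
    (hI : PT I) (ht : PT t) (hs : PT s) (hp : PT p) :
    PT fun a => chk d (I a) (t a) (s a) (p a) := by
  unfold chk; fun_prop

@[fun_prop] theorem pt_allp {I : α → List ℕ} (hI : PT I) : PT fun a => allp (I a) := by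
  unfold allp; fun_prop

@[fun_prop] theorem pt_step (d : ℕ) {I : α → List ℕ} {t : α → ℕ} {s : α → State}
    (hI : PT I) (ht : PT t) (hs : PT s) : PT fun a => step d (I a) (t a) (s a) := by
  unfold step; fun_prop

@[fun_prop] theorem pt_tpar {I : α → List ℕ} (hI : PT I) : PT fun a => tpar (I a) := by
  unfold tpar; fun_prop

@[fun_prop] theorem pt_apar (d : ℕ) {I : α → List ℕ} {t : α → ℕ} (hI : PT I) (ht : PT t) :
    PT fun a => apar d (I a) (t a) := by
  unfold apar; fun_prop

@[fun_prop] theorem pt_kpar (d : ℕ) {I : α → List ℕ} {t : α → ℕ} (hI : PT I) (ht : PT t) :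
    PT fun a => kpar d (I a) (t a) := by
  unfold kpar; fun_prop

@[fun_prop] theorem pt_init (d : ℕ) {I : α → List ℕ} {t : α → ℕ} (hI : PT I) (ht : PT t) :
    PT fun a => init d (I a) (t a) := by
  unfold init A0q B0q tab; fun_prop

@[fun_prop] theorem pt_swOk (d : ℕ) {P R : α → Prs} {x y : α → ℕ} {q : α → ℕ × ℕ} (hP : PT P)
    (hR : PT R) (hx : PT x) (hy : PT y) (hq : PT q) :
    PT fun a => swOk d (P a) (R a) (x a) (y a) (q a) := by
  unfold swOk; fun_prop

@[fun_prop] theorem pt_swp {R : α → Prs} {x y : α → ℕ} {q : α → ℕ × ℕ}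
    (hR : PT R) (hx : PT x) (hy : PT y) (hq : PT q) :
    PT fun a => swp (R a) (x a) (y a) (q a) := by
  unfold swp; fun_prop

@[fun_prop] theorem pt_estep (d : ℕ) {I : α → List ℕ} {P R : α → Prs} (hI : PT I) (hP : PT P)
    (hR : PT R) : PT fun a => estep d (I a) (P a) (R a) := by
  unfold estep estep'; fun_prop

theorem sz_prs {m k : ℕ} {P : Prs} (h1 : P.length ≤ k) (h2 : ∀ p ∈ P, p.1 ≤ m ∧ p.2 ≤ m) :
    sz P ≤ k * (2 * (3 * m + 1) + 2) := by
  refine (sz_le_of_forall fun p hp => ?_).trans (Nat.mul_le_mul_right _ h1)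
  have h3 := sz_nat_le p.1
  have h4 := sz_nat_le p.2
  have h5 := h2 p hp
  rw [sz_prod]
  omega

theorem get_tab {m k l : ℕ} (hk : k < m) (hl : l < m) (f : ℕ → ℕ → ℚ) :
    get (tab (List.range m) f) k l = f k l := by
  simp [get, tab, hk, hl]

theorem sz_tab {m c : ℕ} {f : ℕ → ℕ → ℚ} (h : ∀ k < m, ∀ l < m, sz (f k l) ≤ c) :
    sz (tab (List.range m) f) ≤ m * (2 * (m * (2 * c + 2)) + 2) := by
  have := sz_le_of_forall (l := tab (List.range m) f) (b := m * (2 * c + 2)) fun r hr => by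
    obtain ⟨k, hk, rfl⟩ := List.mem_map.1 hr
    have := sz_le_of_forall (l := (List.range m).map fun l => f k l) (b := c) fun x hx => by
      obtain ⟨l, hl, rfl⟩ := List.mem_map.1 hx
      exact h k (List.mem_range.1 hk) l (List.mem_range.1 hl)
    simpa using this
  simpa [tab] using this

theorem rq_int (up : Bool) {G : ℚ} (hG : G ≠ 0) (x : ℚ) : ∃ z : ℤ, rq up G x * G = z := by
  unfold rq ceq flq
  split_ifs
  · exact ⟨_, div_mul_cancel₀ _ hG⟩
  · exact ⟨_, div_mul_cancel₀ _ hG⟩

theorem sumq_int (I : List ℕ) {G : ℚ} {f : ℕ → ℚ} (h : ∀ p, ∃ z : ℤ, f p * G = z) :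
    ∃ z : ℤ, sumq I f * G = z := by
  induction I with
  | nil => exact ⟨0, by simp [sumq]⟩
  | cons p I ih =>
    obtain ⟨z, hz⟩ := ih
    obtain ⟨w, hw⟩ := h p
    refine ⟨w + z, ?_⟩
    rw [Int.cast_add, ← hz, ← hw, ← add_mul]
    rfl

/-- The size bound for rounded tables. -/
def bnd (m : ℕ) : ℕ := m * (2 * (m * (2 * (7 * (m ^ 4 * m ^ eG + m ^ eG) + 3) + 2)) + 2)

theorem sz_rndq {m : ℕ} {up : Bool} {P : Prs} {X : LM}
    (h : small (List.range m) ((m : ℚ) ^ 4) (rndq (List.range m) up ((m : ℚ) ^ eG) P X) = true) :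
    sz (rndq (List.range m) up ((m : ℚ) ^ eG) P X) ≤ bnd m := by
  refine sz_tab fun k hk l hl => ?_
  have hm : 0 < m ^ eG := pow_pos (by omega) _
  have hG : ((m : ℚ) ^ eG) ≠ 0 := by exact_mod_cast hm.ne'
  simp only [small, List.all_eq_true, List.mem_range, decide_eq_true_eq] at h
  have h1 := h k hk l hl
  rw [rndq, get_tab hk hl] at h1
  refine sz_rat_le hm ?_ (by rw [Nat.cast_pow]; exact abs_le.2 h1)
  rw [Nat.cast_pow]
  split_ifs
  · obtain ⟨z, hz⟩ := sumq_int (List.range m) (G := (m : ℚ) ^ eG)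
      (f := fun p => if p = k then 0 else rq up ((m : ℚ) ^ eG) (get X k p)) fun p => by
        split_ifs
        · exact ⟨0, by simp⟩
        · exact rq_int up hG _
    exact ⟨(m : ℤ) ^ eG - z, by rw [sub_mul, hz, one_mul, Int.cast_sub, Int.cast_pow,
      Int.cast_natCast]⟩
  · exact ⟨0, by simp⟩
  · exact rq_int up hG _

theorem step_inv (d m t c : ℕ) (hc : 2 * bnd m + bnd m + 1 ≤ c) (k : ℕ) (s : State)
    (h : s.1.length ≤ k ∧ (∀ p ∈ s.1, p.1 ≤ m ∧ p.2 ≤ m) ∧ sz s.2 ≤ c) :
    (step d (List.range m) t s).1.length ≤ k + 1 ∧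
      (∀ p ∈ (step d (List.range m) t s).1, p.1 ≤ m ∧ p.2 ≤ m) ∧
      sz (step d (List.range m) t s).2 ≤ c := by
  unfold step
  split_ifs with h1
  · obtain ⟨p, hp⟩ := Option.isSome_iff_exists.1 h1.2
    have h2 := List.mem_of_find?_eq_some hp
    have h3 := List.find?_some hp
    rw [hp, Option.getD_some]
    simp only [chk, decide_eq_true_eq, List.length_range] at h3
    refine ⟨Nat.succ_le_succ h.1, fun q hq => ?_, ?_⟩
    · rcases List.mem_cons.1 hq with rfl | hq
      · simp only [allp, List.mem_flatMap, List.mem_map, List.mem_range] at h2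
        obtain ⟨i, hi, j, hj, rfl⟩ := h2
        exact ⟨hi.le, hj.le⟩
      · exact h.2.1 q hq
    · have h4 := h3.2.2.2.2.2.1
      have h5 := h3.2.2.2.2.2.2.1
      simp only [cand, List.length_range] at h4 h5 ⊢
      have h6 := sz_rndq h4
      have h7 := sz_rndq h5
      rw [sz_pair]
      omega
  · exact ⟨h.1.trans (Nat.le_succ k), h.2⟩

theorem estep_inv (d m : ℕ) (P : Prs) (k : ℕ) (R : Prs)
    (h : R.length ≤ 2 * k ∧ ∀ p ∈ R, p.1 ≤ m ∧ p.2 ≤ m) :
    (estep d (List.range m) P R).length ≤ 2 * (k + 1) ∧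
      ∀ p ∈ estep d (List.range m) P R, p.1 ≤ m ∧ p.2 ≤ m := by
  have hf : ∀ x ∈ (List.range m).filter (fr (R ++ P)), x ≤ m := fun x hx =>
    (List.mem_range.1 (List.mem_filter.1 hx).1).le
  unfold estep
  generalize (List.range m).filter (fr (R ++ P)) = fl at hf
  have hg : ∀ i, fl.getD i 0 ≤ m := by
    intro i
    rw [List.getD_eq_getElem?_getD]
    cases h : fl[i]? with
    | none => exact Nat.zero_le _
    | some x => exact hf x (List.mem_of_getElem? h)
  have ha := hg 0
  have hb := hg 1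
  generalize fl.getD 0 0 = a at ha
  generalize fl.getD 1 0 = b at hb
  unfold estep'
  split_ifs with h1 h2 h3
  · exact ⟨by omega, h.2⟩
  · obtain ⟨x, hx⟩ := Option.isSome_iff_exists.1 h2
    rw [hx, Option.getD_some]
    refine ⟨by rw [List.length_cons]; omega, fun q hq => ?_⟩
    rcases List.mem_cons.1 hq with rfl | hq
    · exact ⟨ha, hf x (List.mem_of_find?_eq_some hx)⟩
    · exact h.2 q hq
  · obtain ⟨x, hx⟩ := Option.isSome_iff_exists.1 h3
    have h4 := h.2 x (List.mem_of_find?_eq_some hx)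
    have h5 := List.length_filter_le (fun y => decide (y ≠ x)) R
    rw [hx, Option.getD_some, swp]
    refine ⟨by rw [List.length_cons, List.length_cons]; omega, fun q hq => ?_⟩
    rcases List.mem_cons.1 hq with rfl | hq
    · exact ⟨hb, h4.2⟩
    rcases List.mem_cons.1 hq with rfl | hq
    · exact ⟨ha, h4.1⟩
    · exact h.2 q (List.mem_filter.1 hq).1
  · exact ⟨by omega, h.2⟩

theorem pb_bnd {m : α → ℕ} (hm : PB m) : PB fun a => bnd (m a) :=
  hm.mul ((hm.mul ((((((hm.pow 4).mul (hm.pow eG)).add (hm.pow eG)).lin 7 3).lin 2 2))).lin 2 2)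

theorem pt_phases (d : ℕ) {m : α → ℕ} (hm : PT m) (hb : PB m) :
    PT fun a => phases d (List.range (m a)) := by
  have hI := PT.range hm hb
  have hi : PT fun a => init d (List.range (m a)) (tpar (List.range (m a))) := by fun_prop
  have hI' : PT fun p : α × State => List.range (m p.1) := hI.comp PT.id.fst
  refine (PT.iterate (f := fun a => step d (List.range (m a)) (tpar (List.range (m a))))
    (by fun_prop) hI.length hI.pb_length hi
    (((hb.mul ((hb.lin 3 1).lin 2 2)).lin 2 1).add (hi.snd.szb.add ((pb_bnd hb).lin 3 1)))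
    fun a k hk => ?_).fst
  have key : ∀ (k : ℕ) (s : State), s = (step d (List.range (m a)) (tpar (List.range (m a))))^[k]
        (init d (List.range (m a)) (tpar (List.range (m a)))) →
      s.1.length ≤ k ∧ (∀ p ∈ s.1, p.1 ≤ m a ∧ p.2 ≤ m a) ∧ sz s.2 ≤
        sz (init d (List.range (m a)) (tpar (List.range (m a)))).2 + (3 * bnd (m a) + 1) := by
    intro k
    induction k with
    | zero =>
      rintro _ rfl
      exact ⟨le_rfl, fun _ h => absurd h List.not_mem_nil, Nat.le_add_right _ _⟩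
    | succ k ih =>
      rintro _ rfl
      rw [Function.iterate_succ_apply']
      exact step_inv d _ _ _ (by omega) k _ (ih _ rfl)
  obtain ⟨h1, h2, h3⟩ := key k _ rfl
  rw [List.length_range] at hk
  have h4 := sz_prs (h1.trans hk) h2
  rw [sz_prod]
  omega

theorem pt_finish (d : ℕ) {m : α → ℕ} {P : α → Prs} (hm : PT m) (hb : PB m) (hP : PT P) :
    PT fun a => finish d (List.range (m a)) (P a) := by
  have hI := PT.range hm hb
  have hI' : PT fun p : α × Prs => List.range (m p.1) := hI.comp PT.id.fst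
  refine PT.append (PT.iterate (f := fun a => estep d (List.range (m a)) (P a))
    (by fun_prop) hI.length hI.pb_length (PT.const [])
    (((PB.const 2).mul hb).mul ((hb.lin 3 1).lin 2 2)) fun a k hk => ?_) hP
  have key : ∀ k : ℕ, ((estep d (List.range (m a)) (P a))^[k] []).length ≤ 2 * k ∧
      ∀ p ∈ (estep d (List.range (m a)) (P a))^[k] [], p.1 ≤ m a ∧ p.2 ≤ m a := by
    intro k
    induction k with
    | zero => exact ⟨le_rfl, fun _ h => absurd h List.not_mem_nil⟩
    | succ k ih =>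
      rw [Function.iterate_succ_apply']
      exact estep_inv d _ _ k _ ih
  rw [List.length_range] at hk
  exact sz_prs ((key k).1.trans (Nat.mul_le_mul_left 2 hk)) (key k).2

theorem pt_code (d : ℕ) {l : α → List Bool} {P : α → Prs} (hl : PT l) (hP : PT P) :
    PT fun a => code d (l a).length (P a) := by
  unfold code; fun_prop

end AlgPT

theorem algPT (d : ℕ) : PT fun l : List Bool => algo d l.length := by
  have hm : PT fun l : List Bool => l.length * d := by fun_prop
  have hb : PB fun l : List Bool => l.length * d := (PT.pb_length PT.id).mul (PB.const d)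
  exact AlgPT.pt_code d PT.id (AlgPT.pt_finish d hm hb (AlgPT.pt_phases d hm hb))

end Vale.Agent.P049
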