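import Vale.Agent.P049.Norms

/-! Bounds on the entries of `Tm` and weighted averages over pairs. -/

namespace Vale.Agent.P049

open Matrix Finset

variable {ι : Type}

section T

variable {Z : Mat ι} {i j : ι}

theorem nu_nonneg (Z : Mat ι) (i j : ι) : 0 ≤ nu Z i j := add_nonneg (abs_nonneg _) (abs_nonneg _)
theorem abs_le_nu (Z : Mat ι) (i j : ι) : |Z i j| ≤ nu Z i j := le_add_of_nonneg_right (abs_nonneg _)
theorem abs_mul_le_nu (Z : Mat ι) (i j : ι) : |Z i i| * |Z j j| ≤ nu Z i j := by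
  rw [← abs_mul]; exact le_add_of_nonneg_left (abs_nonneg _)

theorem tb_rho_sub (h : nu Z i j ≤ 1 / 1000) : |rho Z i j - 1| ≤ 2001 / 1000 * nu Z i j := by
  have h1 := abs_nonneg (Z i j); have h2 := abs_nonneg (Z i i * Z j j)
  have h3 := le_abs_self (Z i j); have h4 := neg_abs_le (Z i j)
  have h5 := le_abs_self (Z i i * Z j j); have h6 := neg_abs_le (Z i i * Z j j)
  have h7 := sq_abs (Z i j)
  unfold nu at *; unfold rho
  rw [abs_le]; constructor <;> nlinarith
theorem tb_rho (h : nu Z i j ≤ 1 / 1000) : 99 / 100 ≤ rho Z i j := by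
  have := abs_le.1 (tb_rho_sub h); linarith
theorem tb_rho_ne (h : nu Z i j ≤ 1 / 1000) : rho Z i j ≠ 0 := by
  have := tb_rho h; intro h0; linarith
theorem tb_inv (h : nu Z i j ≤ 1 / 1000) : |(rho Z i j)⁻¹ - 1| ≤ 3 * nu Z i j := by
  have h1 := tb_rho h
  have h2 := tb_rho_sub h
  have h3 := nu_nonneg Z i j
  have e : (rho Z i j)⁻¹ - 1 = -(rho Z i j - 1) / rho Z i j := by field_simp; ring
  rw [e, abs_div, abs_neg, abs_of_pos (show 0 < rho Z i j by linarith), div_le_iff₀ (by linarith)]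
  nlinarith
theorem tb_12 (h : nu Z i j ≤ 1 / 1000) : |t12 Z i j - 1| ≤ 3 * nu Z i j := by
  have h0 := tb_rho h
  have e : t12 Z i j - 1 = (Z i j - Z i j ^ 2 + Z i i * Z j j) / rho Z i j := by
    unfold t12; field_simp; unfold rho; ring
  rw [e, abs_div, abs_of_pos (show 0 < rho Z i j by linarith), div_le_iff₀ (by linarith)]
  have h1 := abs_nonneg (Z i j); have h2 := abs_nonneg (Z i i * Z j j)
  have h3 := le_abs_self (Z i j); have h4 := neg_abs_le (Z i j)
  have h5 := le_abs_self (Z i i * Z j j); have h6 := neg_abs_le (Z i i * Z j j)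
  have h7 := sq_abs (Z i j)
  have h8 : |Z i j - Z i j ^ 2 + Z i i * Z j j| ≤ 2 * nu Z i j := by
    unfold nu at *; rw [abs_le]; constructor <;> nlinarith
  nlinarith [nu_nonneg Z i j]
theorem tb_11 (h : nu Z i j ≤ 1 / 1000) : |t11 Z i j - Z j j| ≤ 3 * nu Z i j * |Z j j| := by
  rw [show t11 Z i j - Z j j = ((rho Z i j)⁻¹ - 1) * Z j j by unfold t11; ring, abs_mul]
  exact mul_le_mul_of_nonneg_right (tb_inv h) (abs_nonneg _)
theorem tb_22 (h : nu Z i j ≤ 1 / 1000) : |t22 Z i j - Z i i| ≤ 3 * nu Z i j * |Z i i| := by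
  rw [show t22 Z i j - Z i i = ((rho Z i j)⁻¹ - 1) * Z i i by unfold t22; ring, abs_mul]
  exact mul_le_mul_of_nonneg_right (tb_inv h) (abs_nonneg _)
theorem tb_12_le' (h : nu Z i j ≤ 1 / 1000) : |t12 Z i j| ≤ 1 + 3 * nu Z i j := by
  have := abs_sub_abs_le_abs_sub (t12 Z i j) 1
  have := tb_12 h; simp only [abs_one] at *; linarith
theorem tb_11_le' (h : nu Z i j ≤ 1 / 1000) : |t11 Z i j| ≤ (1 + 3 * nu Z i j) * |Z j j| := by
  have := abs_sub_abs_le_abs_sub (t11 Z i j) (Z j j)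
  have := tb_11 h; linarith
theorem tb_22_le' (h : nu Z i j ≤ 1 / 1000) : |t22 Z i j| ≤ (1 + 3 * nu Z i j) * |Z i i| := by
  have := abs_sub_abs_le_abs_sub (t22 Z i j) (Z i i)
  have := tb_22 h; linarith
theorem tb_12_le (h : nu Z i j ≤ 1 / 1000) : |t12 Z i j| ≤ 101 / 100 := by
  have := tb_12_le' h; linarith
theorem tb_11_le (h : nu Z i j ≤ 1 / 1000) : |t11 Z i j| ≤ 101 / 100 * |Z j j| :=
  (tb_11_le' h).trans (mul_le_mul_of_nonneg_right (by linarith) (abs_nonneg _))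
theorem tb_22_le (h : nu Z i j ≤ 1 / 1000) : |t22 Z i j| ≤ 101 / 100 * |Z i i| :=
  (tb_22_le' h).trans (mul_le_mul_of_nonneg_right (by linarith) (abs_nonneg _))

theorem rho_swap (h : Z.IsSymm) (i j : ι) : rho Z j i = rho Z i j := by
  unfold rho; rw [h.apply i j, mul_comm]
theorem nu_swap (h : Z.IsSymm) (i j : ι) : nu Z j i = nu Z i j := by
  unfold nu; rw [h.apply i j, mul_comm]
theorem t11_swap (h : Z.IsSymm) (i j : ι) : t11 Z j i = t22 Z i j := by
  unfold t11 t22; rw [rho_swap h]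
theorem t22_swap (h : Z.IsSymm) (i j : ι) : t22 Z j i = t11 Z i j := by
  unfold t11 t22; rw [rho_swap h]
theorem t12_swap (h : Z.IsSymm) (i j : ι) : t12 Z j i = t12 Z i j := by
  unfold t12; rw [rho_swap h, h.apply i j]
/-- The vector `T (Z k i, Z k j)` at `k = i` and `k = j`. -/
theorem ze_self (h : Z.IsSymm) (h0 : rho Z i j ≠ 0) :
    ze1 Z i j i = t12 Z i j - 1 ∧ ze2 Z i j i = t22 Z i j ∧ ze1 Z i j j = t11 Z i j ∧
      ze2 Z i j j = t12 Z i j - 1 := by
  unfold ze1 ze2 t11 t22 t12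
  rw [h.apply i j]
  refine ⟨?_, ?_, ?_, ?_⟩ <;> field_simp <;> (try unfold rho) <;> ring

end T

theorem trTT_eq (A B N N' : Mat ι) (i j : ι) : trTT A B N N' i j =
    (t11 A i j * N i i + t12 A i j * N j i) * (t11 B i j * N' i i + t12 B i j * N' j i) +
    (t11 A i j * N i j + t12 A i j * N j j) * (t12 B i j * N' i i + t22 B i j * N' j i) +
    (t12 A i j * N i i + t22 A i j * N j i) * (t11 B i j * N' i j + t12 B i j * N' j j) +
    (t12 A i j * N i j + t22 A i j * N j j) * (t12 B i j * N' i j + t22 B i j * N' j j) := by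
  simp [trTT, Tm, blk, trace_fin_two]; ring

variable [Fintype ι]

theorem av_add (w f g : ι → ι → ℝ) : av w (fun i j => f i j + g i j) = av w f + av w g := by
  simp only [av, mul_add, sum_add_distrib]
theorem av_sub (w f g : ι → ι → ℝ) : av w (fun i j => f i j - g i j) = av w f - av w g := by
  simp only [av, mul_sub, sum_sub_distrib]
theorem av_neg (w f : ι → ι → ℝ) : av w (fun i j => -f i j) = -av w f := by
  simp only [av, mul_neg, sum_neg_distrib]
theorem av_mul (w f : ι → ι → ℝ) (c : ℝ) : av w (fun i j => c * f i j) = c * av w f := by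
  simp only [av, mul_sum]; exact sum_congr rfl fun _ _ => sum_congr rfl fun _ _ => by ring
theorem av_const (w : ι → ι → ℝ) (c : ℝ) : av w (fun _ _ => c) = c * av w (fun _ _ => 1) := by
  rw [← av_mul]; simp
theorem av_sum {κ : Type} (s : Finset κ) (w : ι → ι → ℝ) (f : κ → ι → ι → ℝ) :
    av w (fun i j => ∑ k ∈ s, f k i j) = ∑ k ∈ s, av w (f k) := by
  simp only [av, mul_sum]
  rw [sum_comm (s := s)]
  exact sum_congr rfl fun _ _ => sum_comm
theorem av_congr {w f g : ι → ι → ℝ} (h : ∀ i j, w i j ≠ 0 → f i j = g i j) : av w f = av w g :=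
  sum_congr rfl fun i _ => sum_congr rfl fun j _ => by
    by_cases h0 : w i j = 0
    · simp [h0]
    · rw [h i j h0]

namespace Wt

variable {w e : ι → ι → ℝ} {K : Mat ι} {μ θ kF k2 kO : ℝ} (h : Wt w e K μ θ kF k2 kO)
include h

theorem w_le_two (i j : ι) : w i j ≤ 2 := by linarith [h.w_le i j, h.θ_le]
theorem nu_le {Z : Mat ι} (s : SideW w e θ Z) {i j : ι} (h0 : w i j ≠ 0) :
    nu Z i j ≤ 1 / 1000 := (s.nu_le i j h0).trans h.θ_le
theorem av_mono {f g : ι → ι → ℝ} (hfg : ∀ i j, w i j ≠ 0 → f i j ≤ g i j) : av w f ≤ av w g :=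
  sum_le_sum fun i _ => sum_le_sum fun j _ => by
    by_cases h0 : w i j = 0
    · simp [h0]
    · exact mul_le_mul_of_nonneg_left (hfg i j h0) (h.w_nonneg i j)
theorem av_nonneg {f : ι → ι → ℝ} (hf : ∀ i j, w i j ≠ 0 → 0 ≤ f i j) : 0 ≤ av w f := by
  simpa [av] using h.av_mono (f := fun _ _ => 0) hf
theorem abs_av_le {f g : ι → ι → ℝ} (hfg : ∀ i j, w i j ≠ 0 → |f i j| ≤ g i j) :
    |av w f| ≤ av w g := by
  refine abs_le.2 ⟨?_, h.av_mono fun i j h0 => (abs_le.1 (hfg i j h0)).2⟩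
  rw [← av_neg]; exact h.av_mono fun i j h0 => (abs_le.1 (hfg i j h0)).1
theorem av_swap (f : ι → ι → ℝ) : av w (fun i j => f j i) = av w f := by
  unfold av; rw [sum_comm]; simp only [h.w_symm]
/-- Main way to bound an average from above. -/
theorem av_le' {f g : ι → ι → ℝ} (hg : ∀ i j, 0 ≤ g i j) (hfg : ∀ i j, w i j ≠ 0 → f i j ≤ g i j) :
    av w f ≤ (1 + θ) * ∑ i, ∑ j, g i j := by
  refine (h.av_mono hfg).trans ?_
  simp only [av, mul_sum]
  exact sum_le_sum fun i _ => sum_le_sum fun j _ => mul_le_mul_of_nonneg_right (h.w_le i j) (hg i j)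
theorem av_le {f g : ι → ι → ℝ} (hg : ∀ i j, 0 ≤ g i j) (hfg : ∀ i j, w i j ≠ 0 → f i j ≤ g i j) :
    av w f ≤ 2 * ∑ i, ∑ j, g i j :=
  (h.av_le' hg hfg).trans (mul_le_mul_of_nonneg_right (by linarith [h.θ_le])
    (sum_nonneg fun i _ => sum_nonneg fun j _ => hg i j))
theorem abs_av_le_sum {f g : ι → ι → ℝ} (hg : ∀ i j, 0 ≤ g i j)
    (hfg : ∀ i j, w i j ≠ 0 → |f i j| ≤ g i j) : |av w f| ≤ 2 * ∑ i, ∑ j, g i j :=
  (h.abs_av_le hfg).trans (h.av_le hg fun _ _ _ => le_rfl)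

theorem fn_e : fn (of e) ≤ kF := fn_le_of_sq h.kF_nonneg h.eF
theorem sum_e_mat (N : ι → ι → ℝ) : ∑ i, ∑ j, e i j * |N i j| ≤ kF * fn (of N) := by
  have := sum2_abs_mul_le (of e) (of N)
  simp only [of_apply, abs_of_nonneg (h.e_nonneg _ _)] at this
  exact this.trans (mul_le_mul_of_nonneg_right h.fn_e (fn_nonneg _))
theorem sum_e1 (f g : ι → ℝ) :
    ∑ i, ∑ j, e i j * (|f i| * |g j|) ≤ k2 * ((∑ i, |f i|) * vn g) := by
  rw [sum_mul, mul_sum]
  refine sum_le_sum fun i _ => ?_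
  have h1 := sum_mul_le (e i) (fun j => |g j|)
  rw [vn_abs] at h1
  have h2 : vn (e i) ≤ k2 := vn_le_of_sq h.k2_nonneg (h.e2 i)
  have e1 : ∑ j, e i j * (|f i| * |g j|) = |f i| * ∑ j, e i j * |g j| := by
    rw [mul_sum]; exact sum_congr rfl fun _ _ => by ring
  rw [e1]
  nlinarith [mul_le_mul_of_nonneg_left (h1.trans (mul_le_mul_of_nonneg_right h2 (vn_nonneg g)))
    (abs_nonneg (f i))]
theorem sum_e1' (f g : ι → ℝ) :
    ∑ i, ∑ j, e i j * (|f i| * |g j|) ≤ k2 * (vn f * ∑ j, |g j|) := by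
  have := h.sum_e1 g f
  rw [sum_comm, mul_comm (vn f)]
  simpa only [h.e_symm, mul_comm] using this
omit h in
theorem fn_outer (f g : ι → ℝ) : fn (of fun i j => f i * g j) = vn f * vn g := by
  simp only [fn, vn, of_apply, mul_pow, ← mul_sum, ← sum_mul]
  rw [Real.sqrt_mul (by positivity)]
theorem sum_e2 (f g : ι → ℝ) : ∑ i, ∑ j, e i j * (|f i| * |g j|) ≤ kF * (vn f * vn g) := by
  simpa only [fn_outer, abs_mul] using h.sum_e_mat (fun i j => f i * g j)

theorem av_close (f : ι → ι → ℝ) :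
    |av w f - (∑ i, ∑ j, f i j - μ * ∑ i, ∑ j, K i j * f i j)| ≤ 2 * ∑ i, ∑ j, e i j * |f i j| := by
  have e1 : av w f - (∑ i, ∑ j, f i j - μ * ∑ i, ∑ j, K i j * f i j) =
      ∑ i, ∑ j, (w i j - (1 - μ * K i j)) * f i j := by
    simp only [av, mul_sum, ← sum_sub_distrib]
    exact sum_congr rfl fun _ _ => sum_congr rfl fun _ _ => by ring
  rw [e1, mul_sum]
  refine (abs_sum_le_sum_abs _ _).trans (sum_le_sum fun i _ => ?_)
  rw [mul_sum]
  refine (abs_sum_le_sum_abs _ _).trans (sum_le_sum fun j _ => ?_)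
  rw [abs_mul, ← mul_assoc]
  exact mul_le_mul_of_nonneg_right (h.close i j) (abs_nonneg _)
theorem av_mat (N : Mat ι) :
    |av w (fun i j => N i j) - (∑ i, ∑ j, N i j - μ * fro K N)| ≤ 2 * (kF * fn N) :=
  (h.av_close _).trans (mul_le_mul_of_nonneg_left (h.sum_e_mat N) zero_le_two)
theorem av_mat' (N : Mat ι) :
    |av w (fun i j => N j i) - (∑ i, ∑ j, N i j - μ * fro K N)| ≤ 2 * (kF * fn N) := by
  rw [h.av_swap (fun i j => N i j)]; exact h.av_mat N
theorem K_prod1 (f g : ι → ℝ) :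
    |μ * ∑ i, ∑ j, K i j * (f i * g j)| ≤ k2 * ((∑ i, |f i|) * vn g) := by
  rw [mul_sum, sum_mul, mul_sum]
  refine (abs_sum_le_sum_abs _ _).trans (sum_le_sum fun i _ => ?_)
  have e1 : μ * ∑ j, K i j * (f i * g j) = f i * ∑ j, (μ * K i j) * g j := by
    rw [mul_sum, mul_sum]; exact sum_congr rfl fun _ _ => by ring
  have h1 := abs_sum_mul_le (fun j => μ * K i j) g
  have h2 : vn (fun j => μ * K i j) ≤ k2 := vn_le_of_sq h.k2_nonneg (h.K2 i)
  rw [e1, abs_mul]
  nlinarith [mul_le_mul_of_nonneg_left (h1.trans (mul_le_mul_of_nonneg_right h2 (vn_nonneg g)))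
    (abs_nonneg (f i))]
theorem av_prod1 (f g : ι → ℝ) :
    |av w (fun i j => f i * g j) - (∑ i, f i) * ∑ j, g j| ≤ 3 * (k2 * ((∑ i, |f i|) * vn g)) := by
  have h1 := h.av_close (fun i j => f i * g j)
  have h2 := h.sum_e1 f g
  have h3 := h.K_prod1 f g
  simp only [abs_mul (f _)] at h1
  rw [sum_mul_sum]
  rw [abs_le] at *
  constructor <;> linarith [h1.1, h1.2, h3.1, h3.2]
theorem av_prod1' (f g : ι → ℝ) :
    |av w (fun i j => f i * g j) - (∑ i, f i) * ∑ j, g j| ≤ 3 * (k2 * (vn f * ∑ j, |g j|)) := by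
  have := h.av_prod1 g f
  rw [← h.av_swap] at this
  simpa only [mul_comm] using this
theorem av_prod2 (f g : ι → ℝ) :
    |av w (fun i j => f i * g j) - (∑ i, f i) * ∑ j, g j| ≤ (kO + 2 * kF) * (vn f * vn g) := by
  have h1 := h.av_close (fun i j => f i * g j)
  have h2 := h.sum_e2 f g
  have h3 := h.KO f g
  simp only [abs_mul (f _)] at h1
  rw [sum_mul_sum]
  rw [abs_le] at *
  constructor <;> linarith [h1.1, h1.2, h3.1, h3.2]
/-- The total weight. -/
theorem av_one {sm : ℝ} (h0 : 0 ≤ sm) (hs : sm ^ 2 = Fintype.card ι) :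
    |av w (fun _ _ => 1) - (sm ^ 2) ^ 2| ≤ 2 * (kF * sm ^ 2) := by
  have h1 := h.av_close (fun _ _ => 1)
  have h2 := h.sum_e2 (fun _ => 1) (fun _ => 1)
  simp only [mul_one, h.K_rows, sum_const_zero, mul_zero, sub_zero, abs_one, sum_const, card_univ,
    nsmul_eq_mul, ← hs, vn_const_one h0 hs] at h1 h2
  rw [show (sm ^ 2) ^ 2 = sm ^ 2 * sm ^ 2 by ring]
  nlinarith
/-- Removing the rows `i` and `j` from a sum. -/
theorem av_remove {sm : ℝ} (h0 : 0 ≤ sm) (hs : sm ^ 2 = Fintype.card ι) (f : ι → ℝ) :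
    |av w (fun i j => f i + f j) - 2 * (sm ^ 2 * ∑ i, f i)| ≤ 6 * (k2 * sm * ∑ i, |f i|) := by
  have h1 := h.av_prod1 f (fun _ => 1)
  have h2 := h.av_swap (fun i _ => f i)
  simp only [mul_one, sum_const, card_univ, nsmul_eq_mul, ← hs, vn_const_one h0 hs] at h1
  rw [av_add, h2, abs_le] at *
  constructor <;> nlinarith [h1.1, h1.2]

/-- First order average. -/
theorem first {Z : Mat ι} (s : SideW w e θ Z) {al : ℝ} (h0 : 0 ≤ al) (hal : Ad Z ≤ al ^ 2)
    (N : Mat ι) :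
    |av w (trT Z N) - 2 * (T1 Z * trace N + ∑ i, ∑ j, N i j - μ * fro K N)| ≤
      20 * (k2 * al * ∑ i, |N i i| + kF * fn N) := by
  have hv : vn (fun k => Z k k) ≤ al := vn_le_of_sq h0 hal
  have hS : 0 ≤ ∑ i, |N i i| := by positivity
  have hk2 := h.k2_nonneg
  have e1 : av w (trT Z N) = av w (fun i j => N i i * Z j j) + av w (fun i j => Z i i * N j j) +
      av w (fun i j => N i j) + av w (fun i j => N j i) +
      av w (fun i j => (t11 Z i j - Z j j) * N i i + (t22 Z i j - Z i i) * N j j +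
        (t12 Z i j - 1) * (N i j + N j i)) := by
    simp only [← av_add]; exact av_congr fun i j _ => by unfold trT; ring
  have h1 := h.av_prod1 (fun i => N i i) (fun j => Z j j)
  have h2 := h.av_prod1' (fun i => Z i i) (fun j => N j j)
  have h3 := h.av_mat N
  have h4 := h.av_mat' N
  have h5 := h.abs_av_le_sum (f := fun i j => (t11 Z i j - Z j j) * N i i +
      (t22 Z i j - Z i i) * N j j + (t12 Z i j - 1) * (N i j + N j i))
    (g := fun i j => e i j * (|N i i| * |Z j j|) + e i j * (|Z i i| * |N j j|) +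
      e i j * |N i j| + e i j * |N j i|)
    (fun i j => by have := h.e_nonneg i j; positivity) (fun i j h0 => by
      have a0 := h.nu_le s h0
      have a1 : 3 * nu Z i j ≤ e i j := by
        nlinarith [s.nu_e i j, h.θ_le, h.e_nonneg i j]
      have a2 := (tb_11 a0).trans (mul_le_mul_of_nonneg_right a1 (abs_nonneg _))
      have a3 := (tb_22 a0).trans (mul_le_mul_of_nonneg_right a1 (abs_nonneg _))
      have a4 := (tb_12 a0).trans a1
      refine (abs_add_three _ _ _).trans ?_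
      simp only [abs_mul]
      nlinarith [mul_le_mul_of_nonneg_right a2 (abs_nonneg (N i i)),
        mul_le_mul_of_nonneg_right a3 (abs_nonneg (N j j)),
        mul_le_mul a4 (abs_add_le (N i j) (N j i)) (abs_nonneg _) (h.e_nonneg i j)])
  simp only [sum_add_distrib] at h5
  have h6 := h.sum_e1 (fun i => N i i) (fun j => Z j j)
  have h7 := h.sum_e1' (fun i => Z i i) (fun j => N j j)
  have h8 : ∑ i, ∑ j, e i j * |N i j| ≤ kF * fn N := h.sum_e_mat N
  have h9 : ∑ i, ∑ j, e i j * |N j i| ≤ kF * fn N := by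
    rw [← fn_transpose]; exact h.sum_e_mat Nᵀ
  have h10 : k2 * ((∑ i, |N i i|) * vn fun j => Z j j) ≤ k2 * al * ∑ i, |N i i| := by
    nlinarith [mul_le_mul_of_nonneg_left hv (mul_nonneg hk2 hS)]
  have h11 : k2 * ((vn fun j => Z j j) * ∑ i, |N i i|) ≤ k2 * al * ∑ i, |N i i| := by
    rwa [mul_comm (vn _)]
  have h12 : 0 ≤ kF * fn N := mul_nonneg h.kF_nonneg (fn_nonneg _)
  have h13 : 0 ≤ k2 * al * ∑ i, |N i i| := by positivity
  have e2 : T1 Z * trace N = (∑ i, Z i i) * ∑ j, N j j := rfl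
  rw [mul_comm (∑ i, N i i)] at h1
  rw [e1, e2]
  rw [abs_le] at *
  constructor <;> linarith [h1.1, h1.2, h2.1, h2.2, h3.1, h3.2, h4.1, h4.2, h5.1, h5.2]

end Wt

variable [DecidableEq ι]

theorem sumo_le {i j : ι} {f g : ι → ℝ} (hg : ∀ k, 0 ≤ g k) (hfg : ∀ k, k ≠ i → k ≠ j → f k ≤ g k) :
    sumo i j f ≤ ∑ k, g k :=
  sum_le_sum fun k _ => by
    split_ifs with hk
    · exact hg k
    · exact hfg k (fun h => hk (Or.inl h)) (fun h => hk (Or.inr h))
theorem sumo_mono {i j : ι} {f g : ι → ℝ} (hfg : ∀ k, k ≠ i → k ≠ j → f k ≤ g k) :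
    sumo i j f ≤ sumo i j g :=
  sum_le_sum fun k _ => by
    split_ifs with hk
    · exact le_rfl
    · exact hfg k (fun h => hk (Or.inl h)) (fun h => hk (Or.inr h))
theorem sumo_add (i j : ι) (f g : ι → ℝ) :
    sumo i j (fun k => f k + g k) = sumo i j f + sumo i j g := by
  simp only [sumo, ← sum_add_distrib]; exact sum_congr rfl fun k _ => by split_ifs <;> simp
theorem sumo_eq {i j : ι} (hij : i ≠ j) (f : ι → ℝ) : sumo i j f = ∑ k, f k - f i - f j := by
  have : ∀ k, (if k = i ∨ k = j then 0 else f k) =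
      f k - (if k = i then f k else 0) - (if k = j then f k else 0) := fun k => by
    by_cases h1 : k = i <;> by_cases h2 : k = j <;> simp_all
  simp only [sumo, this, sum_sub_distrib, sum_ite_eq', mem_univ, if_true]
omit [Fintype ι] in
theorem upd_diag (Z : Mat ι) (i j k : ι) : upd Z i j k k = if k = i ∨ k = j then 0 else
    Z k k + (ze1 Z i j k * Z k i + ze2 Z i j k * Z k j) := by
  unfold upd ze1 ze2
  by_cases h : k = i ∨ k = j
  · rw [if_pos h, if_pos (by tauto)]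
  · rw [if_neg h, if_neg (by tauto)]; ring

end Vale.Agent.P049
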