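import Vale.Agent.P049.Alg

/-! The list computations agree with the real matrices; the parameters of the algorithm. -/

namespace Vale.Agent.P049

open Matrix Finset

namespace Cast

theorem get_tab {m0 : ℕ} (f : ℕ → ℕ → ℚ) {k l : ℕ} (hk : k < m0) (hl : l < m0) :
    get (tab (List.range m0) f) k l = f k l := by
  unfold get tab
  simp [List.getD_eq_getElem?_getD, List.getElem?_map, List.getElem?_range, hk, hl]

theorem sumq_range' (m0 : ℕ) (f : ℕ → ℚ) :
    sumq (List.range m0) f = ∑ k ∈ range m0, f k := by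
  unfold sumq
  induction m0 with
  | zero => simp
  | succ n ih => rw [List.sum_range_succ, ih, Finset.sum_range_succ]

theorem sumq_range (m0 : ℕ) (f : ℕ → ℚ) :
    sumq (List.range m0) f = ∑ k : Fin m0, f k := by
  rw [sumq_range', Finset.sum_range]

theorem mat_tab (m0 : ℕ) (f : ℕ → ℕ → ℚ) (k l : Fin m0) :
    mat m0 (tab (List.range m0) f) k l = (f k l : ℝ) := by
  unfold mat
  rw [get_tab f k.2 l.2]

theorem mat_apply (m0 : ℕ) (X : LM) (k l : Fin m0) : mat m0 X k l = (get X k l : ℝ) := rfl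

theorem mat_mul (m0 : ℕ) (X Y : LM) :
    mat m0 (mulq (List.range m0) X Y) = mat m0 X * mat m0 Y := by
  ext k l
  unfold mulq
  rw [mat_tab, sumq_range, Matrix.mul_apply]
  push_cast
  rfl

theorem trq_cast (m0 : ℕ) (X : LM) : (trq (List.range m0) X : ℝ) = trace (mat m0 X) := by
  unfold trq
  rw [sumq_range]
  push_cast
  rfl

theorem rho_cast (m0 : ℕ) (X : LM) (i j : Fin m0) : (rhoq X i j : ℝ) = rho (mat m0 X) i j := by
  unfold rhoq rho
  push_cast
  rfl

theorem upd_cast (m0 : ℕ) (X : LM) (i j : Fin m0) :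
    mat m0 (updq (List.range m0) X i j) = upd (mat m0 X) i j := by
  ext k l
  unfold updq upd t11 t22 t12
  rw [mat_tab]
  simp only [Fin.val_inj]
  split_ifs with h
  · simp
  · rw [← rho_cast]
    simp only [mat_apply]
    push_cast
    ring

theorem flq_cast (G x : ℚ) : (flq G x : ℝ) = fl G x := by
  unfold flq fl
  rw [← Rat.cast_mul, Rat.floor_cast]
  push_cast
  rfl

theorem ceq_cast (G x : ℚ) : (ceq G x : ℝ) = ce G x := by
  unfold ceq ce
  rw [← Rat.cast_mul, Rat.ceil_cast]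
  push_cast
  rfl

theorem rnd_cast (m0 : ℕ) (X : LM) (up : Bool) (G : ℚ) (P : Prs) (r : ℝ → ℝ)
    (hr : ∀ x : ℚ, (rq up G x : ℝ) = r x) :
    mat m0 (rndq (List.range m0) up G P X) = rnd r (Fr m0 P) (mat m0 X) := by
  ext k l
  unfold rndq rnd
  rw [mat_tab]
  simp only [Fin.val_inj]
  have hF : k ∈ Fr m0 P ↔ fr P k = true := by simp [Fr]
  by_cases hkl : k = l
  · rw [if_pos hkl, if_pos hkl]
    by_cases hk : fr P k = true
    · rw [if_pos hk, if_pos (hF.2 hk), sumq_range]
      push_cast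
      congr 1
      refine Finset.sum_congr rfl fun p _ => ?_
      simp only [Fin.val_inj]
      split_ifs with h
      · simp
      · rw [hr]; rfl
    · rw [if_neg hk, if_neg (fun h => hk (hF.1 h))]
      simp
  · rw [if_neg hkl, if_neg hkl, hr]
    rfl

theorem bud_cast (e a b : ℕ) (t m : ℚ) : ((bud e a b t m : ℚ) : ℝ) = bud e a b (t : ℝ) m := by
  unfold bud
  simp only [Rat.cast_div, Rat.cast_mul, Rat.cast_pow, Rat.cast_add]

theorem BM_cast (t m : ℚ) : ((BM t m : ℚ) : ℝ) = BM (t : ℝ) m := by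
  unfold BM
  simp only [Rat.cast_mul, Rat.cast_pow]

theorem sideV_cast (t m ε x1 x2 x3 x4 xD xA xZ : ℚ) :
    ((sideV t m ε x1 x2 x3 x4 xD xA xZ : ℚ) : ℝ) =
      sideV (t : ℝ) m ε x1 x2 x3 x4 xD xA xZ := by
  unfold sideV B1 B1' BS B3 B4 BD BA BZ Te
  simp only [Rat.cast_div, Rat.cast_mul, Rat.cast_pow, Rat.cast_add, Rat.cast_max, Rat.cast_sub,
    Rat.cast_zero, bud_cast]

theorem T2_cast (m0 : ℕ) (X : LM) : (T2q (List.range m0) X : ℝ) = T2 (mat m0 X) := by
  unfold T2q T2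
  rw [trq_cast, mat_mul]

theorem side_cast (m0 : ℕ) (X : LM) (t m ε : ℚ) :
    (sideq (List.range m0) t m ε X : ℝ) = side t m ε (mat m0 X) := by
  unfold sideq side
  rw [sideV_cast, T2_cast, trq_cast, trq_cast, trq_cast, sumq_range, sumq_range, sumq_range]
  simp only [mat_mul]
  have h1 : ((∑ k : Fin m0, (max (get (mulq (List.range m0) X X) k k - 1) 0 ^ 2 +
      max (get (mulq (List.range m0) X X) k k - 1) 0 ^ 4) : ℚ) : ℝ) = Dp (mat m0 X) := by
    unfold Dp dp rr
    rw [← mat_mul]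
    push_cast
    rfl
  have h2 : ((∑ k : Fin m0, get X k k ^ 2 : ℚ) : ℝ) = Ad (mat m0 X) := by
    unfold Ad
    push_cast
    rfl
  have h3 : ((∑ k : Fin m0, get X k k ^ 4 : ℚ) : ℝ) = A4 (mat m0 X) := by
    unfold A4
    push_cast
    rfl
  rw [h1, h2, h3]
  rfl

theorem Phi_cast (m0 : ℕ) (X Y : LM) (t m : ℚ) :
    (Phiq (List.range m0) t m X Y : ℝ) = Phi t m (mat m0 X) (mat m0 Y) := by
  unfold Phiq Phi Mq
  rw [Rat.cast_add, Rat.cast_add, Rat.cast_div, side_cast, side_cast, BM_cast, trq_cast, mat_mul,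
    mat_mul, mat_mul, Rat.cast_one, Rat.cast_neg, Rat.cast_one]

theorem small_iff (m0 : ℕ) (X : LM) (b : ℚ) :
    small (List.range m0) b X = true ↔ ∀ k l, |mat m0 X k l| ≤ b := by
  unfold small
  simp only [List.all_eq_true, List.mem_range, decide_eq_true_eq]
  constructor
  · intro h k l
    have := h k k.2 l l.2
    rw [mat_apply, abs_le]
    exact ⟨by exact_mod_cast this.1, by exact_mod_cast this.2⟩
  · intro h k hk l hl
    have := h ⟨k, hk⟩ ⟨l, hl⟩
    rw [mat_apply, abs_le] at this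
    exact ⟨by exact_mod_cast this.1, by exact_mod_cast this.2⟩

/-! ### Parameters -/

theorem count_init (p : ℕ → Prop) [DecidablePred p] (hp : ∀ s s', s ≤ s' → p s' → p s) (n : ℕ) :
    ((List.range n).filter fun s => decide (p s)).length ≤ n ∧
    (∀ s < ((List.range n).filter fun s => decide (p s)).length, p s) ∧
    (((List.range n).filter fun s => decide (p s)).length < n →
      ¬ p ((List.range n).filter fun s => decide (p s)).length) := by
  induction n with
  | zero => simp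
  | succ n ih =>
    obtain ⟨h1, h2, h3⟩ := ih
    rw [List.range_succ, List.filter_append, List.length_append]
    generalize ((List.range n).filter fun s => decide (p s)).length = c at h1 h2 h3 ⊢
    by_cases hn : p n
    · have hl : (List.filter (fun s => decide (p s)) [n]).length = 1 := by simp [hn]
      rw [hl]
      have hc : c = n := by
        by_contra hne
        exact h3 (by omega) (hp _ _ h1 hn)
      refine ⟨by omega, fun s hs => hp _ _ (by omega) hn, fun h => by omega⟩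
    · have hl : (List.filter (fun s => decide (p s)) [n]).length = 0 := by simp [hn]
      rw [hl, add_zero]
      refine ⟨by omega, h2, fun h => ?_⟩
      by_cases hc : c = n
      · rwa [hc]
      · exact h3 (by omega)

theorem eN_eq : eN = 40000 := by unfold eN; rfl
theorem eh_eq : eh = 27321 := by unfold eh; rfl

theorem tpar_spec (m0 : ℕ) :
    tpar (List.range m0) ^ eN ≤ m0 ∧ m0 < (tpar (List.range m0) + 1) ^ eN := by
  have hN : eN ≠ 0 := by rw [eN_eq]; decide
  have h := count_init (fun s => (s + 1) ^ eN ≤ m0)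
    (fun s s' hs h => le_trans (Nat.pow_le_pow_left (by omega) _) h) m0
  unfold tpar
  rw [List.length_range]
  generalize ((List.range m0).filter fun s => decide ((s + 1) ^ eN ≤ m0)).length = c at h ⊢
  obtain ⟨h1, h2, h3⟩ := h
  constructor
  · rcases c with _ | c
    · rw [zero_pow hN]; exact Nat.zero_le _
    · exact h2 c (by omega)
  · by_cases hc : c < m0
    · exact not_le.1 (h3 hc)
    · have : c + 1 ≤ (c + 1) ^ eN := Nat.le_self_pow hN _
      omega

theorem apar_spec (d m0 T : ℕ) (hd : 2 ≤ d) (hT : 4 * T ≤ m0) :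
    ∀ c : ℕ, c = ((List.range m0).filter fun s =>
      decide ((d - 1) * (s + 1) ^ 2 + 4 * T * m0 ≤ m0 ^ 2)).length →
    (d - 1) * c ^ 2 + 4 * T * m0 ≤ m0 ^ 2 ∧ m0 ^ 2 < (d - 1) * (c + 1) ^ 2 + 4 * T * m0 := by
  intro c hc
  have h := count_init (fun s => (d - 1) * (s + 1) ^ 2 + 4 * T * m0 ≤ m0 ^ 2)
    (fun s s' hs h => le_trans (Nat.add_le_add_right
      (Nat.mul_le_mul_left _ (Nat.pow_le_pow_left (by omega) _)) _) h) m0
  rw [← hc] at h
  obtain ⟨h1, h2, h3⟩ := h
  constructor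
  · rcases c with _ | c
    · have := Nat.mul_le_mul_right m0 hT
      nlinarith
    · exact h2 c (by omega)
  · by_cases hlt : c < m0
    · exact not_le.1 (h3 hlt)
    · have hcm : c = m0 := by omega
      have h4 : 1 * (c + 1) ^ 2 ≤ (d - 1) * (c + 1) ^ 2 := Nat.mul_le_mul_right _ (by omega)
      rw [← hcm]
      nlinarith [Nat.zero_le (4 * T * c)]

theorem succ_pow_le (N : ℕ) (t : ℝ) (ht : 2 * (N : ℝ) ≤ t) (ht0 : 0 < t) :
    (t + 1) ^ N ≤ 2 * t ^ N := by
  have h1 : t + 1 = t * (1 + 1 / t) := by field_simp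
  have h2 : (1 + 1 / t) ^ N ≤ Real.exp (1 / t) ^ N :=
    pow_le_pow_left₀ (by positivity) (by linarith [Real.add_one_le_exp (1 / t)]) N
  have h3 : Real.exp (1 / t) ^ N = Real.exp (N * (1 / t)) := (Real.exp_nat_mul _ _).symm
  have h4 : (N : ℝ) * (1 / t) ≤ 1 / 2 := by
    rw [mul_one_div, div_le_iff₀ ht0]
    linarith
  have h5 : Real.exp (1 / 2) ≤ 2 := by
    have := Real.exp_bound_div_one_sub_of_interval (x := 1 / 2) (by norm_num) (by norm_num)
    norm_num at this ⊢
    exact this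
  have h6 : (1 + 1 / t) ^ N ≤ 2 := h2.trans (h3 ▸ (Real.exp_le_exp.2 h4).trans h5)
  rw [h1, mul_pow, mul_comm 2]
  exact mul_le_mul_of_nonneg_left h6 (by positivity)

theorem log_bound (N : ℕ) (hN : N = 40000) (t m : ℝ) (ht : 10 ^ 40 ≤ t) (hm0 : 0 < m)
    (hm : m ≤ 2 * t ^ N) : 10000 / t * (1 + Real.log m) ≤ 1 / 2 := by
  have ht0 : 0 < t := lt_of_lt_of_le (by positivity) ht
  have h1 : Real.log m ≤ Real.log 2 + N * Real.log t := by
    rw [← Real.log_pow, ← Real.log_mul (by norm_num) (by positivity)]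
    exact Real.log_le_log hm0 hm
  have h2 : Real.log 2 ≤ 1 := by
    have := Real.log_le_sub_one_of_pos (x := 2) (by norm_num)
    linarith
  have hs : 0 < √t := Real.sqrt_pos.2 ht0
  have h3 : Real.log t ≤ 2 * √t := by
    have h := Real.log_le_sub_one_of_pos hs
    rw [Real.log_sqrt ht0.le] at h
    linarith
  have h4 : (10 : ℝ) ^ 20 ≤ √t := by
    apply Real.le_sqrt_of_sq_le
    calc ((10 : ℝ) ^ 20) ^ 2 = 10 ^ 40 := by norm_num
      _ ≤ t := ht
  have h5 : √t * √t = t := Real.mul_self_sqrt ht0.le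
  have hN' : (N : ℝ) = 40000 := by rw [hN]; norm_num
  rw [hN'] at h1
  rw [div_mul_eq_mul_div, div_le_iff₀ ht0]
  have h6 : (10 : ℝ) ^ 20 * √t ≤ √t * √t := mul_le_mul_of_nonneg_right h4 hs.le
  norm_num at h4 h6
  nlinarith

end Cast

open Cast in
theorem castS : CastS := by
  intro m0 X Y
  refine ⟨rho_cast m0 X, upd_cast m0 X, fun G P => ⟨?_, ?_⟩, T2_cast m0 X, Phi_cast m0 X Y,
    small_iff m0 X, ?_⟩
  · refine rnd_cast m0 X false G P _ fun x => ?_
    rw [← flq_cast]
    simp [rq]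
  · refine rnd_cast m0 X true G P _ fun x => ?_
    rw [← ceq_cast]
    simp [rq]
  · intro d a κ V _ π hπ
    constructor
    · ext k l
      unfold A0q A0
      rw [mat_tab]
      simp only [hπ, Fin.val_inj, List.length_range, Fintype.card_fin]
      split_ifs <;> push_cast <;> ring
    · ext k l
      unfold B0q B0
      rw [mat_tab]
      simp only [hπ, Fin.val_inj, List.length_range, Fintype.card_fin]
      split_ifs <;> push_cast <;> ring

open Cast in
theorem parS : ParS := by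
  intro d hd
  refine ⟨(10 ^ 40 + (10 * d ^ 2 + 10 * d + 12)) ^ eN, fun m0 hm0 t ht => ?_⟩
  obtain ⟨h1, h2⟩ := tpar_spec m0
  rw [← ht] at h1 h2
  have hK : 10 ^ 40 + (10 * d ^ 2 + 10 * d + 12) ≤ t := by
    have h := lt_of_le_of_lt hm0 h2
    have := lt_of_pow_lt_pow_left₀ eN (Nat.zero_le _) h
    omega
  have ht40 : 10 ^ 40 ≤ t := le_trans (Nat.le_add_right _ _) hK
  have ht40' : (10 : ℝ) ^ 40 ≤ t := by exact_mod_cast ht40
  have ht0 : (0 : ℝ) < t := lt_of_lt_of_le (by positivity) ht40'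
  have h1' : (t : ℝ) ^ eN ≤ m0 := by exact_mod_cast h1
  have hm0pos : (0 : ℝ) < m0 := lt_of_lt_of_le (pow_pos ht0 _) h1'
  have h2' : (m0 : ℝ) ≤ 2 * (t : ℝ) ^ eN := by
    have h : (m0 : ℝ) ≤ ((t : ℝ) + 1) ^ eN := by exact_mod_cast h2.le
    refine h.trans (succ_pow_le eN t ?_ ht0)
    have : ((eN : ℕ) : ℝ) = 40000 := by rw [eN_eq]; norm_num
    rw [this]
    refine le_trans ?_ ht40'
    norm_num
  refine ⟨ht40', le_trans (Nat.le_add_left _ _) hK, h1', h2',
    log_bound eN eN_eq t m0 ht40' hm0pos h2', fun a ha => ?_⟩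
  have hT : 4 * t ^ eh ≤ m0 := by
    have h4 : 4 ≤ t := le_trans (by norm_num) ht40
    have h5 : t ^ (eh + 1) ≤ t ^ eN :=
      Nat.pow_le_pow_right (by omega) (by rw [eN_eq, eh_eq]; decide)
    rw [pow_succ, mul_comm] at h5
    exact le_trans (Nat.mul_le_mul_right _ h4) (h5.trans h1)
  obtain ⟨h3, h4⟩ := apar_spec d m0 (t ^ eh) (by omega) hT _ rfl
  unfold apar at ha
  rw [List.length_range] at ha
  generalize ((List.range m0).filter fun s =>
      decide ((d - 1) * (s + 1) ^ 2 + 4 * t ^ eh * m0 ≤ m0 ^ 2)).length = c at h3 h4 ha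
  have hd1 : ((d - 1 : ℕ) : ℝ) = d - 1 := by
    rw [Nat.cast_sub (by omega), Nat.cast_one]
  have h3' : ((d : ℝ) - 1) * (c : ℝ) ^ 2 + 4 * (t : ℝ) ^ eh * m0 ≤ (m0 : ℝ) ^ 2 := by
    rw [← hd1]
    exact_mod_cast h3
  have h4' : (m0 : ℝ) ^ 2 < ((d : ℝ) - 1) * ((c : ℝ) + 1) ^ 2 + 4 * (t : ℝ) ^ eh * m0 := by
    rw [← hd1]
    exact_mod_cast h4
  have ha' : a = (c : ℝ) / m0 := by
    rw [ha, Rat.cast_div, Rat.cast_natCast, Rat.cast_natCast]
  generalize (t : ℝ) ^ eh = T at h3' h4' ⊢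
  have e1 : 1 - 4 * T / (m0 : ℝ) = ((m0 : ℝ) ^ 2 - 4 * T * m0) / (m0 : ℝ) ^ 2 := by
    field_simp
  refine ⟨by rw [ha']; positivity, ?_, ?_⟩
  · rw [e1, ha', div_pow, ← mul_div_assoc]
    exact div_le_div_of_nonneg_right (by linarith) (by positivity)
  · rw [e1, ha', ← add_div, div_pow, ← mul_div_assoc]
    exact div_lt_div_of_pos_right (by linarith) (by positivity)

end Vale.Agent.P049
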