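import Vale.Agent.P049.Pot2

/-! Existence of a good pair in the first phase. -/

namespace Vale.Agent.P049

open Matrix Finset

variable {ι : Type} [Fintype ι]

theorem lowB {B : Mat ι} {κ : ℝ} (hB : St univ B) (hu : UpB κ univ B) (h1 : κ ≤ 1)
    (hm : 0 < (Fintype.card ι : ℝ)) (v : ι → ℝ) : -(v ⬝ᵥ v) ≤ -1 * qf B v := by
  obtain ⟨c, hc⟩ : ∃ c, c = (∑ k, v k) / Fintype.card ι := ⟨_, rfl⟩
  have hs : ∑ k, v k = c * Fintype.card ι := by rw [hc]; field_simp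
  have e1 : B *ᵥ (fun _ => c) = fun _ => c := by
    funext k; simp only [mulVec, dotProduct, ← sum_mul, hB.rows k (mem_univ k), one_mul]
  obtain ⟨u, hu'⟩ : ∃ u : ι → ℝ, u = v - fun _ => c := ⟨_, rfl⟩
  have ev : v = u + fun _ => c := by rw [hu']; simp
  have s0 : ∑ k, u k = 0 := by simp [hu', sum_sub_distrib, hs, mul_comm]
  have d0 : u ⬝ᵥ (fun _ => c) = 0 := by simp only [dotProduct, ← sum_mul, s0, zero_mul]
  have d1 : (fun _ => c) ⬝ᵥ B *ᵥ u = 0 := by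
    rw [← dot_mulVec_symm hB.symm, e1, dotProduct_comm, d0]
  have a1 := hu u s0
  have a2 : 0 ≤ u ⬝ᵥ u := by rw [← vn_sq_dot]; positivity
  rw [ev]
  simp only [qf, mulVec_add, add_dotProduct, dotProduct_add, e1, d0, d1,
    dotProduct_comm (fun _ => c) u] at a1 ⊢
  nlinarith

theorem exists_le_av {w f : ι → ι → ℝ} {c : ℝ} (h0 : ∀ i j, 0 ≤ w i j)
    (hW : 0 < av w (fun _ _ => 1)) (h : av w f ≤ av w (fun _ _ => 1) * c) :
    ∃ i j, w i j ≠ 0 ∧ f i j ≤ c := by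
  by_contra hn
  push Not at hn
  obtain ⟨i, -, hi⟩ := exists_ne_zero_of_sum_ne_zero hW.ne'
  obtain ⟨j, -, hj⟩ := exists_ne_zero_of_sum_ne_zero hi
  rw [mul_one] at hj
  have key : ∀ i j, w i j * c ≤ w i j * f i j := fun i j => by
    by_cases h1 : w i j = 0
    · simp [h1]
    · exact mul_le_mul_of_nonneg_left (hn i j h1).le (h0 i j)
  rw [mul_comm, ← av_const] at h
  refine absurd h (not_le.2 (sum_lt_sum (fun i _ => sum_le_sum fun j _ => key i j)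
    ⟨i, mem_univ i, sum_lt_sum (fun j _ => key i j) ⟨j, mem_univ j, ?_⟩⟩))
  exact mul_lt_mul_of_pos_left (hn i j hj) (lt_of_le_of_ne (h0 i j) (Ne.symm hj))

theorem side_facts {t m ε : ℝ} {P : Par} {Z : Mat ι} (n : NumF t m P) (hZ : St univ Z)
    (hε : ε = 1 ∨ ε = -1) (hl : ∀ v : ι → ℝ, -(v ⬝ᵥ v) ≤ ε * qf Z v)
    (hc : (Fintype.card ι : ℝ) = m) (h : side t m ε Z ≤ 1) :
    Side P ε Z ∧ T2 Z ≤ Te t m + BS t m ∧ ε * T3 Z + T2 Z ≤ B3 t m ∧ Ad Z ≤ BA t m := by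
  have h3 := T3_low hZ.symm hl
  obtain ⟨a1, a2, a3, a4, a5, a6, a7, a8⟩ := (sideV_terms n.t0 n.m0 h3 (T4_nonneg hZ.symm)
    (Dp_nonneg Z) (Ad_nonneg Z) (A4_nonneg Z)).2 h
  have b1 : 0 < B1 t m := bud_pos n.t0 n.m0 _ _ _
  have b2 : 0 < B1' t m := bud_pos n.t0 n.m0 _ _ _
  have b3 : 0 < B3 t m := bud_pos n.t0 n.m0 _ _ _
  have c1 := (le_max_left _ _).trans (le_of_sq_le_sq a1 b1.le)
  have c2 := (le_max_left _ _).trans (le_of_sq_le_sq a3 n.BS0.le)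
  have c3 : T2 Z ≤ Te t m + BS t m := by linarith
  have c4 := T2_nonneg hZ.symm
  refine ⟨⟨hZ.symm, fun k => hZ.rows k (mem_univ k), hε, hl, by rw [hc, n.hm], n.eb1 ▸ c1,
    n.eb1' ▸ abs_le_of_sq_le_sq' a2 b2.le |> fun h => abs_le.2 h, c3.trans n.ht2,
    n.hm ▸ c3.trans n.hTe, ?_, n.eL ▸ a5, n.eD ▸ a6, fun k => ?_, a7.trans n.hal, n.ez ▸ a8⟩,
    c3, a4, a7⟩
  · have := n.hb3; have := n.hTe
    rcases hε with rfl | rfl <;> rw [abs_le] <;> constructor <;> linarith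
  · refine (rr_le_dp Z k).trans (n.hR _ (dp_nonneg Z k) ?_)
    rw [n.eD]
    refine le_trans ?_ a6
    exact (le_add_of_nonneg_left (sq_nonneg _)).trans (single_le_sum
      (f := fun k => dp Z k ^ 2 + dp Z k ^ 4) (fun _ _ => by positivity) (mem_univ k))

theorem coreA_of (h1 : LT1S) (h2 : LT2S) (h2' : LQ2S) (h3 : LT3S) (h4 : LT4S) (h5 : LMS)
    (hD : LDS) (hA : LA2S) (hZ : LA4S) (hW : WeightsS) (hT : TrABS) : CoreAS := by
  intro ι _ _ A B ok cd κ t sA sB lA uB κ0 κ2 hok ht hcd m1 m2 hΦ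
  obtain ⟨P, n⟩ := exists_numF ht m1 m2
  obtain ⟨m, hm⟩ : ∃ m : ℝ, (Fintype.card ι : ℝ) = m := ⟨_, rfl⟩
  have κ1 : κ ≤ 1 := by nlinarith
  have l2 := lowB sB uB κ1 n.m0
  rw [hm] at n hΦ ⊢
  have l1 : ∀ v : ι → ℝ, -(v ⬝ᵥ v) ≤ 1 * qf A v := fun v => by
    have a2 : 0 ≤ v ⬝ᵥ v := by rw [← vn_sq_dot]; positivity
    nlinarith [lA v]
  have p1 : 0 ≤ side t m 1 A := (sideV_terms n.t0 n.m0 (T3_low sA.symm l1) (T4_nonneg sA.symm)
    (Dp_nonneg A) (Ad_nonneg A) (A4_nonneg A)).1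
  have p2 : 0 ≤ side t m (-1) B := (sideV_terms n.t0 n.m0 (T3_low sB.symm l2) (T4_nonneg sB.symm)
    (Dp_nonneg B) (Ad_nonneg B) (A4_nonneg B)).1
  have bM : 0 < BM t m := mul_pos (pow_pos n.t0 _) n.m0
  have p3 : 0 ≤ Mq A B / BM t m := div_nonneg (Mq_nonneg sA.symm sB.symm) bM.le
  unfold Phi at hΦ
  obtain ⟨a1, a2, a3, a4⟩ := side_facts n sA (Or.inl rfl) l1 hm (by linarith)
  obtain ⟨b1, b2, b3, b4⟩ := side_facts n sB (Or.inr rfl) l2 hm (by linarith)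
  have o := n.ok
  refine ⟨n.hm ▸ a1.hm, n.hm ▸ b1.hm, ?_⟩
  obtain ⟨w, e, wt, wA, wB, wok⟩ := hW ι A B ok cd P.μ P.θ P.kF P.k2 P.kO P.sm P.al P.sR P.z P.L
    P.sm √t sA sB hok o.μ_pos.le o.θ_pos o.θ_le (by linarith [o.sm1]) (by linarith [o.al1])
    (by linarith [o.sR1]) (by linarith [o.z1]) (by linarith [o.L1]) (by linarith [o.sm1])
    (Real.sqrt_nonneg _) (a1.card_sq o) (by rw [Real.sq_sqrt n.t0.le]; exact hcd)
    (o.sm_sq ▸ a1.hm) (o.sm_sq ▸ b1.hm) a1.hal b1.hal (o.sR_sq ▸ a1.hR) (o.sR_sq ▸ b1.hR)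
    (a1.diag_le o) (b1.diag_le o) a1.hL b1.hL n.w1 n.w2 n.w3 n.w4 n.w5
  have c : Ctx P 1 A B w e := ⟨o, a1, b1, n.eM ▸ (div_le_one bM).1 (by linarith),
    by rwa [one_smul], wA, wB⟩
  have s1 := side_step h1 h2 h2' h3 h4 hD hA hZ c n a2 a3 a4
  have s2 := side_step h1 h2 h2' h3 h4 hD hA hZ c.symm n b2 b3 b4
  have s3 := term5 h5 c n (by
    rw [← a1.card]
    exact hT ι A B κ P.b1 sA sB lA uB κ0 κ2 (by linarith [o.b11]) (by linarith [a1.hb1])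
      (by linarith [b1.hb1]))
  have W0 := (n.W_bd (c.W_close n)).1
  obtain ⟨i, j, hw, hij⟩ := exists_le_av (f := fun i j => Phi t (m - 2) (upd A i j) (upd B i j))
    (c := Phi t m A B + 5000 / (t * m)) wt.w_nonneg W0 (by
      have q : 0 ≤ av w (fun _ _ => 1) * (14 / (t * m)) :=
        mul_nonneg W0.le (div_nonneg (by norm_num) (mul_pos n.t0 n.m0).le)
      have e1 : (5000 : ℝ) / (t * m) = 5000 / 14 * (14 / (t * m)) := by ring
      simp only [Phi, av_add, av_div]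
      rw [e1]
      linarith)
  exact ⟨i, j, wok i j hw, by linarith [tb_rho (wt.nu_le wA hw)],
    by linarith [tb_rho (wt.nu_le wB hw)], hij⟩

end Vale.Agent.P049
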