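import Vale.Agent.P049.Alg

/-! Correctness of the algorithm from the interface statements. -/

namespace Vale.Agent.P049

open Matrix Finset

namespace Correct

lemma mem_Fr {m0 : ℕ} {P : Prs} {k : Fin m0} : k ∈ Fr m0 P ↔ fr P k = true := by
  simp [Fr]

lemma fr_iff {P : Prs} {k : ℕ} : fr P k = true ↔ ∀ p ∈ P, k ≠ p.1 ∧ k ≠ p.2 := by
  simp [fr]

lemma valid_lt {d m0 : ℕ} : ∀ {P : Prs}, Valid d m0 P → ∀ p ∈ P, p.1 < m0 ∧ p.2 < m0
  | [], _, p, hp => absurd hp List.not_mem_nil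
  | q :: P, h, p, hp => by
    rcases List.mem_cons.1 hp with rfl | hp
    · exact ⟨h.2.1, h.2.2.1⟩
    · exact valid_lt h.1 p hp

/-- An involution extending the pairing preserves the free half-edges. -/
lemma tau_mem {d m0 : ℕ} {P : Prs} (h : Valid d m0 P) {τ : Fin m0 → Fin m0}
    (hτ : Function.Involutive τ) (he : ∀ i j : Fin m0, (i.1, j.1) ∈ P → τ i = j) :
    ∀ k ∈ Fr m0 P, τ k ∈ Fr m0 P := by
  intro k hk
  rw [mem_Fr, fr_iff] at hk ⊢
  intro p hp
  obtain ⟨h1, h2⟩ := valid_lt h p hp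
  have e : τ ⟨p.1, h1⟩ = ⟨p.2, h2⟩ := he _ _ hp
  constructor
  · intro hc
    have : τ k = ⟨p.1, h1⟩ := Fin.ext hc
    have h3 : k = ⟨p.2, h2⟩ := by rw [← e, ← this, hτ k]
    exact (hk p hp).2 (congrArg Fin.val h3)
  · intro hc
    have : τ k = τ ⟨p.1, h1⟩ := e ▸ Fin.ext hc
    exact (hk p hp).1 (congrArg Fin.val (hτ.injective this))

lemma mem_allp {m0 : ℕ} {p : ℕ × ℕ} : p ∈ allp (List.range m0) ↔ p.1 < m0 ∧ p.2 < m0 := by
  obtain ⟨i, j⟩ := p
  simp only [allp, List.mem_flatMap, List.mem_map, List.mem_range, Prod.mk.injEq]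
  constructor
  · rintro ⟨a, ha, b, hb, rfl, rfl⟩
    exact ⟨ha, hb⟩
  · rintro ⟨h1, h2⟩
    exact ⟨i, h1, j, h2, rfl, rfl⟩

lemma fm_eq (h9 : OkS) {d m0 : ℕ} (hd : 0 < d) {s : State} (h : Valid d m0 s.1) :
    fm (List.range m0) s = (Fr m0 s.1).card := by
  have := (h9 d m0 s.1 hd h).1
  rw [fm, List.length_range]
  omega

lemma cast_pow (m0 e : ℕ) :
    (((((List.range m0).length : ℚ) ^ e : ℚ)) : ℝ) = (Fintype.card (Fin m0) : ℝ) ^ e := by
  rw [List.length_range, Fintype.card_fin, Rat.cast_pow, Rat.cast_natCast]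

lemma cand_mat (h9 : OkS) (h12 : CastS) {d m0 : ℕ} (hd : 0 < d) {s : State} (h : Valid d m0 s.1)
    (i j : Fin m0) :
    mat m0 (cand (List.range m0) s (i.1, j.1)).2.1 =
      rnd (fl ((Fintype.card (Fin m0) : ℝ) ^ eG)) (((Fr m0 s.1).erase i).erase j)
        (upd (mat m0 s.2.1) i j) ∧
    mat m0 (cand (List.range m0) s (i.1, j.1)).2.2 =
      rnd (ce ((Fintype.card (Fin m0) : ℝ) ^ eG)) (((Fr m0 s.1).erase i).erase j)
        (upd (mat m0 s.2.2) i j) := by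
  have e := (h9 d m0 s.1 hd h).2.2 i j
  constructor
  · refine (((h12 m0 _ []).2.2.1 _ _).1).trans ?_
    rw [cast_pow, e, (h12 m0 _ []).2.1]
  · refine (((h12 m0 _ []).2.2.1 _ _).2).trans ?_
    rw [cast_pow, e, (h12 m0 _ []).2.1]

lemma good_iff (h12 : CastS) (m0 t : ℕ) (s s' : State) :
    good (List.range m0) t s s' = true ↔
      (t ^ en1 < fm (List.range m0) s →
        Phi t ((fm (List.range m0) s : ℝ) - 2) (mat m0 s'.2.1) (mat m0 s'.2.2) ≤
          Phi t (fm (List.range m0) s) (mat m0 s.2.1) (mat m0 s.2.2) +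
            10000 / ((t : ℝ) * fm (List.range m0) s)) ∧
      (fm (List.range m0) s ≤ t ^ en1 →
        (T2 (mat m0 s'.2.1) + T2 (mat m0 s'.2.2) - 2) ^ 2 * (t : ℝ) ^ eC ≤
          (fm (List.range m0) s : ℝ) - 2) := by
  unfold good
  generalize fm (List.range m0) s = m
  split_ifs with h
  · rw [decide_eq_true_iff, ← Rat.cast_le (K := ℝ), Rat.cast_add, (h12 m0 _ _).2.2.2.2.1,
      (h12 m0 _ _).2.2.2.2.1]
    push_cast
    exact ⟨fun h' => ⟨fun _ => h', fun h2 => absurd h (not_lt.2 h2)⟩, fun h' => h'.1 h⟩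
  · rw [decide_eq_true_iff, ← Rat.cast_le (K := ℝ)]
    push_cast
    rw [(h12 m0 _ []).2.2.2.1, (h12 m0 _ []).2.2.2.1]
    exact ⟨fun h' => ⟨fun h2 => absurd h2 h, fun _ => h'⟩, fun h' => h'.2 (not_lt.1 h)⟩

/-- The numerical facts on the parameters. -/
structure Num (d m0 t : ℕ) (κ : ℝ) : Prop where
  hd : 0 < d
  ht : 10 ^ 40 ≤ (t : ℝ)
  hdt : 10 * d ^ 2 + 10 * d + 12 ≤ t
  lo : (t : ℝ) ^ eN ≤ m0
  hi : (m0 : ℝ) ≤ 2 * t ^ eN
  lg : 10000 / (t : ℝ) * (1 + Real.log m0) ≤ 1 / 2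
  k0 : 0 ≤ κ
  k2 : κ ^ 2 ≤ 1 / 2

/-- The loop invariant. -/
structure Inv (d m0 t : ℕ) (κ : ℝ) (A B : Mat (Fin m0)) (s : State) : Prop where
  val : Valid d m0 s.1
  sA : St (Fr m0 s.1) (mat m0 s.2.1)
  sB : St (Fr m0 s.1) (mat m0 s.2.2)
  low : LowA κ (mat m0 s.2.1)
  up : UpB κ (Fr m0 s.1) (mat m0 s.2.2)
  ext : ∀ τ : Fin m0 → Fin m0, Function.Involutive τ →
    (∀ i j : Fin m0, (i.1, j.1) ∈ s.1 → τ i = j) →
    (Pos (Fr m0 s.1) (mat m0 s.2.1) τ → Pos univ A τ) ∧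
    (Neg (Fr m0 s.1) (mat m0 s.2.2) τ → Neg univ B τ)
  big : t ^ en2 ≤ (Fr m0 s.1).card + 1
  phi : t ^ en1 < (Fr m0 s.1).card → Phi t (Fr m0 s.1).card (mat m0 s.2.1) (mat m0 s.2.2) ≤
    1 / 2 + 10000 / (t : ℝ) * (Real.log m0 - Real.log (Fr m0 s.1).card)
  cc : (Fr m0 s.1).card ≤ t ^ en1 →
    (T2 (mat m0 s.2.1) + T2 (mat m0 s.2.2) - 2) ^ 2 * (t : ℝ) ^ eC ≤ (Fr m0 s.1).card

variable {d m0 t : ℕ} {κ : ℝ} {A B : Mat (Fin m0)} {s : State}

lemma Num.t2 (N : Num d m0 t κ) : 2 ≤ t := by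
  have := N.hdt
  omega

lemma Num.tpos (N : Num d m0 t κ) : (0 : ℝ) < t := by
  have := N.t2
  positivity

lemma Num.k1 (N : Num d m0 t κ) : κ ≤ 1 := by nlinarith [N.k0, N.k2]

lemma Num.le_pow (_N : Num d m0 t κ) : t ≤ t ^ en2 :=
  Nat.le_self_pow (by unfold en2; norm_num) t

lemma Num.cd (N : Num d m0 t κ) : ((d ^ 2 + d : ℕ) : ℝ) ≤ t := by
  have := N.hdt
  exact Nat.cast_le.2 (by omega)

lemma Num.card_le (N : Num d m0 t κ) : (Fintype.card (Fin m0) : ℝ) ≤ (t : ℝ) ^ (eN + 1) := by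
  rw [Fintype.card_fin, pow_succ']
  refine N.hi.trans (mul_le_mul_of_nonneg_right ?_ (pow_nonneg N.tpos.le _))
  exact_mod_cast N.t2

lemma Num.m0_pos (N : Num d m0 t κ) : (0 : ℝ) < m0 := (pow_pos N.tpos _).trans_le N.lo

lemma Num.le_one (N : Num d m0 t κ) {m : ℕ} {x : ℝ} (hx : x ≤ 1) :
    1 / 2 + 10000 / (t : ℝ) * (Real.log m0 - Real.log m + x) ≤ 1 := by
  have h1 := Real.log_natCast_nonneg m
  have h2 : 0 ≤ 10000 / (t : ℝ) := by have := N.tpos; positivity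
  have h3 := mul_le_mul_of_nonneg_left
    (show Real.log m0 - Real.log m + x ≤ 1 + Real.log m0 by linarith) h2
  linarith [N.lg]

lemma search (h1 : StepAS) (h2 : StepCS) (h9 : OkS) (h12 : CastS) (N : Num d m0 t κ)
    (H : Inv d m0 t κ A B s) (hm : t ^ en2 < (Fr m0 s.1).card) :
    ∃ p ∈ allp (List.range m0), chk d (List.range m0) t s p = true := by
  have hok := (h9 d m0 s.1 N.hd H.val).2.1
  have key : ∃ i ∈ Fr m0 s.1, ∃ j ∈ Fr m0 s.1, okp d s.1 i j = true ∧ 0 < rho (mat m0 s.2.1) i j ∧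
      0 < rho (mat m0 s.2.2) i j ∧
      (∀ k l, |mat m0 (cand (List.range m0) s (i.1, j.1)).2.1 k l| ≤
        (Fintype.card (Fin m0) : ℝ) ^ 4) ∧
      (∀ k l, |mat m0 (cand (List.range m0) s (i.1, j.1)).2.2 k l| ≤
        (Fintype.card (Fin m0) : ℝ) ^ 4) ∧
      good (List.range m0) t s (cand (List.range m0) s (i.1, j.1)) = true := by
    rcases lt_or_ge (t ^ en1) (Fr m0 s.1).card with hc | hc
    · obtain ⟨i, hi, j, hj, a1, a2, a3, a4, a5, a6⟩ := h1 _ _ _ _ _ _ κ t H.sA H.sB H.low H.up N.k0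
        N.k2 hok N.ht N.cd (by exact_mod_cast hc.le) N.card_le
        ((H.phi hc).trans (by simpa using N.le_one (m := (Fr m0 s.1).card) zero_le_one))
      obtain ⟨e1, e2⟩ := cand_mat h9 h12 N.hd H.val i j
      refine ⟨i, hi, j, hj, a1, a2, a3, e1 ▸ a4, e2 ▸ a5, ?_⟩
      rw [good_iff h12, fm_eq h9 N.hd H.val, e1, e2]
      exact ⟨fun _ => a6, fun h => absurd hc (not_lt.2 h)⟩
    · obtain ⟨i, hi, j, hj, a1, a2, a3, a4, a5, a6⟩ := h2 _ _ _ _ _ _ t H.sA H.sB hok N.ht N.cd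
        (by exact_mod_cast hm.le) (H.cc hc)
      obtain ⟨e1, e2⟩ := cand_mat h9 h12 N.hd H.val i j
      refine ⟨i, hi, j, hj, a1, a2, a3, e1 ▸ a4, e2 ▸ a5, ?_⟩
      rw [good_iff h12, fm_eq h9 N.hd H.val, e1, e2]
      exact ⟨fun h => absurd h (not_lt.2 hc), fun _ => a6⟩
  obtain ⟨i, hi, j, hj, a1, a2, a3, a4, a5, a6⟩ := key
  refine ⟨(i.1, j.1), mem_allp.2 ⟨i.2, j.2⟩, ?_⟩
  unfold chk
  rw [decide_eq_true_iff]
  refine ⟨mem_Fr.1 hi, mem_Fr.1 hj, a1, ?_, ?_, ?_, ?_, a6⟩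
  · rw [← (h12 m0 _ []).1] at a2
    exact_mod_cast a2
  · rw [← (h12 m0 _ []).1] at a3
    exact_mod_cast a3
  · rw [(h12 m0 _ []).2.2.2.2.2.1, cast_pow]
    exact a4
  · rw [(h12 m0 _ []).2.2.2.2.2.1, cast_pow]
    exact a5

lemma keep (h3 : SwitchS) (h4 : UpdS) (h6 : RndS) (h9 : OkS) (h12 : CastS) (N : Num d m0 t κ)
    (H : Inv d m0 t κ A B s) (hm : t ^ en2 < (Fr m0 s.1).card) {p : ℕ × ℕ}
    (hp : p ∈ allp (List.range m0)) (hc : chk d (List.range m0) t s p = true) :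
    Inv d m0 t κ A B (cand (List.range m0) s p) := by
  obtain ⟨i, j, rfl⟩ : ∃ i j : Fin m0, p = (i.1, j.1) :=
    ⟨⟨p.1, (mem_allp.1 hp).1⟩, ⟨p.2, (mem_allp.1 hp).2⟩, rfl⟩
  unfold chk at hc
  rw [decide_eq_true_iff] at hc
  obtain ⟨c1, c2, c3, c4, c5, -, -, c6⟩ := hc
  have hi : i ∈ Fr m0 s.1 := mem_Fr.2 c1
  have hj : j ∈ Fr m0 s.1 := mem_Fr.2 c2
  have hij : i ≠ j := by
    rintro rfl
    exact (h9 d m0 s.1 N.hd H.val).2.1.irr i c3
  have r1 : 0 < rho (mat m0 s.2.1) i j := by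
    rw [← (h12 m0 _ []).1]
    exact_mod_cast c4
  have r2 : 0 < rho (mat m0 s.2.2) i j := by
    rw [← (h12 m0 _ []).1]
    exact_mod_cast c5
  obtain ⟨e1, e2⟩ := cand_mat h9 h12 N.hd H.val i j
  have eF : Fr m0 (cand (List.range m0) s (i.1, j.1)).1 = ((Fr m0 s.1).erase i).erase j :=
    (h9 d m0 s.1 N.hd H.val).2.2 i j
  rw [good_iff h12, fm_eq h9 N.hd H.val] at c6
  have hcard : (((Fr m0 s.1).erase i).erase j).card + 2 = (Fr m0 s.1).card := by
    have a1 := card_erase_add_one hi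
    have a2 := card_erase_add_one (mem_erase.2 ⟨hij.symm, hj⟩)
    omega
  have hcardR : ((((Fr m0 s.1).erase i).erase j).card : ℝ) = (Fr m0 s.1).card - 2 := by
    rw [← hcard]
    push_cast
    ring
  have hG : 0 < (Fintype.card (Fin m0) : ℝ) ^ eG := by
    rw [Fintype.card_fin]
    exact pow_pos N.m0_pos _
  obtain ⟨uA, uA1, -, uA2⟩ := h4 _ _ _ i j H.sA hi hj hij r1
  obtain ⟨uB, -, uB1, uB2⟩ := h4 _ _ _ i j H.sB hi hj hij r2
  obtain ⟨rA, rA1, -⟩ := (h6 _ _ _ _ uA hG).1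
  obtain ⟨rB, rB1, -⟩ := (h6 _ _ _ _ uB hG).2
  rw [← e1] at rA rA1
  rw [← e2] at rB rB1
  have hlow : LowA κ (mat m0 (cand (List.range m0) s (i.1, j.1)).2.1) := fun v =>
    (uA1 κ N.k0 N.k1 H.low v).trans (rA1 v)
  have hup : UpB κ (((Fr m0 s.1).erase i).erase j)
      (mat m0 (cand (List.range m0) s (i.1, j.1)).2.2) := fun v hv =>
    (rB1 v).trans (uB1 κ N.k0 N.k1 H.up v hv)
  have ht2 := N.t2
  have htp := N.le_pow
  have hm3 : (3 : ℝ) ≤ (Fr m0 s.1).card := by exact_mod_cast (by omega : 3 ≤ (Fr m0 s.1).card)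
  have hphi : t ^ en1 < (Fr m0 s.1).card →
      Phi t (((Fr m0 s.1).card : ℝ) - 2) (mat m0 (cand (List.range m0) s (i.1, j.1)).2.1)
        (mat m0 (cand (List.range m0) s (i.1, j.1)).2.2) ≤ 1 / 2 + 10000 / (t : ℝ) *
          (Real.log m0 - Real.log (Fr m0 s.1).card + 1 / (Fr m0 s.1).card) := fun h => by
    have a1 := c6.1 h
    have a2 := H.phi h
    have a3 : 10000 / ((t : ℝ) * (Fr m0 s.1).card) = 10000 / (t : ℝ) * (1 / (Fr m0 s.1).card) := by
      rw [div_mul_div_comm, mul_one]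
    rw [mul_add]
    linarith
  refine ⟨⟨H.val, i.2, j.2, c1, c2, c3⟩, eF ▸ rA, eF ▸ rB, hlow, eF ▸ hup, fun τ hτ he => ?_, ?_,
    ?_, ?_⟩
  · have he' : ∀ k l : Fin m0, (k.1, l.1) ∈ s.1 → τ k = l := fun k l h =>
      he k l (List.mem_cons_of_mem _ h)
    have hτij : τ i = j := he i j List.mem_cons_self
    have hF := tau_mem H.val hτ he'
    rw [eF]
    exact ⟨fun h => (H.ext τ hτ he').1 ((uA2 τ hτ hτij hF _).1 rA1 h),
      fun h => (H.ext τ hτ he').2 ((uB2 τ hτ hτij hF _).2 rB1 h)⟩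
  · rw [eF]
    omega
  · rw [eF, hcardR]
    intro h
    refine (hphi (by omega)).trans ?_
    generalize ((Fr m0 s.1).card : ℝ) = m at hm3
    have a1 : Real.log ((m - 2) / m) ≤ (m - 2) / m - 1 :=
      Real.log_le_sub_one_of_pos (div_pos (by linarith) (by linarith))
    have a2 : (m - 2) / m - 1 = -(2 * (1 / m)) := by field_simp; ring
    have a3 : 0 < 1 / m := by positivity
    rw [Real.log_div (by linarith) (by linarith), a2] at a1
    have h2 : 0 ≤ 10000 / (t : ℝ) := by have := N.tpos; positivity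
    have := mul_le_mul_of_nonneg_left
      (show Real.log m0 - Real.log m + 1 / m ≤ Real.log m0 - Real.log (m - 2) by linarith) h2
    linarith
  · rw [eF]
    intro h
    rcases lt_or_ge (t ^ en1) (Fr m0 s.1).card with hc | hc
    · refine h3 _ _ _ _ κ t rA rB hlow hup N.k0 N.k1 N.ht (card_pos.1 (by omega))
        (by exact_mod_cast h) ?_
      rw [hcardR]
      exact (hphi hc).trans (N.le_one (by rw [div_le_one (by linarith)]; linarith))
    · rw [hcardR]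
      exact c6.2 hc

lemma loop (h1 : StepAS) (h2 : StepCS) (h3 : SwitchS) (h4 : UpdS) (h6 : RndS) (h9 : OkS)
    (h12 : CastS) (N : Num d m0 t κ) (H : Inv d m0 t κ A B s) (k : ℕ) :
    Inv d m0 t κ A B ((step d (List.range m0) t)^[k] s) ∧
      ((Fr m0 ((step d (List.range m0) t)^[k] s).1).card ≤ t ^ en2 ∨
        k ≤ ((step d (List.range m0) t)^[k] s).1.length) := by
  induction k with
  | zero => exact ⟨H, Or.inr (Nat.zero_le _)⟩
  | succ k ih =>
    rw [Function.iterate_succ_apply']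
    generalize (step d (List.range m0) t)^[k] s = s' at ih
    obtain ⟨H', hk⟩ := ih
    rcases lt_or_ge (t ^ en2) (Fr m0 s'.1).card with hm | hm
    · have hs : ((allp (List.range m0)).find? (chk d (List.range m0) t s')).isSome = true :=
        List.find?_isSome.2 (search h1 h2 h9 h12 N H' hm)
      obtain ⟨p, hp⟩ := Option.isSome_iff_exists.1 hs
      have e : step d (List.range m0) t s' = cand (List.range m0) s' p := by
        unfold step
        rw [if_pos ⟨by rw [fm_eq h9 N.hd H'.val]; exact hm, hs⟩, hp, Option.getD_some]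
      rw [e]
      refine ⟨keep h3 h4 h6 h9 h12 N H' hm (List.mem_of_find?_eq_some hp)
        (List.find?_some hp), Or.inr ?_⟩
      have : (cand (List.range m0) s' p).1.length = s'.1.length + 1 := rfl
      omega
    · have e : step d (List.range m0) t s' = s' := by
        unfold step
        rw [if_neg fun h => absurd h.1 (by rw [fm_eq h9 N.hd H'.val]; exact not_lt.2 hm)]
      rw [e]
      exact ⟨H', Or.inl hm⟩

lemma fibre (n d : ℕ) (u : Fin n) :
    (univ.filter fun k : Fin (n * d) => k.divNat = u).card = d := by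
  have : (univ.filter fun k : Fin (n * d) => k.divNat = u) =
      univ.map ⟨fun r : Fin d => finProdFinEquiv (u, r), fun r r' h => by simpa using h⟩ := by
    ext k
    simp only [mem_filter, mem_univ, true_and, mem_map]
    constructor
    · rintro rfl
      exact ⟨k.modNat, finProdFinEquiv.apply_symm_apply k⟩
    · rintro ⟨r, rfl⟩
      exact congrArg Prod.fst (finProdFinEquiv.symm_apply_apply (u, r))
  rw [this, card_map, card_univ, Fintype.card_fin]

end Correct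

open Correct

theorem correct_of (h1 : StepAS) (h2 : StepCS) (h3 : SwitchS) (h4 : UpdS) (h5 : BaseS) (h6 : RndS)
    (h7 : FinalS) (h8 : InitS) (h9 : OkS) (h10 : EndS) (h11 : GraphS) (h12 : CastS)
    (h13 : ParS) : CorrectS := by
  intro d hd
  obtain ⟨M, hM⟩ := h13 d hd
  refine ⟨M, fun n hn hev => ?_⟩
  have hd0 : 0 < d := by omega
  obtain ⟨t, ht⟩ : ∃ t, t = tpar (List.range (n * d)) := ⟨_, rfl⟩
  obtain ⟨p1, p2, p3, p4, p5, p6⟩ := hM (n * d) (hn.trans (Nat.le_mul_of_pos_right n hd0)) t ht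
  obtain ⟨q1, q2, q3⟩ := p6 _ rfl
  obtain ⟨a, ha⟩ : ∃ a, a = apar d (List.range (n * d)) t := ⟨_, rfl⟩
  obtain ⟨κ, hκ⟩ : ∃ κ, κ = kpar d (List.range (n * d)) t := ⟨_, rfl⟩
  rw [← ha] at q1 q2 q3
  have hκR : (κ : ℝ) = a - 64 * ((t : ℝ) ^ eh / Fintype.card (Fin (n * d))) ^ 2 := by
    rw [hκ, kpar, ← ha, List.length_range, Fintype.card_fin]
    simp only [Rat.cast_sub, Rat.cast_mul, Rat.cast_pow, Rat.cast_div, Rat.cast_natCast,
      Rat.cast_ofNat]
  obtain ⟨i1, i2, i3, i4, i5, i6, i7, i8, i9⟩ := h8 (Fin (n * d)) (Fin n) Fin.divNat d a κ t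
    (fibre n d) hd p1 (Nat.cast_le.2 (by omega)) (by rwa [Fintype.card_fin])
    (by rwa [Fintype.card_fin]) q1 (by rwa [Fintype.card_fin]) (by rwa [Fintype.card_fin]) hκR
  have N : Num d (n * d) t κ := ⟨hd0, p1, p2, p3, p4, p5, i2, i3⟩
  obtain ⟨c1, c2⟩ := (h12 (n * d) [] []).2.2.2.2.2.2 d a κ (Fin n) Fin.divNat
    fun k l => Fin.ext_iff
  rw [← c1] at i5 i7 i9
  rw [← c2] at i6 i8 i9
  rw [Fintype.card_fin] at i9
  have ht2 := N.t2
  have hF0 : Fr (n * d) [] = univ := by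
    ext k
    simp [Fr, fr]
  have hlo : t ^ eN ≤ n * d := by exact_mod_cast p3
  have H0 : Inv d (n * d) t κ (mat (n * d) (A0q d (List.range (n * d)) a κ))
      (mat (n * d) (B0q d (List.range (n * d)) a κ)) (init d (List.range (n * d)) t) := by
    have e : init d (List.range (n * d)) t =
        ([], A0q d (List.range (n * d)) a κ, B0q d (List.range (n * d)) a κ) := by
      rw [ha, hκ]
      rfl
    rw [e]
    refine ⟨trivial, hF0 ▸ i5, hF0 ▸ i6, i7, hF0 ▸ i8, fun τ _ _ => hF0 ▸ ⟨id, id⟩, ?_, ?_, ?_⟩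
    · have : t ^ en2 ≤ t ^ eN := Nat.pow_le_pow_right (by omega) (by unfold en2 eN; norm_num)
      rw [hF0, card_univ, Fintype.card_fin]
      omega
    · intro _
      rw [hF0, card_univ, Fintype.card_fin, sub_self, mul_zero, add_zero]
      exact i9
    · intro h
      have : t ^ en1 < t ^ eN := Nat.pow_lt_pow_right (by omega) (by unfold en1 eN; norm_num)
      rw [hF0, card_univ, Fintype.card_fin] at h
      omega
  obtain ⟨H, hfin⟩ := loop h1 h2 h3 h4 h6 h9 h12 N H0 (n * d)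
  have eP : phases d (List.range (n * d)) =
      ((step d (List.range (n * d)) t)^[n * d] (init d (List.range (n * d)) t)).1 := by
    rw [phases, ← ht, List.length_range]
  generalize (step d (List.range (n * d)) t)^[n * d] (init d (List.range (n * d)) t) = s
    at H hfin eP
  have hcount := (h9 d (n * d) s.1 hd0 H.val).1
  have hbig := H.big
  have htp := N.le_pow
  have hsmall : (Fr (n * d) s.1).card ≤ t ^ en2 := by omega
  have hne : (Fr (n * d) s.1).Nonempty := card_pos.1 (by omega)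
  have hcc := H.cc (hsmall.trans
    (Nat.pow_le_pow_right (by omega) (by unfold en2 en1; norm_num)))
  have hlt : ((Fr (n * d) s.1).card : ℝ) < (t : ℝ) ^ eC := by
    have : t ^ en2 < t ^ eC := Nat.pow_lt_pow_right (by omega) (by unfold en2 eC; norm_num)
    exact_mod_cast hsmall.trans_lt this
  have hX : (T2 (mat (n * d) s.2.1) + T2 (mat (n * d) s.2.2) - 2) ^ 2 < 1 :=
    (mul_lt_iff_lt_one_left (pow_pos N.tpos _)).1 (hcc.trans_lt hlt)
  obtain ⟨bA, bA'⟩ := h5 _ _ _ H.sA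
  obtain ⟨bB, bB'⟩ := h5 _ _ _ H.sB
  have bA1 := bA hne
  have bB1 := bB hne
  have hX1 : T2 (mat (n * d) s.2.1) + T2 (mat (n * d) s.2.2) - 2 < 1 := by nlinarith
  obtain ⟨v1, v2⟩ := h10 d (n * d) s.1 hd0 H.val (by rwa [mul_comm]) (by omega)
  obtain ⟨τ, π, G, inst, g1, g2, g3, g4, g5, g6, g7⟩ := h11 d n _ hd0 v1 v2
  refine ⟨G, inst, g5, by rw [algo, eP, g6], fun v hv => ?_⟩
  have he : ∀ i j : Fin (n * d), (i.1, j.1) ∈ s.1 → τ i = j := fun i j h =>
    g2 i j (List.mem_append_right _ h)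
  have hF := tau_mem H.val g1 he
  have P1 := (H.ext τ g1 he).1 (bA' (by linarith) τ g1 hF).1
  have P2 := (H.ext τ g1 he).2 (bB' (by linarith) τ g1 hF).2
  obtain ⟨c3, c4⟩ := (h12 (n * d) [] []).2.2.2.2.2.2 d a κ (Fin n) π
    fun k l => by rw [Fin.ext_iff, g3, g3]
  rw [c3] at P1
  rw [c4] at P2
  rw [g7]
  refine (h7 _ _ π d a κ τ g4 hd0 i1 i2 (by nlinarith) g1 P1 P2 v hv).trans ?_
  exact mul_le_mul_of_nonneg_right i4 (sum_nonneg fun u _ => mul_self_nonneg (v u))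

end Vale.Agent.P049
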