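import Vale.Agent.P049.Alg

/-! Valid pairings and the greedy endgame with switches. -/

namespace Vale.Agent.P049

open Finset

namespace End

variable {d m0 : ℕ} {P Q : Prs}

theorem fr_iff {k : ℕ} : fr P k = true ↔ ∀ p ∈ P, k ≠ p.1 ∧ k ≠ p.2 := by
  simp [fr]

theorem okp_iff {i j : ℕ} : okp d P i j = true ↔ i / d ≠ j / d ∧ ∀ p ∈ P,
    ¬ ((p.1 / d = i / d ∧ p.2 / d = j / d) ∨ (p.1 / d = j / d ∧ p.2 / d = i / d)) := by
  simp only [okp, adj, decide_eq_true_eq, List.any_eq_false]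

/-- two pairs are compatible -/
def Rel (d : ℕ) (p q : ℕ × ℕ) : Prop := (p.1 ≠ q.1 ∧ p.1 ≠ q.2) ∧ (p.2 ≠ q.1 ∧ p.2 ≠ q.2) ∧
  ¬ ((q.1 / d = p.1 / d ∧ q.2 / d = p.2 / d) ∨ (q.1 / d = p.2 / d ∧ q.2 / d = p.1 / d))

theorem Rel.symm {p q : ℕ × ℕ} (h : Rel d p q) : Rel d q p := by
  unfold Rel at *
  omega

theorem valid_iff : Valid d m0 P ↔
    (∀ p ∈ P, p.1 < m0 ∧ p.2 < m0 ∧ p.1 / d ≠ p.2 / d) ∧ P.Pairwise (Rel d) := by
  induction P with
  | nil => simp [Valid]
  | cons p P ih =>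
    rw [Valid, ih, fr_iff, fr_iff, okp_iff, List.pairwise_cons, List.forall_mem_cons]
    constructor
    · rintro ⟨⟨h1, h2⟩, h3, h4, h5, h6, h7, h8⟩
      exact ⟨⟨⟨h3, h4, h7⟩, h1⟩, fun q hq => ⟨h5 q hq, h6 q hq, h8 q hq⟩, h2⟩
    · rintro ⟨⟨⟨h3, h4, h7⟩, h1⟩, h5, h2⟩
      exact ⟨⟨h1, h2⟩, h3, h4, fun q hq => (h5 q hq).1, fun q hq => (h5 q hq).2.1, h7,
        fun q hq => (h5 q hq).2.2⟩

theorem valid_sub (h : Valid d m0 P) (hs : Q.Sublist P) : Valid d m0 Q := by
  rw [valid_iff] at *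
  exact ⟨fun p hp => h.1 p (hs.subset hp), h.2.sublist hs⟩

theorem rel_of (h : Valid d m0 P) {p q : ℕ × ℕ} (hp : p ∈ P) (hq : q ∈ P) (hne : p ≠ q) :
    Rel d p q :=
  haveI : Std.Symm (Rel d) := ⟨fun _ _ => Rel.symm⟩
  List.Pairwise.forall (valid_iff.1 h).2 hp hq hne

theorem nodup_of (h : Valid d m0 P) : P.Nodup :=
  (valid_iff.1 h).2.imp fun {p q} hr he => hr.1.1 (by rw [he])

theorem ne_of (h : Valid d m0 P) {p : ℕ × ℕ} (hp : p ∈ P) : p.1 ≠ p.2 := fun he =>
  ((valid_iff.1 h).1 p hp).2.2 (by rw [he])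

theorem partner_unique (h : Valid d m0 P) {k l l' : ℕ} (h1 : (k, l) ∈ P ∨ (l, k) ∈ P)
    (h2 : (k, l') ∈ P ∨ (l', k) ∈ P) : l = l' := by
  by_contra hne
  rcases h1 with h1 | h1 <;> rcases h2 with h2 | h2
  · exact (rel_of h h1 h2 (by simpa using hne)).1.1 rfl
  · refine (rel_of h h1 h2 fun he => ?_).1.2 rfl
    simp only [Prod.mk.injEq] at he
    omega
  · refine (rel_of h h1 h2 fun he => ?_).2.1.1 rfl
    simp only [Prod.mk.injEq] at he
    omega
  · exact (rel_of h h1 h2 (by simpa using hne)).2.1.2 rfl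

theorem mem_fib (hd : 0 < d) (k : ℕ) : k ∈ Ico (k / d * d) (k / d * d + d) :=
  mem_Ico.2 ⟨Nat.div_mul_le_self _ _, Nat.lt_div_mul_add hd⟩

/-- the forbidden partners -/
theorem forb (hd : 0 < d) (h : Valid d m0 P) (i : ℕ) :
    ∃ S : Finset ℕ, S.card ≤ d ^ 2 + d ∧ ∀ j, j ∉ S → okp d P i j = true := by
  classical
  let f : ℕ → ℕ := fun k => Classical.epsilon fun l => (k, l) ∈ P ∨ (l, k) ∈ P
  have hf : ∀ k l, (k, l) ∈ P ∨ (l, k) ∈ P → f k = l := fun k l hl =>
    partner_unique h (Classical.epsilon_spec (p := fun l => (k, l) ∈ P ∨ (l, k) ∈ P) ⟨l, hl⟩) hl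
  let N : Finset ℕ := insert (i / d) ((Ico (i / d * d) (i / d * d + d)).image fun k => f k / d)
  have hN : N.card ≤ d + 1 :=
    (card_insert_le _ _).trans (Nat.add_le_add_right (card_image_le.trans_eq (by simp)) 1)
  refine ⟨N.biUnion fun v => Ico (v * d) (v * d + d), ?_, fun j hj => ?_⟩
  · refine (card_biUnion_le_card_mul _ _ d fun v _ => by simp).trans ?_
    nlinarith
  · have hj' : j / d ∉ N := fun hm => hj (mem_biUnion.2 ⟨_, hm, mem_fib hd j⟩)
    rw [okp_iff]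
    refine ⟨fun he => hj' (he ▸ mem_insert_self _ _), fun p hp => ?_⟩
    rintro (⟨h1, h2⟩ | ⟨h1, h2⟩)
    · refine hj' (mem_insert_of_mem (mem_image.2 ⟨p.1, h1 ▸ mem_fib hd _, ?_⟩))
      rw [hf p.1 p.2 (Or.inl hp), h2]
    · refine hj' (mem_insert_of_mem (mem_image.2 ⟨p.2, h2 ▸ mem_fib hd _, ?_⟩))
      rw [hf p.2 p.1 (Or.inr hp), h1]

theorem Fr_cons (m0 : ℕ) (P : Prs) (i j : Fin m0) :
    Fr m0 ((i.1, j.1) :: P) = ((Fr m0 P).erase i).erase j := by
  ext k
  simp only [Fr, mem_filter, mem_univ, true_and, mem_erase, fr_iff, List.forall_mem_cons,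
    ne_eq, Fin.val_inj]
  tauto

theorem card_Fr (h : Valid d m0 P) : (Fr m0 P).card + 2 * P.length = m0 := by
  induction P with
  | nil => simp [Fr, fr]
  | cons p P ih =>
    have hne := ne_of h List.mem_cons_self
    obtain ⟨h1, h2, h3, h4, h5, -⟩ := h
    have e := Fr_cons m0 P ⟨p.1, h2⟩ ⟨p.2, h3⟩
    have m1 : (⟨p.1, h2⟩ : Fin m0) ∈ Fr m0 P := mem_filter.2 ⟨mem_univ _, h4⟩
    have m2 : (⟨p.2, h3⟩ : Fin m0) ∈ (Fr m0 P).erase ⟨p.1, h2⟩ :=
      mem_erase.2 ⟨fun he => hne (congrArg Fin.val he).symm, mem_filter.2 ⟨mem_univ _, h5⟩⟩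
    have c1 := card_erase_add_one m1
    have c2 := card_erase_add_one m2
    have := ih h1
    rw [show Fr m0 (p :: P) = _ from e, List.length_cons]
    omega

theorem len_free (h : Valid d m0 P) :
    ((List.range m0).filter (fr P)).length + 2 * P.length = m0 := by
  have h1 : (Fr m0 P).card = ((range m0).filter fun k => fr P k = true).card := by
    refine card_bij (fun k _ => k.1) (fun k hk => ?_) (fun _ _ _ _ he => Fin.ext he)
      fun k hk => ?_
    · exact mem_filter.2 ⟨mem_range.2 k.2, (mem_filter.1 hk).2⟩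
    · exact ⟨⟨k, mem_range.1 (mem_filter.1 hk).1⟩, mem_filter.2 ⟨mem_univ _, (mem_filter.1 hk).2⟩,
        rfl⟩
  have h2 : ((range m0).filter fun k => fr P k = true).card =
      ((List.range m0).filter (fr P)).length := by
    simp [Finset.card, Finset.filter, Finset.range, Multiset.range]
  rw [← h2, ← h1, card_Fr h]

theorem fr_sub {k : ℕ} (h : fr P k = true) (hs : Q ⊆ P) : fr Q k = true :=
  fr_iff.2 fun p hp => fr_iff.1 h p (hs hp)

theorem okp_sub {i j : ℕ} (h : okp d P i j = true) (hs : Q ⊆ P) : okp d Q i j = true :=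
  okp_iff.2 ⟨(okp_iff.1 h).1, fun p hp => (okp_iff.1 h).2 p (hs hp)⟩

theorem sub_filter (P Q : Prs) (q : ℕ × ℕ) :
    (Q.filter (fun x => decide (x ≠ q)) ++ P).Sublist (Q ++ P) :=
  List.filter_sublist.append_right P

theorem ne_filter (h : Valid d m0 (Q ++ P)) {q : ℕ × ℕ} (hq : q ∈ Q) {x : ℕ × ℕ}
    (hx : x ∈ Q.filter (fun x => decide (x ≠ q)) ++ P) : q ≠ x := by
  rcases List.mem_append.1 hx with hx | hx
  · exact (of_decide_eq_true (List.mem_filter.1 hx).2).symm
  · exact (List.nodup_append.1 (nodup_of h)).2.2 q hq x hx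

/-- a switch keeps the pairing valid and adds one pair -/
theorem swp_valid (h : Valid d m0 (Q ++ P)) {a b : ℕ} (ha : a < m0) (hb : b < m0) (hab : a ≠ b)
    (fa : fr (Q ++ P) a = true) (fb : fr (Q ++ P) b = true) {q : ℕ × ℕ} (hq : q ∈ Q)
    (hs : swOk d P Q a b q = true) :
    Valid d m0 (swp Q a b q ++ P) ∧ (swp Q a b q).length = Q.length + 1 := by
  have hq' : q ∈ Q ++ P := List.mem_append_left _ hq
  have hsub := sub_filter P Q q
  have hr : ∀ x ∈ Q.filter (fun x => decide (x ≠ q)) ++ P, Rel d q x := fun x hx =>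
    rel_of h hq' (hsub.subset hx) (ne_filter h hq hx)
  obtain ⟨q1, q2, -⟩ := (valid_iff.1 h).1 q hq'
  simp only [swOk, decide_eq_true_eq] at hs
  refine ⟨⟨⟨valid_sub h hsub, ha, q1, fr_sub fa hsub.subset, fr_iff.2 fun x hx => (hr x hx).1,
    hs.1⟩, hb, q2, fr_iff.2 ?_, fr_iff.2 ?_, hs.2⟩, ?_⟩
  · exact List.forall_mem_cons.2 ⟨⟨hab.symm, (fr_iff.1 fb q hq').1⟩,
      fr_iff.1 (fr_sub fb hsub.subset)⟩
  · exact List.forall_mem_cons.2 ⟨⟨(fr_iff.1 fa q hq').2.symm, (ne_of h hq').symm⟩,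
      fun x hx => (hr x hx).2.1⟩
  · have hn : Q.Nodup := (List.nodup_append.1 (nodup_of h)).1
    have e : Q.filter (fun x => decide (x ≠ q)) = Q.erase q := by
      rw [hn.erase_eq_filter]
      exact List.filter_congr fun x _ => by simp [bne, Bool.beq_eq_decide_eq]
    have := List.length_erase_add_one hq
    simp only [swp, List.length_cons, e]
    omega

/-- a switch exists when there are many pairs -/
theorem exists_sw (hd : 0 < d) (h : Valid d m0 (Q ++ P)) (a b : ℕ)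
    (hl : 3 * (d ^ 2 + d) < Q.length) : ∃ q ∈ Q, swOk d P Q a b q = true := by
  obtain ⟨S, s1, s2⟩ := forb hd h a
  obtain ⟨T, t1, t2⟩ := forb hd h b
  have hn : Q.Nodup := (List.nodup_append.1 (nodup_of h)).1
  have : ∃ q ∈ Q, q.1 ∉ S ∧ q.2 ∉ S ∪ T := by
    by_contra hc
    have h1 : Q.toFinset ⊆ Q.toFinset.filter (fun q => q.1 ∈ S) ∪
        Q.toFinset.filter fun q => q.2 ∈ S ∪ T := fun q hq => by
      by_contra hh
      simp only [mem_union, mem_filter, hq, true_and, not_or] at hh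
      exact hc ⟨q, List.mem_toFinset.1 hq, hh.1, by simpa using hh.2⟩
    have hm : ∀ {f : ℕ × ℕ → Prop} [DecidablePred f] {q},
        q ∈ ((Q.toFinset.filter f : Finset (ℕ × ℕ)) : Set (ℕ × ℕ)) → q ∈ Q ++ P :=
      fun hq => List.mem_append_left _ (List.mem_toFinset.1 (mem_filter.1 hq).1)
    have h2 : (Q.toFinset.filter fun q => q.1 ∈ S).card ≤ S.card :=
      card_le_card_of_injOn Prod.fst (fun q hq => (mem_filter.1 hq).2) fun p hp q hq he =>
        by_contra fun hne => (rel_of h (hm hp) (hm hq) hne).1.1 he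
    have h3 : (Q.toFinset.filter fun q => q.2 ∈ S ∪ T).card ≤ (S ∪ T).card :=
      card_le_card_of_injOn Prod.snd (fun q hq => (mem_filter.1 hq).2) fun p hp q hq he =>
        by_contra fun hne => (rel_of h (hm hp) (hm hq) hne).2.1.2 he
    have h4 := (card_le_card h1).trans (card_union_le _ _)
    have h5 := card_union_le S T
    rw [List.toFinset_card_of_nodup hn] at h4
    omega
  obtain ⟨q, hq, h1, h2⟩ := this
  rw [mem_union, not_or] at h2
  have hsub := (sub_filter P Q q).subset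
  refine ⟨q, hq, ?_⟩
  simp only [swOk, decide_eq_true_eq]
  refine ⟨okp_sub (s2 _ h1) hsub, ?_⟩
  have h3 := okp_iff.1 (okp_sub (t2 _ h2.2) hsub)
  have h4 := (okp_iff.1 (s2 _ h2.1)).1
  have h5 := ((valid_iff.1 h).1 q (List.mem_append_left _ hq)).2.2
  refine okp_iff.2 ⟨h3.1, List.forall_mem_cons.2 ⟨?_, h3.2⟩⟩
  rintro (⟨-, h6⟩ | ⟨h6, -⟩)
  · exact h5 h6
  · exact h4 h6

theorem estep_spec (hd : 0 < d) (h : Valid d m0 (Q ++ P))
    (hm : 10 * d ^ 2 + 10 * d + 10 + 2 * P.length ≤ m0) :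
    Valid d m0 (estep d (List.range m0) P Q ++ P) ∧
      ((estep d (List.range m0) P Q).length = Q.length + 1 ∨
        (estep d (List.range m0) P Q = Q ∧ m0 < 2 + 2 * (Q ++ P).length)) := by
  have hl := len_free h
  have hn : ((List.range m0).filter (fr (Q ++ P))).Nodup := List.nodup_range.filter _
  have hmem : ∀ k ∈ (List.range m0).filter (fr (Q ++ P)), k < m0 ∧ fr (Q ++ P) k = true :=
    fun k hk => ⟨List.mem_range.1 (List.mem_filter.1 hk).1, (List.mem_filter.1 hk).2⟩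
  unfold estep
  generalize (List.range m0).filter (fr (Q ++ P)) = fl at *
  unfold estep'
  split_ifs with h1 h2 h3
  · exact ⟨h, Or.inr ⟨rfl, by omega⟩⟩
  · obtain ⟨j, hj⟩ := Option.isSome_iff_exists.1 h2
    have ha : fl.getD 0 0 ∈ fl := by
      rw [List.getD_eq_getElem _ _ (by omega)]
      exact List.getElem_mem _
    have hj1 := hmem j (List.mem_of_find?_eq_some hj)
    rw [hj, Option.getD_some]
    exact ⟨⟨h, (hmem _ ha).1, hj1.1, (hmem _ ha).2, hj1.2, List.find?_some hj⟩, Or.inl rfl⟩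
  · obtain ⟨q, hq⟩ := Option.isSome_iff_exists.1 h3
    have ha : fl.getD 0 0 ∈ fl := by
      rw [List.getD_eq_getElem _ _ (by omega)]
      exact List.getElem_mem _
    have hb : fl.getD 1 0 ∈ fl := by
      rw [List.getD_eq_getElem _ _ (by omega)]
      exact List.getElem_mem _
    have hab : fl.getD 0 0 ≠ fl.getD 1 0 := by
      rw [List.getD_eq_getElem _ _ (by omega), List.getD_eq_getElem _ _ (by omega), Ne,
        hn.getElem_inj_iff]
      omega
    rw [hq, Option.getD_some]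
    have := swp_valid h (hmem _ ha).1 (hmem _ hb).1 hab (hmem _ ha).2 (hmem _ hb).2
      (List.mem_of_find?_eq_some hq) (List.find?_some hq)
    exact ⟨this.1, Or.inl this.2⟩
  · exfalso
    obtain ⟨S, s1, s2⟩ := forb hd h (fl.getD 0 0)
    rw [List.find?_isSome] at h2 h3
    have h4 : fl.toFinset ⊆ S := fun k hk =>
      by_contra fun hc => h2 ⟨k, List.mem_toFinset.1 hk, s2 k hc⟩
    have h5 := card_le_card h4
    rw [List.toFinset_card_of_nodup hn] at h5
    rw [List.length_append] at hl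
    exact h3 (exists_sw hd h _ _ (by omega))

theorem iter_spec (hd : 0 < d) (h : Valid d m0 P)
    (hm : 10 * d ^ 2 + 10 * d + 10 + 2 * P.length ≤ m0) (k : ℕ) :
    Valid d m0 ((estep d (List.range m0) P)^[k] [] ++ P) ∧
      (k ≤ ((estep d (List.range m0) P)^[k] []).length ∨
        m0 < 2 + 2 * ((estep d (List.range m0) P)^[k] [] ++ P).length) := by
  induction k with
  | zero => exact ⟨h, Or.inl (Nat.zero_le _)⟩
  | succ k ih =>
    rw [Function.iterate_succ_apply']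
    obtain ⟨h1, h2⟩ := estep_spec hd ih.1 hm
    refine ⟨h1, ?_⟩
    have h3 := ih.2
    simp only [List.length_append] at *
    rcases h2 with h2 | ⟨h2, h4⟩
    · omega
    · rw [h2]
      exact Or.inr h4

end End

open End

theorem okS : OkS := by
  intro d m0 P hd h
  refine ⟨card_Fr h, ⟨fun i j hij => ?_, fun i hi => ?_, fun i _ => ?_⟩, Fr_cons m0 P⟩
  · rw [okp_iff] at *
    exact ⟨hij.1.symm, fun p hp h' => hij.2 p hp h'.symm⟩
  · exact (okp_iff.1 hi).1 rfl
  · obtain ⟨S, h1, h2⟩ := forb hd h i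
    refine ⟨univ.filter fun k => k.1 ∈ S, (card_le_card_of_injOn Fin.val ?_ ?_).trans h1,
      fun j _ hj => h2 j fun hs => hj (mem_filter.2 ⟨mem_univ _, hs⟩)⟩
    · intro k hk
      exact (mem_filter.1 hk).2
    · exact Fin.val_injective.injOn

theorem endS : EndS := by
  intro d m0 P hd h he hm
  obtain ⟨h1, h2⟩ := iter_spec hd h hm m0
  unfold finish
  rw [List.length_range]
  refine ⟨h1, fun k hk => ?_⟩
  have h3 := len_free h1
  obtain ⟨c, hc⟩ := he
  have h4 : ((List.range m0).filter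
      (fr ((estep d (List.range m0) P)^[m0] [] ++ P))).length = 0 := by
    simp only [List.length_append] at *
    omega
  have h5 := List.filter_eq_nil_iff.1 (List.length_eq_zero_iff.1 h4) k (List.mem_range.2 hk)
  simpa using h5

end Vale.Agent.P049
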