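import Vale.Agent.P049.Stmts

/-! From the two sign conditions to the spectral bound. -/

namespace Vale.Agent.P049

open Matrix Finset

namespace Final

variable {ι V : Type} [Fintype ι] [DecidableEq ι] [Fintype V] [DecidableEq V]

/-- Sum over a fibre. -/
def fs (π : ι → V) (w : ι → ℝ) (u : V) : ℝ := ∑ k ∈ univ.filter (fun k => π k = u), w k

omit [DecidableEq ι] in
lemma dot_fib (π : ι → V) (g : V → ℝ) (w : ι → ℝ) :
    ∑ k, g (π k) * w k = ∑ u, g u * fs π w u := by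
  rw [← sum_fiberwise univ π]
  refine sum_congr rfl fun u _ => ?_
  rw [fs, mul_sum]
  exact sum_congr rfl fun k hk => by rw [(mem_filter.1 hk).2]

omit [DecidableEq ι] in
lemma sum_fib (π : ι → V) (d : ℕ) (hd : ∀ u, (univ.filter fun k => π k = u).card = d)
    (g : V → ℝ) : ∑ k, g (π k) = d * ∑ u, g u := by
  have h := dot_fib π g (fun _ => 1)
  simp only [mul_one, fs, sum_const, hd, nsmul_eq_mul] at h
  rw [h, mul_sum]
  exact sum_congr rfl fun u _ => mul_comm _ _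

omit [Fintype V] in
lemma row_gen (π : ι → V) (a κ b : ℝ) (w : ι → ℝ) (k : ι) :
    ∑ l, ((if π k = π l then a else 0) + (if k = l then κ else 0) + b) * w l =
      a * fs π w (π k) + κ * w k + b * ∑ l, w l := by
  simp only [add_mul, sum_add_distrib, ← mul_sum]
  congr 2
  · rw [fs, mul_sum, sum_filter]
    refine sum_congr rfl fun l _ => ?_
    by_cases h : π k = π l
    · rw [if_pos h, if_pos h.symm]
    · rw [if_neg h, if_neg (fun h' => h h'.symm), zero_mul]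
  · simp

lemma qf_gen (π : ι → V) (a κ b : ℝ) (Z : Mat ι)
    (hZ : ∀ k l, Z k l = (if π k = π l then a else 0) + (if k = l then κ else 0) + b)
    (w : ι → ℝ) :
    qf Z w = a * ∑ u, fs π w u ^ 2 + κ * ∑ k, w k ^ 2 + b * (∑ k, w k) ^ 2 := by
  have h := dot_fib π (fs π w) w
  have h1 : qf Z w = ∑ k, (a * (fs π w (π k) * w k) + κ * w k ^ 2 + b * (∑ l, w l) * w k) := by
    refine sum_congr rfl fun k _ => ?_
    have h2 : (Z *ᵥ w) k = a * fs π w (π k) + κ * w k + b * ∑ l, w l := by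
      rw [← row_gen]
      exact sum_congr rfl fun l _ => congrArg (· * w l) (hZ k l)
    rw [h2]
    ring
  rw [h1]
  simp only [sum_add_distrib, ← mul_sum]
  rw [h]
  simp only [← sq]
  ring

lemma qf_A0 (π : ι → V) (d a κ : ℝ) (w : ι → ℝ) (hw : ∑ k, w k = 0) :
    qf (A0 π d a κ) w = a * ∑ u, fs π w u ^ 2 - κ * ∑ k, w k ^ 2 := by
  rw [qf_gen π a (-κ) ((1 - a * d + κ) / Fintype.card ι) _ (fun k l => ?_), hw]
  · ring
  · unfold A0
    split_ifs <;> ring

omit [Fintype V] in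
lemma B0_eq (π : ι → V) (d a κ : ℝ) (k l : ι) : B0 π d a κ k l =
    (if π k = π l then -a else 0) + (if k = l then κ else 0) +
      (1 + a * d - κ) / Fintype.card ι := by
  unfold B0
  split_ifs <;> ring

lemma qf_B0 (π : ι → V) (d a κ : ℝ) (w : ι → ℝ) (hw : ∑ k, w k = 0) :
    qf (B0 π d a κ) w = κ * ∑ k, w k ^ 2 - a * ∑ u, fs π w u ^ 2 := by
  rw [qf_gen π (-a) κ _ _ (B0_eq π d a κ), hw]
  ring

omit [Fintype V] in
lemma B0_rows (π : ι → V) (d : ℕ) (hd : ∀ u, (univ.filter fun k => π k = u).card = d)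
    (a κ : ℝ) (k : ι) : ∑ l, B0 π d a κ k l = 1 := by
  have h := row_gen π (-a) κ ((1 + a * d - κ) / Fintype.card ι) (fun _ => 1) k
  simp only [mul_one, fs, sum_const, hd, nsmul_eq_mul, card_univ] at h
  simp only [B0_eq]
  rw [h]
  have hm : (Fintype.card ι : ℝ) ≠ 0 := by
    have : Nonempty ι := ⟨k⟩
    exact_mod_cast Fintype.card_ne_zero
  field_simp
  ring

omit [Fintype V] in
lemma B0_symm (π : ι → V) (d a κ : ℝ) (k l : ι) : B0 π d a κ k l = B0 π d a κ l k := by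
  unfold B0
  simp only [eq_comm]

omit [DecidableEq ι] in
lemma sum_inv {τ : ι → ι} (hτ : Function.Involutive τ) (g : ι → ℝ) :
    ∑ k, g (τ k) = ∑ k, g k := Equiv.sum_comp hτ.toPerm g

omit [DecidableEq ι] in
lemma sum_odd {τ : ι → ι} (hτ : Function.Involutive τ) (g : ι → ℝ) (hg : ∀ k, g (τ k) = -g k) :
    ∑ k, g k = 0 := by
  have h := sum_inv hτ g
  simp only [hg, sum_neg_distrib] at h
  linarith

omit [DecidableEq ι] in
lemma form_const {τ : ι → ι} (hτ : Function.Involutive τ) (Z : Mat ι)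
    (hs : ∀ k l, Z k l = Z l k) (hr : ∀ k, ∑ l, Z k l = 1) (w : ι → ℝ) (c : ℝ) :
    form τ Z (fun k => w k + c) = form τ Z w := by
  have h1 : ∀ k, (Z *ᵥ fun k => w k + c) k = (Z *ᵥ w) k + c := by
    intro k
    simp only [mulVec, dotProduct, mul_add, sum_add_distrib, ← sum_mul, hr, one_mul]
  have h2 : ∑ k, (Z *ᵥ w) k = ∑ k, w k := by
    simp only [mulVec, dotProduct]
    rw [sum_comm]
    refine sum_congr rfl fun l _ => ?_
    rw [← sum_mul]
    simp only [fun k => hs k l, hr, one_mul]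
  unfold form qf
  simp only [dotProduct, h1, add_mul, mul_add, sum_add_distrib, ← mul_sum, ← sum_mul, h2,
    sum_inv hτ w]
  ring

omit [DecidableEq ι] in
lemma amgm (x y : ι → ℝ) (c : ℝ) (hc : 0 < c) :
    2 * ∑ k, x k * y k ≤ c * ∑ k, y k ^ 2 + (∑ k, x k ^ 2) / c := by
  rw [mul_sum, mul_sum, sum_div, ← sum_add_distrib]
  refine sum_le_sum fun k _ => ?_
  have h : c * y k ^ 2 + x k ^ 2 / c - 2 * (x k * y k) = (c * y k - x k) ^ 2 / c := by
    field_simp
    ring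
  have h2 : 0 ≤ (c * y k - x k) ^ 2 / c := by positivity
  linarith

omit [DecidableEq ι] in
/-- The core estimate: `f = p + q`, the test vector is `p + o` with `o` orthogonal to `p`. -/
lemma core (π : ι → V) (a κ : ℝ) (ha : 0 < a) (hκ : 0 ≤ κ) (hκ1 : κ < 1) (v : V → ℝ)
    (p q o : ι → ℝ) (hf : ∀ k, v (π k) = p k + q k) (hpq : ∑ k, p k * q k = 0)
    (hpo : ∑ k, p k * o k = 0)
    (h : (1 - κ) * ∑ k, o k ^ 2 + a * ∑ u, fs π (p + o) u ^ 2 < (1 + κ) * ∑ k, p k ^ 2) :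
    ∑ k, p k ^ 2 - ∑ k, q k ^ 2 <
      κ * (∑ k, p k ^ 2 + ∑ k, q k ^ 2) + (1 - κ ^ 2) / a * ∑ u, v u ^ 2 := by
  have hk : 0 < 1 - κ := by linarith
  have hk' : 0 < 1 + κ := by linarith
  have h1 := amgm v (fs π (p + o)) (a / (1 + κ)) (by positivity)
  have h2 := amgm (fun k => -q k) o ((1 - κ) / (1 + κ)) (by positivity)
  rw [← dot_fib] at h1
  have h3 : ∑ k, v (π k) * (p + o) k = ∑ k, p k ^ 2 - ∑ k, -q k * o k := by
    have : ∑ k, v (π k) * (p + o) k =
        ∑ k, (p k ^ 2 - -q k * o k + p k * q k + p k * o k) :=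
      sum_congr rfl fun k _ => by rw [hf, Pi.add_apply]; ring
    rw [this, sum_add_distrib, sum_add_distrib, sum_sub_distrib, hpq, hpo]
    ring
  simp only [neg_sq] at h2
  rw [h3] at h1
  generalize ∑ k, p k ^ 2 = P at *
  generalize ∑ k, q k ^ 2 = Q at *
  generalize ∑ k, o k ^ 2 = O at *
  generalize ∑ u, v u ^ 2 = W at *
  generalize ∑ u, fs π (p + o) u ^ 2 = N at *
  generalize ∑ k, -q k * o k = s at *
  have h4 : a / (1 + κ) * N + (1 - κ) / (1 + κ) * O < P := by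
    rw [div_mul_eq_mul_div, div_mul_eq_mul_div, ← add_div, div_lt_iff₀ hk']
    linarith
  have h5 : P < W / (a / (1 + κ)) + Q / ((1 - κ) / (1 + κ)) := by linarith
  have h6 : (1 - κ) * (W / (a / (1 + κ)) + Q / ((1 - κ) / (1 + κ))) =
      (1 - κ ^ 2) / a * W + (1 + κ) * Q := by
    field_simp
    ring
  have h7 := mul_lt_mul_of_pos_left h5 hk
  rw [h6] at h7
  linarith

end Final

open Final in
theorem finalS : FinalS := by
  intro ι V _ _ _ _ π d a κ τ hd _ ha hκ hκ1 hτ hP hN v hv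
  obtain ⟨p, hp⟩ : ∃ p : ι → ℝ, ∀ k, p k = (v (π k) + v (π (τ k))) / 2 := ⟨_, fun _ => rfl⟩
  obtain ⟨q, hq⟩ : ∃ q : ι → ℝ, ∀ k, q k = (v (π k) - v (π (τ k))) / 2 := ⟨_, fun _ => rfl⟩
  have pe : ∀ k, p (τ k) = p k := fun k => by rw [hp, hp, hτ k]; ring
  have qo : ∀ k, q (τ k) = -q k := fun k => by rw [hq, hq, hτ k]; ring
  have hf : ∀ k, v (π k) = p k + q k := fun k => by rw [hp, hq]; ring
  have orth : ∀ x y : ι → ℝ, (∀ k, x (τ k) = x k) → (∀ k, y (τ k) = -y k) →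
      ∑ k, x k * y k = 0 := fun x y hx hy =>
    sum_odd hτ _ fun k => by rw [hx, hy]; ring
  have hpq := orth p q pe qo
  have hlam : ∑ k, v (π k) * v (π (τ k)) = ∑ k, p k ^ 2 - ∑ k, q k ^ 2 := by
    rw [← sum_sub_distrib]
    exact sum_congr rfl fun k _ => by rw [hp, hq]; ring
  have hW : v ⬝ᵥ v = ∑ u, v u ^ 2 := sum_congr rfl fun u _ => (sq _).symm
  have hsum : ∑ k, p k ^ 2 + ∑ k, q k ^ 2 = d * ∑ u, v u ^ 2 := by
    rw [← sum_fib π d hd fun u => v u ^ 2]
    have : ∑ k, v (π k) ^ 2 = ∑ k, (p k ^ 2 + q k ^ 2 + 2 * (p k * q k)) :=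
      sum_congr rfl fun k _ => by rw [hf]; ring
    rw [this, sum_add_distrib, sum_add_distrib, ← mul_sum, hpq]
    ring
  have hq0 : ∑ k, q k = 0 := sum_odd hτ q qo
  have hp0 : ∑ k, p k = 0 := by
    have h := sum_fib π d hd v
    simp only [hf, sum_add_distrib, hq0, hv] at h
    linarith
  have hX : (κ * d + (1 - κ ^ 2) / a) * ∑ u, v u ^ 2 =
      κ * (∑ k, p k ^ 2 + ∑ k, q k ^ 2) + (1 - κ ^ 2) / a * ∑ u, v u ^ 2 := by
    rw [hsum]
    ring
  have hP0 : 0 ≤ ∑ k, p k ^ 2 := sum_nonneg fun _ _ => sq_nonneg _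
  have hQ0 : 0 ≤ ∑ k, q k ^ 2 := sum_nonneg fun _ _ => sq_nonneg _
  have hX0 : 0 ≤ κ * (∑ k, p k ^ 2 + ∑ k, q k ^ 2) + (1 - κ ^ 2) / a * ∑ u, v u ^ 2 := by
    have h1 : 0 ≤ 1 - κ ^ 2 := by nlinarith
    have h2 : 0 ≤ ∑ u, v u ^ 2 := sum_nonneg fun _ _ => sq_nonneg _
    positivity
  have sq_add : ∀ x y : ι → ℝ, ∑ k, x k * y k = 0 →
      ∑ k, (x + y) k ^ 2 = ∑ k, x k ^ 2 + ∑ k, y k ^ 2 := by
    intro x y h
    have : ∑ k, (x + y) k ^ 2 = ∑ k, (x k ^ 2 + y k ^ 2 + 2 * (x k * y k)) :=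
      sum_congr rfl fun k _ => by rw [Pi.add_apply]; ring
    rw [this, sum_add_distrib, sum_add_distrib, ← mul_sum, h]
    ring
  rw [hlam, hW, hX, abs_le]
  constructor
  · by_cases h0 : q = 0
    · have : ∑ k, q k ^ 2 = 0 := by simp [h0]
      linarith
    obtain ⟨r, _, re, hr⟩ := hN q (fun k hk => absurd (mem_univ k) hk) qo h0
    have hne : Nonempty ι := by
      by_contra hne
      exact h0 (funext fun k => absurd ⟨k⟩ hne)
    have hm : (Fintype.card ι : ℝ) ≠ 0 := by exact_mod_cast Fintype.card_ne_zero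
    obtain ⟨c, hc⟩ : ∃ c : ℝ, c = (∑ k, r k) / Fintype.card ι := ⟨_, rfl⟩
    obtain ⟨o, ho⟩ : ∃ o : ι → ℝ, ∀ k, o k = r k - c := ⟨_, fun _ => rfl⟩
    have oe : ∀ k, o (τ k) = o k := fun k => by rw [ho, ho, re]
    have ho0 : ∑ k, o k = 0 := by
      simp only [ho, sum_sub_distrib, sum_const, card_univ, nsmul_eq_mul]
      rw [hc]
      field_simp
      ring
    have e : q + r = fun k => (q + o) k + c := funext fun k => by
      rw [Pi.add_apply, Pi.add_apply, ho]; ring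
    rw [e, form_const hτ _ (B0_symm π d a κ) (B0_rows π d hd a κ)] at hr
    have hqo : ∑ k, q k * o k = 0 := by
      rw [← orth o q oe qo]
      exact sum_congr rfl fun k _ => mul_comm _ _
    have hqp : ∑ k, q k * p k = 0 := by
      rw [← hpq]
      exact sum_congr rfl fun k _ => mul_comm _ _
    have h1 : ∑ k, (q + o) k * (q + o) (τ k) = ∑ k, o k ^ 2 - ∑ k, q k ^ 2 := by
      rw [← sum_sub_distrib]
      exact sum_congr rfl fun k _ => by rw [Pi.add_apply, Pi.add_apply, oe, qo]; ring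
    unfold form at hr
    rw [h1, qf_B0 π d a κ _ (by simp only [Pi.add_apply, sum_add_distrib, hq0, ho0, add_zero]),
      sq_add q o hqo] at hr
    have h2 := core π a κ ha hκ hκ1 v q p o (fun k => by rw [hf, add_comm]) hqp hqo
      (by linarith)
    linarith
  · by_cases h0 : ∃ c, ∀ k ∈ (univ : Finset ι), p k = c
    · obtain ⟨c, hc⟩ := h0
      have h1 : ∑ k, p k ^ 2 = c * ∑ k, p k := by
        rw [mul_sum]
        exact sum_congr rfl fun k hk => by rw [hc k hk, sq]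
      rw [hp0] at h1
      linarith
    obtain ⟨o, _, oo, hr⟩ := hP p (fun k hk => absurd (mem_univ k) hk) pe h0
    have hpo := orth p o pe oo
    have ho0 : ∑ k, o k = 0 := sum_odd hτ o oo
    have h1 : ∑ k, (p + o) k * (p + o) (τ k) = ∑ k, p k ^ 2 - ∑ k, o k ^ 2 := by
      rw [← sum_sub_distrib]
      exact sum_congr rfl fun k _ => by rw [Pi.add_apply, Pi.add_apply, pe, oo]; ring
    unfold form at hr
    rw [h1, qf_A0 π d a κ _ (by simp only [Pi.add_apply, sum_add_distrib, hp0, ho0, add_zero]),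
      sq_add p o hpo] at hr
    exact (core π a κ ha hκ hκ1 v p q o hf hpq hpo (by linarith)).le

end Vale.Agent.P049
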