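import Vale.Agent.P049.Alg

/-! From a complete pairing to a regular graph. -/

namespace Vale.Agent.P049

open Matrix Finset

namespace Graph

variable {d m0 : ℕ} {P : Prs}

/-- The half-edges `i` and `j` are paired. -/
def Rl (P : Prs) (i j : ℕ) : Prop := (i, j) ∈ P ∨ (j, i) ∈ P

/-- Two pairs share no half-edge and give different edges. -/
def Sp (d : ℕ) (p q : ℕ × ℕ) : Prop :=
  (p.1 ≠ q.1 ∧ p.1 ≠ q.2) ∧ (p.2 ≠ q.1 ∧ p.2 ≠ q.2) ∧
    ¬ ((q.1 / d = p.1 / d ∧ q.2 / d = p.2 / d) ∨ (q.1 / d = p.2 / d ∧ q.2 / d = p.1 / d))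

theorem Sp.symm {p q : ℕ × ℕ} (h : Sp d p q) : Sp d q p :=
  ⟨⟨h.1.1.symm, h.2.1.1.symm⟩, ⟨h.1.2.symm, h.2.1.2.symm⟩, fun e => h.2.2
    (e.elim (fun e => Or.inl ⟨e.1.symm, e.2.symm⟩) fun e => Or.inr ⟨e.2.symm, e.1.symm⟩)⟩

theorem adj_iff {u v : ℕ} : adj d P u v = true ↔
    ∃ p ∈ P, (p.1 / d = u ∧ p.2 / d = v) ∨ (p.1 / d = v ∧ p.2 / d = u) := by
  simp only [adj, List.any_eq_true, decide_eq_true_eq]

theorem fr_iff {k : ℕ} : fr P k = true ↔ ∀ p ∈ P, k ≠ p.1 ∧ k ≠ p.2 := by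
  simp only [fr, List.all_eq_true, decide_eq_true_eq]

theorem valid_spec : ∀ {P : Prs}, Valid d m0 P →
    (∀ p ∈ P, p.1 < m0 ∧ p.2 < m0 ∧ p.1 / d ≠ p.2 / d) ∧ ∀ p ∈ P, ∀ q ∈ P, p = q ∨ Sp d p q
  | [], _ => ⟨fun _ h => absurd h List.not_mem_nil, fun _ h => absurd h List.not_mem_nil⟩
  | x :: P, ⟨hV, h1, h2, h3, h4, h5⟩ => by
    obtain ⟨ih1, ih2⟩ := valid_spec hV
    rw [okp, decide_eq_true_eq] at h5
    have key : ∀ q ∈ P, Sp d x q := fun q hq => ⟨fr_iff.1 h3 q hq, fr_iff.1 h4 q hq, fun e => by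
      have := adj_iff.2 ⟨q, hq, e⟩
      rw [h5.2] at this
      exact Bool.false_ne_true this⟩
    refine ⟨fun p hp => ?_, fun p hp q hq => ?_⟩
    · rcases List.mem_cons.1 hp with rfl | hp
      · exact ⟨h1, h2, h5.1⟩
      · exact ih1 p hp
    · rcases List.mem_cons.1 hp with e | hp <;> rcases List.mem_cons.1 hq with e' | hq
      · exact Or.inl (e.trans e'.symm)
      · exact Or.inr (e ▸ key q hq)
      · exact Or.inr (e' ▸ (key p hp).symm)
      · exact ih2 p hp q hq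

theorem Rl.symm {i j : ℕ} (h : Rl P i j) : Rl P j i := Or.symm h

theorem Rl.lt (hV : Valid d m0 P) {i j : ℕ} (h : Rl P i j) : j < m0 ∧ i / d ≠ j / d := by
  rcases h with h | h
  · exact ((valid_spec hV).1 _ h).2
  · exact ⟨((valid_spec hV).1 _ h).1, ((valid_spec hV).1 _ h).2.2.symm⟩

theorem Rl.unique (hV : Valid d m0 P) {i j j' : ℕ} (h : Rl P i j) (h' : Rl P i j') : j = j' := by
  have h0 := (h.lt hV).2
  rcases h with h | h <;> rcases h' with h' | h' <;>
    rcases (valid_spec hV).2 _ h _ h' with e | e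
  · exact (Prod.mk.inj e).2
  · exact absurd rfl e.1.1
  · exact (Prod.mk.inj e).2.trans (Prod.mk.inj e).1
  · exact absurd rfl e.1.2
  · exact (Prod.mk.inj e).1.trans (Prod.mk.inj e).2
  · exact absurd rfl e.2.1.1
  · exact (Prod.mk.inj e).1
  · exact absurd rfl e.2.1.2

theorem Rl.inj (hV : Valid d m0 P) {i j i' j' : ℕ} (h : Rl P i j) (h' : Rl P i' j')
    (e1 : i / d = i' / d) (e2 : j / d = j' / d) : i = i' := by
  have h0 := (h.lt hV).2
  rcases h with h | h <;> rcases h' with h' | h' <;>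
    rcases (valid_spec hV).2 _ h _ h' with e | e
  · exact (Prod.mk.inj e).1
  · exact absurd (Or.inl ⟨e1.symm, e2.symm⟩) e.2.2
  · exact absurd (e1.trans (congrArg (· / d) (Prod.mk.inj e).2.symm)) h0
  · exact absurd (Or.inr ⟨e2.symm, e1.symm⟩) e.2.2
  · exact absurd (e1.trans (congrArg (· / d) (Prod.mk.inj e).1.symm)) h0
  · exact absurd (Or.inr ⟨e1.symm, e2.symm⟩) e.2.2
  · exact (Prod.mk.inj e).2
  · exact absurd (Or.inl ⟨e2.symm, e1.symm⟩) e.2.2

theorem exists_rl {k : ℕ} (h : fr P k = false) : ∃ j, Rl P k j := by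
  by_contra hn
  have : fr P k = true := fr_iff.2 fun p hp =>
    ⟨fun e => hn ⟨p.2, Or.inl (e ▸ hp)⟩, fun e => hn ⟨p.1, Or.inr (e ▸ hp)⟩⟩
  rw [h] at this
  exact Bool.false_ne_true this

theorem adj_rl {u v : ℕ} : adj d P u v = true ↔ ∃ i j, Rl P i j ∧ i / d = u ∧ j / d = v := by
  rw [adj_iff]
  constructor
  · rintro ⟨p, hp, h | h⟩
    · exact ⟨p.1, p.2, Or.inl hp, h⟩
    · exact ⟨p.2, p.1, Or.inr hp, h.2, h.1⟩
  · rintro ⟨i, j, h | h, h1, h2⟩
    · exact ⟨_, h, Or.inl ⟨h1, h2⟩⟩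
    · exact ⟨_, h, Or.inr ⟨h2, h1⟩⟩

theorem card_fibre {n : ℕ} (u : Fin n) :
    (univ.filter fun k : Fin (n * d) => k.divNat = u).card = d := by
  refine (card_bij (s := (univ : Finset (Fin d))) (fun j _ => finProdFinEquiv (u, j))
    (fun j _ => ?_) (fun j _ j' _ e => ?_)
    fun k hk => ⟨k.modNat, mem_univ _, ?_⟩).symm.trans (card_fin d)
  · exact mem_filter.2 ⟨mem_univ _, congrArg Prod.fst (finProdFinEquiv.symm_apply_apply (u, j))⟩
  · exact (Prod.mk.inj (finProdFinEquiv.injective e)).2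
  · rw [← (mem_filter.1 hk).2]
    exact finProdFinEquiv.apply_symm_apply k

end Graph

open Vale.Agent.P049.Graph in
theorem graphS : GraphS := by
  intro d n P _ hV hfull
  choose f hf using fun k : Fin (n * d) => exists_rl (hfull k k.2)
  let τ : Fin (n * d) → Fin (n * d) := fun k => ⟨f k, ((hf k).lt hV).1⟩
  let G : SimpleGraph (Fin n) := ⟨fun u v => adj d P u v = true,
    ⟨fun u v h => by
      obtain ⟨i, j, h, h1, h2⟩ := adj_rl.1 h
      exact adj_rl.2 ⟨j, i, h.symm, h2, h1⟩⟩,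
    ⟨fun u h => by
      obtain ⟨i, j, h, h1, h2⟩ := adj_rl.1 h
      exact (h.lt hV).2 (h1.trans h2.symm)⟩⟩
  let inst : DecidableRel G.Adj := fun u v => inferInstanceAs (Decidable (adj d P u v = true))
  have hN : ∀ u, G.neighborFinset u =
      (univ.filter fun k : Fin (n * d) => k.divNat = u).image fun k => (τ k).divNat := fun u => by
    ext v
    rw [SimpleGraph.mem_neighborFinset, mem_image]
    refine adj_rl.trans ⟨?_, ?_⟩
    · rintro ⟨i, j, h, h1, h2⟩
      refine ⟨⟨i, (h.symm.lt hV).1⟩, mem_filter.2 ⟨mem_univ _, Fin.ext h1⟩, Fin.ext ?_⟩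
      exact (congrArg (· / d) (h.unique hV (hf ⟨i, (h.symm.lt hV).1⟩))).symm.trans h2
    · rintro ⟨k, hk, e⟩
      exact ⟨k, f k, hf k, congrArg Fin.val (mem_filter.1 hk).2, congrArg Fin.val e⟩
  have hI : ∀ u, Set.InjOn (fun k => (τ k).divNat)
      (univ.filter fun k : Fin (n * d) => k.divNat = u) := fun u k hk k' hk' e =>
    Fin.ext ((hf k).inj hV (hf k') (congrArg Fin.val
      ((mem_filter.1 (mem_coe.1 hk)).2.trans (mem_filter.1 (mem_coe.1 hk')).2.symm))
      (congrArg Fin.val e))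
  refine ⟨τ, Fin.divNat, G, inst, fun k => Fin.ext ((hf (τ k)).unique hV (hf k).symm),
    fun i j h => Fin.ext ((hf i).unique hV (Or.inl h)), fun _ => rfl, card_fibre, fun u => ?_, ?_,
    fun v => ?_⟩
  · rw [← SimpleGraph.card_neighborFinset_eq_degree, hN, card_image_of_injOn (hI u), card_fibre]
  · rw [code, ← List.map_coe_finRange_eq_range, List.flatMap_map]
    refine congrArg (fun g => List.flatMap g _) (funext fun u => ?_)
    rw [List.map_map]
    exact congrArg (fun g => List.map g _) (funext fun v => (Bool.decide_eq_true).symm)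
  · rw [← sum_fiberwise univ Fin.divNat, dotProduct]
    refine sum_congr rfl fun u _ => ?_
    rw [SimpleGraph.adjMatrix_mulVec_apply, hN, sum_image (hI u), mul_sum]
    exact sum_congr rfl fun k hk => by rw [(mem_filter.1 hk).2]

end Vale.Agent.P049
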