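import Vale.Agent.P049.IdentB

/-! Exact identities for the rank two Schur update. -/

namespace Vale.Agent.P049

open Matrix Finset

namespace Ident

variable {ι : Type} [Fintype ι] [DecidableEq ι]

omit [DecidableEq ι] in
theorem tr_low2 (Z : Mat ι) (V : Matrix ι (Fin 2) ℝ) (S : Matrix (Fin 2) ι ℝ) :
    trace ((Z + V * S) * (Z + V * S)) =
      trace (Z * Z) + 2 * trace (S * (Z * V)) + trace (S * V * (S * V)) := by
  have h1 : trace (Z * (V * S)) = trace (S * (Z * V)) := by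
    rw [← Matrix.mul_assoc, trace_mul_comm]
  have h2 : trace (V * S * Z) = trace (S * (Z * V)) := by
    rw [trace_mul_comm, h1]
  have h3 : trace (V * S * (V * S)) = trace (S * V * (S * V)) := by
    rw [Matrix.mul_assoc, trace_mul_comm]
    simp only [Matrix.mul_assoc]
  simp only [Matrix.add_mul, Matrix.mul_add, trace_add, h1, h2, h3]
  ring

omit [DecidableEq ι] in
theorem tr_ring3 (Z Y : Mat ι) : trace ((Z + Y) * (Z + Y) * (Z + Y)) =
    trace (Z * Z * Z) + 3 * trace (Z * Z * Y) + 3 * trace (Z * Y * Y) + trace (Y * Y * Y) := by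
  have h1 : trace (Z * Y * Z) = trace (Z * Z * Y) := by
    rw [trace_mul_comm, Matrix.mul_assoc]
  have h2 : trace (Y * Z * Z) = trace (Z * Z * Y) := by
    rw [Matrix.mul_assoc, trace_mul_comm]
  have h3 : trace (Y * Z * Y) = trace (Z * Y * Y) := by
    rw [Matrix.mul_assoc, trace_mul_comm]
  have h4 : trace (Y * Y * Z) = trace (Z * Y * Y) := by
    rw [trace_mul_comm, Matrix.mul_assoc]
  simp only [Matrix.add_mul, Matrix.mul_add, trace_add, h1, h2, h3, h4]
  ring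

omit [DecidableEq ι] in
theorem tr_low3 (Z : Mat ι) (V : Matrix ι (Fin 2) ℝ) (S : Matrix (Fin 2) ι ℝ) :
    trace ((Z + V * S) * (Z + V * S) * (Z + V * S)) =
      trace (Z * Z * Z) + 3 * trace (S * (Z * Z * V)) + 3 * trace (S * (Z * V) * (S * V)) +
        trace (S * V * (S * V) * (S * V)) := by
  have h1 : trace (Z * Z * (V * S)) = trace (S * (Z * Z * V)) := by
    rw [← Matrix.mul_assoc, trace_mul_comm]
  have h2 : trace (Z * (V * S) * (V * S)) = trace (S * (Z * V) * (S * V)) := by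
    rw [← Matrix.mul_assoc, trace_mul_comm]
    simp only [Matrix.mul_assoc]
  have h3 : trace (V * S * (V * S) * (V * S)) = trace (S * V * (S * V) * (S * V)) := by
    rw [← Matrix.mul_assoc, trace_mul_comm]
    simp only [Matrix.mul_assoc]
  rw [tr_ring3, h1, h2, h3]

theorem ZG_eq (Z : Mat ι) (i j : ι) : Z * Gm Z i j =
    Z + (Z * (Em i j * Tm Z i j)) * ((Em i j)ᵀ * Z - Jm * (Em i j)ᵀ) := by
  rw [Gm, Matrix.mul_add, Matrix.mul_one]
  simp only [Matrix.mul_assoc]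

theorem SWV (Z W : Mat ι) (i j : ι) :
    ((Em i j)ᵀ * Z - Jm * (Em i j)ᵀ) * (W * (Z * (Em i j * Tm Z i j))) =
      (blk (Z * W * Z) i j - Jm * blk (W * Z) i j) * Tm Z i j := by
  rw [← blk_eq, ← blk_eq]
  simp only [Matrix.sub_mul, Matrix.mul_assoc]

theorem SV {Z : Mat ι} (hZ : Z.IsSymm) {i j : ι} (hρ : rho Z i j ≠ 0) :
    ((Em i j)ᵀ * Z - Jm * (Em i j)ᵀ) * (Z * (Em i j * Tm Z i j)) =
      blk (Z * Z) i j * Tm Z i j - Tm Z i j + Jm := by
  have := SWV Z 1 i j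
  rw [Matrix.one_mul, Matrix.mul_one, Matrix.one_mul] at this
  rw [this, Matrix.sub_mul, Matrix.mul_assoc, NT hZ hρ, Matrix.mul_sub, ← Matrix.mul_assoc, JJ,
    Matrix.one_mul, Matrix.mul_one]
  abel

theorem sum_ite2 {i j : ι} (h : i ≠ j) (f : ι → ℝ) :
    ∑ l, (if l = i ∨ l = j then 0 else f l) = ∑ l, f l - f i - f j := by
  have : ∀ l, (if l = i ∨ l = j then 0 else f l) =
      f l - (if l = i then f l else 0) - (if l = j then f l else 0) := by
    intro l
    by_cases h1 : l = i <;> by_cases h2 : l = j <;> simp_all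
  simp [this, Finset.sum_sub_distrib]

theorem rr_upd {Z : Mat ι} (hZ : Z.IsSymm) {i j : ι} (h : i ≠ j) (hρ : rho Z i j ≠ 0) {k : ι}
    (hi : k ≠ i) (hj : k ≠ j) : rr (upd Z i j) k = rr Z k + db1 Z i j k +
      (rr Z i - 1) * ze1 Z i j k ^ 2 + (rr Z j - 1) * ze2 Z i j k ^ 2 +
      2 * (Z * Z) i j * (ze1 Z i j k * ze2 Z i j k) := by
  have h1 : rho Z i j = (1 - Z i j) ^ 2 - Z i i * Z j j := rfl
  have e : ∀ l, upd Z i j k l * upd Z i j l k = if l = i ∨ l = j then 0 else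
      (Z k l + ze1 Z i j k * Z l i + ze2 Z i j k * Z l j) ^ 2 := by
    intro l
    rw [(upd_symm hZ i j).apply k l]
    simp only [upd]
    by_cases h2 : l = i ∨ l = j
    · rw [if_pos (by tauto), if_pos h2, mul_zero]
    · rw [if_neg (by tauto), if_neg h2, ze1, ze2]
      ring
  have ei : Z k i + ze1 Z i j k * Z i i + ze2 Z i j k * Z i j = ze2 Z i j k := by
    simp only [ze1, ze2, t11, t12, t22]
    field_simp
    linear_combination Z k i * h1
  have ej : Z k j + ze1 Z i j k * Z j i + ze2 Z i j k * Z j j = ze1 Z i j k := by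
    rw [hZ.apply i j]
    simp only [ze1, ze2, t11, t12, t22]
    field_simp
    linear_combination Z k j * h1
  have es : ∀ l, (Z k l + ze1 Z i j k * Z l i + ze2 Z i j k * Z l j) ^ 2 =
      Z k l * Z l k + 2 * (ze1 Z i j k * (Z k l * Z l i) + ze2 Z i j k * (Z k l * Z l j)) +
        Z i l * Z l i * ze1 Z i j k ^ 2 + Z j l * Z l j * ze2 Z i j k ^ 2 +
        2 * (Z i l * Z l j) * (ze1 Z i j k * ze2 Z i j k) := by
    intro l
    rw [hZ.apply k l, hZ.apply l i, hZ.apply l j]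
    ring
  rw [rr, Matrix.mul_apply, Finset.sum_congr rfl fun l _ => e l, sum_ite2 h, ei, ej,
    Finset.sum_congr rfl fun l _ => es l]
  simp only [rr, db1, Matrix.mul_apply, Finset.sum_add_distrib, ← Finset.mul_sum,
    ← Finset.sum_mul]
  ring

omit [Fintype ι] [DecidableEq ι] in
theorem T_ent (Z : Mat ι) (i j : ι) : Tm Z i j 0 0 = t11 Z i j ∧ Tm Z i j 0 1 = t12 Z i j ∧
    Tm Z i j 1 0 = t12 Z i j ∧ Tm Z i j 1 1 = t22 Z i j := ⟨rfl, rfl, rfl, rfl⟩

theorem J_ent : Jm 0 0 = 0 ∧ Jm 0 1 = 1 ∧ Jm 1 0 = 1 ∧ Jm 1 1 = 0 := ⟨rfl, rfl, rfl, rfl⟩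

theorem one_ent : (1 : M2) 0 0 = 1 ∧ (1 : M2) 0 1 = 0 ∧ (1 : M2) 1 0 = 0 ∧ (1 : M2) 1 1 = 1 :=
  ⟨rfl, rfl, rfl, rfl⟩

end Ident

open Ident in
theorem ident : IdentS := by
  intro ι _ _ Z i j hZ h hρ
  have hWP : Z * Gm Z i j * Pm i j = Z * Gm Z i j := by rw [Matrix.mul_assoc, GP hZ h hρ]
  have hWP' : ∀ X : Mat ι, Z * Gm Z i j * (Pm i j * X) = Z * Gm Z i j * X := fun X => by
    rw [← Matrix.mul_assoc, hWP]
  have h3 := SWV Z Z i j
  have h4 := SWV Z (Z * Z) i j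
  rw [← Matrix.mul_assoc Z Z Z] at h4
  refine ⟨?_, ?_, ?_, fun k hi hj => rr_upd hZ h hρ hi hj, ?_, ?_⟩
  · rw [T1, T1, upd_eq' hZ h hρ, trace_mul_comm, hWP, ZG_eq, trace_add, trace_mul_comm,
      SV hZ hρ, trT_eq, blk_sub, blk_one h]
    generalize blk (Z * Z) i j = N2
    simp only [trace_fin_two, Matrix.mul_apply, Fin.sum_univ_two, Matrix.sub_apply,
      Matrix.add_apply, T_ent, J_ent, one_ent]
    ring
  · have e : T2 (upd Z i j) = trace (Z * Gm Z i j * (Z * Gm Z i j)) := by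
      rw [T2, upd_eq' hZ h hρ, Matrix.mul_assoc, hWP', trace_mul_comm, Matrix.mul_assoc, hWP]
    rw [e, T2, ZG_eq, tr_low2, SV hZ hρ, h3, trT_eq, trTT, trTT, blk_one h]
    generalize blk (Z * Z) i j = N2
    generalize blk (Z * Z * Z) i j = N3
    simp only [trace_fin_two, Matrix.mul_apply, Fin.sum_univ_two, Matrix.sub_apply,
      Matrix.add_apply, T_ent, J_ent, one_ent]
    ring
  · have e : T3 (upd Z i j) = trace (Z * Gm Z i j * (Z * Gm Z i j) * (Z * Gm Z i j)) := by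
      rw [T3, upd_eq' hZ h hρ, Matrix.mul_assoc, Matrix.mul_assoc, Matrix.mul_assoc (Pm i j),
        hWP', hWP', trace_mul_comm, Matrix.mul_assoc, Matrix.mul_assoc _ _ (Pm i j), hWP]
      simp only [Matrix.mul_assoc]
    rw [e, T3, ZG_eq, tr_low3, SV hZ hρ, h3, h4, trT_eq, trTT, blk_sub, blk_sub, blk_sub,
      blk_one h, Matrix.mul_sub (Tm Z i j) _ (blk Z i j), TN hZ hρ]
    generalize blk (Z * Z) i j = N2
    generalize blk (Z * Z * Z) i j = N3
    generalize blk (Z * Z * Z * Z) i j = N4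
    simp only [pow_three, trace_fin_two, Matrix.mul_apply, Fin.sum_univ_two, Matrix.sub_apply,
      Matrix.add_apply, T_ent, J_ent, one_ent]
    ring
  · simp [rr, Matrix.mul_apply, upd]
  · simp [rr, Matrix.mul_apply, upd]

end Vale.Agent.P049
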