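import Vale.Agent.P049.Stmts

/-! Matrix form of the rank two Schur update. -/

namespace Vale.Agent.P049.Ident

open Matrix Finset

variable {ι : Type} [Fintype ι] [DecidableEq ι]

abbrev M2 := Matrix (Fin 2) (Fin 2) ℝ

def Em (i j : ι) : Matrix ι (Fin 2) ℝ := Matrix.of fun k s => if k = ![i, j] s then 1 else 0

def Jm : M2 := !![0, 1; 1, 0]

def Pm (i j : ι) : Mat ι := 1 - Em i j * (Em i j)ᵀ

noncomputable def Km (Z : Mat ι) (i j : ι) : Mat ι := 1 + Em i j * (Tm Z i j * ((Em i j)ᵀ * Z))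

noncomputable def Gm (Z : Mat ι) (i j : ι) : Mat ι :=
  1 + Em i j * (Tm Z i j * ((Em i j)ᵀ * Z - Jm * (Em i j)ᵀ))

theorem mul_Em {m : Type} (N : Matrix m ι ℝ) (i j : ι) (k : m) (s : Fin 2) :
    (N * Em i j) k s = N k (![i, j] s) := by
  simp [mul_apply, Em]

theorem Em_mul {m : Type} (N : Matrix ι m ℝ) (i j : ι) (s : Fin 2) (k : m) :
    ((Em i j)ᵀ * N) s k = N (![i, j] s) k := by
  simp [mul_apply, Em]

theorem blk_eq (N : Mat ι) (i j : ι) : (Em i j)ᵀ * (N * Em i j) = blk N i j := by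
  ext p s
  rw [Em_mul, mul_Em]
  fin_cases p <;> fin_cases s <;> simp [blk]

omit [Fintype ι] in
theorem blk_one {i j : ι} (h : i ≠ j) : blk (1 : Mat ι) i j = 1 := by
  ext p s
  fin_cases p <;> fin_cases s <;> simp [blk, h, h.symm]

theorem EtE {i j : ι} (h : i ≠ j) : (Em i j)ᵀ * Em i j = 1 := by
  rw [← blk_one h, ← blk_eq, Matrix.one_mul]

omit [Fintype ι] [DecidableEq ι] in
theorem blk_sub (N N' : Mat ι) (i j : ι) : blk (N - N') i j = blk N i j - blk N' i j := by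
  ext p s
  fin_cases p <;> fin_cases s <;> simp [blk]

omit [Fintype ι] [DecidableEq ι] in
theorem blk_tr (N : Mat ι) (i j : ι) : (blk N i j)ᵀ = blk Nᵀ i j := by
  ext p s
  fin_cases p <;> fin_cases s <;> simp [blk]

theorem JJ : Jm * Jm = 1 := by
  ext p s
  fin_cases p <;> fin_cases s <;> simp [Jm]

theorem Jt : Jmᵀ = Jm := by
  ext p s
  fin_cases p <;> fin_cases s <;> simp [Jm]

omit [Fintype ι] [DecidableEq ι] in
theorem Tt (Z : Mat ι) (i j : ι) : (Tm Z i j)ᵀ = Tm Z i j := by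
  ext p s
  fin_cases p <;> fin_cases s <;> simp [Tm]

omit [Fintype ι] [DecidableEq ι] in
theorem TN {Z : Mat ι} (hZ : Z.IsSymm) {i j : ι} (hρ : rho Z i j ≠ 0) :
    Tm Z i j * blk Z i j = Tm Z i j * Jm - 1 := by
  have h := hZ.apply i j
  have h1 : rho Z i j = (1 - Z i j) ^ 2 - Z i i * Z j j := rfl
  ext p s
  fin_cases p <;> fin_cases s <;> simp [Tm, blk, Jm, t11, t12, t22, h] <;> field_simp <;>
    first | ring1 | linear_combination h1

omit [Fintype ι] [DecidableEq ι] in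
theorem NT {Z : Mat ι} (hZ : Z.IsSymm) {i j : ι} (hρ : rho Z i j ≠ 0) :
    blk Z i j * Tm Z i j = Jm * Tm Z i j - 1 := by
  have := congrArg transpose (TN hZ hρ)
  rwa [transpose_mul, transpose_sub, transpose_mul, Tt, Jt, blk_tr, hZ.eq, transpose_one] at this

omit [Fintype ι] [DecidableEq ι] in
theorem trT_eq (Z N : Mat ι) (i j : ι) : trT Z N i j = trace (Tm Z i j * blk N i j) := by
  simp [trT, Tm, blk, trace_fin_two]
  ring

omit [Fintype ι] in
theorem Pm_eq {i j : ι} (h : i ≠ j) :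
    Pm i j = diagonal (fun k => if k = i ∨ k = j then (0 : ℝ) else 1) := by
  ext k l
  simp only [Pm, Matrix.sub_apply, Matrix.mul_apply, Fin.sum_univ_two, transpose_apply, Em,
    Matrix.one_apply, Matrix.of_apply,
    diagonal_apply, Matrix.cons_val_zero, Matrix.cons_val_one]
  by_cases h1 : k = i <;> by_cases h2 : k = j <;> by_cases h3 : l = i <;> by_cases h4 : l = j <;>
    by_cases h5 : k = l <;> simp_all

omit [Fintype ι] in
theorem Pt (i j : ι) : (Pm i j)ᵀ = Pm i j := by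
  simp [Pm, transpose_sub, transpose_mul]

theorem PP {i j : ι} (h : i ≠ j) : Pm i j * Pm i j = Pm i j := by
  rw [Pm_eq h, diagonal_mul_diagonal]
  congr 1
  funext k
  split_ifs <;> simp

theorem upd_eq {Z : Mat ι} (hZ : Z.IsSymm) {i j : ι} (h : i ≠ j) :
    upd Z i j = Pm i j * (Z * Km Z i j) * Pm i j := by
  ext k l
  rw [Pm_eq h, mul_diagonal, diagonal_mul, Km, Matrix.mul_add, Matrix.mul_one, ← Matrix.mul_assoc,
    Matrix.add_apply, Matrix.mul_apply]
  simp only [Fin.sum_univ_two, mul_Em, Matrix.mul_apply (M := Tm Z i j), Em_mul, upd]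
  have h1 := hZ.apply i l
  have h2 := hZ.apply j l
  by_cases h3 : k = i ∨ k = j
  · rw [if_pos (by tauto), if_pos h3]
    simp
  · by_cases h4 : l = i ∨ l = j
    · rw [if_pos (by tauto), if_pos h4]
      simp
    · rw [if_neg (by tauto), if_neg h3, if_neg h4]
      simp [Tm, h1, h2]
      ring

theorem KE {Z : Mat ι} (hZ : Z.IsSymm) {i j : ι} (hρ : rho Z i j ≠ 0) :
    Km Z i j * Em i j = Em i j * (Tm Z i j * Jm) := by
  rw [Km, Matrix.add_mul, Matrix.one_mul, Matrix.mul_assoc, Matrix.mul_assoc, Matrix.mul_assoc,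
    blk_eq, TN hZ hρ, Matrix.mul_sub, Matrix.mul_one]
  abel

theorem KP {Z : Mat ι} (hZ : Z.IsSymm) {i j : ι} (hρ : rho Z i j ≠ 0) :
    Km Z i j * Pm i j = Gm Z i j := by
  rw [Pm, Matrix.mul_sub, Matrix.mul_one, ← Matrix.mul_assoc, KE hZ hρ, Km, Gm]
  simp only [Matrix.mul_sub, Matrix.mul_assoc]
  abel

theorem GP {Z : Mat ι} (hZ : Z.IsSymm) {i j : ι} (h : i ≠ j) (hρ : rho Z i j ≠ 0) :
    Gm Z i j * Pm i j = Gm Z i j := by
  rw [← KP hZ hρ, Matrix.mul_assoc, PP h]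

theorem upd_eq' {Z : Mat ι} (hZ : Z.IsSymm) {i j : ι} (h : i ≠ j) (hρ : rho Z i j ≠ 0) :
    upd Z i j = Pm i j * (Z * Gm Z i j) := by
  rw [upd_eq hZ h, ← KP hZ hρ]
  simp only [Matrix.mul_assoc]

theorem EZK {Z : Mat ι} (hZ : Z.IsSymm) {i j : ι} (hρ : rho Z i j ≠ 0) :
    (Em i j)ᵀ * (Z * Km Z i j) = Jm * (Tm Z i j * ((Em i j)ᵀ * Z)) := by
  have : (Em i j)ᵀ * (Z * (Em i j * (Tm Z i j * ((Em i j)ᵀ * Z)))) =
      blk Z i j * Tm Z i j * ((Em i j)ᵀ * Z) := by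
    rw [← blk_eq]
    simp only [Matrix.mul_assoc]
  rw [Km, Matrix.mul_add, Matrix.mul_one, Matrix.mul_add, this, NT hZ hρ, Matrix.sub_mul,
    Matrix.one_mul, Matrix.mul_assoc]
  abel

omit [Fintype ι] in
theorem upd_symm {Z : Mat ι} (hZ : Z.IsSymm) (i j : ι) : (upd Z i j).IsSymm := by
  refine IsSymm.ext fun k l => ?_
  simp only [upd]
  by_cases h : k = i ∨ k = j ∨ l = i ∨ l = j
  · rw [if_pos (by tauto), if_pos h]
  · rw [if_neg (by tauto), if_neg h, hZ.apply k l]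
    ring

end Vale.Agent.P049.Ident
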