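import Vale.Agent.P049.IdentM1
import Vale.Agent.P049.Avg

/-! The mixed fourth moment after the update: main terms and remainder. -/

namespace Vale.Agent.P049

open Matrix Finset

namespace Ident

/-- Entrywise bound. -/
def Bd (M : M2) (c : ℝ) : Prop := ∀ p s, |M p s| ≤ c

theorem Bd.nonneg {M : M2} {c : ℝ} (h : Bd M c) : 0 ≤ c := (abs_nonneg _).trans (h 0 0)

theorem Bd.mono {M : M2} {c d : ℝ} (h : Bd M c) (hd : c ≤ d) : Bd M d :=
  fun p s => (h p s).trans hd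

theorem Bd.mul {M N : M2} {c d : ℝ} (h : Bd M c) (h' : Bd N d) : Bd (M * N) (2 * (c * d)) := by
  intro p s
  rw [Matrix.mul_apply, Fin.sum_univ_two]
  refine (abs_add_le _ _).trans ?_
  rw [abs_mul, abs_mul, two_mul]
  exact add_le_add (mul_le_mul (h _ _) (h' _ _) (abs_nonneg _) h.nonneg)
    (mul_le_mul (h _ _) (h' _ _) (abs_nonneg _) h.nonneg)

theorem Bd.add {M N : M2} {c d : ℝ} (h : Bd M c) (h' : Bd N d) : Bd (M + N) (c + d) :=
  fun p s => (abs_add_le _ _).trans (add_le_add (h p s) (h' p s))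

theorem Bd.sub {M N : M2} {c d : ℝ} (h : Bd M c) (h' : Bd N d) : Bd (M - N) (c + d) :=
  fun p s => (abs_sub _ _).trans (add_le_add (h p s) (h' p s))

theorem Bd.tr {M : M2} {c : ℝ} (h : Bd M c) : Bd Mᵀ c := fun p s => h s p

theorem Bd.trace {M : M2} {c : ℝ} (h : Bd M c) : |trace M| ≤ 2 * c := by
  rw [trace_fin_two, two_mul]
  exact (abs_add_le _ _).trans (add_le_add (h 0 0) (h 1 1))

theorem Bd.mulJ {M : M2} {c : ℝ} (h : Bd M c) : Bd (M * Jm) c := by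
  intro p s
  rw [Matrix.mul_apply, Fin.sum_univ_two]
  fin_cases s
  · simpa [Jm] using h p 1
  · simpa [Jm] using h p 0

theorem bd_one : Bd 1 1 := by
  intro p s
  fin_cases p <;> fin_cases s <;> simp

theorem bd_J : Bd Jm 1 := by
  intro p s
  fin_cases p <;> fin_cases s <;> simp [Jm]

theorem rem_le {α β nAB nAA nBB nAAB nBBA nABB : M2} {τ q s : ℝ} (hτ : 1 ≤ τ) (hq : 1 ≤ q)
    (hα : Bd α τ) (hβ : Bd β τ) (hAB : Bd nAB q) (hH : Bd (nAB - 1) q) (hH1 : Bd (nAA - 1) q)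
    (hBB : Bd nBB q) (h1 : Bd nAAB s) (h2 : Bd nBBA s) (h3 : Bd nABB s) :
    rem α β nAB nAA nBB nAAB nBBA nABB ≤ 672 * (τ ^ 3 * q ^ 2 * s) + 1752 * (τ ^ 4 * q ^ 4) := by
  have hs := h1.nonneg
  obtain ⟨u, hu⟩ : ∃ u, u = s + 1 := ⟨_, rfl⟩
  have hu1 : 1 ≤ u := by linarith
  have hXi : Bd (nAAB - Jm) u := hu ▸ h1.sub bd_J
  have h1' : Bd nAAB u := h1.mono (by linarith)
  have h2' : Bd nBBA u := h2.mono (by linarith)
  have h3' : Bd nABB u := h3.mono (by linarith)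
  have hW := (hα.mul hH).mul hβ
  have hc : Bd (β * Jm - 1) (2 * τ) := (hβ.mulJ.sub bd_one).mono (by linarith)
  have hqτ : q ≤ q * τ := le_mul_of_one_le_right (by linarith) hτ
  have huτ : u ≤ u * τ := le_mul_of_one_le_right (by linarith) hτ
  have hin : Bd (nAB + (nAB - 1) * (β * Jm - 1)) (5 * (q * τ)) :=
    (hAB.add (hH.mul hc)).mono (by linarith)
  have hin' : Bd (nAAB + (nAAB - Jm) * (β * Jm - 1)) (5 * (u * τ)) :=
    (h1'.add (hXi.mul hc)).mono (by linarith)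
  have ho := hα.mul hin
  have t1 := abs_le.1 ((hα.mulJ.mul hβ).mul h2').trace
  have t2 := abs_le.1 ((hW.tr.mul (hXi.mul hβ)).mul hBB).trace
  have t3 := abs_le.1 ((hα.mul (hH1.mul hW)).mul h2').trace
  have t4 := abs_le.1 ((hW.tr.mul (hH1.mul hα)).mul h3').trace
  have t5 := abs_le.1 ((hW.tr.mul (hH1.mul hW)).mul hBB).trace
  have t6 := abs_le.1 ((hβ.mul hβ).mul hBB).trace
  have t7 := abs_le.1 (ho.tr.mul hin').trace
  have t8 := abs_le.1 (ho.tr.mul (hH1.mul ho)).trace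
  have t9 := abs_le.1 (hc.tr.mul hc).trace
  have hτ0 : 0 ≤ τ := by linarith
  have hq0 : 0 ≤ q := by linarith
  have hu0 : 0 ≤ u := by linarith
  have p1 : τ ^ 2 * q ^ 0 * u ≤ τ ^ 3 * q ^ 2 * u := by gcongr <;> norm_num
  have p2 : τ ^ 3 * q ^ 1 * u ≤ τ ^ 3 * q ^ 2 * u := by gcongr; norm_num
  have p3 : τ ^ 2 * q ^ 1 ≤ τ ^ 4 * q ^ 4 := by gcongr <;> norm_num
  have p4 : τ ^ 4 * q ^ 3 ≤ τ ^ 4 * q ^ 4 := by gcongr; norm_num
  have p5 : τ ^ 2 * q ^ 0 ≤ τ ^ 4 * q ^ 4 := by gcongr <;> norm_num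
  have p6 : τ ^ 3 * q ^ 2 ≤ τ ^ 4 * q ^ 4 := by gcongr <;> norm_num
  have p7 : τ ^ 3 * q ^ 2 * u = τ ^ 3 * q ^ 2 * s + τ ^ 3 * q ^ 2 := by rw [hu]; ring
  unfold rem
  linarith [t1.1, t2.2, t3.2, t4.2, t5.2, t6.1, t7.1, t8.1, t9.2]

variable {ι : Type} [Fintype ι] [DecidableEq ι]

omit [DecidableEq ι] in
theorem diag_nonneg (X : Mat ι) (k : ι) : 0 ≤ (Xᵀ * X) k k := by
  simp only [Matrix.mul_apply, transpose_apply]
  exact sum_nonneg fun l _ => mul_self_nonneg _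

omit [DecidableEq ι] in
theorem cs_entry (X Y : Mat ι) (k l : ι) {c d : ℝ} (hc : (Xᵀ * X) k k ≤ c)
    (hd : (Yᵀ * Y) l l ≤ d) : |(Xᵀ * Y) k l| ≤ √(c * d) := by
  refine Real.abs_le_sqrt (le_trans ?_ (mul_le_mul hc hd (diag_nonneg Y l)
    ((diag_nonneg X k).trans hc)))
  simpa only [Matrix.mul_apply, transpose_apply, sq] using
    sum_mul_sq_le_sq_mul_sq univ (fun m => X m k) (fun m => Y m l)

omit [DecidableEq ι] in
theorem bd_blk (X Y : Mat ι) (i j : ι) {c d : ℝ} (h1 : (Xᵀ * X) i i ≤ c) (h2 : (Xᵀ * X) j j ≤ c)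
    (h3 : (Yᵀ * Y) i i ≤ d) (h4 : (Yᵀ * Y) j j ≤ d) : Bd (blk (Xᵀ * Y) i j) √(c * d) := by
  intro p s
  fin_cases p <;> fin_cases s
  exacts [cs_entry X Y i i h1 h3, cs_entry X Y i j h1 h4, cs_entry X Y j i h2 h3,
    cs_entry X Y j j h2 h4]

omit [Fintype ι] [DecidableEq ι] in
theorem bd_T {Z : Mat ι} {i j : ι} {z : ℝ} (h : nu Z i j ≤ 1 / 1000) (hz : 1 ≤ z)
    (hd : ∀ k, |Z k k| ≤ z) : Bd (Tm Z i j) (2 * z) := by
  have h1 := tb_11_le h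
  have h2 := tb_12_le h
  have h3 := tb_22_le h
  have h4 := hd i
  have h5 := hd j
  intro p s
  fin_cases p <;> fin_cases s
  · show |t11 Z i j| ≤ 2 * z
    linarith
  · show |t12 Z i j| ≤ 2 * z
    linarith
  · show |t12 Z i j| ≤ 2 * z
    linarith
  · show |t22 Z i j| ≤ 2 * z
    linarith

theorem final_num {z q s μ ϑ : ℝ} (hz : 1 ≤ z) (hq : 1 ≤ q) (hs : s ^ 2 = q * μ) (hϑ : 0 < ϑ)
    (hϑ1 : ϑ ≤ 1) : 672 * ((2 * z) ^ 3 * q ^ 2 * s) + 1752 * ((2 * z) ^ 4 * q ^ 4) ≤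
      ϑ * μ + 10 ^ 8 * z ^ 8 * q ^ 5 / ϑ := by
  obtain ⟨K, hK⟩ : ∃ K, K = 672 * ((2 * z) ^ 3 * q ^ 2) := ⟨_, rfl⟩
  have hq0 : 0 < q := by linarith
  have hz0 : 0 ≤ z := by linarith
  have h1 : K * s ≤ ϑ * μ + K ^ 2 * q / 4 / ϑ := by
    have : ϑ * μ + K ^ 2 * q / 4 / ϑ - K * s = (ϑ * s - K * q / 2) ^ 2 / (ϑ * q) := by
      field_simp
      linear_combination (-16 * ϑ ^ 2) * hs
    have h2 : 0 ≤ (ϑ * s - K * q / 2) ^ 2 / (ϑ * q) := by positivity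
    linarith
  have h2 : z ^ 6 * q ^ 5 ≤ z ^ 8 * q ^ 5 := by gcongr; norm_num
  have h3 : z ^ 4 * q ^ 4 ≤ z ^ 8 * q ^ 5 := by gcongr <;> norm_num
  have h4 : 1752 * ((2 * z) ^ 4 * q ^ 4) ≤ 1752 * ((2 * z) ^ 4 * q ^ 4) / ϑ :=
    le_div_self (by positivity) hϑ hϑ1
  have h5 : K ^ 2 * q / 4 / ϑ + 1752 * ((2 * z) ^ 4 * q ^ 4) / ϑ ≤
      10 ^ 8 * z ^ 8 * q ^ 5 / ϑ := by
    rw [← add_div]
    refine div_le_div_of_nonneg_right ?_ hϑ.le
    have h6 : 0 ≤ z ^ 8 * q ^ 5 := by positivity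
    rw [hK]
    linarith
  have h6 : 672 * ((2 * z) ^ 3 * q ^ 2 * s) = K * s := by rw [hK]; ring
  linarith

end Ident

open Ident in
theorem identM : IdentMS := by
  intro ι _ _ A B i j z ϑ hA hB h hνA hνB hz hdA hdB hϑ hϑ1
  rw [exact_Mq hA hB h (tb_rho_ne hνA) (tb_rho_ne hνB), add_assoc _ (ϑ * _)]
  refine add_le_add_right ?_ _
  have eA : ∀ k, (Aᵀ * A) k k = rr A k := fun k => by rw [hA.eq, rr]
  have eB : ∀ k, (Bᵀ * B) k k = rr B k := fun k => by rw [hB.eq, rr]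
  have eAB : (A * B)ᵀ * (A * B) = B * A * A * B := by
    rw [transpose_mul, hA.eq, hB.eq, ← Matrix.mul_assoc]
  have eBA : (B * A)ᵀ * (B * A) = A * B * B * A := by
    rw [transpose_mul, hA.eq, hB.eq, ← Matrix.mul_assoc]
  have a1 := eA i ▸ diag_nonneg A i
  have a2 := eA j ▸ diag_nonneg A j
  have b1 := eB i ▸ diag_nonneg B i
  have b2 := eB j ▸ diag_nonneg B j
  have c1 := eAB ▸ diag_nonneg (A * B) i
  have c2 := eAB ▸ diag_nonneg (A * B) j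
  have d1 := eBA ▸ diag_nonneg (B * A) i
  have d2 := eBA ▸ diag_nonneg (B * A) j
  obtain ⟨r, hr⟩ : ∃ r, r = rr A i + rr B i + rr A j + rr B j := ⟨_, rfl⟩
  obtain ⟨q, hq⟩ : ∃ q, q = 2 + rr A i + rr B i + rr A j + rr B j := ⟨_, rfl⟩
  obtain ⟨μ, hμ⟩ : ∃ μ, μ = (A * B * B * A) i i + (A * B * B * A) j j + (B * A * A * B) i i +
    (B * A * A * B) j j := ⟨_, rfl⟩
  rw [← hq, ← hμ]
  have hr0 : 0 ≤ r := by linarith
  have hq1 : 1 ≤ q := by linarith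
  have hμ0 : 0 ≤ μ := by linarith
  have hAi : (Aᵀ * A) i i ≤ r := by rw [eA]; linarith
  have hAj : (Aᵀ * A) j j ≤ r := by rw [eA]; linarith
  have hBi : (Bᵀ * B) i i ≤ r := by rw [eB]; linarith
  have hBj : (Bᵀ * B) j j ≤ r := by rw [eB]; linarith
  have hrq : r ≤ q := by linarith
  have hAB := bd_blk A B i j hAi hAj hBi hBj
  have hAA := bd_blk A A i j hAi hAj hAi hAj
  have hBB := bd_blk B B i j hBi hBj hBi hBj
  rw [Real.sqrt_mul_self hr0, hA.eq] at hAB hAA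
  rw [Real.sqrt_mul_self hr0, hB.eq] at hBB
  have h1 := bd_blk A (A * B) i j (c := q) (d := μ) (hAi.trans hrq) (hAj.trans hrq)
    (by rw [eAB]; linarith) (by rw [eAB]; linarith)
  have h2 := bd_blk B (B * A) i j (c := q) (d := μ) (hBi.trans hrq) (hBj.trans hrq)
    (by rw [eBA]; linarith) (by rw [eBA]; linarith)
  rw [hA.eq, ← Matrix.mul_assoc] at h1
  rw [hB.eq, ← Matrix.mul_assoc] at h2
  have h3 := h2.tr
  rw [blk_tr, transpose_mul, transpose_mul, hA.eq, hB.eq, ← Matrix.mul_assoc] at h3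
  refine (rem_le (by linarith) hq1 (bd_T hνA hz hdA) (bd_T hνB hz hdB) (hAB.mono hrq)
    ((hAB.sub bd_one).mono (by linarith)) ((hAA.sub bd_one).mono (by linarith)) (hBB.mono hrq)
    h1 h2 h3).trans (final_num hz hq1 (Real.sq_sqrt (by positivity)) hϑ hϑ1)

end Vale.Agent.P049
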