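import Vale.Agent.P049.IdentB

/-! Exact expansion of the mixed fourth moment after the update. -/

namespace Vale.Agent.P049.Ident

open Matrix Finset

variable {ι : Type} [Fintype ι] [DecidableEq ι]

/-- The Frobenius inner product. -/
def ip {m n : Type} [Fintype m] [Fintype n] (X Y : Matrix m n ℝ) : ℝ := trace (Xᵀ * Y)

section
variable {m n k : Type} [Fintype m] [Fintype n] [Fintype k]

theorem ip_add_left (X X' Y : Matrix m n ℝ) : ip (X + X') Y = ip X Y + ip X' Y := by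
  simp [ip, Matrix.add_mul]

theorem ip_add_right (X Y Y' : Matrix m n ℝ) : ip X (Y + Y') = ip X Y + ip X Y' := by
  simp [ip, Matrix.mul_add]

theorem ip_sub_right (X Y Y' : Matrix m n ℝ) : ip X (Y - Y') = ip X Y - ip X Y' := by
  simp [ip, Matrix.mul_sub]

theorem ip_comm (X Y : Matrix m n ℝ) : ip X Y = ip Y X := by
  rw [ip, ip, ← trace_transpose, transpose_mul, transpose_transpose]

theorem ip_mul_left (M : Matrix m k ℝ) (X : Matrix k n ℝ) (Y : Matrix m n ℝ) :
    ip (M * X) Y = ip X (Mᵀ * Y) := by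
  simp [ip, Matrix.mul_assoc]

theorem ip_tr (X Y : Matrix m n ℝ) : ip Xᵀ Yᵀ = ip X Y := by
  rw [ip, ip, transpose_transpose, trace_mul_comm, ← trace_transpose, transpose_mul,
    transpose_transpose]

end

theorem ip_P {n : Type} [Fintype n] {i j : ι} (h : i ≠ j) (X : Matrix ι n ℝ) :
    ip (Pm i j * X) (Pm i j * X) = ip X X - ip ((Em i j)ᵀ * X) ((Em i j)ᵀ * X) := by
  rw [ip_mul_left, Pt, ← Matrix.mul_assoc, PP h, ip_mul_left, transpose_transpose, Pm,
    Matrix.sub_mul, Matrix.one_mul, ip_sub_right, Matrix.mul_assoc]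

theorem ip_P' {n : Type} [Fintype n] {i j : ι} (h : i ≠ j) (X : Matrix n ι ℝ) :
    ip (X * Pm i j) (X * Pm i j) = ip X X - ip (X * Em i j) (X * Em i j) := by
  rw [← ip_tr, transpose_mul, Pt, ip_P h, ip_tr, ← transpose_mul, ip_tr]

theorem ip_row (M M' : M2) (W W' : Mat ι) (i j : ι) :
    ip (M * ((Em i j)ᵀ * W)) (M' * ((Em i j)ᵀ * W')) = trace (Mᵀ * M' * blk (W' * Wᵀ) i j) := by
  rw [ip, ← blk_eq, transpose_mul, transpose_mul, transpose_transpose, Matrix.mul_assoc,
    trace_mul_comm]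
  simp only [Matrix.mul_assoc]

theorem core {n : Type} [Fintype n] {A : Mat ι} (hA : A.IsSymm) {i j : ι} (X : Matrix ι n ℝ)
    (o b : Matrix (Fin 2) n ℝ) :
    ip (A * (X + Em i j * o)) (A * (X + Em i j * o)) - ip (Jm * o + b) (Jm * o + b) =
      ip (A * X) (A * X) + 2 * ip o ((Em i j)ᵀ * (A * (A * X)) - Jm * b) +
        ip o ((blk (A * A) i j - 1) * o) - ip b b := by
  have h1 : ip (A * (Em i j * o)) (A * X) = ip o ((Em i j)ᵀ * (A * (A * X))) := by
    rw [ip_mul_left, ip_mul_left, hA.eq]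
  have h2 : ip (A * (Em i j * o)) (A * (Em i j * o)) = ip o (blk (A * A) i j * o) := by
    rw [ip_mul_left, ip_mul_left, hA.eq, ← blk_eq]
    simp only [Matrix.mul_assoc]
  have h3 : ip (Jm * o) (Jm * o) = ip o o := by
    rw [ip_mul_left, Jt, ← Matrix.mul_assoc, JJ, Matrix.one_mul]
  have h4 : ip (Jm * o) b = ip o (Jm * b) := by rw [ip_mul_left, Jt]
  rw [Matrix.mul_add, ip_add_left, ip_add_right, ip_add_right, ip_comm (A * X) (A * (Em i j * o)),
    h1, h2, ip_add_left, ip_add_right, ip_add_right, ip_comm b (Jm * o), h3, h4, ip_sub_right,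
    Matrix.sub_mul, ip_sub_right, Matrix.one_mul]
  ring

/-- The remainder. -/
noncomputable def rem (α β nAB nAA nBB nAAB nBBA nABB : M2) : ℝ :=
  -2 * trace (α * Jm * β * nBBA) +
    2 * trace ((α * (nAB - 1) * β)ᵀ * ((nAAB - Jm) * β) * nBB) +
    trace (α * ((nAA - 1) * (α * (nAB - 1) * β)) * nBBA) +
    trace ((α * (nAB - 1) * β)ᵀ * ((nAA - 1) * α) * nABB) +
    trace ((α * (nAB - 1) * β)ᵀ * ((nAA - 1) * (α * (nAB - 1) * β)) * nBB) -
    trace (β * β * nBB) -
    2 * trace ((α * (nAB + (nAB - 1) * (β * Jm - 1)))ᵀ * (nAAB + (nAAB - Jm) * (β * Jm - 1))) -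
    trace ((α * (nAB + (nAB - 1) * (β * Jm - 1)))ᵀ *
      ((nAA - 1) * (α * (nAB + (nAB - 1) * (β * Jm - 1))))) +
    trace ((β * Jm - 1)ᵀ * (β * Jm - 1))

omit [DecidableEq ι] in
theorem Mq_ip {A B : Mat ι} (hA : A.IsSymm) (hB : B.IsSymm) : Mq A B = ip (A * B) (A * B) := by
  rw [ip, transpose_mul, hA.eq, hB.eq, Mq, Matrix.mul_assoc B, trace_mul_comm B]
  simp only [Matrix.mul_assoc]

theorem exact_Mq {A B : Mat ι} (hA : A.IsSymm) (hB : B.IsSymm) {i j : ι} (h : i ≠ j)
    (hρA : rho A i j ≠ 0) (hρB : rho B i j ≠ 0) :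
    Mq (upd A i j) (upd B i j) = Mq A B + 2 * trT B (B * B * A * A * B) i j +
      2 * trT A (A * A * B * B * A) i j + trTT B B (B * A * A * B) (B * B - 1) i j +
      trTT A A (A * B * B * A) (A * A - 1) i j + 2 * trTT A B (A * A * B * B) (B * A - 1) i j +
      2 * trTT A B (A * A * B) (B * B * A) i j +
      rem (Tm A i j) (Tm B i j) (blk (A * B) i j) (blk (A * A) i j) (blk (B * B) i j)
        (blk (A * A * B) i j) (blk (B * B * A) i j) (blk (A * B * B) i j) := by
  obtain ⟨b, hb⟩ : ∃ b, b = Tm B i j * ((Em i j)ᵀ * B) := ⟨_, rfl⟩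
  obtain ⟨X, hX⟩ : ∃ X, X = B * Km B i j := ⟨_, rfl⟩
  obtain ⟨o, ho⟩ : ∃ o, o = Tm A i j * ((Em i j)ᵀ * (A * X) - b) := ⟨_, rfl⟩
  have hEX : (Em i j)ᵀ * X = Jm * b := by rw [hX, hb, EZK hB hρB]
  have hX' : X = B + B * (Em i j * b) := by rw [hX, Km, Matrix.mul_add, Matrix.mul_one, hb]
  have hGX : Gm A i j * X = X + Em i j * o := by
    rw [Gm, Matrix.add_mul, Matrix.one_mul, Matrix.mul_assoc, Matrix.mul_assoc, Matrix.sub_mul,
      Matrix.mul_assoc, Matrix.mul_assoc, hEX, ← Matrix.mul_assoc Jm, JJ, Matrix.one_mul, ho]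
  have hprod : upd A i j * upd B i j = Pm i j * (A * (X + Em i j * o)) * Pm i j := by
    rw [upd_eq' hA h hρA, upd_eq hB h, ← hX, ← hGX, ← GP hA h hρA]
    simp only [Matrix.mul_assoc]
    rw [← Matrix.mul_assoc (Pm i j) (Pm i j), PP h]
  have hu : (Em i j)ᵀ * (A * (X + Em i j * o)) = Jm * o + b := by
    have : (Em i j)ᵀ * (A * (Em i j * o)) = blk A i j * Tm A i j * ((Em i j)ᵀ * (A * X) - b) := by
      rw [← blk_eq, ho]
      simp only [Matrix.mul_assoc]
    rw [Matrix.mul_add, Matrix.mul_add, this, NT hA hρA, Matrix.sub_mul, Matrix.one_mul,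
      Matrix.mul_assoc, ← ho]
    abel
  have hrow : ∀ W : Mat ι, (Em i j)ᵀ * (W * X) = (Em i j)ᵀ * (W * B) + blk (W * B) i j * b := by
    intro W
    rw [hX', ← blk_eq]
    simp only [Matrix.mul_add, Matrix.mul_assoc]
  have hbE : b * Em i j = Tm B i j * Jm - 1 := by
    rw [hb, Matrix.mul_assoc, Matrix.mul_assoc, blk_eq, TN hB hρB]
  have ho' : o = Tm A i j * ((Em i j)ᵀ * (A * B)) +
      Tm A i j * (blk (A * B) i j - 1) * Tm B i j * ((Em i j)ᵀ * B) := by
    rw [ho, hrow, Matrix.mul_assoc, Matrix.mul_assoc, ← hb, ← Matrix.mul_add, Matrix.sub_mul,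
      Matrix.one_mul, add_sub_assoc]
  have hla : (Em i j)ᵀ * (A * (A * X)) - Jm * b = (1 : M2) * ((Em i j)ᵀ * (A * A * B)) +
      (blk (A * A * B) i j - Jm) * Tm B i j * ((Em i j)ᵀ * B) := by
    rw [← Matrix.mul_assoc A, hrow, Matrix.mul_assoc _ (Tm B i j), ← hb, Matrix.sub_mul,
      Matrix.one_mul, add_sub_assoc]
  have hoE : o * Em i j = Tm A i j * (blk (A * B) i j + (blk (A * B) i j - 1) *
      (Tm B i j * Jm - 1)) := by
    rw [ho', Matrix.add_mul, Matrix.mul_assoc, Matrix.mul_assoc, blk_eq, Matrix.mul_assoc,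
      Matrix.mul_assoc, Matrix.mul_assoc, Matrix.mul_assoc, blk_eq, TN hB hρB, Matrix.mul_add]
  have hlaE : (Em i j)ᵀ * (A * (A * (X * Em i j))) - Jm * (b * Em i j) =
      blk (A * A * B) i j + (blk (A * A * B) i j - Jm) * (Tm B i j * Jm - 1) := by
    have : (Em i j)ᵀ * (A * (A * (X * Em i j))) - Jm * (b * Em i j) =
        ((Em i j)ᵀ * (A * (A * X)) - Jm * b) * Em i j := by
      simp only [Matrix.sub_mul, Matrix.mul_assoc]
    rw [this, hla, Matrix.add_mul, Matrix.one_mul, Matrix.mul_assoc, blk_eq, Matrix.mul_assoc,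
      Matrix.mul_assoc, Matrix.mul_assoc (Em i j)ᵀ, blk_eq, Matrix.mul_assoc _ (Tm B i j),
      TN hB hρB]
  have hXE : X * Em i j = B * (Em i j * (Tm B i j * Jm)) := by
    rw [hX, Matrix.mul_assoc, KE hB hρB]
  have a1 : ip (A * X) (A * X) = Mq A B + 2 * trT B (B * B * A * A * B) i j +
      trTT B B (B * A * A * B) (B * B) i j := by
    have e1 : A * X = A * B + A * (B * (Em i j * b)) := by rw [hX', Matrix.mul_add]
    have e2 : ip (A * (B * (Em i j * b))) (A * B) = trT B (B * B * A * A * B) i j := by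
      rw [ip_mul_left, ip_mul_left, ip_mul_left, hA.eq, hB.eq, hb,
        ← Matrix.one_mul ((Em i j)ᵀ * (B * _)), ip_row, Tt, Matrix.mul_one, hB.eq, trT_eq,
        ← trace_transpose, transpose_mul, Tt, trace_mul_comm, blk_tr]
      simp only [transpose_mul, hA.eq, hB.eq, Matrix.mul_assoc]
    have e3 : ip (A * (B * (Em i j * b))) (A * (B * (Em i j * b))) =
        trTT B B (B * A * A * B) (B * B) i j := by
      have : (Em i j)ᵀ * (B * (A * (A * (B * (Em i j * b))))) =
          blk (B * A * A * B) i j * Tm B i j * ((Em i j)ᵀ * B) := by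
        rw [← blk_eq, hb]
        simp only [Matrix.mul_assoc]
      rw [ip_mul_left, ip_mul_left, ip_mul_left, hA.eq, hB.eq, this, hb, ip_row, Tt, hB.eq, trTT]
      simp only [Matrix.mul_assoc]
    rw [e1, ip_add_left, ip_add_right, ip_add_right, ip_comm (A * B) (A * (B * _)), e2, e3,
      ← Mq_ip hA hB]
    ring
  have a1E : ip (A * (X * Em i j)) (A * (X * Em i j)) =
      trace (Tm B i j * blk (B * A * A * B) i j * Tm B i j) := by
    have : (Em i j)ᵀ * (B * (A * (A * (B * (Em i j * (Tm B i j * Jm)))))) =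
        blk (B * A * A * B) i j * (Tm B i j * Jm) := by
      rw [← blk_eq]
      simp only [Matrix.mul_assoc]
    rw [hXE, ip_mul_left, ip_mul_left, ip_mul_left, hA.eq, hB.eq, this, ip, transpose_mul, Jt, Tt,
      Matrix.mul_assoc, trace_mul_comm]
    simp only [Matrix.mul_assoc, JJ, Matrix.mul_one]
  have c1 := core hA (i := i) (j := j) X o b
  have c2 := core hA (i := i) (j := j) (X * Em i j) (o * Em i j) (b * Em i j)
  have e1 : A * (X + Em i j * o) * Em i j = A * (X * Em i j + Em i j * (o * Em i j)) := by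
    simp only [Matrix.mul_assoc, Matrix.add_mul]
  have e2 : (Em i j)ᵀ * (A * (X * Em i j + Em i j * (o * Em i j))) =
      Jm * (o * Em i j) + b * Em i j := by
    rw [← e1, ← Matrix.mul_assoc, hu, Matrix.add_mul, Matrix.mul_assoc]
  rw [Mq_ip (upd_symm hA i j) (upd_symm hB i j), hprod, ip_P' h, Matrix.mul_assoc (Pm i j), ip_P h,
    ip_P h, hu, e1, e2, c1, c2, a1, a1E, hla, hlaE, hoE, hbE]
  have a3 : (blk (A * A) i j - 1) * o = (blk (A * A) i j - 1) * Tm A i j * ((Em i j)ᵀ * (A * B)) +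
      (blk (A * A) i j - 1) * (Tm A i j * (blk (A * B) i j - 1) * Tm B i j) * ((Em i j)ᵀ * B) := by
    rw [ho', Matrix.mul_add]
    simp only [Matrix.mul_assoc]
  rw [a3, ho', hb]
  simp only [ip_add_left, ip_add_right, ip_row]
  simp only [ip, rem, trT_eq, trTT, blk_sub, blk_one h, Tt, transpose_mul, hA.eq, hB.eq,
    Matrix.mul_one, ← Matrix.mul_assoc]
  have m1 : trace (Tm B i j * (blk (A * B) i j - 1)ᵀ * Tm A i j * blk (A * A * B * B) i j) =
      trace (Tm A i j * blk (A * A * B * B) i j * Tm B i j * (blk (B * A) i j - 1)) := by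
    rw [transpose_sub, blk_tr, transpose_mul, hA.eq, hB.eq, transpose_one, Matrix.mul_assoc,
      trace_mul_comm, Matrix.mul_assoc _ (Tm B i j)]
  have m2 : trace (Tm A i j * (blk (A * A * B) i j - Jm) * Tm B i j * blk (B * B * A) i j) =
      trace (Tm A i j * blk (A * A * B) i j * Tm B i j * blk (B * B * A) i j) -
      trace (Tm A i j * Jm * Tm B i j * blk (B * B * A) i j) := by
    simp only [Matrix.mul_sub, Matrix.sub_mul, trace_sub]
  have m3 : trace (Tm A i j * (blk (A * A) i j - 1) * Tm A i j * blk (A * B * B * A) i j) =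
      trace (Tm A i j * blk (A * B * B * A) i j * Tm A i j * (blk (A * A) i j - 1)) := by
    rw [Matrix.mul_assoc, trace_mul_comm, Matrix.mul_assoc _ (Tm A i j)]
  have m4 : trace (Tm B i j * blk (B * A * A * B) i j * Tm B i j * (blk (B * B) i j - 1)) =
      trace (Tm B i j * blk (B * A * A * B) i j * Tm B i j * blk (B * B) i j) -
      trace (Tm B i j * blk (B * A * A * B) i j * Tm B i j) := by
    simp only [Matrix.mul_sub, trace_sub, Matrix.mul_one]
  have m5 : ∀ Y P Q R : M2, trace (Y * (P + Q * R)) = trace (Y * P) + trace (Y * Q * R) := by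
    intro Y P Q R
    rw [Matrix.mul_add, trace_add, Matrix.mul_assoc]
  rw [m1, m2, m3, m4, m5 _ (blk (A * A * B) i j)]
  ring

end Vale.Agent.P049.Ident
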