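import Vale.Agent.P049.Stmts

/-! The initial matrices. -/

namespace Vale.Agent.P049

open Matrix Finset

namespace Init

section Alg
variable {ι V : Type} [Fintype ι] [DecidableEq ι] [DecidableEq V] (π : ι → V) (d : ℕ)

def NN : Mat ι := fun k l => if π k = π l then 1 else 0
def JJ (ι : Type) : Mat ι := fun _ _ => 1

/-- The matrix with eigenvalues `x`, `y`, `z`. -/
noncomputable def Zm (x y z : ℝ) : Mat ι :=
  ((x - y) / d) • NN π + y • (1 : Mat ι) + ((z - x) / Fintype.card ι) • JJ ι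

noncomputable def dg (d m x y z : ℝ) : ℝ := (x - y) / d + y + (z - x) / m

variable {π d}

theorem Zm_apply (x y z : ℝ) (k l : ι) : Zm π d x y z k l =
    (if π k = π l then (x - y) / d else 0) + (if k = l then y else 0) +
      (z - x) / Fintype.card ι := by
  simp [Zm, NN, JJ, Matrix.one_apply]

theorem Zm_diag (x y z : ℝ) (k : ι) : Zm π d x y z k k = dg d (Fintype.card ι) x y z := by
  simp [Zm_apply, dg]

theorem Zm_trace (x y z : ℝ) :
    trace (Zm π d x y z) = Fintype.card ι * dg d (Fintype.card ι) x y z := by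
  simp [trace, Zm_diag]

theorem Zm_symm (x y z : ℝ) : (Zm π d x y z).IsSymm := by
  ext k l
  simp only [transpose_apply, Zm_apply, eq_comm]

omit [DecidableEq ι] in
theorem sum_NN (h : ∀ u, (univ.filter fun k => π k = u).card = d) (u : V) :
    ∑ p, (if π p = u then (1 : ℝ) else 0) = d := by
  rw [sum_boole, h]

omit [DecidableEq ι] in
theorem NN_NN (h : ∀ u, (univ.filter fun k => π k = u).card = d) :
    NN π * NN π = (d : ℝ) • NN π := by
  ext k l
  simp only [mul_apply, NN, Matrix.smul_apply, smul_eq_mul]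
  by_cases e : π k = π l
  · rw [if_pos e, mul_one, ← sum_NN h (π l), e]
    refine sum_congr rfl fun p _ => ?_
    by_cases e' : π p = π l
    · simp [e']
    · simp [e']
  · rw [if_neg e, mul_zero]
    refine sum_eq_zero fun p _ => ?_
    by_cases e' : π p = π l
    · simp [e', e]
    · simp [e']

omit [DecidableEq ι] in
theorem NN_JJ (h : ∀ u, (univ.filter fun k => π k = u).card = d) :
    NN π * JJ ι = (d : ℝ) • JJ ι := by
  ext k l
  simp only [mul_apply, NN, JJ, Matrix.smul_apply, smul_eq_mul, mul_one, eq_comm (a := π k), sum_NN h]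

omit [DecidableEq ι] in
theorem JJ_NN (h : ∀ u, (univ.filter fun k => π k = u).card = d) :
    JJ ι * NN π = (d : ℝ) • JJ ι := by
  ext k l
  simp only [mul_apply, NN, JJ, Matrix.smul_apply, smul_eq_mul, mul_one, one_mul, sum_NN h]

omit [DecidableEq ι] in
theorem JJ_JJ : JJ ι * JJ ι = (Fintype.card ι : ℝ) • JJ ι := by
  ext k l
  simp [mul_apply, JJ]

theorem Zm_mul (h : ∀ u, (univ.filter fun k => π k = u).card = d) (hd : (d : ℝ) ≠ 0)
    (hm : (Fintype.card ι : ℝ) ≠ 0) (x y z x' y' z' : ℝ) :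
    Zm π d x y z * Zm π d x' y' z' = Zm π d (x * x') (y * y') (z * z') := by
  simp only [Zm, add_mul, mul_add, smul_mul_assoc, mul_smul_comm, NN_NN h, NN_JJ h, JJ_NN h, JJ_JJ,
    mul_one, one_mul]
  match_scalars <;> field_simp <;> ring

theorem Zm_rows (h : ∀ u, (univ.filter fun k => π k = u).card = d) (hd : (d : ℝ) ≠ 0)
    (hm : (Fintype.card ι : ℝ) ≠ 0) (x y z : ℝ) (k : ι) : ∑ l, Zm π d x y z k l = z := by
  have e : ∀ l, (if π k = π l then (x - y) / d else 0) =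
      (x - y) / d * if π l = π k then (1 : ℝ) else 0 := fun l => by
    simp only [eq_comm (a := π k), mul_ite, mul_one, mul_zero]
  simp only [Zm_apply, sum_add_distrib, e, ← mul_sum, sum_NN h, sum_ite_eq, mem_univ, if_true,
    sum_const, card_univ, nsmul_eq_mul]
  field_simp
  ring

theorem Zm_st (h : ∀ u, (univ.filter fun k => π k = u).card = d) (hd : (d : ℝ) ≠ 0)
    (hm : (Fintype.card ι : ℝ) ≠ 0) (x y : ℝ) : St univ (Zm π d x y 1) :=
  ⟨Zm_symm _ _ _, fun k _ hk => absurd (mem_univ k) hk, fun k _ => Zm_rows h hd hm _ _ _ k⟩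

theorem qf_Zm (x y z : ℝ) (v : ι → ℝ) : qf (Zm π d x y z) v =
    (x - y) / d * qf (NN π) v + y * (v ⬝ᵥ v) + (z - x) / Fintype.card ι * (∑ k, v k) ^ 2 := by
  have e : v ⬝ᵥ JJ ι *ᵥ v = (∑ k, v k) ^ 2 := by
    simp only [dotProduct, mulVec, JJ, one_mul, ← sum_mul, sq]
  simp only [qf, Zm, add_mulVec, smul_mulVec, one_mulVec, dotProduct_add, dotProduct_smul,
    smul_eq_mul, e]

theorem qf_nonneg (h : ∀ u, (univ.filter fun k => π k = u).card = d) (hd : (d : ℝ) ≠ 0)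
    (hm : (Fintype.card ι : ℝ) ≠ 0) {x z : ℝ} (hx : 0 ≤ x) (hz : 0 ≤ z) (v : ι → ℝ) :
    0 ≤ qf (Zm π d x 0 z) v := by
  have e := Zm_mul h hd hm (√x) 0 (√z) (√x) 0 (√z)
  rw [Real.mul_self_sqrt hx, Real.mul_self_sqrt hz, mul_zero] at e
  rw [← e, qf, ← mulVec_mulVec, dotProduct_mulVec, ← mulVec_transpose, (Zm_symm _ _ _).eq]
  exact sum_nonneg fun k _ => mul_self_nonneg _

theorem A0_eq (hd : (d : ℝ) ≠ 0) (a κ : ℝ) : A0 π d a κ = Zm π d (a * d - κ) (-κ) 1 := by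
  ext k l
  have e : (a * d - κ - -κ) / d = a := by field_simp; ring
  rw [Zm_apply, e, A0]
  split_ifs <;> ring

theorem B0_eq (hd : (d : ℝ) ≠ 0) (a κ : ℝ) : B0 π d a κ = Zm π d (-(a * d - κ)) κ 1 := by
  ext k l
  have e : (-(a * d - κ) - κ) / d = -a := by field_simp; ring
  rw [Zm_apply, e, B0]
  split_ifs <;> ring

end Alg

section Num
variable {t m : ℝ}

theorem pw (ht : 10 ^ 40 ≤ t) {c : ℝ} (hc : c ≤ 10 ^ 40) {a b : ℕ} (hab : a < b) :
    c * t ^ a ≤ t ^ b := by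
  have h1 : (1 : ℝ) ≤ t := le_trans (by norm_num) ht
  calc c * t ^ a ≤ t * t ^ a := mul_le_mul_of_nonneg_right (hc.trans ht) (by positivity)
    _ = t ^ (a + 1) := (pow_succ' t a).symm
    _ ≤ t ^ b := pow_le_pow_right₀ h1 hab

theorem eh_le (ht : 10 ^ 40 ≤ t) (h1 : t ^ eN ≤ m) : t ^ eh ≤ m :=
  (pow_le_pow_right₀ (le_trans (by norm_num) ht) (by unfold eh eN; norm_num)).trans h1

theorem le_bud (ht : 10 ^ 40 ≤ t) (h1 : t ^ eN ≤ m) {X : ℝ} {e a b : ℕ} (hX : 0 ≤ X)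
    (h : X * (2 * m) ^ b ≤ t ^ e * m ^ a) : X ≤ bud e a b t m := by
  have t0 : 0 < t := lt_of_lt_of_le (by norm_num) ht
  have m0 : 0 < m := lt_of_lt_of_le (by positivity) h1
  have h2 := eh_le ht h1
  rw [bud, le_div_iff₀ (by positivity)]
  refine le_trans (mul_le_mul_of_nonneg_left (pow_le_pow_left₀ (by positivity) ?_ b) hX) h
  linarith

theorem term {x D : ℝ} (hD : 0 < D) (h : 40 * x ≤ D) : x / D ≤ 1 / 40 := by
  rw [div_le_iff₀ hD]
  linarith

theorem term_sq {x W D : ℝ} (hW : 0 < W) (hx : |x| ≤ W) (h : 7 * W ≤ D) :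
    x ^ 2 / D ^ 2 ≤ 1 / 40 := by
  have h1 : x ^ 2 ≤ W ^ 2 := sq_le_sq' (abs_le.1 hx).1 (abs_le.1 hx).2
  have h2 : (7 * W) ^ 2 ≤ D ^ 2 := pow_le_pow_left₀ (by positivity) h 2
  refine term (pow_pos (by linarith) 2) ?_
  nlinarith

theorem sideV_le (ht : 10 ^ 40 ≤ t) (h1 : t ^ eN ≤ m) (h2 : m ≤ 2 * t ^ eN)
    {ε x1 x2 x3 x4 xA xZ : ℝ} (hε : |ε| = 1) (b1 : |x1| ≤ t ^ 14643) (b2 : x2 ≤ Te t m)
    (b2' : x2 ≤ m) (b3 : |x3| ≤ 5 * t ^ 3 * m) (b4 : x4 ≤ 5 * t ^ 4 * m) (bA : xA ≤ 1)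
    (bZ : xZ ≤ 1) : sideV t m ε x1 x2 x3 x4 0 xA xZ ≤ 6 / 40 := by
  have t1 : (1 : ℝ) ≤ t := le_trans (by norm_num) ht
  have t0 : 0 < t := by linarith
  have m0 : 0 < m := lt_of_lt_of_le (by positivity) h1
  have k1 : ∀ e, 14643 < e → 7 * t ^ 14643 ≤ bud e 1 1 t m := fun e he => by
    refine le_bud ht h1 (by positivity) ?_
    have := mul_le_mul_of_nonneg_right (pw ht (c := 14) (by norm_num) he) m0.le
    rw [pow_one, pow_one]
    linarith
  have a1 : max (ε * x1) 0 ^ 2 / B1 t m ^ 2 ≤ 1 / 40 := by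
    refine term_sq (pow_pos t0 14643) ?_ (k1 _ (by unfold e1; norm_num))
    rw [abs_of_nonneg (le_max_right _ _)]
    refine max_le ((le_abs_self _).trans ?_) (by positivity)
    rwa [abs_mul, hε, one_mul]
  have a2 : x1 ^ 2 / B1' t m ^ 2 ≤ 1 / 40 :=
    term_sq (pow_pos t0 14643) b1 (k1 _ (by unfold e1'; norm_num))
  have a3 : max (x2 - Te t m) 0 ^ 2 / BS t m ^ 2 = 0 := by
    rw [max_eq_right (by linarith)]
    simp
  have a4 : (ε * x3 + x2) / B3 t m ≤ 1 / 40 := by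
    have k : 240 * t ^ 3 * m ≤ B3 t m := by
      refine le_bud ht h1 (by positivity) ?_
      have k1 := pw ht (c := 1920) (by norm_num) (show 3 + eN < e3 by unfold eN e3; norm_num)
      have k2 := mul_le_mul_of_nonneg_left h2 (pow_pos t0 3).le
      rw [pow_add] at k1
      have k3 : 960 * (t ^ 3 * m) ≤ t ^ e3 := by linarith
      have := mul_le_mul_of_nonneg_right k3 (pow_pos m0 2).le
      linarith
    have k' : ε * x3 ≤ 5 * t ^ 3 * m := by
      refine (le_abs_self _).trans ?_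
      rwa [abs_mul, hε, one_mul]
    have k'' : m ≤ t ^ 3 * m := le_mul_of_one_le_left m0.le (one_le_pow₀ t1)
    exact term (lt_of_lt_of_le (by positivity) k) (by linarith)
  have a5 : x4 / B4 t m ≤ 1 / 40 := by
    have k : 200 * t ^ 4 * m ≤ B4 t m := by
      refine le_bud ht h1 (by positivity) ?_
      have k1 := pw ht (c := 12800) (by norm_num)
        (show 4 + eN * 2 < e4 by unfold eN e4; norm_num)
      have k2 := mul_le_mul_of_nonneg_left (pow_le_pow_left₀ m0.le h2 2) (pow_pos t0 4).le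
      rw [pow_add, pow_mul] at k1
      have k3 : 3200 * (t ^ 4 * m ^ 2) ≤ t ^ e4 := by linarith
      have := mul_le_mul_of_nonneg_right k3 (pow_pos m0 3).le
      linarith
    exact term (lt_of_lt_of_le (by positivity) k) (by linarith)
  have a6 : xA / BA t m ≤ 1 / 40 := by
    have k1 := pw ht (c := 40) (by norm_num) (show 0 < eA' by unfold eA'; norm_num)
    have k2 : 0 ≤ bud eA 1 2 t m := le_bud ht h1 le_rfl (by rw [zero_mul]; positivity)
    rw [pow_zero] at k1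
    have k : 40 ≤ BA t m := by
      rw [BA]
      linarith
    exact term (by linarith) (by linarith)
  have a7 : xZ / BZ t ≤ 1 / 40 := by
    have k1 := pw ht (c := 40) (by norm_num) (show 0 < eZ by unfold eZ; norm_num)
    rw [pow_zero] at k1
    rw [BZ]
    exact term (by linarith) (by linarith)
  rw [sideV, a3, zero_div]
  linarith

theorem abs_dg_le {d x y X : ℝ} (hd : 1 ≤ d) (hm : 1 ≤ m) (hX : 1 ≤ X) (hx : |x| ≤ X)
    (hy : |y| ≤ 1) : |dg d m x y 1| ≤ 5 * X := by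
  have h1 : |(x - y) / d| ≤ X + 1 := by
    rw [abs_div, abs_of_pos (by linarith : 0 < d)]
    exact (div_le_self (abs_nonneg _) hd).trans ((abs_sub _ _).trans (add_le_add hx hy))
  have h2 : |(1 - x) / m| ≤ 1 + X := by
    rw [abs_div, abs_of_pos (by linarith : 0 < m)]
    refine (div_le_self (abs_nonneg _) hm).trans ((abs_sub _ _).trans (add_le_add ?_ hx))
    rw [abs_one]
  refine (abs_add_three _ _ _).trans ?_
  linarith

end Num

section Side
variable {ι V : Type} [Fintype ι] [DecidableEq ι] [DecidableEq V] {π : ι → V} {d : ℕ} {t : ℝ}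

theorem abs_trace_le (hd : (1 : ℝ) ≤ d) (hm : (1 : ℝ) ≤ Fintype.card ι) {x y X : ℝ} (hX : 1 ≤ X)
    (hx : |x| ≤ X) (hy : |y| ≤ 1) : |trace (Zm π d x y 1)| ≤ 5 * X * Fintype.card ι := by
  rw [Zm_trace, abs_mul, abs_of_pos (by linarith), mul_comm]
  exact mul_le_mul_of_nonneg_right (abs_dg_le hd hm hX hx hy) (by linarith)

theorem side_le (h : ∀ u, (univ.filter fun k => π k = u).card = d) (hd : (1 : ℝ) ≤ d)
    (ht : 10 ^ 40 ≤ t) (h1 : t ^ eN ≤ Fintype.card ι) (h2 : (Fintype.card ι : ℝ) ≤ 2 * t ^ eN)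
    {ε x y : ℝ} (hε : |ε| = 1) (hx : |x| ≤ t) (hy : |y| ≤ 1)
    (b1 : |Fintype.card ι * dg d (Fintype.card ι) x y 1| ≤ t ^ 14643)
    (b2 : dg d (Fintype.card ι) (x * x) (y * y) 1 ≤ 1 - t ^ eh / Fintype.card ι) :
    side t (Fintype.card ι) ε (Zm π d x y 1) ≤ 6 / 40 := by
  have t1 : (1 : ℝ) ≤ t := le_trans (by norm_num) ht
  have t0 : 0 < t := by linarith
  have m1 : (1 : ℝ) ≤ Fintype.card ι := (one_le_pow₀ t1).trans h1
  have d0 : (d : ℝ) ≠ 0 := by positivity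
  have m0 : (0 : ℝ) < Fintype.card ι := by linarith
  have mul := Zm_mul h d0 m0.ne'
  have y0 : 0 ≤ t ^ eh / Fintype.card ι := by positivity
  have eD : Dp (Zm π d x y 1) = 0 := by
    refine sum_eq_zero fun k _ => ?_
    rw [dp, rr, mul, Zm_diag, mul_one, max_eq_right (by linarith)]
    simp
  have kA : Fintype.card ι * dg d (Fintype.card ι) x y 1 ^ 2 ≤ 1 := by
    have k1 : (Fintype.card ι * dg d (Fintype.card ι) x y 1) ^ 2 ≤ (t ^ 14643) ^ 2 :=
      sq_le_sq' (abs_le.1 b1).1 (abs_le.1 b1).2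
    rw [← pow_mul] at k1
    have k2 : t ^ (14643 * 2) ≤ t ^ eN := pow_le_pow_right₀ t1 (by unfold eN; norm_num)
    refine le_of_mul_le_mul_left ?_ m0
    rw [mul_one, ← mul_assoc, ← sq, ← mul_pow]
    exact k1.trans (k2.trans h1)
  have kA' : dg d (Fintype.card ι) x y 1 ^ 2 ≤ 1 :=
    (le_mul_of_one_le_left (sq_nonneg _) m1).trans kA
  have y2 : |y * y| ≤ 1 := by
    rw [abs_mul]
    exact mul_le_one₀ hy (abs_nonneg _) hy
  have y3 : |y * y * y| ≤ 1 := by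
    rw [abs_mul]
    exact mul_le_one₀ y2 (abs_nonneg _) hy
  have y4 : |y * y * y * y| ≤ 1 := by
    rw [abs_mul]
    exact mul_le_one₀ y3 (abs_nonneg _) hy
  rw [side, eD]
  refine sideV_le ht h1 h2 hε ?_ ?_ ?_ ?_ ?_ ?_ ?_
  · rwa [T1, Zm_trace]
  · rw [T2, mul, mul_one, Zm_trace, Te, bud, pow_zero, one_mul, pow_one,
      le_div_iff₀ (by positivity)]
    have k : (Fintype.card ι : ℝ) * dg d (Fintype.card ι) (x * x) (y * y) 1 ≤
        Fintype.card ι - t ^ eh := by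
      refine (mul_le_mul_of_nonneg_left b2 m0.le).trans_eq ?_
      field_simp
    refine (mul_le_mul_of_nonneg_right k (by positivity)).trans ?_
    nlinarith [sq_nonneg (t ^ eh)]
  · rw [T2, mul, mul_one, Zm_trace]
    exact mul_le_of_le_one_right m0.le (by linarith)
  · rw [T3, mul, mul, mul_one, mul_one]
    refine abs_trace_le hd m1 (one_le_pow₀ t1) ?_ y3
    rw [← pow_three', abs_pow]
    exact pow_le_pow_left₀ (abs_nonneg _) hx 3
  · rw [T4, mul, mul, mul, mul_one, mul_one, mul_one]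
    refine (le_abs_self _).trans (abs_trace_le hd m1 (one_le_pow₀ t1) ?_ y4)
    rw [show x * x * x * x = x ^ 4 by ring, abs_pow]
    exact pow_le_pow_left₀ (abs_nonneg _) hx 4
  · simpa [Ad, Zm_diag] using kA
  · have e : A4 (Zm π d x y 1) = Fintype.card ι * dg d (Fintype.card ι) x y 1 ^ 2 *
        dg d (Fintype.card ι) x y 1 ^ 2 := by
      simp only [A4, Zm_diag, sum_const, card_univ, nsmul_eq_mul]
      ring
    rw [e]
    exact mul_le_one₀ kA (sq_nonneg _) kA'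

end Side

/-- The scalar inequalities. -/
theorem scal {d a κ y u t : ℝ} (hd : 3 ≤ d) (hdt : d ≤ t) (ht : 10 ^ 40 ≤ t) (y0 : 0 ≤ y)
    (hy : y * t ≤ 1) (u0 : 0 ≤ u) (hu : u * t ≤ y) (a0 : 0 ≤ a) (h1 : (d - 1) * a ^ 2 ≤ 1 - 4 * y)
    (h2 : 1 - 4 * y < (d - 1) * (a + u) ^ 2) (hκ : κ = a - 64 * y ^ 2) :
    0 < a ∧ a ≤ 1 ∧ 0 ≤ κ ∧ κ ^ 2 ≤ 1 / 2 ∧ κ * d + (1 - κ ^ 2) / a ≤ 2 * √(d - 1) := by
  obtain ⟨s, hs⟩ : ∃ s, s = √(d - 1) := ⟨_, rfl⟩
  rw [← hs]
  have s0 : 0 ≤ s := hs ▸ Real.sqrt_nonneg _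
  have s2 : s ^ 2 = d - 1 := hs ▸ Real.sq_sqrt (by linarith)
  have y1 : y ≤ 1 / 1000 := by nlinarith
  have s3 : s ≤ 3 / 2 * (d - 2) := by
    refine abs_le_of_sq_le_sq' ?_ (by linarith) |>.2
    nlinarith
  have s4 : s ≤ t := by
    refine abs_le_of_sq_le_sq' ?_ (by linarith) |>.2
    nlinarith
  have k1 : a * s ≤ 1 := by
    refine abs_le_of_sq_le_sq' ?_ zero_le_one |>.2
    rw [mul_pow, s2]
    linarith
  have k2 : 1 - 4 * y ≤ (a + u) * s := by
    refine abs_le_of_sq_le_sq' ?_ (by positivity) |>.2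
    rw [mul_pow, s2]
    nlinarith
  have k3 : 1 - 5 * y ≤ a * s := by nlinarith
  have a1 : 0 < a := by
    refine lt_of_le_of_ne a0 fun h => ?_
    rw [← h] at k3
    linarith
  have a2 : a ^ 2 ≤ 1 / 2 := by nlinarith
  have a3 : 1 / 2 ≤ a * t := by nlinarith
  have k0 : 0 ≤ κ := by
    have : 64 * y ^ 2 * t ≤ a * t := by nlinarith
    have := le_of_mul_le_mul_right this (by linarith)
    linarith
  have k4 : κ ≤ a := by nlinarith
  refine ⟨a1, by nlinarith, k0, by nlinarith, ?_⟩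
  rw [← le_sub_iff_add_le', div_le_iff₀ a1]
  have k5 : (1 - a * s) ^ 2 ≤ (5 * y) ^ 2 := pow_le_pow_left₀ (by linarith) (by linarith) 2
  have k6 : 1 / 2 ≤ a * (d - 2) := by nlinarith
  have k7 : 64 * y ^ 2 * (1 / 2) ≤ 64 * y ^ 2 * (a * (d - 2)) :=
    mul_le_mul_of_nonneg_left k6 (by positivity)
  have e : (2 * s - κ * d) * a - (1 - κ ^ 2) =
      64 * y ^ 2 * (a * (d - 2)) + (64 * y ^ 2) ^ 2 - (1 - a * s) ^ 2 := by
    rw [hκ]
    linear_combination a ^ 2 * s2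
  nlinarith [sq_nonneg (64 * y ^ 2), sq_nonneg y]

theorem scal2 {d a κ y t : ℝ} (hd : 3 ≤ d) (hdt : d ≤ t) (a0 : 0 < a) (a1 : a ≤ 1) (k0 : 0 ≤ κ)
    (hκ : κ = a - 64 * y ^ 2) : |κ| ≤ 1 ∧ 0 ≤ a * d - κ ∧ a * d - κ ≤ t := by
  have k3 : κ ≤ a := by nlinarith
  refine ⟨?_, by nlinarith, by nlinarith⟩
  rw [abs_of_nonneg k0]
  linarith

theorem scal3 {d a κ y t m : ℝ} (hd : d ≠ 0) (ht : 10 ^ 40 ≤ t) (m0 : 0 < m) (y0 : 0 ≤ y)
    (hy : y * t ≤ 1) (hu : 1 / m * t ≤ y) (h1 : (d - 1) * a ^ 2 ≤ 1 - 4 * y)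
    (hκ : κ = a - 64 * y ^ 2) : dg d m ((a * d - κ) * (a * d - κ)) (κ * κ) 1 ≤ 1 - y := by
  have e : dg d m ((a * d - κ) * (a * d - κ)) (κ * κ) 1 =
      (d - 1) * a ^ 2 + (64 * y ^ 2) ^ 2 + 1 / m - (a * d - κ) * (a * d - κ) / m := by
    rw [dg, hκ]
    field_simp
    ring
  have c1 : 0 ≤ (a * d - κ) * (a * d - κ) / m := div_nonneg (mul_self_nonneg _) m0.le
  have c2 : 1 / m ≤ y := (le_mul_of_one_le_right (by positivity) (by linarith)).trans hu
  have c3 : y ≤ 1 / 1000 := by nlinarith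
  have c4 : y ^ 3 ≤ (1 / 1000) ^ 3 := pow_le_pow_left₀ y0 c3 3
  have c5 : (64 * y ^ 2) ^ 2 ≤ y := by nlinarith
  rw [e]
  linarith

theorem scal4 {t m : ℝ} (ht : 10 ^ 40 ≤ t) (h1 : t ^ eN ≤ m) :
    t ^ eh / m * t ≤ 1 ∧ 1 / m * t ≤ t ^ eh / m ∧
      m * (64 * (t ^ eh / m) ^ 2) + 1 + t ≤ t ^ 14643 := by
  have t1 : (1 : ℝ) ≤ t := le_trans (by norm_num) ht
  have t0 : 0 < t := by linarith
  have m0 : 0 < m := lt_of_lt_of_le (by positivity) h1
  refine ⟨?_, ?_, ?_⟩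
  · rw [div_mul_eq_mul_div, div_le_one m0, ← pow_succ]
    exact (pow_le_pow_right₀ t1 (by unfold eh eN; norm_num)).trans h1
  · rw [div_mul_eq_mul_div, one_mul]
    exact div_le_div_of_nonneg_right (le_self_pow₀ t1 (by unfold eh; norm_num)) m0.le
  · have e : t ^ eh * t ^ eh = t ^ 14642 * t ^ eN := by
      rw [← pow_add, ← pow_add]
      congr 1
      unfold eh eN
      norm_num
    have c1 : m * (t ^ eh / m) ^ 2 ≤ t ^ 14642 := by
      refine le_of_mul_le_mul_right ?_ m0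
      have : m * (t ^ eh / m) ^ 2 * m = t ^ eh * t ^ eh := by field_simp
      rw [this, e]
      exact mul_le_mul_of_nonneg_left h1 (by positivity)
    have c2 : t ≤ t ^ 14642 := le_self_pow₀ t1 (by norm_num)
    have c3 := pw ht (c := 66) (by norm_num) (show 14642 < 14643 by norm_num)
    linarith

theorem scal5 {d a κ y t m W : ℝ} (hd : d ≠ 0) (m0 : 0 < m) (hκ : κ = a - 64 * y ^ 2)
    (l0 : 0 ≤ a * d - κ) (l1 : a * d - κ ≤ t) (g1 : m * (64 * y ^ 2) + 1 + t ≤ W) :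
    |m * dg d m (a * d - κ) (-κ) 1| ≤ W ∧ |m * dg d m (-(a * d - κ)) κ 1| ≤ W := by
  have g0 : 0 ≤ m * (64 * y ^ 2) := by positivity
  have e : m * dg d m (a * d - κ) (-κ) 1 = m * (64 * y ^ 2) + 1 - (a * d - κ) := by
    rw [dg, hκ]
    field_simp
    ring
  have e' : m * dg d m (-(a * d - κ)) κ 1 = -(m * (64 * y ^ 2)) + 1 + (a * d - κ) := by
    rw [dg, hκ]
    field_simp
    ring
  rw [e, e', abs_le, abs_le]
  refine ⟨⟨?_, ?_⟩, ?_, ?_⟩ <;> linarith

theorem Mq_le {ι V : Type} [Fintype ι] [DecidableEq ι] [DecidableEq V] {π : ι → V} {d : ℕ} {t : ℝ}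
    (h : ∀ u, (univ.filter fun k => π k = u).card = d) (hd : (1 : ℝ) ≤ d) (ht : 10 ^ 40 ≤ t)
    (m1 : (1 : ℝ) ≤ Fintype.card ι) {x y : ℝ} (hx : |x| ≤ t) (hy : |y| ≤ 1) :
    Mq (Zm π d x (-y) 1) (Zm π d (-x) y 1) / BM t (Fintype.card ι) ≤ 1 / 40 := by
  have t1 : (1 : ℝ) ≤ t := le_trans (by norm_num) ht
  have m0 : (0 : ℝ) < Fintype.card ι := by linarith
  have mul := Zm_mul h (by positivity) m0.ne'
  have c1 := pw ht (c := 200) (by norm_num) (show 4 < eM by unfold eM; norm_num)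
  have c2 := mul_le_mul_of_nonneg_right c1 m0.le
  rw [Mq, mul, mul, mul, mul_one, mul_one, mul_one, BM,
    show x * x * -x * -x = x ^ 4 by ring, show -y * -y * y * y = y ^ 4 by ring]
  refine term (by positivity) ?_
  have c3 := (le_abs_self _).trans (abs_trace_le (π := π) hd m1 (x := x ^ 4) (y := y ^ 4)
    (one_le_pow₀ t1 (n := 4)) (by
      rw [abs_pow]
      exact pow_le_pow_left₀ (abs_nonneg _) hx 4) (by
      rw [abs_pow]
      exact pow_le_one₀ (abs_nonneg _) hy))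
  linarith

end Init

open Init in
theorem initS : InitS := by
  intro ι V _ _ _ _ π d a κ t h hd ht hdt h1 h2 a0 h3 h4 hκ
  have t1 : (1 : ℝ) ≤ t := le_trans (by norm_num) ht
  have t0 : 0 < t := by linarith
  have m1 : (1 : ℝ) ≤ Fintype.card ι := (one_le_pow₀ t1).trans h1
  have m0 : (0 : ℝ) < Fintype.card ι := by linarith
  have d3 : (3 : ℝ) ≤ d := by exact_mod_cast hd
  have d1 : (1 : ℝ) ≤ d := by linarith
  have d0 : (d : ℝ) ≠ 0 := by positivity
  rw [mul_div_assoc] at h3 h4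
  have y0 : 0 ≤ t ^ eh / Fintype.card ι := by positivity
  obtain ⟨y1, u1, g1⟩ := scal4 ht h1
  obtain ⟨a1, a2, k0, k1, k2⟩ := scal d3 hdt ht y0 y1 (by positivity) u1 a0 h3 h4 hκ
  obtain ⟨kk, l0, l1⟩ := scal2 d3 hdt a1 a2 k0 hκ
  have ll : |a * d - κ| ≤ t := by rwa [abs_of_nonneg l0]
  have r2 := scal3 d0 ht m0 y0 y1 u1 h3 hκ
  obtain ⟨r3, r4⟩ := scal5 d0 m0 hκ l0 l1 g1
  rw [A0_eq d0, B0_eq d0]
  refine ⟨a1, k0, k1, k2, Zm_st h d0 m0.ne' _ _, Zm_st h d0 m0.ne' _ _, fun v => ?_,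
    fun v hv => ?_, ?_⟩
  · have := qf_nonneg h d0 m0.ne' (x := a * d) (z := 1 + κ) (by positivity) (by positivity) v
    rw [qf_Zm] at this ⊢
    rw [show a * d - κ - -κ = a * d - 0 by ring, show 1 - (a * d - κ) = 1 + κ - a * d by ring]
    linarith
  · have := qf_nonneg h d0 m0.ne' (x := a * d) (z := 0) (by positivity) le_rfl v
    rw [qf_Zm, hv] at this ⊢
    rw [show -(a * d - κ) - κ = -(a * d - 0) by ring, neg_div]
    linarith
  · have s1 := side_le h d1 ht h1 h2 (ε := 1) abs_one ll (by rwa [abs_neg]) r3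
      (by rwa [neg_mul_neg])
    have s2 := side_le h d1 ht h1 h2 (ε := -1) (by simp) (by rwa [abs_neg]) kk r4
      (by rwa [neg_mul_neg])
    have s3 := Mq_le h d1 ht m1 ll kk
    rw [Phi]
    linarith

end Vale.Agent.P049
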