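import Vale.Agent.P049.Avg

/-! Drift of the sum of fourth powers of the diagonal. -/

namespace Vale.Agent.P049

open Matrix Finset

theorem la4_sq {θ η : ℝ} (h0 : 0 < θ) (h : θ * η = 1) (p q : ℝ) :
    (p + q) ^ 2 ≤ (1 + θ) * p ^ 2 + (1 + η) * q ^ 2 := by
  have h1 := mul_nonneg h0.le (sq_nonneg (p - η * q))
  have e : θ * (p - η * q) ^ 2 = θ * p ^ 2 - 2 * (θ * η) * (p * q) + (θ * η) * η * q ^ 2 := by ring
  rw [e, h] at h1
  nlinarith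

theorem la4_c {θ : ℝ} (h0 : 0 < θ) (h1 : θ ≤ 1 / 1000) :
    (1 + θ) ^ 4 * (1 + 3 * θ) ^ 4 ≤ 1 + 17 * θ := by
  have h2 : (1 + θ) * (1 + 3 * θ) ≤ 1 + 41 / 10 * θ := by nlinarith
  have h3 : (1 + 41 / 10 * θ) ^ 2 ≤ 1 + 83 / 10 * θ := by nlinarith
  have h4 : (1 + 83 / 10 * θ) ^ 2 ≤ 1 + 17 * θ := by nlinarith
  calc (1 + θ) ^ 4 * (1 + 3 * θ) ^ 4 = (((1 + θ) * (1 + 3 * θ)) ^ 2) ^ 2 := by ring
    _ ≤ ((1 + 41 / 10 * θ) ^ 2) ^ 2 := by gcongr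
    _ ≤ (1 + 83 / 10 * θ) ^ 2 := by gcongr
    _ ≤ _ := h4

theorem la4_s4 {θ η u v w X : ℝ} (h0 : 0 < θ) (h1 : θ ≤ 1 / 1000) (h : θ * η = 1) (hX : 0 ≤ X)
    (huv : |u * v| ≤ X) (hw : w ^ 2 ≤ 41 / 10 * X) :
    (1 + θ) * (u + v + w) ^ 4 ≤ (1 + θ) ^ 4 * (u ^ 4 + v ^ 4) + 60 * η ^ 3 * X ^ 2 := by
  have hη : 1000 ≤ η := by nlinarith
  have h2 := la4_sq h0 h (u + v) w
  have h3 := (abs_le.1 huv).2
  have h4 : (u + v + w) ^ 2 ≤ (1 + θ) * (u ^ 2 + v ^ 2) + 5 * η * X := by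
    have a1 : (1 + η) * w ^ 2 ≤ (1 + η) * (41 / 10 * X) := by gcongr
    have a2 : (1 + θ) * (u * v) ≤ (1 + θ) * X := by gcongr
    have a3 : θ * X ≤ X := by nlinarith
    have a4 : 1000 * X ≤ η * X := by gcongr
    nlinarith
  have h5 : (u + v + w) ^ 4 ≤ ((1 + θ) * (u ^ 2 + v ^ 2) + 5 * η * X) ^ 2 := by
    rw [show (u + v + w) ^ 4 = ((u + v + w) ^ 2) ^ 2 by ring]
    exact pow_le_pow_left₀ (sq_nonneg _) h4 2
  have h6 := la4_sq h0 h ((1 + θ) * (u ^ 2 + v ^ 2)) (5 * η * X)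
  have h7 : (u * v) ^ 2 ≤ X ^ 2 := by
    rw [← sq_abs]
    exact pow_le_pow_left₀ (abs_nonneg _) huv 2
  have h8 : (1 + θ) ^ 4 ≤ 2 := by
    have : (1 + θ) ^ 4 ≤ (1 + 1 / 1000) ^ 4 := by gcongr
    linarith [show ((1 : ℝ) + 1 / 1000) ^ 4 ≤ 2 by norm_num]
  have h9 : (1 + θ) ^ 4 * (u * v) ^ 2 ≤ 2 * X ^ 2 :=
    mul_le_mul h8 h7 (sq_nonneg _) (by norm_num)
  have h10 : (1 + θ) * (1 + η) ≤ 2 * η := by nlinarith
  have h11 : (1 + θ) * (1 + η) * (5 * η * X) ^ 2 ≤ 2 * η * (5 * η * X) ^ 2 := by gcongr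
  have h12 : 1 * X ^ 2 ≤ η ^ 3 * X ^ 2 := by
    have : 1 ≤ η ^ 3 := one_le_pow₀ (by linarith)
    gcongr
  have h13 := mul_le_mul_of_nonneg_left (h5.trans h6) (by linarith : 0 ≤ 1 + θ)
  nlinarith

theorem la4_exp {θ η : ℝ} (h0 : 0 < θ) (h1 : θ ≤ 1 / 1000) (h : θ * η = 1) (d s : ℝ) :
    (d + s) ^ 4 - d ^ 4 - 4 * (d ^ 3 * s) ≤ 10 * η * d ^ 2 * s ^ 2 + (1 + θ) * s ^ 4 := by
  have hη : 1000 ≤ η := by nlinarith
  have a1 := mul_nonneg h0.le (sq_nonneg (s ^ 2 - 2 * η * (d * s)))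
  have e1 : θ * (s ^ 2 - 2 * η * (d * s)) ^ 2 = θ * s ^ 4 - (θ * η) * (4 * (d * s) * s ^ 2) +
    (θ * η) * (4 * η * (d * s) ^ 2) := by ring
  rw [e1, h] at a1
  have m3 : 6 * (d * s) ^ 2 ≤ 6 * η * (d * s) ^ 2 :=
    mul_le_mul_of_nonneg_right (by linarith) (sq_nonneg _)
  linarith

theorem la4_pow {t c b : ℝ} (k : |t| ≤ c * |b|) (n : ℕ) :
    t ^ (2 * n) ≤ c ^ (2 * n) * b ^ (2 * n) := by
  have := pow_le_pow_left₀ (abs_nonneg _) k (2 * n)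
  rwa [mul_pow, (even_two_mul n).pow_abs, (even_two_mul n).pow_abs] at this

theorem la4_s2 {u v w A B X : ℝ} (hA : 0 ≤ A) (hB : 0 ≤ B) (hX : 0 ≤ X)
    (h1 : u ^ 2 ≤ (101 / 100) ^ 2 * A) (h2 : v ^ 2 ≤ (101 / 100) ^ 2 * B)
    (h3 : w ^ 2 ≤ 41 / 10 * X) : (u + v + w) ^ 2 ≤ 4 * A + 4 * B + 13 * X := by
  have e : (u + v + w) ^ 2 + (u - v) ^ 2 + (u - w) ^ 2 + (v - w) ^ 2 =
    3 * u ^ 2 + 3 * v ^ 2 + 3 * w ^ 2 := by ring
  linarith [sq_nonneg (u - v), sq_nonneg (u - w), sq_nonneg (v - w)]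

theorem la4_pt {θ η t1 t2 t3 a b : ℝ} (h0 : 0 < θ) (h1 : θ ≤ 1 / 1000) (h : θ * η = 1)
    (k1 : |t1| ≤ (1 + 3 * θ) * |b|) (k2 : |t2| ≤ (1 + 3 * θ) * |a|) (k3 : |t3| ≤ 101 / 100)
    (k4 : |a| * |b| ≤ 1 / 1000) (d x y : ℝ) :
    (d + ((t1 * x + t3 * y) * x + (t3 * x + t2 * y) * y)) ^ 4 - d ^ 4 -
      4 * (d ^ 3 * ((t1 * x + t3 * y) * x + (t3 * x + t2 * y) * y)) ≤
      40 * η * (d ^ 2 * (x ^ 2) ^ 2 * b ^ 2) + 40 * η * (a ^ 2 * (d ^ 2 * (y ^ 2) ^ 2)) +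
      130 * η * (d ^ 2 * x ^ 2 * y ^ 2) + (1 + 17 * θ) * ((x ^ 2) ^ 4 * b ^ 4) +
      (1 + 17 * θ) * (a ^ 4 * (y ^ 2) ^ 4) + 60 * η ^ 3 * ((x ^ 2) ^ 2 * (y ^ 2) ^ 2) := by
  have hη : 0 ≤ η := by nlinarith
  have e : (t1 * x + t3 * y) * x + (t3 * x + t2 * y) * y =
      t1 * x ^ 2 + t2 * y ^ 2 + 2 * t3 * (x * y) := by ring
  rw [e]
  have hc : 1 + 3 * θ ≤ 101 / 100 := by linarith
  have p3 : t3 ^ 2 ≤ (101 / 100) ^ 2 := by
    rw [← sq_abs]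
    exact pow_le_pow_left₀ (abs_nonneg _) k3 2
  have hc2 : (1 + 3 * θ) ^ 2 ≤ (101 / 100) ^ 2 := pow_le_pow_left₀ (by linarith) hc 2
  have q1 : t1 ^ 2 ≤ (101 / 100) ^ 2 * b ^ 2 :=
    (la4_pow k1 1).trans (mul_le_mul_of_nonneg_right hc2 (sq_nonneg _))
  have q2 : t2 ^ 2 ≤ (101 / 100) ^ 2 * a ^ 2 :=
    (la4_pow k2 1).trans (mul_le_mul_of_nonneg_right hc2 (sq_nonneg _))
  have hX : 0 ≤ x ^ 2 * y ^ 2 := by positivity
  have huv : |t1 * x ^ 2 * (t2 * y ^ 2)| ≤ x ^ 2 * y ^ 2 := by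
    rw [show t1 * x ^ 2 * (t2 * y ^ 2) = t1 * t2 * (x ^ 2 * y ^ 2) by ring, abs_mul,
      abs_of_nonneg hX, abs_mul]
    refine mul_le_of_le_one_left hX ?_
    have a1 := mul_le_mul k1 k2 (abs_nonneg _) (by positivity)
    have a2 := mul_le_mul hc2 k4 (by positivity) (by norm_num)
    linarith
  have hw : (2 * t3 * (x * y)) ^ 2 ≤ 41 / 10 * (x ^ 2 * y ^ 2) := by
    have := mul_le_mul_of_nonneg_right p3 hX
    linarith
  have s4 := la4_s4 h0 h1 h hX huv hw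
  have u2 : (t1 * x ^ 2) ^ 2 ≤ (101 / 100) ^ 2 * ((x ^ 2) ^ 2 * b ^ 2) := by
    have := mul_le_mul_of_nonneg_right q1 (sq_nonneg (x ^ 2))
    linarith
  have v2 : (t2 * y ^ 2) ^ 2 ≤ (101 / 100) ^ 2 * (a ^ 2 * (y ^ 2) ^ 2) := by
    have := mul_le_mul_of_nonneg_right q2 (sq_nonneg (y ^ 2))
    linarith
  have u4 : (t1 * x ^ 2) ^ 4 ≤ (1 + 3 * θ) ^ 4 * ((x ^ 2) ^ 4 * b ^ 4) := by
    have := mul_le_mul_of_nonneg_right (la4_pow k1 2) (by positivity : 0 ≤ (x ^ 2) ^ 4)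
    rw [mul_pow]
    exact this.trans_eq (by ring)
  have v4 : (t2 * y ^ 2) ^ 4 ≤ (1 + 3 * θ) ^ 4 * (a ^ 4 * (y ^ 2) ^ 4) := by
    have := mul_le_mul_of_nonneg_right (la4_pow k2 2) (by positivity : 0 ≤ (y ^ 2) ^ 4)
    rw [mul_pow]
    exact this.trans_eq (by ring)
  have s2 := la4_s2 (by positivity) (by positivity) hX u2 v2 hw
  have m1 : (1 + θ) ^ 4 * ((t1 * x ^ 2) ^ 4 + (t2 * y ^ 2) ^ 4) ≤
      (1 + 17 * θ) * ((x ^ 2) ^ 4 * b ^ 4 + a ^ 4 * (y ^ 2) ^ 4) := by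
    refine (mul_le_mul_of_nonneg_left (add_le_add u4 v4) (by positivity)).trans ?_
    rw [← mul_add, ← mul_assoc]
    exact mul_le_mul_of_nonneg_right (la4_c h0 h1) (by positivity)
  refine (la4_exp h0 h1 h _ _).trans ((add_le_add
    (mul_le_mul_of_nonneg_left s2 (by positivity : 0 ≤ 10 * η * d ^ 2))
    (s4.trans (add_le_add m1 le_rfl))).trans_eq (by ring))

theorem la4_young3 {u v : ℝ} (hu : 0 ≤ u) (hv : 0 ≤ v) : u ^ 3 * v ≤ u ^ 4 + v ^ 4 := by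
  rcases le_total u v with h | h
  · have : u ^ 3 * v ≤ v ^ 3 * v := by gcongr
    nlinarith [pow_nonneg hu 4]
  · have : u ^ 3 * v ≤ u ^ 3 * u := by gcongr
    nlinarith [pow_nonneg hv 4]

variable {ι : Type} [Fintype ι]

theorem la4_tri {F G : ι → ι → ℝ} {p q : ι → ℝ} (hp : ∀ k, 0 ≤ p k) (hG : ∀ k j, 0 ≤ G k j)
    (h1 : ∀ k, ∑ i, F k i ≤ p k) (h2 : ∀ k, ∑ j, G k j ≤ q k) :
    ∑ i, ∑ j, ∑ k, F k i * G k j ≤ ∑ k, p k * q k := by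
  have e : ∑ i, ∑ j, ∑ k, F k i * G k j = ∑ k, (∑ i, F k i) * ∑ j, G k j := by
    simp only [sum_mul_sum]
    rw [sum_comm (f := fun k i => ∑ j, F k i * G k j)]
    exact sum_congr rfl fun i _ => sum_comm
  rw [e]
  exact sum_le_sum fun k _ => mul_le_mul (h1 k) (h2 k) (sum_nonneg fun j _ => hG k j) (hp k)

/-- The matrix `Z diag(c) Z`. -/
def la4_N (Z : Mat ι) (c : ι → ℝ) : Mat ι := fun i j => ∑ k, c k * (Z k i * Z k j)

theorem la4_fro (Z M : Mat ι) (c : ι → ℝ) :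
    fro M (la4_N Z c) = ∑ k, c k * ∑ i, ∑ j, M i j * (Z k i * Z k j) := by
  simp only [fro, la4_N, mul_sum]
  rw [sum_comm (f := fun k i => ∑ j, c k * (M i j * (Z k i * Z k j)))]
  refine sum_congr rfl fun i _ => ?_
  rw [sum_comm]
  exact sum_congr rfl fun k _ => sum_congr rfl fun j _ => by ring

theorem la4_diag {Z : Mat ι} (hZ : Z.IsSymm) (c : ι → ℝ) :
    ∑ i, |la4_N Z c i i| ≤ ∑ k, |c k| * rr Z k := by
  simp only [rr_eq hZ, mul_sum]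
  rw [sum_comm]
  refine sum_le_sum fun i _ => (abs_sum_le_sum_abs _ _).trans (sum_le_sum fun k _ => ?_)
  rw [abs_mul, abs_mul_self, sq]

theorem la4_fn {Z : Mat ι} (hZ : Z.IsSymm) (c : ι → ℝ) :
    fn (la4_N Z c) ≤ ∑ k, |c k| * rr Z k := by
  have h0 := fn_nonneg (la4_N Z c)
  have hS : 0 ≤ ∑ k, |c k| * rr Z k :=
    sum_nonneg fun k _ => mul_nonneg (abs_nonneg _) (rr_nonneg hZ k)
  have h1 : fn (la4_N Z c) ^ 2 ≤ fn (la4_N Z c) * ∑ k, |c k| * rr Z k := by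
    have e : fn (la4_N Z c) ^ 2 = fro (la4_N Z c) (la4_N Z c) := by
      rw [fn_sq]
      simp only [fro, sq]
    rw [e, la4_fro, mul_sum]
    refine sum_le_sum fun k _ => (le_abs_self _).trans ?_
    have h2 := abs_fro_le (la4_N Z c) (of fun i j => Z k i * Z k j)
    rw [Wt.fn_outer, ← sq, vn_row_sq hZ] at h2
    rw [abs_mul, mul_left_comm]
    exact mul_le_mul_of_nonneg_left h2 (abs_nonneg _)
  by_contra hc
  push Not at hc
  nlinarith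

theorem la4_total {Z : Mat ι} (hZ : ∀ k, ∑ l, Z k l = 1) (c : ι → ℝ) :
    ∑ i, ∑ j, la4_N Z c i j = ∑ k, c k := by
  have h := la4_fro Z (of fun _ _ => 1) c
  simp only [fro, of_apply, one_mul, ← sum_mul_sum, hZ, mul_one] at h
  exact h

theorem la4_trT (Z : Mat ι) (c : ι → ℝ) (i j : ι) : trT Z (la4_N Z c) i j =
    ∑ k, c k * (ze1 Z i j k * Z k i + ze2 Z i j k * Z k j) := by
  simp only [trT, la4_N, ze1, ze2, mul_sum, ← sum_add_distrib]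
  exact sum_congr rfl fun k _ => by ring

theorem la4_first {P : Par} {ε : ℝ} {Z Y : Mat ι} {w e : ι → ι → ℝ} (c : Ctx P ε Z Y w e)
    (g : ι → ℝ) {S : ℝ} (h1 : ∑ k, |g k| * rr Z k ≤ S) (h2 : ∑ k, |g k| ≤ S) :
    av w (trT Z (la4_N Z g)) ≤
      4 * (P.b1' * S) + 2 * (P.kO * S) + 20 * (P.k2 * P.al * S) + 20 * (P.kF * S) := by
  have ok := c.ok
  have hZ := c.sZ.symm
  have hS : 0 ≤ S := (sum_nonneg fun k _ => abs_nonneg _).trans h2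
  have a1 := (abs_le.1 (c.wt.first c.wZ (by linarith [ok.al1]) c.sZ.hal (la4_N Z g))).2
  have a2 := (la4_diag hZ g).trans h1
  have a3 := (la4_fn hZ g).trans h1
  have a4 : T1 Z * trace (la4_N Z g) ≤ P.b1' * S := by
    refine (le_abs_self _).trans ?_
    rw [abs_mul]
    exact mul_le_mul c.sZ.hb1' ((abs_sum_le_sum_abs _ _).trans a2) (abs_nonneg _)
      (by linarith [ok.b1'1])
  have a5 : ∑ i, ∑ j, la4_N Z g i j ≤ P.b1' * S := by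
    rw [la4_total c.sZ.rows]
    refine ((sum_le_sum fun k _ => le_abs_self _).trans h2).trans ?_
    nlinarith [ok.b1'1]
  have a6 : -(P.μ * fro (ε • (Z * Z - Y * Y)) (la4_N Z g)) ≤ P.kO * S := by
    refine (neg_le_abs _).trans ?_
    rw [la4_fro, mul_sum]
    refine (abs_sum_le_sum_abs _ _).trans
      (le_trans ?_ (mul_le_mul_of_nonneg_left h1 c.wt.kO_nonneg))
    rw [mul_sum]
    refine sum_le_sum fun k _ => ?_
    have a7 := c.wt.KO (fun i => Z k i) (fun i => Z k i)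
    rw [← sq, vn_row_sq hZ] at a7
    rw [mul_left_comm, abs_mul, mul_left_comm]
    exact mul_le_mul_of_nonneg_left a7 (abs_nonneg _)
  have a7 : P.k2 * P.al * ∑ i, |la4_N Z g i i| ≤ P.k2 * P.al * S :=
    mul_le_mul_of_nonneg_left a2 (mul_nonneg c.wt.k2_nonneg (by linarith [ok.al1]))
  have a8 := mul_le_mul_of_nonneg_left a3 c.wt.kF_nonneg
  linarith

theorem la4_mom {P : Par} {ε : ℝ} {Z : Mat ι} (s : Side P ε Z) (h : P.OK) {r : ι → ℝ}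
    (h0 : ∀ k, 0 ≤ r k) (h4 : ∑ k, r k ^ 4 ≤ 16 * P.m) :
    ∑ k, |Z k k ^ 3| * r k ≤ 17 * (P.z ^ 3 * P.qm) ∧
      ∑ k, Z k k ^ 2 * r k ^ 2 ≤ 17 * (P.z ^ 2 * P.sm) := by
  have hq : 0 < P.qm := by linarith [h.qm1]
  have hz : 0 < P.z := by linarith [h.z1]
  have a1 : ∑ k, ((P.qm * |Z k k|) ^ 4 + (P.z * r k) ^ 4) ≤ 17 * (P.qm ^ 4 * P.z ^ 4) := by
    have e : ∀ k, |Z k k| ^ 4 = Z k k ^ 4 := fun k => Even.pow_abs (by decide) _
    simp only [mul_pow, e, sum_add_distrib, ← mul_sum]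
    have b1 := mul_le_mul_of_nonneg_left s.hz (pow_nonneg hq.le 4)
    have b2 := mul_le_mul_of_nonneg_left h4 (pow_nonneg hz.le 4)
    rw [← h.qm4] at b2
    unfold A4 at b1
    linarith
  constructor
  · refine le_of_mul_le_mul_left ?_ (by positivity : 0 < P.qm ^ 3 * P.z)
    rw [mul_sum]
    refine le_trans (sum_le_sum fun k _ => ?_) (a1.trans_eq (by ring))
    refine le_trans (le_of_eq ?_) (la4_young3 (mul_nonneg hq.le (abs_nonneg _))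
      (mul_nonneg hz.le (h0 k)))
    rw [abs_pow]
    ring
  · refine le_of_mul_le_mul_left ?_ (by positivity : 0 < P.qm ^ 2 * P.z ^ 2)
    rw [mul_sum, ← h.qm_sq]
    refine le_trans (sum_le_sum fun k _ => ?_) (a1.trans_eq (by ring))
    rw [← sq_abs (Z k k)]
    nlinarith [sq_nonneg ((P.qm * |Z k k|) ^ 2 - (P.z * r k) ^ 2),
      sq_nonneg ((P.qm * |Z k k|) * (P.z * r k))]

/-- The error term at the pair `i, j`. -/
noncomputable def la4_G (θ : ℝ) (Z : Mat ι) (i j : ι) : ℝ :=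
  20 * θ * (Z i i ^ 4 + Z j j ^ 4) + ∑ k,
    (40 * θ⁻¹ * (Z k k ^ 2 * (Z k i ^ 2) ^ 2 * Z j j ^ 2) +
      40 * θ⁻¹ * (Z i i ^ 2 * (Z k k ^ 2 * (Z k j ^ 2) ^ 2)) +
      130 * θ⁻¹ * (Z k k ^ 2 * Z k i ^ 2 * Z k j ^ 2) +
      (1 + 17 * θ) * ((Z k i ^ 2) ^ 4 * Z j j ^ 4) + (1 + 17 * θ) * (Z i i ^ 4 * (Z k j ^ 2) ^ 4) +
      60 * θ⁻¹ ^ 3 * ((Z k i ^ 2) ^ 2 * (Z k j ^ 2) ^ 2))

theorem la4_sumG {P : Par} {ε : ℝ} {Z : Mat ι} (s : Side P ε Z) (h : P.OK) :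
    ∑ i, ∑ j, la4_G P.θ Z i j ≤ 40 * (P.θ * P.m * A4 Z) +
      3570 * (P.θ⁻¹ * P.al ^ 2 * P.z ^ 2 * P.sm) +
      2 * ((1 + 17 * P.θ) * (A4 Z * (P.m + 14 * P.sD))) + 960 * (P.θ⁻¹ ^ 3 * P.m) := by
  have hZ := s.symm
  have hθ := h.θ_pos
  have r0 := s.rr0
  have hA := A4_nonneg Z
  have m2 := (la4_mom s h r0 (s.sum_rr4 h)).2
  have hW : 0 ≤ P.z ^ 2 * P.sm := by have := h.sm1; positivity
  have hal : 1 ≤ P.al ^ 2 := one_le_pow₀ h.al1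
  have r4 : ∑ k, rr Z k ^ 4 ≤ P.m + 14 * P.sD := by linarith [s.sum_rr4_T2 h, s.hm]
  have w2 : ∀ k, ∑ i, Z k k ^ 2 * (Z k i ^ 2) ^ 2 ≤ Z k k ^ 2 * rr Z k ^ 2 := fun k => by
    rw [← mul_sum]
    exact mul_le_mul_of_nonneg_left (sum_row_pow_le hZ k 1) (sq_nonneg _)
  have u1 := la4_tri (F := fun k i => Z k k ^ 2 * (Z k i ^ 2) ^ 2) (G := fun _ j => Z j j ^ 2)
    (q := fun _ => P.al ^ 2) (fun k => by positivity) (fun _ _ => sq_nonneg _) w2 fun _ => s.hal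
  have u2 := la4_tri (G := fun k i => Z k k ^ 2 * (Z k i ^ 2) ^ 2) (F := fun _ j => Z j j ^ 2)
    (p := fun _ => P.al ^ 2) (fun k => by positivity) (fun _ _ => by positivity)
    (fun _ => s.hal) w2
  have u3 := la4_tri (F := fun k i => Z k k ^ 2 * Z k i ^ 2) (G := fun k j => Z k j ^ 2)
    (p := fun k => Z k k ^ 2 * rr Z k) (q := fun k => rr Z k)
    (fun k => mul_nonneg (sq_nonneg _) (r0 k)) (fun _ _ => sq_nonneg _)
    (fun k => by rw [← mul_sum, rr_eq hZ]) fun k => by rw [rr_eq hZ]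
  have u4 := la4_tri (F := fun k i => (Z k i ^ 2) ^ 4) (G := fun _ j => Z j j ^ 4)
    (p := fun k => rr Z k ^ 4) (q := fun _ => A4 Z) (fun k => by positivity)
    (fun _ _ => by positivity) (fun k => sum_row_pow_le hZ k 3) fun _ => le_rfl
  have u5 := la4_tri (G := fun k i => (Z k i ^ 2) ^ 4) (F := fun _ j => Z j j ^ 4)
    (q := fun k => rr Z k ^ 4) (p := fun _ => A4 Z) (fun k => hA)
    (fun _ _ => by positivity) (fun _ => le_rfl) fun k => sum_row_pow_le hZ k 3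
  have u6 := la4_tri (F := fun k i => (Z k i ^ 2) ^ 2) (G := fun k i => (Z k i ^ 2) ^ 2)
    (p := fun k => rr Z k ^ 2) (q := fun k => rr Z k ^ 2) (fun k => by positivity)
    (fun _ _ => by positivity) (fun k => sum_row_pow_le hZ k 1) fun k => sum_row_pow_le hZ k 1
  rw [← sum_mul] at u1 u4
  rw [← mul_sum] at u2 u5
  simp only [mul_assoc (Z _ _ ^ 2) (rr Z _), ← sq (rr Z _)] at u3
  simp only [← pow_add] at u6
  have v1 := u1.trans (mul_le_mul_of_nonneg_right m2 (sq_nonneg _))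
  have v2 := u2.trans (mul_le_mul_of_nonneg_left m2 (sq_nonneg _))
  have v3 := (u3.trans m2).trans (le_mul_of_one_le_right (by positivity) hal)
  have v4 := u4.trans (mul_le_mul_of_nonneg_right r4 hA)
  have v5 := u5.trans (mul_le_mul_of_nonneg_left r4 hA)
  have v6 := u6.trans (s.sum_rr4 h)
  have x1 := mul_le_mul_of_nonneg_left v1 (by positivity : 0 ≤ 40 * P.θ⁻¹)
  have x2 := mul_le_mul_of_nonneg_left v2 (by positivity : 0 ≤ 40 * P.θ⁻¹)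
  have x3 := mul_le_mul_of_nonneg_left v3 (by positivity : 0 ≤ 130 * P.θ⁻¹)
  have x4 := mul_le_mul_of_nonneg_left v4 (by positivity : 0 ≤ 1 + 17 * P.θ)
  have x5 := mul_le_mul_of_nonneg_left v5 (by positivity : 0 ≤ 1 + 17 * P.θ)
  have x6 := mul_le_mul_of_nonneg_left v6 (by positivity : 0 ≤ 60 * P.θ⁻¹ ^ 3)
  have e0 : ∑ i, ∑ j, (Z i i ^ 4 + Z j j ^ 4) = 2 * (P.m * A4 Z) := by
    simp only [sum_add_distrib, s.sum_const, ← mul_sum, A4]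
    ring
  simp only [la4_G, sum_add_distrib (f := fun _ => 20 * P.θ * _), ← mul_sum]
  rw [e0]
  simp only [sum_add_distrib, ← mul_sum (a := 40 * P.θ⁻¹), ← mul_sum (a := 130 * P.θ⁻¹),
    ← mul_sum (a := 1 + 17 * P.θ), ← mul_sum (a := 60 * P.θ⁻¹ ^ 3)]
  linarith

theorem la4_self {θ a t c f : ℝ} (h0 : 0 < θ) (h1 : |t| ≤ 3 * θ) (h2 : |c| ≤ 101 / 100 * |a|)
    (h3 : |f| ≤ θ) {s : ℝ} (hs : s = t * a + c * f) : -(a ^ 3 * s) ≤ 5 * θ * a ^ 4 := by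
  have a1 : |s| ≤ 5 * θ * |a| := by
    rw [hs]
    refine (abs_add_le _ _).trans ?_
    rw [abs_mul, abs_mul]
    have b1 := mul_le_mul_of_nonneg_right h1 (abs_nonneg a)
    have b2 := mul_le_mul h2 h3 (abs_nonneg _) (by positivity)
    have b3 : 0 ≤ θ * |a| := by positivity
    linarith
  refine (neg_le_abs _).trans ?_
  rw [abs_mul, abs_pow, ← Even.pow_abs (by decide : Even 4) a]
  exact (mul_le_mul_of_nonneg_left a1 (by positivity)).trans_eq (by ring)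

variable [DecidableEq ι]

theorem la4_step {Z : Mat ι} (hZ : Z.IsSymm) {θ : ℝ} (h0 : 0 < θ) (h1 : θ ≤ 1 / 1000) {i j : ι}
    (hij : i ≠ j) (hn : nu Z i j ≤ θ) : A4 (upd Z i j) - A4 Z ≤
      4 * trT Z (la4_N Z fun k => Z k k ^ 3) i j - (Z i i ^ 4 + Z j j ^ 4) + la4_G θ Z i j := by
  have hn' := hn.trans h1
  obtain ⟨s, hs⟩ : ∃ s : ι → ℝ, s = fun k => ze1 Z i j k * Z k i + ze2 Z i j k * Z k j := ⟨_, rfl⟩
  have e1 : A4 (upd Z i j) = sumo i j fun k => (Z k k + s k) ^ 4 := by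
    unfold A4 sumo
    refine sum_congr rfl fun k _ => ?_
    rw [upd_diag, hs]
    split_ifs <;> simp
  have e2 : sumo i j (fun k => (Z k k + s k) ^ 4) =
      sumo i j (fun k => (Z k k + s k) ^ 4 - Z k k ^ 4 - 4 * (Z k k ^ 3 * s k)) +
      sumo i j (fun k => Z k k ^ 4) + sumo i j (fun k => 4 * (Z k k ^ 3 * s k)) := by
    rw [← sumo_add, ← sumo_add]
    congr 1
    funext k
    ring
  have e3 : trT Z (la4_N Z fun k => Z k k ^ 3) i j = ∑ k, Z k k ^ 3 * s k := by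
    rw [la4_trT, hs]
  obtain ⟨z1, z2, z3, z4⟩ := ze_self hZ (tb_rho_ne hn')
  have t3 : |t12 Z i j - 1| ≤ 3 * θ := (tb_12 hn').trans (by linarith)
  have t4 : |Z i j| ≤ θ := (abs_le_nu Z i j).trans hn
  have b1 := la4_self h0 t3 (tb_22_le hn') t4 (s := s i) (by rw [hs, ← z1, ← z2])
  have b2 := la4_self h0 t3 (tb_11_le hn') t4 (s := s j) (by
    rw [hs, ← z3, ← z4, ← hZ.apply i j]
    exact add_comm _ _)
  have k1 : |t11 Z i j| ≤ (1 + 3 * θ) * |Z j j| :=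
    (tb_11_le' hn').trans (mul_le_mul_of_nonneg_right (by linarith) (abs_nonneg _))
  have k2 : |t22 Z i j| ≤ (1 + 3 * θ) * |Z i i| :=
    (tb_22_le' hn').trans (mul_le_mul_of_nonneg_right (by linarith) (abs_nonneg _))
  have b3 := sumo_le (i := i) (j := j)
    (f := fun k => (Z k k + s k) ^ 4 - Z k k ^ 4 - 4 * (Z k k ^ 3 * s k))
    (g := fun k => 40 * θ⁻¹ * (Z k k ^ 2 * (Z k i ^ 2) ^ 2 * Z j j ^ 2) +
      40 * θ⁻¹ * (Z i i ^ 2 * (Z k k ^ 2 * (Z k j ^ 2) ^ 2)) +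
      130 * θ⁻¹ * (Z k k ^ 2 * Z k i ^ 2 * Z k j ^ 2) +
      (1 + 17 * θ) * ((Z k i ^ 2) ^ 4 * Z j j ^ 4) + (1 + 17 * θ) * (Z i i ^ 4 * (Z k j ^ 2) ^ 4) +
      60 * θ⁻¹ ^ 3 * ((Z k i ^ 2) ^ 2 * (Z k j ^ 2) ^ 2))
    (fun k => by positivity) fun k _ _ => by
      rw [hs]
      exact la4_pt h0 h1 (mul_inv_cancel₀ h0.ne') k1 k2 (tb_12_le hn')
        ((abs_mul_le_nu Z i j).trans hn') (Z k k) (Z k i) (Z k j)
  rw [e1, e2, sumo_eq hij (fun k => Z k k ^ 4), sumo_eq hij (fun k => 4 * (Z k k ^ 3 * s k)), e3,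
    ← mul_sum]
  unfold la4_G A4
  linarith

theorem la4 : LA4S := by
  intro ι _ _ P ε Z Y w e c
  have ok := c.ok
  have hθ := ok.θ_pos
  have hθ1 := ok.θ_le
  have hA := A4_nonneg Z
  have hz := c.sZ.hz
  have p1 := ok.m1
  have p2 := ok.sm1
  have p3 := ok.qm1
  have p4 := ok.z1
  have p5 := ok.k21
  have p6 := ok.sD1
  have p7 := ok.b1'1
  have p8 := ok.kO1
  have p9 := ok.kF1
  have p10 := ok.al1
  have a1 := c.wt.av_mono (f := fun i j => A4 (upd Z i j) - A4 Z) fun i j h0 =>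
    la4_step c.sZ.symm hθ hθ1 (c.wt.ne i j h0) (c.wZ.nu_le i j h0)
  refine a1.trans ?_
  clear a1
  rw [av_add, av_sub, av_mul]
  have a2 := la4_first c (fun k => Z k k ^ 3) (la4_mom c.sZ ok c.sZ.rr0 (c.sZ.sum_rr4 ok)).1 (by
    simpa only [mul_one] using (la4_mom c.sZ ok (r := fun _ => 1) (fun _ => zero_le_one)
      (by rw [c.sZ.sum_const]; linarith)).1)
  have a3 := (abs_le.1 (c.wt.av_remove (by linarith) (c.sZ.card_sq ok) fun k => Z k k ^ 4)).1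
  have e1 : ∀ k, |Z k k ^ 4| = Z k k ^ 4 := fun k => abs_of_nonneg (by positivity)
  simp only [e1, ok.sm_sq] at a3
  have a4 := (c.wt.av_le' (f := la4_G P.θ Z) (fun i j => by unfold la4_G; positivity)
    fun _ _ _ => le_rfl).trans (mul_le_mul_of_nonneg_left (la4_sumG c.sZ ok) (by linarith))
  change -(6 * (P.k2 * P.sm * A4 Z)) ≤ _ - 2 * (P.m * A4 Z) at a3
  have c1 : (1 + P.θ) * (1 + 17 * P.θ) ≤ 1 + 19 * P.θ := by nlinarith
  have d1 := mul_le_mul_of_nonneg_right c1 (by positivity : 0 ≤ A4 Z * P.m)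
  have d2 := mul_le_mul_of_nonneg_right (c1.trans (by linarith : _ ≤ (2 : ℝ)))
    (by positivity : 0 ≤ A4 Z * P.sD)
  have c2 : 1 + P.θ ≤ 2 := by linarith
  have d3 := mul_le_mul_of_nonneg_right c2 (by positivity : 0 ≤ P.θ * P.m * A4 Z)
  have d4 := mul_le_mul_of_nonneg_right c2
    (by positivity : 0 ≤ P.θ⁻¹ * P.al ^ 2 * P.z ^ 2 * P.sm)
  have d5 := mul_le_mul_of_nonneg_right c2 (by positivity : 0 ≤ P.θ⁻¹ ^ 3 * P.m)
  have f1 := mul_le_mul_of_nonneg_left hz (by positivity : 0 ≤ P.θ * P.m)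
  have f2 := mul_le_mul_of_nonneg_left hz (by positivity : 0 ≤ P.k2 * P.sm)
  have f3 := mul_le_mul_of_nonneg_left hz (by positivity : 0 ≤ P.sD)
  have g1 : 0 ≤ P.θ * P.m * P.z ^ 4 := by positivity
  have g2 : 0 ≤ P.k2 * P.sm * P.z ^ 4 := by positivity
  have g3 : 0 ≤ P.sD * P.z ^ 4 := by positivity
  have g4 : 0 ≤ P.b1' * P.z ^ 3 * P.qm := by positivity
  have g5 : 0 ≤ P.kO * P.z ^ 3 * P.qm := by positivity
  have g6 : 0 ≤ P.kF * P.z ^ 3 * P.qm := by positivity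
  have g7 : 0 ≤ P.k2 * P.al * P.z ^ 3 * P.qm := by positivity
  have g8 : 0 ≤ P.θ⁻¹ * P.al ^ 2 * P.z ^ 2 * P.sm := by positivity
  have g9 : 0 ≤ P.θ⁻¹ ^ 3 * P.m := by positivity
  unfold C0 Par.EA4
  generalize P.θ⁻¹ = η at *
  linarith

end Vale.Agent.P049
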