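import Vale.Agent.P049.Avg

/-! The drift of the second moment in the second phase. -/

namespace Vale.Agent.P049

open Matrix Finset

namespace LC

variable {ι : Type} [Fintype ι] [DecidableEq ι]

omit [DecidableEq ι] in
theorem rows {Z : Mat ι} (h : St univ Z) (k : ι) : ∑ l, Z k l = 1 := h.rows k (mem_univ k)

omit [DecidableEq ι] in
theorem Ad_le_T2 {Z : Mat ι} (h : Z.IsSymm) : Ad Z ≤ T2 Z := by
  rw [← sum_rr]
  exact sum_le_sum fun k _ => entry_sq_le h k k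

omit [DecidableEq ι] in
theorem Ad_le {Z : Mat ι} (h : St univ Z) {m : ℝ} (hm : m = Fintype.card ι) (h1 : 1 ≤ m) :
    1 ≤ T2 Z ∧ m * Ad Z ≤ 101 / 100 * (m * (T2 Z - 1)) + 101 := by
  have h0 : m ≠ 0 := by linarith
  have e1 : ∀ k, ∑ l, (Z k l - m⁻¹) ^ 2 = rr Z k - m⁻¹ := fun k => by
    have : ∀ l, (Z k l - m⁻¹) ^ 2 = Z k l ^ 2 - 2 * m⁻¹ * Z k l + m⁻¹ ^ 2 := fun l => by ring
    simp only [this, sum_add_distrib, sum_sub_distrib, ← mul_sum, rows h, ← rr_eq h.symm,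
      sum_const, card_univ, nsmul_eq_mul, ← hm]
    field_simp
    ring
  have e2 : ∑ k, (Z k k - m⁻¹) ^ 2 ≤ T2 Z - 1 := by
    have : ∑ k, (rr Z k - m⁻¹) = T2 Z - 1 := by
      rw [sum_sub_distrib, sum_rr, sum_const, card_univ, nsmul_eq_mul, ← hm, mul_inv_cancel₀ h0]
    rw [← this]
    refine sum_le_sum fun k _ => ?_
    rw [← e1]
    exact single_le_sum (f := fun l => (Z k l - m⁻¹) ^ 2) (fun _ _ => sq_nonneg _) (mem_univ k)
  have e3 : Ad Z ≤ ∑ k, (101 / 100 * (Z k k - m⁻¹) ^ 2 + 101 * m⁻¹ ^ 2) :=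
    sum_le_sum fun k _ => by nlinarith [sq_nonneg (Z k k - 101 * m⁻¹)]
  rw [sum_add_distrib, ← mul_sum, sum_const, card_univ, nsmul_eq_mul, ← hm] at e3
  have e4 : 0 ≤ ∑ k, (Z k k - m⁻¹) ^ 2 := by positivity
  refine ⟨by linarith, ?_⟩
  have e5 : m * (m * (101 * m⁻¹ ^ 2)) = 101 := by field_simp
  nlinarith [mul_le_mul_of_nonneg_left e3 (show 0 ≤ m by linarith),
    mul_le_mul_of_nonneg_left e2 (show 0 ≤ m by linarith)]

omit [DecidableEq ι] in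
theorem diag_le {Z : Mat ι} (h : Z.IsSymm) {u : ℝ} (hu : 0 ≤ u) (h2 : T2 Z ≤ u ^ 2) (k : ι) :
    |Z k k| ≤ u := (abs_le_fn Z k k).trans (fn_le_of_T2 h hu h2)

omit [DecidableEq ι] in
theorem fn_sq_le {Z : Mat ι} (h : Z.IsSymm) {u : ℝ} (hu : 0 ≤ u) (h2 : T2 Z ≤ u ^ 2) :
    fn (Z * Z) ≤ u ^ 2 := by
  have h1 := fn_le_of_T2 h hu h2
  rw [sq]
  exact (fn_mul_le Z Z).trans (mul_le_mul h1 h1 (fn_nonneg _) hu)

omit [DecidableEq ι] in
theorem sum_diag_sq {Z : Mat ι} (h : Z.IsSymm) {u : ℝ} (hu : 0 ≤ u) (h2 : T2 Z ≤ u ^ 2) :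
    ∑ i, |(Z * Z) i i| ≤ u ^ 2 := by
  have h1 := fn_le_of_T2 h hu h2
  rw [sq]
  exact (sum_abs_diag_mul Z Z).trans (mul_le_mul h1 h1 (fn_nonneg _) hu)

section
variable {Z K : Mat ι} {w e : ι → ι → ℝ} {θ kF k2 kO u sm : ℝ}

omit [DecidableEq ι] in
theorem part_a (hZ : St univ Z) (hw : Wt w e K 0 θ kF k2 kO) (hs : SideW w e θ Z) (hu : 1 ≤ u)
    (h2 : T2 Z ≤ u ^ 2) (hsm : u ^ 2 ≤ sm) (hm : sm ^ 2 = Fintype.card ι) :
    av w (trT Z (Z * Z * Z)) ≤ 2 * sm ^ 2 + 2 * (u ^ 4 * sm) +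
      20 * (k2 * u ^ 2 * sm + kF * u ^ 3) := by
  have hu0 : 0 ≤ u := by linarith
  have hsm0 : 0 ≤ sm := (sq_nonneg u).trans hsm
  have f1 := fn_le_of_T2 hZ.symm hu0 h2
  have f2 := fn_sq_le hZ.symm hu0 h2
  have f3 : fn (Z * Z) * fn Z ≤ u ^ 3 := by
    rw [pow_succ]
    exact mul_le_mul f2 f1 (fn_nonneg _) (sq_nonneg u)
  have h1 := (abs_le.1 (hw.first hs hu0 ((Ad_le_T2 hZ.symm).trans h2) (Z * Z * Z))).2
  rw [total_of_rows (rows_mul (rows_mul (rows hZ) (rows hZ)) (rows hZ)), ← hm] at h1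
  have a1 : |T1 Z| ≤ sm * u :=
    (abs_sum_le_sum_abs _ _).trans ((sum_abs_le hsm0 hm (fun k => Z k k)).trans
      (mul_le_mul_of_nonneg_left ((vn_diag_le Z).trans f1) hsm0))
  have a2 : |trace (Z * Z * Z)| ≤ u ^ 3 := (abs_trace_mul_le _ _).trans f3
  have a3 : T1 Z * trace (Z * Z * Z) ≤ u ^ 4 * sm := by
    refine (le_abs_self _).trans ?_
    rw [abs_mul]
    exact (mul_le_mul a1 a2 (abs_nonneg _) (by positivity)).trans (le_of_eq (by ring))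
  have a4 : k2 * u * ∑ i, |(Z * Z * Z) i i| ≤ k2 * u ^ 2 * sm := by
    have hk := hw.k2_nonneg
    calc k2 * u * ∑ i, |(Z * Z * Z) i i| ≤ k2 * u * u ^ 3 :=
          mul_le_mul_of_nonneg_left ((sum_abs_diag_mul _ _).trans f3) (by positivity)
      _ = k2 * u ^ 2 * u ^ 2 := by ring
      _ ≤ _ := mul_le_mul_of_nonneg_left hsm (by positivity)
  have a5 : kF * fn (Z * Z * Z) ≤ kF * u ^ 3 :=
    mul_le_mul_of_nonneg_left ((fn_mul_le _ _).trans f3) hw.kF_nonneg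
  linarith

theorem part_b (hP : ProdS) (hZ : St univ Z) (hw : Wt w e K 0 θ kF k2 kO) (hs : SideW w e θ Z)
    (hu : 1 ≤ u) (h2 : T2 Z ≤ u ^ 2) (hsm : u ^ 2 ≤ sm) :
    av w (trTT Z Z (Z * Z) (Z * Z)) ≤ 40 * (k2 * u ^ 2 * sm) + 300 * (u ^ 4 * sm) := by
  have hu0 : 0 ≤ u := by linarith
  have hk := hw.k2_nonneg
  have hA := (Ad_le_T2 hZ.symm).trans h2
  have f2 := fn_sq_le hZ.symm hu0 h2
  have f3 := sum_diag_sq hZ.symm hu0 h2
  have f4 : vn (fun i => (Z * Z) i i) ≤ u ^ 2 := (vn_diag_le _).trans f2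
  have hu2 : 1 ≤ u ^ 2 := one_le_pow₀ hu
  have hus : u ≤ sm := by nlinarith
  have h1 := (abs_le.1 (hP ι w e K Z Z (Z * Z) (Z * Z) 0 θ kF k2 kO u u (k2 * u ^ 2 * sm) hw hs
    hs hu0 hA hA hu (diag_le hZ.symm hu0 h2) (diag_le hZ.symm hu0 h2) (Or.inl (by
      exact mul_le_mul (mul_le_mul_of_nonneg_left f3 hk) (f4.trans hsm) (vn_nonneg _)
        (by positivity))))).2
  have a1 : trace (Z * Z) * trace (Z * Z) ≤ u ^ 4 * sm := by
    have h0 : 0 ≤ T2 Z := T2_nonneg hZ.symm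
    have : T2 Z * T2 Z ≤ u ^ 2 * u ^ 2 := mul_le_mul h2 h2 h0 (sq_nonneg u)
    have : u ^ 4 * 1 ≤ u ^ 4 * sm := mul_le_mul_of_nonneg_left (by linarith) (by positivity)
    show T2 Z * T2 Z ≤ _
    nlinarith
  have a2 : u ^ 2 * (fn (Z * Z) * fn (Z * Z)) ≤ u ^ 4 * sm :=
    calc u ^ 2 * (fn (Z * Z) * fn (Z * Z)) ≤ u ^ 2 * (u ^ 2 * sm) :=
          mul_le_mul_of_nonneg_left (mul_le_mul f2 (f2.trans hsm) (fn_nonneg _) (sq_nonneg u))
            (sq_nonneg u)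
      _ = _ := by ring
  have a3 : u * ∑ i, rc (Z * Z) i * |(Z * Z) i i| ≤ 2 * (u ^ 4 * sm) :=
    calc u * ∑ i, rc (Z * Z) i * |(Z * Z) i i| ≤ sm * (2 * (u ^ 2 * u ^ 2)) := by
          refine mul_le_mul hus ((sum_rc_mul _ _).trans ?_)
            (sum_nonneg fun i _ => mul_nonneg (rc_nonneg _ _) (abs_nonneg _)) (by linarith)
          exact mul_le_mul_of_nonneg_left (mul_le_mul f2 f4 (vn_nonneg _) (sq_nonneg u))
            zero_le_two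
      _ = _ := by ring
  have a4 : u ^ 2 * ∑ i, |(Z * Z) i i| * |(Z * Z) i i| ≤ u ^ 4 * sm :=
    calc u ^ 2 * ∑ i, |(Z * Z) i i| * |(Z * Z) i i| ≤ u ^ 2 * (u ^ 2 * sm) :=
          mul_le_mul_of_nonneg_left ((sum_abs_mul_le _ _).trans
            (mul_le_mul f4 (f4.trans hsm) (vn_nonneg _) (sq_nonneg u))) (sq_nonneg u)
      _ = _ := by ring
  have a5 : 0 ≤ u ^ 4 * sm := mul_nonneg (by positivity) (by linarith)
  rw [mul_add u] at h1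
  linarith

theorem part_c (hP : ProdS) (hZ : St univ Z) (hw : Wt w e K 0 θ kF k2 kO) (hs : SideW w e θ Z)
    (hu : 1 ≤ u) (h2 : T2 Z ≤ u ^ 2) (hsm : u ^ 2 ≤ sm) (hm : sm ^ 2 = Fintype.card ι) :
    2 * (T2 Z * sm ^ 2) - 40 * (k2 * u ^ 2 * sm) - 300 * (u ^ 4 * sm) ≤
      av w (trTT Z Z (Z * Z) 1) := by
  have hu0 : 0 ≤ u := by linarith
  have hk := hw.k2_nonneg
  have hA := (Ad_le_T2 hZ.symm).trans h2
  have f2 := fn_sq_le hZ.symm hu0 h2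
  have f3 := sum_diag_sq hZ.symm hu0 h2
  have hu2 : 1 ≤ u ^ 2 := one_le_pow₀ hu
  have hsm1 : 1 ≤ sm := hu2.trans hsm
  have hsm0 : 0 ≤ sm := by linarith
  have hus : u ≤ u ^ 2 := by nlinarith
  have f4 : vn (fun i => (1 : Mat ι) i i) = sm := by
    simp only [one_apply_eq]
    exact vn_const_one hsm0 hm
  have h1 := (abs_le.1 (hP ι w e K Z Z (Z * Z) 1 0 θ kF k2 kO u u (k2 * u ^ 2 * sm) hw hs
    hs hu0 hA hA hu (diag_le hZ.symm hu0 h2) (diag_le hZ.symm hu0 h2) (Or.inl (by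
      rw [f4]
      exact mul_le_mul_of_nonneg_right (mul_le_mul_of_nonneg_left f3 hk) hsm0)))).1
  rw [trace_one, ← hm, fn_one hsm0 hm] at h1
  have a2 : u ^ 2 * (fn (Z * Z) * sm) ≤ u ^ 4 * sm :=
    calc u ^ 2 * (fn (Z * Z) * sm) ≤ u ^ 2 * (u ^ 2 * sm) :=
          mul_le_mul_of_nonneg_left (mul_le_mul_of_nonneg_right f2 hsm0) (sq_nonneg u)
      _ = _ := by ring
  have a3 : u * ∑ i, rc (Z * Z) i * |(1 : Mat ι) i i| ≤ 2 * (u ^ 4 * sm) :=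
    calc u * ∑ i, rc (Z * Z) i * |(1 : Mat ι) i i| ≤ u ^ 2 * (2 * (u ^ 2 * sm)) := by
          refine mul_le_mul hus ((sum_rc_mul _ _).trans ?_)
            (sum_nonneg fun i _ => mul_nonneg (rc_nonneg _ _) (abs_nonneg _)) (by linarith)
          rw [f4]
          exact mul_le_mul_of_nonneg_left (mul_le_mul_of_nonneg_right f2 hsm0) zero_le_two
      _ = _ := by ring
  have a0 : u ^ 4 * 1 ≤ u ^ 4 * sm := mul_le_mul_of_nonneg_left hsm1 (by positivity)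
  have a4 : u * ∑ i, rc (1 : Mat ι) i * |(Z * Z) i i| ≤ 2 * (u ^ 4 * sm) := by
    simp only [rc_one, ← mul_sum]
    have : u * ∑ i, |(Z * Z) i i| ≤ u ^ 2 * u ^ 2 :=
      mul_le_mul hus f3 (by positivity) (sq_nonneg u)
    nlinarith
  have a5 : u ^ 2 * ∑ i, |(Z * Z) i i| * |(1 : Mat ι) i i| ≤ u ^ 4 * sm := by
    simp only [one_apply_eq, abs_one, mul_one]
    have : u ^ 2 * ∑ i, |(Z * Z) i i| ≤ u ^ 2 * u ^ 2 :=
      mul_le_mul_of_nonneg_left f3 (sq_nonneg u)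
    nlinarith
  have a6 : 0 ≤ u ^ 4 * sm := by positivity
  have a7 : trace (Z * Z) = T2 Z := rfl
  rw [mul_add u, a7] at h1
  linarith

omit [DecidableEq ι] in
theorem part_d (hZ : St univ Z) (hw : Wt w e K 0 θ kF k2 kO) (hs : SideW w e θ Z)
    (hsm : 1 ≤ sm) (hm : sm ^ 2 = Fintype.card ι) :
    av w (fun i j => t11 Z i j ^ 2 + t22 Z i j ^ 2) ≤ 21 / 10 * (sm ^ 2 * (T2 Z - 1)) + 300 := by
  have h1 := hw.av_le' (f := fun i j => t11 Z i j ^ 2 + t22 Z i j ^ 2)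
    (g := fun i j => 10201 / 10000 * (Z j j ^ 2 + Z i i ^ 2)) (fun i j => by positivity)
    fun i j h0 => by
      have a1 := pow_le_pow_left₀ (abs_nonneg _) (tb_11_le (hw.nu_le hs h0)) 2
      have a2 := pow_le_pow_left₀ (abs_nonneg _) (tb_22_le (hw.nu_le hs h0)) 2
      rw [mul_pow, sq_abs, sq_abs] at a1 a2
      linarith
  have e1 : ∑ i, ∑ j, 10201 / 10000 * (Z j j ^ 2 + Z i i ^ 2) =
      10201 / 5000 * (sm ^ 2 * Ad Z) := by
    simp only [← mul_sum, sum_add_distrib, sum_const, card_univ, nsmul_eq_mul, ← hm, Ad]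
    ring
  rw [e1] at h1
  obtain ⟨h2, h3⟩ := Ad_le hZ hm (one_le_pow₀ hsm)
  have h4 : 0 ≤ sm ^ 2 * Ad Z := mul_nonneg (sq_nonneg _) (Ad_nonneg Z)
  have h5 : 0 ≤ sm ^ 2 * (T2 Z - 1) := mul_nonneg (sq_nonneg _) (by linarith)
  have h6 := mul_le_mul_of_nonneg_right hw.θ_le h4
  nlinarith

omit [DecidableEq ι] in
theorem part_e (hZ : St univ Z) (hw : Wt w e K 0 θ kF k2 kO) (hs : SideW w e θ Z)
    (hu : 1 ≤ u) (h2 : T2 Z ≤ u ^ 2) :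
    av w (fun i j => (t12 Z i j - 1) ^ 2) ≤ 100 * u ^ 4 := by
  have h1 := hw.av_le (f := fun i j => (t12 Z i j - 1) ^ 2)
    (g := fun i j => 18 * (Z i j ^ 2 + Z i i ^ 2 * Z j j ^ 2)) (fun i j => by positivity)
    fun i j h0 => by
      have a1 := pow_le_pow_left₀ (abs_nonneg _) (tb_12 (hw.nu_le hs h0)) 2
      rw [sq_abs] at a1
      have a2 := sq_abs (Z i j)
      have a3 := sq_abs (Z i i * Z j j)
      unfold nu at a1
      nlinarith [sq_nonneg (|Z i j| - |Z i i * Z j j|)]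
  have e1 : ∑ i, ∑ j, 18 * (Z i j ^ 2 + Z i i ^ 2 * Z j j ^ 2) =
      18 * (T2 Z + Ad Z * Ad Z) := by
    simp only [← mul_sum, sum_add_distrib, ← sum_mul, T2_eq hZ.symm, fn_sq, Ad]
  rw [e1] at h1
  have hA := (Ad_le_T2 hZ.symm).trans h2
  have h3 : Ad Z * Ad Z ≤ u ^ 2 * u ^ 2 := mul_le_mul hA hA (Ad_nonneg Z) (sq_nonneg u)
  have hu2 : 1 ≤ u ^ 2 := one_le_pow₀ hu
  nlinarith

end

end LC

theorem lc_of (h1 : IdentS) (h2 : ProdS) : LCS := by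
  intro ι _ _ Z K w e θ kF k2 kO u sm hZ hw hs hu hT hsm hm
  have hu2 : 1 ≤ u ^ 2 := one_le_pow₀ hu
  have hsm1 : 1 ≤ sm := hu2.trans hsm
  have e1 : av w (fun i j => T2 (upd Z i j) - T2 Z) =
      2 * av w (trT Z (Z * Z * Z)) + av w (trTT Z Z (Z * Z) (Z * Z)) -
        2 * av w (trTT Z Z (Z * Z) 1) + av w (fun i j => t11 Z i j ^ 2 + t22 Z i j ^ 2) +
        2 * av w (fun i j => (t12 Z i j - 1) ^ 2) := by
    rw [← av_mul, ← av_mul, ← av_mul, ← av_add, ← av_sub, ← av_add, ← av_add]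
    refine av_congr fun i j h0 => ?_
    rw [(h1 ι Z i j hZ.symm (hw.ne i j h0) (tb_rho_ne (hw.nu_le hs h0))).2.1]
    ring
  have a := LC.part_a hZ hw hs hu hT hsm hm
  have b := LC.part_b h2 hZ hw hs hu hT hsm
  have c := LC.part_c h2 hZ hw hs hu hT hsm hm
  have d := LC.part_d hZ hw hs hsm1 hm
  have f := LC.part_e hZ hw hs hu hT
  have g1 : 0 ≤ k2 * u ^ 2 * sm := mul_nonneg (mul_nonneg hw.k2_nonneg (sq_nonneg u)) (by linarith)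
  have g2 : 0 ≤ kF * u ^ 3 := mul_nonneg hw.kF_nonneg (pow_nonneg (by linarith) 3)
  have g3 : 1 ≤ u ^ 4 := one_le_pow₀ hu
  have g4 : u ^ 4 * 1 ≤ u ^ 4 * sm := mul_le_mul_of_nonneg_left hsm1 (by positivity)
  rw [e1]
  unfold C0
  nlinarith

namespace LC

theorem num {t T sm X D : ℝ} (ht : 10 ^ 40 ≤ t) (hT : 10 * t ^ 2 ≤ T) (hs : 0 < sm)
    (hm : 10 * t ^ 2 * T ≤ sm ^ 2) (hXT : X * T ≤ sm)
    (hD : D ≤ -(18 / 10 * X / sm ^ 2) + t ^ 2 * (sm / T + 1) ^ 2 * sm / (sm ^ 2) ^ 2) :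
    (X + D + 1 / (sm ^ 2) ^ 2) * T ≤ √(sm ^ 2 - 2) := by
  have ht1 : 1 ≤ t := le_trans (by norm_num) ht
  have ht2 : 1 ≤ t ^ 2 := one_le_pow₀ ht1
  have hT0 : 0 < T := by linarith
  have hm1 : 100 ≤ sm ^ 2 := by nlinarith
  have hs1 : 1 ≤ sm := by nlinarith
  have hm0 : 0 < sm ^ 2 := by positivity
  have r1 : sm * (1 - 12 / 10 / sm ^ 2) ≤ √(sm ^ 2 - 2) := by
    refine Real.le_sqrt_of_sq_le ?_
    have e : (sm * (1 - 12 / 10 / sm ^ 2)) ^ 2 = sm ^ 2 - 24 / 10 + 144 / 100 / sm ^ 2 := by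
      field_simp
      ring
    have : 144 / 100 / sm ^ 2 ≤ 4 / 10 := by
      rw [div_le_iff₀ hm0]
      linarith
    rw [e]
    linarith
  refine le_trans ?_ r1
  have r2 : X * T * (1 - 18 / 10 / sm ^ 2) ≤ sm * (1 - 18 / 10 / sm ^ 2) := by
    refine mul_le_mul_of_nonneg_right hXT ?_
    have : 18 / 10 / sm ^ 2 ≤ 1 := by
      rw [div_le_iff₀ hm0]
      linarith
    linarith
  have r3 : T * (t ^ 2 * (sm / T + 1) ^ 2 * sm + 1) ≤ 6 / 10 * (sm * sm ^ 2) := by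
    have a1 : (sm / T + 1) ^ 2 ≤ 2 * (sm / T) ^ 2 + 2 := by nlinarith [sq_nonneg (sm / T - 1)]
    have a2 : T * t ^ 2 * (sm / T) ^ 2 ≤ 1 / 10 * sm ^ 2 := by
      have e : T * t ^ 2 * (sm / T) ^ 2 = t ^ 2 / T * sm ^ 2 := by field_simp
      have : t ^ 2 / T ≤ 1 / 10 := by
        rw [div_le_iff₀ hT0]
        linarith
      rw [e]
      exact mul_le_mul_of_nonneg_right this hm0.le
    have a3 : T * t ^ 2 * (sm / T + 1) ^ 2 ≤ 4 / 10 * sm ^ 2 := by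
      have := mul_le_mul_of_nonneg_left a1 (show 0 ≤ T * t ^ 2 by positivity)
      nlinarith
    have a4 : T ≤ 1 / 10 * sm ^ 2 := by nlinarith
    have a5 := mul_le_mul_of_nonneg_left a3 hs.le
    have a6 : 1 * sm ^ 2 ≤ sm * sm ^ 2 := mul_le_mul_of_nonneg_right hs1 hm0.le
    nlinarith
  have r4 : T * (t ^ 2 * (sm / T + 1) ^ 2 * sm + 1) / (sm ^ 2) ^ 2 ≤ 6 / 10 * sm / sm ^ 2 := by
    rw [div_le_div_iff₀ (by positivity) hm0]
    nlinarith [mul_le_mul_of_nonneg_right r3 hm0.le]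
  calc (X + D + 1 / (sm ^ 2) ^ 2) * T ≤ (X + (-(18 / 10 * X / sm ^ 2) +
        t ^ 2 * (sm / T + 1) ^ 2 * sm / (sm ^ 2) ^ 2) + 1 / (sm ^ 2) ^ 2) * T :=
        mul_le_mul_of_nonneg_right (by linarith) hT0.le
    _ = X * T * (1 - 18 / 10 / sm ^ 2) +
        T * (t ^ 2 * (sm / T + 1) ^ 2 * sm + 1) / (sm ^ 2) ^ 2 := by ring
    _ ≤ sm * (1 - 18 / 10 / sm ^ 2) + 6 / 10 * sm / sm ^ 2 := add_le_add r2 r4
    _ = _ := by ring

theorem pw {t : ℝ} (ht : 10 ^ 40 ≤ t) : t ^ eC = (t ^ (eC / 2)) ^ 2 ∧ 10 * t ^ 2 ≤ t ^ (eC / 2) ∧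
    10 * t ^ 2 * t ^ (eC / 2) ≤ t ^ en2 := by
  have ht1 : 1 ≤ t := le_trans (by norm_num) ht
  have h10 : 10 * t ^ 2 ≤ t ^ 3 := by
    rw [pow_succ' t 2]
    exact mul_le_mul_of_nonneg_right (le_trans (by norm_num) ht) (sq_nonneg t)
  refine ⟨?_, h10.trans (pow_le_pow_right₀ ht1 (by unfold eC; norm_num)), ?_⟩
  · rw [← pow_mul]
    congr 1
    unfold eC
    norm_num
  · refine (mul_le_mul_of_nonneg_right h10 (by positivity)).trans ?_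
    rw [← pow_add]
    exact pow_le_pow_right₀ ht1 (by unfold eC en2; norm_num)

theorem par1 {t T sm : ℝ} (ht : 10 ^ 40 ≤ t) (hT : 10 * t ^ 2 ≤ T) (hs : 0 ≤ sm)
    (hm : 10 * t ^ 2 * T ≤ sm ^ 2) : 0 < T ∧ 80 * t ≤ sm ∧ sm / T + 1 ≤ sm ∧ sm ≤ sm ^ 2 ∧
      t ≤ t ^ 2 := by
  have ht1 : 10 ≤ t := le_trans (by norm_num) ht
  have ht2 : 10 * t ≤ t ^ 2 := by nlinarith
  have p5 : 10 * t ^ 2 ≤ sm := by
    refine (pow_le_pow_iff_left₀ (by positivity) hs two_ne_zero).1 (le_trans ?_ hm)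
    rw [sq]
    exact mul_le_mul_of_nonneg_left hT (by positivity)
  have : sm / T ≤ sm / 2 := div_le_div_of_nonneg_left hs (by norm_num) (by linarith)
  refine ⟨by linarith, by linarith, by linarith, ?_, by linarith⟩
  have : 1 ≤ sm := by linarith
  nlinarith

theorem par2 {t u : ℝ} (ht : 0 ≤ t) (hu : 1 ≤ u) (c : ℝ) :
    2 * (u + u ^ 2) / (1 / 1000) + c ≤ 4000 * u ^ 2 + c ∧
    2 * (u + u * u) / (1 / 1000) + t ≤ 4000 * u ^ 2 + t ∧ 2 * 0 * u * u ≤ 4000 * u ^ 2 + t := by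
  have : u ≤ u ^ 2 := by nlinarith
  refine ⟨by linarith, by nlinarith, by nlinarith⟩

theorem fin {t u sm X W DA DB TA TB : ℝ} (ht : 10 ^ 40 ≤ t) (hu : 1 ≤ u) (hus : u ^ 2 ≤ sm)
    (hts : 80 * t ≤ sm) (hX : X = TA + TB - 2) (hX0 : 0 ≤ X)
    (hW : |W - (sm ^ 2) ^ 2| ≤ 2 * ((4000 * u ^ 2 + t * sm) * sm ^ 2))
    (dA : DA ≤ -(19 / 10 * sm ^ 2 * (TA - 1)) + C0 * ((4000 * u ^ 2 + t) * u ^ 2 * sm +
      (4000 * u ^ 2 + t * sm) * u ^ 3 + u ^ 4 * sm))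
    (dB : DB ≤ -(19 / 10 * sm ^ 2 * (TB - 1)) + C0 * ((4000 * u ^ 2 + t) * u ^ 2 * sm +
      (4000 * u ^ 2 + t * sm) * u ^ 3 + u ^ 4 * sm))
    (hav : (-(18 / 10 * X / sm ^ 2) + t ^ 2 * (u ^ 2) ^ 2 * sm / (sm ^ 2) ^ 2) * W ≤ DA + DB) :
    False := by
  have ht0 : 0 < t := lt_of_lt_of_le (by norm_num) ht
  have hu0 : 0 < u := by linarith
  have hs0 : 0 < sm := by linarith
  have huu : u ≤ u ^ 2 := by nlinarith
  have hkF : 2 * ((4000 * u ^ 2 + t * sm) * sm ^ 2) ≤ 5 / 100 * (sm ^ 2) ^ 2 := by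
    have a1 : 4000 * sm ≤ t * sm := mul_le_mul_of_nonneg_right (le_trans (by norm_num) ht) hs0.le
    have a3 : 80 * t * sm ≤ sm * sm := mul_le_mul_of_nonneg_right hts hs0.le
    have a4 : 2 * (4000 * u ^ 2 + t * sm) ≤ 5 / 100 * sm ^ 2 := by linarith
    linarith [mul_le_mul_of_nonneg_right a4 (sq_nonneg sm)]
  have hE : (4000 * u ^ 2 + t) * u ^ 2 * sm + (4000 * u ^ 2 + t * sm) * u ^ 3 + u ^ 4 * sm ≤
      3 * (t * (u ^ 4 * sm)) := by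
    have a1 : u ^ 2 ≤ u ^ 4 := pow_le_pow_right₀ hu (by norm_num)
    have a2 : u ^ 3 ≤ u ^ 4 := pow_le_pow_right₀ hu (by norm_num)
    have a3 : t * sm * u ^ 2 ≤ t * sm * u ^ 4 := mul_le_mul_of_nonneg_left a1 (by positivity)
    have a4 : t * sm * u ^ 3 ≤ t * sm * u ^ 4 := mul_le_mul_of_nonneg_left a2 (by positivity)
    have a5 : u ^ 4 * u ≤ u ^ 4 * sm := mul_le_mul_of_nonneg_left (huu.trans hus) (by positivity)
    have a6 : 8001 * (u ^ 4 * sm) ≤ t * (u ^ 4 * sm) :=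
      mul_le_mul_of_nonneg_right (le_trans (by norm_num) ht) (by positivity)
    linarith
  rw [abs_le] at hW
  have hm0 : 0 < sm ^ 2 := by positivity
  have b1 : 18 / 10 * X / sm ^ 2 * W ≤ 189 / 100 * (sm ^ 2 * X) := by
    rw [div_mul_eq_mul_div, div_le_iff₀ hm0]
    have : X * W ≤ X * (105 / 100 * (sm ^ 2) ^ 2) :=
      mul_le_mul_of_nonneg_left (by linarith) hX0
    linarith
  have b2 : 95 / 100 * (t * (t * (u ^ 4 * sm))) ≤
      t ^ 2 * (u ^ 2) ^ 2 * sm / (sm ^ 2) ^ 2 * W := by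
    rw [div_mul_eq_mul_div _ _ W, le_div_iff₀ (by positivity)]
    have : t ^ 2 * (u ^ 4 * sm) * (95 / 100 * (sm ^ 2) ^ 2) ≤ t ^ 2 * (u ^ 4 * sm) * W :=
      mul_le_mul_of_nonneg_left (by linarith) (by positivity)
    linarith
  have b3 : 10 ^ 40 * (t * (u ^ 4 * sm)) ≤ t * (t * (u ^ 4 * sm)) :=
    mul_le_mul_of_nonneg_right ht (by positivity)
  have b4 : 0 < t * (u ^ 4 * sm) := by positivity
  have b5 : 0 ≤ sm ^ 2 * X := mul_nonneg hm0.le hX0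
  have b6 : sm ^ 2 * X = sm ^ 2 * (TA - 1) + sm ^ 2 * (TB - 1) := by
    rw [hX]
    ring
  have b7 := mul_le_mul_of_nonneg_left hE (show (0 : ℝ) ≤ 10 ^ 30 by norm_num)
  unfold C0 at dA dB
  rw [add_mul, neg_mul] at hav
  generalize (4000 * u ^ 2 + t) * u ^ 2 * sm + (4000 * u ^ 2 + t * sm) * u ^ 3 + u ^ 4 * sm = E
    at *
  generalize t * (u ^ 4 * sm) = G at *
  linarith

end LC

theorem coreC_of (h1 : LCS) (h2 : WeightsS) (h3 : BaseS) : CoreCS := by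
  intro ι _ _ A B ok cd t hA hB hok ht hcd hm hX
  obtain ⟨p1, p2, p3⟩ := LC.pw ht
  rw [p1] at hX
  generalize t ^ (eC / 2) = T at *
  have ht0 : 0 < t := lt_of_lt_of_le (by norm_num) ht
  have p4 : 10 * t ^ 2 * T ≤ Fintype.card ι := p3.trans hm
  clear p1 p3 hm
  obtain ⟨sm, hs0, hs⟩ : ∃ sm : ℝ, 0 ≤ sm ∧ sm ^ 2 = Fintype.card ι :=
    ⟨√(Fintype.card ι), Real.sqrt_nonneg _, Real.sq_sqrt (Nat.cast_nonneg _)⟩
  rw [← hs] at p4 hX ⊢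
  obtain ⟨hT0, q1, q2, q3, q4⟩ := LC.par1 ht p2 hs0 p4
  have hsp : 0 < sm := by linarith
  have hne : (univ : Finset ι).Nonempty := by
    rw [← card_pos, card_univ]
    have : (0 : ℝ) < Fintype.card ι := by
      rw [← hs]
      positivity
    exact_mod_cast this
  have tA := (h3 ι univ A hA).1 hne
  have tB := (h3 ι univ B hB).1 hne
  have hXT : (T2 A + T2 B - 2) * T ≤ sm := by
    rw [← mul_pow] at hX
    exact (le_abs_self _).trans (abs_le_of_sq_le_sq hX hs0)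
  have hY : T2 A + T2 B - 2 ≤ sm / T := by rwa [le_div_iff₀ hT0]
  have hY0 : 0 ≤ sm / T := by positivity
  obtain ⟨u, hu0, hu⟩ : ∃ u : ℝ, 0 ≤ u ∧ u ^ 2 = sm / T + 1 :=
    ⟨√(sm / T + 1), Real.sqrt_nonneg _, Real.sq_sqrt (by linarith)⟩
  have hu1 : 1 ≤ u := (one_le_sq_iff₀ hu0).mp (by linarith)
  have hus : u ^ 2 ≤ sm := by linarith
  have uA : T2 A ≤ u ^ 2 := by linarith
  have uB : T2 B ≤ u ^ 2 := by linarith
  refine ⟨by linarith, by linarith, ?_⟩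
  have hrr : ∀ Z : Mat ι, Z.IsSymm → T2 Z ≤ u ^ 2 → ∀ k, rr Z k ≤ u ^ 2 := fun Z hZ h k => by
    refine le_trans ?_ h
    rw [← sum_rr]
    exact single_le_sum (f := rr Z) (fun k _ => rr_nonneg hZ k) (mem_univ k)
  have h4 : ∀ Z : Mat ι, Z.IsSymm → T2 Z ≤ u ^ 2 → T4 Z ≤ u ^ 4 := fun Z hZ h => by
    rw [T4_eq hZ, show u ^ 4 = (u ^ 2) ^ 2 by ring]
    exact pow_le_pow_left₀ (fn_nonneg _) (LC.fn_sq_le hZ hu0 h) 2
  obtain ⟨r1, r2, r3⟩ := LC.par2 ht0.le hu1 (t * sm)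
  obtain ⟨w, e, hw, sA, sB, hwok⟩ := h2 ι A B ok cd 0 (1 / 1000) (4000 * u ^ 2 + t * sm)
    (4000 * u ^ 2 + t) 0 u u u u u sm t hA hB hok le_rfl (by norm_num) le_rfl hu0 hu0 hu0 hu0 hu0
    hs0 ht0.le hs (hcd.trans q4) uA uB ((LC.Ad_le_T2 hA.symm).trans uA)
    ((LC.Ad_le_T2 hB.symm).trans uB) (hrr A hA.symm uA) (hrr B hB.symm uB)
    (LC.diag_le hA.symm hu0 uA) (LC.diag_le hB.symm hu0 uB) (h4 A hA.symm uA) (h4 B hB.symm uB)
    r1 r2 r3 (by simp) (by simp)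
  by_contra hcon
  have hall : ∀ i j, w i j ≠ 0 → -(18 / 10 * (T2 A + T2 B - 2) / sm ^ 2) +
      t ^ 2 * (sm / T + 1) ^ 2 * sm / (sm ^ 2) ^ 2 ≤
      (T2 (upd A i j) - T2 A) + (T2 (upd B i j) - T2 B) := by
    intro i j h0
    by_contra hlt
    refine hcon ⟨i, j, hwok i j h0, le_trans (by norm_num) (tb_rho (hw.nu_le sA h0)),
      le_trans (by norm_num) (tb_rho (hw.nu_le sB h0)), ?_⟩
    have := LC.num ht p2 hsp p4 hXT (not_le.mp hlt).le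
    rwa [show T2 A + T2 B - 2 + (T2 (upd A i j) - T2 A + (T2 (upd B i j) - T2 B)) =
      T2 (upd A i j) + T2 (upd B i j) - 2 by ring] at this
  have hav := hw.av_mono hall
  rw [av_const, av_add, ← hu] at hav
  exact LC.fin ht hu1 hus q1 rfl (by linarith) (hw.av_one hs0 hs)
    (h1 ι A _ w e _ _ _ _ u sm hA hw sA hu1 uA hus hs)
    (h1 ι B _ w e _ _ _ _ u sm hB hw sB hu1 uB hus hs) hav

end Vale.Agent.P049
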