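import Vale.Agent.P049.Avg

/-! Drift of the row excess potential and of the diagonal sum of squares. -/

namespace Vale.Agent.P049

open Matrix Finset

namespace LD

theorem phi_le {δ δ' t : ℝ} (h : δ' ≤ δ + t) :
    max δ' 0 ^ 2 + max δ' 0 ^ 4 ≤ max δ 0 ^ 2 + max δ 0 ^ 4 + (2 * max δ 0 + 4 * max δ 0 ^ 3) * t +
      (1 + 10 * max δ 0 ^ 2) * t ^ 2 + 2 * t ^ 4 := by
  have h1 : max δ' 0 ≤ |max δ 0 + t| :=
    max_le ((h.trans (by linarith [le_max_left δ 0])).trans (le_abs_self _)) (abs_nonneg _)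
  have h2 : max δ' 0 ^ 2 ≤ (max δ 0 + t) ^ 2 := by
    rw [← sq_abs (max δ 0 + t)]
    exact pow_le_pow_left₀ (le_max_right _ _) h1 2
  have h3 := pow_le_pow_left₀ (sq_nonneg _) h2 2
  generalize max δ 0 = p at *
  nlinarith [sq_nonneg (2 * p * t - t ^ 2)]

variable {ι : Type} [Fintype ι] [DecidableEq ι] {Z : Mat ι} {i j : ι}

theorem dp_step (h0 : IdentS) (hZ : Z.IsSymm) (hij : i ≠ j) (hr : rho Z i j ≠ 0) :
    Dp (upd Z i j) - Dp Z ≤ -((dp Z i ^ 2 + dp Z i ^ 4) + (dp Z j ^ 2 + dp Z j ^ 4)) +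
      sumo i j (fun k => gg Z k * db1 Z i j k) + sumo i j (fun k => gg Z k * db2 Z i j k) +
      sumo i j (fun k => (1 + 10 * dp Z k ^ 2) * (db1 Z i j k + db2 Z i j k) ^ 2) +
      sumo i j (fun k => 2 * (db1 Z i j k + db2 Z i j k) ^ 4) := by
  obtain ⟨-, -, -, h1, h2, h3⟩ := h0 ι Z i j hZ hij hr
  have e1 := sumo_eq hij fun k => dp (upd Z i j) k ^ 2 + dp (upd Z i j) k ^ 4
  have e2 := sumo_eq hij fun k => dp Z k ^ 2 + dp Z k ^ 4
  have e3 : dp (upd Z i j) i = 0 := by simp [dp, h2]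
  have e4 : dp (upd Z i j) j = 0 := by simp [dp, h3]
  have h4 := sumo_mono (i := i) (j := j)
    (f := fun k => dp (upd Z i j) k ^ 2 + dp (upd Z i j) k ^ 4)
    (g := fun k => dp Z k ^ 2 + dp Z k ^ 4 + gg Z k * db1 Z i j k + gg Z k * db2 Z i j k +
      (1 + 10 * dp Z k ^ 2) * (db1 Z i j k + db2 Z i j k) ^ 2 +
      2 * (db1 Z i j k + db2 Z i j k) ^ 4) fun k hi hj => by
      have h5 := phi_le (δ := rr Z k - 1) (δ' := rr (upd Z i j) k - 1)
        (t := db1 Z i j k + db2 Z i j k) (by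
          have a1 := mul_le_mul_of_nonneg_right (rr_le_dp Z i) (sq_nonneg (ze1 Z i j k))
          have a2 := mul_le_mul_of_nonneg_right (rr_le_dp Z j) (sq_nonneg (ze2 Z i j k))
          rw [h1 k hi hj, db2]
          linarith)
      unfold gg dp
      linarith
  rw [sumo_add _ _ _ fun k => 2 * _, sumo_add _ _ _ fun k => _ * _, sumo_add _ _ _ fun k => _ * _,
    sumo_add _ _ _ fun k => _ * _] at h4
  rw [e3, e4] at e1
  unfold Dp
  linarith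

theorem ED_le {P : Par} (h : P.OK) : 0 ≤ P.k2 * P.sm * P.D ∧ P.k2 * P.sm * P.D ≤ P.ED := by
  have := h.Hd_nonneg; have := h.θ_pos; have := h.m1; have := h.D1; have := h.sD1; have := h.H1
  have := h.μ_pos; have := h.sqD1; have := h.L1; have := h.sR1; have := h.sM1; have := h.k21
  have := h.al1; have := h.sRF1; have := h.kF1; have := h.sm1; have := h.z1; have := h.R1
  refine ⟨by positivity, ?_⟩
  unfold Par.ED
  simp only [add_assoc]
  iterate 14 refine le_add_of_nonneg_of_le (by positivity) ?_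
  exact le_add_of_nonneg_right (by positivity)

/-- The change of a diagonal entry. -/
noncomputable def ss (Z : Mat ι) (i j k : ι) : ℝ := ze1 Z i j k * Z k i + ze2 Z i j k * Z k j

/-- The matrix `Z diag Z`. -/
def NN (Z : Mat ι) : Mat ι := fun i j => ∑ k, Z k k * (Z k i * Z k j)

omit [DecidableEq ι] in
theorem sum_ss (Z : Mat ι) (i j : ι) : ∑ k, Z k k * ss Z i j k = trT Z (NN Z) i j := by
  simp only [trT, NN, mul_sum, ← sum_add_distrib]
  exact sum_congr rfl fun k _ => by unfold ss ze1 ze2; ring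

omit [DecidableEq ι] in
theorem fro_NN (hZ : Z.IsSymm) {K : Mat ι} {μ c : ℝ}
    (h : ∀ f : ι → ℝ, |μ * ∑ i, ∑ j, K i j * (f i * f j)| ≤ c * (vn f * vn f)) :
    |μ * fro K (NN Z)| ≤ c * ∑ k, |Z k k| * rr Z k := by
  have e : μ * fro K (NN Z) = ∑ k, Z k k * (μ * ∑ i, ∑ j, K i j * (Z k i * Z k j)) := by
    simp only [fro, NN, mul_sum]
    rw [sum_comm_cycle]
    exact sum_congr rfl fun k _ => sum_congr rfl fun i _ => sum_congr rfl fun j _ => by ring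
  rw [e, mul_sum]
  refine (abs_sum_le_sum_abs _ _).trans (sum_le_sum fun k _ => ?_)
  rw [abs_mul, mul_left_comm, ← vn_row_sq hZ, sq]
  exact mul_le_mul_of_nonneg_left (h _) (abs_nonneg _)

omit [DecidableEq ι] in
theorem fn_NN (hZ : Z.IsSymm) : fn (NN Z) ≤ ∑ k, |Z k k| * rr Z k := by
  have h1 := fro_NN hZ (K := NN Z) (μ := 1) (c := fn (NN Z)) fun f => by
    rw [one_mul, ← Wt.fn_outer]
    exact abs_fro_le (NN Z) (of fun i j => f i * f j)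
  have h2 : fro (NN Z) (NN Z) = fn (NN Z) ^ 2 := by rw [fn_sq]; simp only [fro, sq]
  have h3 : 0 ≤ ∑ k, |Z k k| * rr Z k :=
    sum_nonneg fun k _ => mul_nonneg (abs_nonneg _) (rr_nonneg hZ k)
  rw [one_mul, h2, abs_of_nonneg (sq_nonneg _)] at h1
  by_contra h4
  nlinarith [fn_nonneg (NN Z)]

omit [DecidableEq ι] in
theorem diag_NN (hZ : Z.IsSymm) : ∑ i, |NN Z i i| ≤ ∑ k, |Z k k| * rr Z k := by
  simp only [rr_eq hZ, mul_sum]
  rw [sum_comm]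
  refine sum_le_sum fun i _ => (abs_sum_le_sum_abs _ _).trans (sum_le_sum fun k _ => ?_)
  rw [abs_mul, abs_mul_self, sq]

omit [DecidableEq ι] in
theorem total_NN (h : ∀ k, ∑ l, Z k l = 1) : ∑ i, ∑ j, NN Z i j = T1 Z := by
  simp only [NN]
  rw [sum_comm_cycle]
  simp only [← mul_sum, h, mul_one]
  rfl

omit [Fintype ι] [DecidableEq ι] in
theorem ss_self (hZ : Z.IsSymm) {θ : ℝ} (h : nu Z i j ≤ θ) (hθ : θ ≤ 1 / 1000) :
    |Z i i * ss Z i j i| ≤ 5 * θ * Z i i ^ 2 ∧ |Z j j * ss Z i j j| ≤ 5 * θ * Z j j ^ 2 := by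
  have h0 := h.trans hθ
  obtain ⟨e1, e2, e3, e4⟩ := ze_self hZ (tb_rho_ne h0)
  have h1 := (tb_12 h0).trans (mul_le_mul_of_nonneg_left h (by norm_num))
  have h2 : |Z i j| ≤ θ := (le_add_of_nonneg_right (abs_nonneg _)).trans h
  have key : ∀ a t : ℝ, |t| ≤ 101 / 100 * |a| →
      |a * ((t12 Z i j - 1) * a + t * Z i j)| ≤ 5 * θ * a ^ 2 := fun a t ht => by
    have h3 := abs_add_le ((t12 Z i j - 1) * a) (t * Z i j)
    rw [abs_mul, abs_mul] at h3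
    have h4 := mul_le_mul_of_nonneg_right h1 (abs_nonneg a)
    have h5 := mul_le_mul ht h2 (abs_nonneg _) (by positivity)
    have h6 := mul_nonneg ((abs_nonneg _).trans h2) (abs_nonneg a)
    rw [abs_mul, ← sq_abs a]
    nlinarith [mul_le_mul_of_nonneg_left (show |(t12 Z i j - 1) * a + t * Z i j| ≤ 5 * θ * |a| by
      linarith) (abs_nonneg a)]
  unfold ss
  rw [e1, e2, e3, e4, hZ.apply i j, add_comm (t11 Z i j * _)]
  exact ⟨key _ _ (tb_22_le h0), key _ _ (tb_11_le h0)⟩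

theorem sq_le {u v w θ : ℝ} (h : 0 < θ) :
    (u + v + w) ^ 2 ≤ (1 + θ) * (u + v) ^ 2 + (1 + θ⁻¹) * w ^ 2 := by
  have h1 : 0 ≤ θ⁻¹ * (θ * (u + v) - w) ^ 2 := by positivity
  have h2 : θ⁻¹ * (θ * (u + v) - w) ^ 2 = θ * (u + v) ^ 2 - 2 * (u + v) * w + θ⁻¹ * w ^ 2 := by
    field_simp
    ring
  nlinarith

omit [Fintype ι] [DecidableEq ι] in
theorem ss_sq {θ : ℝ} (h : nu Z i j ≤ θ) (h0 : 0 < θ) (hθ : θ ≤ 1 / 1000) (k : ι) :
    ss Z i j k ^ 2 ≤ (1 + 8 * θ) * (Z j j ^ 2 * (Z k i ^ 2) ^ 2 + Z i i ^ 2 * (Z k j ^ 2) ^ 2) +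
      12 * θ⁻¹ * (Z k i ^ 2 * Z k j ^ 2) := by
  have h1 := h.trans hθ
  have hi : 1 ≤ θ⁻¹ := (one_le_inv₀ h0).2 (by linarith)
  have sq' : ∀ t a : ℝ, |t| ≤ (1 + 3 * nu Z i j) * |a| → t ^ 2 ≤ (1 + 3 * θ) ^ 2 * a ^ 2 :=
    fun t a ht => by
      rw [← sq_abs t, ← sq_abs a, ← mul_pow]
      exact pow_le_pow_left₀ (abs_nonneg _)
        (ht.trans (mul_le_mul_of_nonneg_right (by linarith) (abs_nonneg _))) 2
  have a1 := sq' _ _ (tb_11_le' h1)
  have a2 := sq' _ _ (tb_22_le' h1)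
  have a3 : t12 Z i j ^ 2 ≤ 5 / 4 := by
    rw [← sq_abs]
    nlinarith [tb_12_le h1, abs_nonneg (t12 Z i j)]
  have a4 : 2 * (t11 Z i j * t22 Z i j) ≤ 1 := by
    have b1 := mul_le_mul (tb_11_le h1) (tb_22_le h1) (abs_nonneg _) (by positivity)
    have b2 : |Z i i * Z j j| ≤ 1 / 1000 := (le_add_of_nonneg_left (abs_nonneg _)).trans h1
    rw [← abs_mul] at b1
    rw [abs_mul] at b2
    nlinarith [le_abs_self (t11 Z i j * t22 Z i j)]
  have e : ss Z i j k = t11 Z i j * Z k i ^ 2 + t22 Z i j * Z k j ^ 2 +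
      2 * t12 Z i j * (Z k i * Z k j) := by unfold ss ze1 ze2; ring
  rw [e]
  refine (sq_le h0).trans ?_
  have hx := sq_nonneg (Z k i)
  have hy := sq_nonneg (Z k j)
  rw [mul_pow _ (Z k i * Z k j), mul_pow (Z k i)]
  generalize Z k i ^ 2 = x at *
  generalize Z k j ^ 2 = y at *
  have hxy := mul_nonneg hx hy
  have c1 : (t11 Z i j * x + t22 Z i j * y) ^ 2 ≤
      (1 + 3 * θ) ^ 2 * (Z j j ^ 2 * x ^ 2 + Z i i ^ 2 * y ^ 2) + x * y := by
    nlinarith [mul_le_mul_of_nonneg_right a1 (sq_nonneg x),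
      mul_le_mul_of_nonneg_right a2 (sq_nonneg y), mul_le_mul_of_nonneg_right a4 hxy]
  have c2 : (2 * t12 Z i j) ^ 2 * (x * y) ≤ 5 * (x * y) :=
    mul_le_mul_of_nonneg_right (by linarith) hxy
  have c3 : (1 + θ) * (1 + 3 * θ) ^ 2 ≤ 1 + 8 * θ := by nlinarith [mul_pos h0 h0]
  have c4 := mul_le_mul_of_nonneg_right c3
    (show 0 ≤ Z j j ^ 2 * x ^ 2 + Z i i ^ 2 * y ^ 2 by positivity)
  have c5 := mul_le_mul_of_nonneg_left c1 (show 0 ≤ 1 + θ by linarith)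
  have c6 := mul_le_mul_of_nonneg_left c2 (show 0 ≤ 1 + θ⁻¹ by linarith)
  have c7 := mul_le_mul_of_nonneg_right (show 6 + θ ≤ 7 * θ⁻¹ by linarith) hxy
  nlinarith

theorem ad_step (hZ : Z.IsSymm) (hij : i ≠ j) {θ : ℝ} (h : nu Z i j ≤ θ) (hθ : θ ≤ 1 / 1000) :
    Ad (upd Z i j) - Ad Z ≤ -(Z i i ^ 2 + Z j j ^ 2) + 2 * trT Z (NN Z) i j +
      10 * θ * (Z i i ^ 2 + Z j j ^ 2) + ∑ k, ss Z i j k ^ 2 := by
  have e1 : Ad (upd Z i j) = sumo i j fun k => Z k k ^ 2 + 2 * (Z k k * ss Z i j k) +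
      ss Z i j k ^ 2 := sum_congr rfl fun k _ => by
    rw [upd_diag]
    unfold ss
    split_ifs <;> ring
  obtain ⟨h1, h2⟩ := ss_self hZ h hθ
  rw [e1, sumo_eq hij, sum_add_distrib, sum_add_distrib, ← mul_sum, sum_ss, Ad]
  linarith [neg_abs_le (Z i i * ss Z i j i), neg_abs_le (Z j j * ss Z i j j),
    sq_nonneg (ss Z i j i), sq_nonneg (ss Z i j j)]

omit [DecidableEq ι] in
theorem sum_sq_le (hZ : Z.IsSymm) {α β : ℝ} (hα : 0 ≤ α) :
    ∑ i, ∑ j, ∑ k, (α * (Z j j ^ 2 * (Z k i ^ 2) ^ 2 + Z i i ^ 2 * (Z k j ^ 2) ^ 2) +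
      β * (Z k i ^ 2 * Z k j ^ 2)) ≤ α * (2 * Ad Z * ∑ k, rr Z k ^ 2) + β * ∑ k, rr Z k ^ 2 := by
  have h1 : ∑ i, ∑ k, (Z k i ^ 2) ^ 2 ≤ ∑ k, rr Z k ^ 2 := by
    rw [sum_comm]
    exact sum_le_sum fun k _ => sum_row_pow_le hZ k 1
  have h2 : ∑ i, ∑ j, ∑ k, Z k i ^ 2 * Z k j ^ 2 = ∑ k, rr Z k ^ 2 := by
    rw [sum_comm_cycle]
    simp only [rr_eq hZ, ← mul_sum, ← sum_mul, sq (∑ _, _)]
  simp only [sum_add_distrib, ← mul_sum, h2, ← sum_mul]
  have h3 := mul_le_mul_of_nonneg_left h1 (Ad_nonneg Z)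
  unfold Ad at *
  nlinarith [mul_le_mul_of_nonneg_left h3 hα]

end LD

open LD

theorem ld_of (h0 : IdentS) (h1 : LD1S) (h2 : LD2S) (h3 : LD3S) (h4 : LD4S) : LDS := by
  intro ι _ _ P ε Z Y w e c
  have a0 := c.wt.av_mono fun i j hw =>
    dp_step h0 c.sZ.symm (c.wt.ne i j hw) (tb_rho_ne (c.wt.nu_le c.wZ hw))
  have a1 := h1 ι P ε Z Y w e c
  have a2 := h2 ι P ε Z Y w e c
  have a3 := h3 ι P ε Z Y w e c
  have a4 := h4 ι P ε Z Y w e c
  have a5 := c.wt.av_remove (by linarith [c.ok.sm1]) (c.sZ.card_sq c.ok)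
    fun k => dp Z k ^ 2 + dp Z k ^ 4
  have e1 : ∑ k, |dp Z k ^ 2 + dp Z k ^ 4| = Dp Z :=
    sum_congr rfl fun k _ => abs_of_nonneg (by positivity)
  have e2 : Dp Z = ∑ k, dp Z k ^ 2 + ∑ k, dp Z k ^ 4 := sum_add_distrib
  have a6 := mul_le_mul_of_nonneg_left c.sZ.hD
    (show 0 ≤ P.k2 * P.sm from mul_nonneg (by linarith [c.ok.k21]) (by linarith [c.ok.sm1]))
  obtain ⟨a7, a8⟩ := ED_le c.ok
  rw [av_add, av_add, av_add, av_add, av_neg] at a0
  rw [e1, c.ok.sm_sq, sum_add_distrib] at a5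
  have e3 : (6 * T2 Z - 2 * P.m) * Dp Z =
      (6 * T2 Z - 2 * P.m) * (∑ k, dp Z k ^ 2 + ∑ k, dp Z k ^ 4) := by rw [e2]
  rw [e3]
  rw [e2] at a5 a6
  unfold C0 C1 at *
  linarith [(abs_le.1 a5).1]

theorem la2 : LA2S := by
  intro ι _ _ P ε Z Y w e c
  have hZ := c.sZ.symm
  have h := c.ok
  have := h.θ_pos; have := h.m1; have := h.sD1; have := h.k21; have := h.al1; have := h.kF1
  have := h.sm1; have := h.b1'1; have := h.kO1; have := h.θ_le; have := h.θ_inv1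
  have a0 := c.wt.av_mono fun i j hw => ad_step hZ (c.wt.ne i j hw) (c.wZ.nu_le i j hw) h.θ_le
  have a1 := c.wt.av_remove (by linarith) (c.sZ.card_sq h) fun k => Z k k ^ 2
  have a2 := c.wt.first c.wZ (by linarith) c.sZ.hal (NN Z)
  have a3 := c.wt.av_le (f := fun i j => Z i i ^ 2 + Z j j ^ 2) (fun _ _ => by positivity)
    fun _ _ _ => le_rfl
  have a4 := (c.wt.av_le' (f := fun i j => ∑ k, ss Z i j k ^ 2) (fun _ _ => by positivity)
    fun i j hw => sum_le_sum fun k _ => ss_sq (c.wZ.nu_le i j hw) h.θ_pos h.θ_le k).trans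
    (mul_le_mul_of_nonneg_left (sum_sq_le hZ (by linarith)) (by linarith))
  have b0 : ∑ k, |Z k k| * rr Z k ≤ P.al * (2 * P.sm) := by
    have := sum_mul_le (fun k => |Z k k|) (rr Z)
    rw [vn_abs] at this
    exact this.trans (mul_le_mul (c.sZ.vn_diag h) (c.sZ.vn_rr h) (vn_nonneg _) (by linarith))
  have b1 := (diag_NN hZ).trans b0
  have b2 := (fn_NN hZ).trans b0
  have b3 := (fro_NN hZ fun f => c.wt.KO f f).trans (mul_le_mul_of_nonneg_left b0 (by linarith))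
  have b4 : T1 Z * trace (NN Z) ≤ P.b1' * (P.al * (2 * P.sm)) := by
    refine (le_abs_self _).trans ((abs_mul _ _).trans_le ?_)
    exact mul_le_mul c.sZ.hb1' ((abs_sum_le_sum_abs _ _).trans b1) (abs_nonneg _) (by linarith)
  have b5 : T1 Z ≤ P.b1' * (P.al * P.sm) := ((le_abs_self _).trans c.sZ.hb1').trans
    (le_mul_of_one_le_right (by linarith) (one_le_mul_of_one_le_of_one_le h.al1 h.sm1))
  have b6 := mul_le_mul_of_nonneg_left b1 (show 0 ≤ P.k2 * P.al by positivity)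
  have b7 := mul_le_mul_of_nonneg_left b2 (show 0 ≤ P.kF by positivity)
  have d0 := Ad_nonneg Z
  have d1 := c.sZ.hal
  have d2 := mul_le_mul_of_nonneg_left (c.sZ.sum_rr2_T2 h) d0
  have d3 := mul_le_mul d1 (c.sZ.sum_rr2 h) (by positivity) (by positivity)
  have d4 := mul_le_mul_of_nonneg_left (c.sZ.sum_rr2 h) (show 0 ≤ P.θ⁻¹ by positivity)
  have d5 := mul_le_mul_of_nonneg_right d1 (show 0 ≤ P.sD by positivity)
  have d6 := mul_le_mul_of_nonneg_left d1 (show 0 ≤ P.k2 * P.sm by positivity)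
  have d7 := mul_le_mul_of_nonneg_left d1 (show 0 ≤ P.m by positivity)
  have d8 : 0 ≤ Ad Z * ∑ k, rr Z k ^ 2 := by positivity
  have d9 : 0 ≤ P.θ⁻¹ * ∑ k, rr Z k ^ 2 := by positivity
  have a5 : (1 + P.θ) * ((1 + 8 * P.θ) * (2 * Ad Z * ∑ k, rr Z k ^ 2) +
      12 * P.θ⁻¹ * ∑ k, rr Z k ^ 2) ≤ 2 * (Ad Z * T2 Z) + 4 * (P.al ^ 2 * P.sD) +
      80 * (P.θ * P.m * P.al ^ 2) + 96 * (P.θ⁻¹ * P.m) := by
    have f1 := mul_le_mul_of_nonneg_right
      (show (1 + P.θ) * (1 + 8 * P.θ) ≤ 1 + 10 * P.θ by nlinarith) d8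
    have f2 := mul_le_mul_of_nonneg_right (show 1 + P.θ ≤ 2 by linarith) d9
    have f3 := mul_le_mul_of_nonneg_left d3 h.θ_pos.le
    nlinarith
  simp only [sum_add_distrib, c.sZ.sum_const, ← mul_sum] at a3
  simp only [abs_sq, h.sm_sq] at a1
  rw [total_NN c.sZ.rows] at a2
  rw [av_add, av_add, av_add, av_neg, av_mul, av_mul] at a0
  change _ ≤ 2 * (P.m * Ad Z + P.m * Ad Z) at a3
  change |_ - 2 * (P.m * Ad Z)| ≤ 6 * (_ * Ad Z) at a1
  have a6 := mul_le_mul_of_nonneg_left (a3.trans (by linarith : _ ≤ 4 * (P.m * P.al ^ 2)))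
    h.θ_pos.le
  have m1 : 0 ≤ P.θ * P.m * P.al ^ 2 := by positivity
  have m2 : 0 ≤ P.k2 * P.sm * P.al ^ 2 := by positivity
  have m3 : 0 ≤ P.sD * P.al ^ 2 := by positivity
  have m4 : 0 ≤ P.b1' * P.al * P.sm := by positivity
  have m5 : 0 ≤ P.kO * P.al * P.sm := by positivity
  have m6 : 0 ≤ P.kF * P.al * P.sm := by positivity
  have m7 : 0 ≤ P.θ⁻¹ * P.m := by positivity
  unfold C0 Par.EA2
  linarith [(abs_le.1 a1).1, (abs_le.1 a2).2, (abs_le.1 b3).1]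

end Vale.Agent.P049
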