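import Vale.Agent.P049.Avg

/-! First order drift of the row excess. -/

namespace Vale.Agent.P049

open Matrix Finset

namespace LD1

variable {ι : Type} [Fintype ι]

theorem vn_sum_le {κ : Type} (s : Finset κ) (f : κ → ι → ℝ) :
    vn (fun i => ∑ k ∈ s, f k i) ≤ ∑ k ∈ s, vn (f k) := by
  classical
  induction s using Finset.induction_on with
  | empty => simp [vn]
  | insert a s ha ih =>
    simp only [sum_insert ha]
    exact (vn_add_le _ _).trans (by linarith)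

/-- Column `k` of `Z`. -/
def cv (Z : Mat ι) (k : ι) : ι → ℝ := fun l => Z l k
/-- Column `k` of `Z * Z`. -/
def cu (Z : Mat ι) (k : ι) : ι → ℝ := fun l => (Z * Z) l k

theorem cu_eq (Z : Mat ι) (k : ι) : cu Z k = Z *ᵥ cv Z k := rfl

/-- The matrix `Z G Z Z`. -/
def N1 (Z : Mat ι) : Mat ι := of fun a b => ∑ k, gg Z k * (cv Z k a * cu Z k b)

theorem sum_db1 {Z : Mat ι} (h : Z.IsSymm) (i j : ι) :
    ∑ k, gg Z k * db1 Z i j k = 2 * trT Z (N1 Z) i j := by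
  simp only [trT, N1, of_apply, mul_add, mul_sum, ← sum_add_distrib]
  refine sum_congr rfl fun k _ => ?_
  simp only [db1, ze1, ze2, cv, cu, h.apply k, (isSymm_sq h).apply k]
  ring

theorem trace_N1 (Z : Mat ι) : trace (N1 Z) = ∑ k, gg Z k * qf Z (cv Z k) := by
  simp only [trace, diag_apply, N1, of_apply]
  rw [sum_comm]
  exact sum_congr rfl fun k _ => by rw [← mul_sum]; rfl

theorem total_N1 {Z : Mat ι} (h : Z.IsSymm) (hr : ∀ k, ∑ l, Z k l = 1) :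
    ∑ a, ∑ b, N1 Z a b = ∑ k, gg Z k := by
  have h1 : ∀ k, ∑ a, cv Z k a = 1 := fun k => by simp only [cv, h.apply k, hr]
  have h2 : ∀ k, ∑ a, cu Z k a = 1 := fun k => by
    simp only [cu, (isSymm_sq h).apply k, rows_mul hr hr]
  simp only [N1, of_apply]
  calc ∑ a, ∑ b, ∑ k, gg Z k * (cv Z k a * cu Z k b)
      = ∑ a, ∑ k, ∑ b, gg Z k * (cv Z k a * cu Z k b) := sum_congr rfl fun a _ => sum_comm
    _ = ∑ k, ∑ a, ∑ b, gg Z k * (cv Z k a * cu Z k b) := sum_comm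
    _ = _ := sum_congr rfl fun k _ => by simp only [← mul_sum, h2, mul_one, h1]

theorem fro_N1 (K Z : Mat ι) : fro K (N1 Z) = ∑ k, gg Z k * (cv Z k ⬝ᵥ K *ᵥ cu Z k) := by
  simp only [fro, N1, of_apply, dotProduct, mulVec, mul_sum]
  calc ∑ a, ∑ b, ∑ k, K a b * (gg Z k * (cv Z k a * cu Z k b))
      = ∑ a, ∑ k, ∑ b, K a b * (gg Z k * (cv Z k a * cu Z k b)) :=
        sum_congr rfl fun a _ => sum_comm
    _ = ∑ k, ∑ a, ∑ b, K a b * (gg Z k * (cv Z k a * cu Z k b)) := sum_comm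
    _ = _ := sum_congr rfl fun k _ => sum_congr rfl fun a _ => sum_congr rfl fun b _ => by ring

theorem K_form {Z Y : Mat ι} (hY : Y.IsSymm) (ε : ℝ) (k : ι) :
    cv Z k ⬝ᵥ (ε • (Z * Z - Y * Y)) *ᵥ cu Z k =
      ε * qf (Z * Z * Z) (cv Z k) - ε * ((Y *ᵥ cv Z k) ⬝ᵥ (Y *ᵥ cu Z k)) := by
  rw [dot_mulVec_symm hY, mulVec_mulVec, smul_mulVec, sub_mulVec, dotProduct_smul, dotProduct_sub,
    qf, ← mulVec_mulVec (cv Z k) (Z * Z) Z, ← cu_eq, smul_eq_mul, mul_sub]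

theorem diag_N1 (Z : Mat ι) :
    ∑ i, |N1 Z i i| ≤ ∑ k, gg Z k * (vn (cv Z k) * vn (cu Z k)) := by
  calc ∑ i, |N1 Z i i| ≤ ∑ i, ∑ k, gg Z k * (|cv Z k i| * |cu Z k i|) :=
        sum_le_sum fun i _ => (abs_sum_le_sum_abs _ _).trans (sum_le_sum fun k _ => by
          rw [abs_mul, abs_mul, abs_of_nonneg (gg_nonneg Z k)])
    _ = ∑ k, gg Z k * ∑ i, |cv Z k i| * |cu Z k i| := by
        rw [sum_comm]; simp only [mul_sum]
    _ ≤ _ := sum_le_sum fun k _ =>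
        mul_le_mul_of_nonneg_left (sum_abs_mul_le _ _) (gg_nonneg Z k)

theorem fn_N1 (Z : Mat ι) : fn (N1 Z) ≤ ∑ k, gg Z k * (vn (cv Z k) * vn (cu Z k)) := by
  rw [fn_eq_vn]
  refine (vn_sum_le univ fun k (p : ι × ι) => gg Z k * (cv Z k p.1 * cu Z k p.2)).trans
    (sum_le_sum fun k _ => ?_)
  rw [vn_smul, abs_of_nonneg (gg_nonneg Z k), ← Wt.fn_outer, fn_eq_vn]
  rfl

section Side

variable {P : Par} {ε : ℝ} {Z : Mat ι}

theorem cv_sq (s : Side P ε Z) (k : ι) : vn (cv Z k) ^ 2 = rr Z k := vn_col_sq s.symm k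
theorem cu_sq (s : Side P ε Z) (k : ι) : vn (cu Z k) ^ 2 = rr (Z * Z) k :=
  vn_col_sq (isSymm_sq s.symm) k
theorem cu_le (s : Side P ε Z) (h : P.OK) (k : ι) : vn (cu Z k) ≤ P.L * vn (cv Z k) :=
  s.op h (cv Z k)

/-- Splitting `gg`. -/
theorem sum_gg_le (s : Side P ε Z) (h : P.OK) {f : ι → ℝ} {A B c : ℝ} (hc : 0 ≤ c)
    (h1 : ∑ k, dp Z k * f k ≤ A) (h2 : ∀ k, f k ≤ B * rr Z k + c) (hB : 0 ≤ B) :
    ∑ k, gg Z k * f k ≤ 2 * A + 8 * (B * P.D) + 4 * (c * P.D) := by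
  have h3 : ∑ k, dp Z k ^ 3 * f k ≤ B * ∑ k, dp Z k ^ 3 * rr Z k + c * ∑ k, dp Z k ^ 3 := by
    rw [mul_sum, mul_sum, ← sum_add_distrib]
    refine sum_le_sum fun k _ => ?_
    have := mul_le_mul_of_nonneg_left (h2 k) (pow_nonneg (dp_nonneg Z k) 3)
    linarith
  have h4 := mul_le_mul_of_nonneg_left (s.sum_dp3_rr h) hB
  have h5 := mul_le_mul_of_nonneg_left s.sum_dp3 hc
  simp only [gg, add_mul, mul_assoc, sum_add_distrib, ← mul_sum]
  linarith

theorem sum_dp_mul (s : Side P ε Z) (h : P.OK) {f : ι → ℝ} {c : ℝ} (hf : vn f ≤ c) :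
    ∑ k, dp Z k * f k ≤ P.sqD * c :=
  (sum_mul_le _ _).trans (mul_le_mul (s.vn_dp h) hf (vn_nonneg _) (by linarith [h.sqD1]))

theorem sum_vu (s : Side P ε Z) (h : P.OK) :
    ∑ k, gg Z k * (vn (cv Z k) * vn (cu Z k)) ≤ 2 * (P.sqD * P.sRF) + 8 * (P.L * P.D) := by
  have h1 : vn (fun k => vn (cv Z k) * vn (cu Z k)) ≤ P.sRF :=
    vn_le_of_sq (by linarith [h.sRF1]) (by
      simp only [mul_pow, cv_sq s, cu_sq s]
      exact s.sum_rr_rrsq h)
  have := sum_gg_le s h (c := 0) (B := P.L) le_rfl (sum_dp_mul s h h1) (fun k => by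
    rw [← cv_sq s]
    nlinarith [mul_le_mul_of_nonneg_left (cu_le s h k) (vn_nonneg (cv Z k))])
    (by linarith [h.L1])
  linarith

theorem sum_u (s : Side P ε Z) (h : P.OK) :
    ∑ k, gg Z k * vn (cu Z k) ≤ 2 * (P.sqD * P.L ^ 2) + 12 * (P.L * P.D) := by
  have hL : 0 ≤ P.L := by linarith [h.L1]
  have h1 : vn (fun k => vn (cu Z k)) ≤ P.L ^ 2 := by
    have := s.fn_sq_le
    rwa [fn_eq_vn_cols] at this
  have := sum_gg_le s h (c := P.L) (B := P.L) hL (sum_dp_mul s h h1) (fun k => by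
    rw [← cv_sq s]
    have h2 : vn (cv Z k) ≤ vn (cv Z k) ^ 2 + 1 := by nlinarith
    nlinarith [cu_le s h k, mul_le_mul_of_nonneg_left h2 hL]) hL
  linarith

theorem sum_spec [DecidableEq ι] (h1 : SpecS) (s : Side P ε Z) (h : P.OK) :
    ∑ k, gg Z k * (T1 Z * qf Z (cv Z k) - P.μ * (ε * qf (Z * Z * Z) (cv Z k))) ≤
      8 * P.Hd + 8 * (P.H * P.D) := by
  have hH : 0 ≤ P.H := by linarith [h.H1]
  have hv : ∀ k, cv Z k ⬝ᵥ cv Z k = rr Z k := fun k => by rw [← vn_sq_dot, cv_sq s]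
  have h2 := fun k => h1 ι P ε Z h s (cv Z k)
  simp only [hv] at h2
  have h3 : ∑ k, dp Z k * (T1 Z * qf Z (cv Z k) - P.μ * (ε * qf (Z * Z * Z) (cv Z k))) ≤
      4 * P.Hd := by
    have h4 := s.sum_dp_rr h
    rcases h.hHd with h5 | h5
    · have h6 : ∑ k, dp Z k * (T1 Z * qf Z (cv Z k) - P.μ * (ε * qf (Z * Z * Z) (cv Z k))) ≤
          P.H * ∑ k, dp Z k * rr Z k := by
        rw [mul_sum]
        refine sum_le_sum fun k _ => ?_
        have := mul_le_mul_of_nonneg_left (h2 k).1 (dp_nonneg Z k)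
        linarith
      have := mul_le_mul_of_nonneg_left h4 hH
      linarith [h.Hd_nonneg]
    · have h6 : ∑ k, dp Z k * (T1 Z * qf Z (cv Z k) - P.μ * (ε * qf (Z * Z * Z) (cv Z k))) ≤
          P.b1 * ∑ k, dp Z k * |qf Z (cv Z k)| + (P.b1' + P.μ) * ∑ k, dp Z k * rr Z k := by
        rw [mul_sum, mul_sum, ← sum_add_distrib]
        refine sum_le_sum fun k _ => ?_
        have := mul_le_mul_of_nonneg_left (h2 k).2 (dp_nonneg Z k)
        linarith
      have h7 : vn (fun k => |qf Z (cv Z k)|) ≤ P.sRF :=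
        vn_le_of_sq (by linarith [h.sRF1]) (le_trans (sum_le_sum fun k _ => by
          have := cube_diag_sq_le s.symm k
          rw [cube_diag s.symm, mul_comm] at this
          rw [sq_abs]
          exact this) (s.sum_rr_rrsq h))
      have h8 := mul_le_mul_of_nonneg_left (sum_dp_mul s h h7) (show 0 ≤ P.b1 by linarith [h.b11])
      have h9 : (P.b1' + P.μ) * ∑ k, dp Z k * rr Z k ≤ (2 * P.b1') * (2 * P.sD) :=
        mul_le_mul (by linarith [h.b1'1, h.μ_le]) h4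
          (sum_nonneg fun k _ => mul_nonneg (dp_nonneg Z k) (s.rr0 k)) (by linarith [h.b1'1])
      have h10 : 0 ≤ P.b1 * P.sqD * P.sRF := by
        have := h.b11; have := h.sqD1; have := h.sRF1; positivity
      linarith
  have := sum_gg_le s h (c := 0) (B := P.H) le_rfl h3 (fun k => by linarith [(h2 k).1]) hH
  linarith

end Side

theorem sum_cross {P : Par} {ε : ℝ} {Z Y : Mat ι} {w e : ι → ι → ℝ} (c : Ctx P ε Z Y w e) :
    ∑ k, gg Z k * (ε * ((Y *ᵥ cv Z k) ⬝ᵥ (Y *ᵥ cu Z k))) ≤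
      2 * (P.sqD * P.L ^ 2 * P.sR * P.sM) + 8 * (P.L * P.sM * P.D) := by
  have h := c.ok
  have s := c.sZ
  have hL : 0 ≤ P.L := by linarith [h.L1]
  have hsM : 0 ≤ P.sM := by linarith [h.sM1]
  have hsR : 0 ≤ P.sR := by linarith [h.sR1]
  have h1 : ∀ k, ε * ((Y *ᵥ cv Z k) ⬝ᵥ (Y *ᵥ cu Z k)) ≤
      vn (Y *ᵥ cv Z k) * vn (Y *ᵥ cu Z k) := fun k => by
    refine (le_abs_self _).trans ?_
    rw [abs_mul, s.abs_eps, one_mul]
    exact abs_dot_le _ _
  have h2 : ∀ k, vn (Y *ᵥ cv Z k) ≤ P.L * vn (cv Z k) := fun k => c.sY.op h _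
  have h3 : ∀ k, vn (Y *ᵥ cu Z k) ≤ P.sM * vn (cv Z k) := fun k => by
    rw [cu_eq, mulVec_mulVec]
    exact (op_fn _).mono c.fn_YZ.1 _
  have h4 : vn (fun k => vn (Y *ᵥ cu Z k)) ≤ P.L * P.sM := by
    have h5 := ((s.op h).mul_fn hL s.symm (Y * Z)).trans
      (mul_le_mul_of_nonneg_left c.fn_YZ.1 hL)
    rw [Matrix.mul_assoc, fn_eq_vn_cols] at h5
    exact h5
  have h5 : ∑ k, dp Z k * (ε * ((Y *ᵥ cv Z k) ⬝ᵥ (Y *ᵥ cu Z k))) ≤
      P.L * P.sR * ∑ k, dp Z k * vn (Y *ᵥ cu Z k) := by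
    rw [mul_sum]
    refine sum_le_sum fun k _ => ?_
    have h6 : vn (Y *ᵥ cv Z k) ≤ P.L * P.sR :=
      (h2 k).trans (mul_le_mul_of_nonneg_left (s.vn_col h k) hL)
    have h7 := mul_le_mul_of_nonneg_left ((h1 k).trans
      (mul_le_mul_of_nonneg_right h6 (vn_nonneg _))) (dp_nonneg Z k)
    linarith
  have h6 := mul_le_mul_of_nonneg_left (sum_dp_mul s h h4) (mul_nonneg hL hsR)
  have := sum_gg_le s h (c := 0) (B := P.L * P.sM) le_rfl (h5.trans h6) (fun k => by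
    rw [← cv_sq s]
    have := (h1 k).trans (mul_le_mul (h2 k) (h3 k) (vn_nonneg _) (mul_nonneg hL (vn_nonneg _)))
    linarith) (mul_nonneg hL hsM)
  linarith

/-- Bound for the removed terms. -/
noncomputable def rem (P : Par) (Z : Mat ι) (i j : ι) : ℝ :=
  6 * (gg Z i * rr Z i * nu Z i j) + 3 * P.z * (gg Z i * |cu Z i j|)

theorem sum_rem {P : Par} {ε : ℝ} {Z : Mat ι} (s : Side P ε Z) (h : P.OK) :
    ∑ i, ∑ j, rem P Z i j ≤ 72 * (P.sm * P.sR * P.sD) + 72 * (P.sm * P.z * P.al * P.sD) +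
      6 * (P.sm * P.z * P.sqD * P.L ^ 2) + 36 * (P.sm * P.z * P.L * P.D) := by
  have hsm : 0 ≤ P.sm := by linarith [h.sm1]
  have hz : 0 ≤ P.z := by linarith [h.z1]
  have h1 : ∀ i, ∑ j, nu Z i j ≤ P.sm * P.sR + P.z * (P.sm * P.al) := fun i => by
    simp only [nu, abs_mul, sum_add_distrib, ← mul_sum]
    have h2 := (sum_abs_le hsm (s.card_sq h) fun j => Z i j).trans
      (mul_le_mul_of_nonneg_left (s.vn_row h i) hsm)
    have h3 := (sum_abs_le hsm (s.card_sq h) fun j => Z j j).trans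
      (mul_le_mul_of_nonneg_left (s.vn_diag h) hsm)
    have h4 := mul_le_mul (s.diag_le h i) h3 (by positivity) hz
    linarith
  have h0 : 0 ≤ P.sm * P.sR + P.z * (P.sm * P.al) := by
    have := h.sR1; have := h.al1; positivity
  have h2 : ∑ i, ∑ j, rem P Z i j ≤ 6 * (P.sm * P.sR + P.z * (P.sm * P.al)) *
      ∑ i, gg Z i * rr Z i + 3 * P.z * P.sm * ∑ i, gg Z i * vn (cu Z i) := by
    rw [mul_sum, mul_sum, ← sum_add_distrib]
    refine sum_le_sum fun i _ => ?_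
    simp only [rem, sum_add_distrib, ← mul_sum]
    have h3 := mul_le_mul_of_nonneg_left (h1 i) (mul_nonneg (gg_nonneg Z i) (s.rr0 i))
    have h4 := mul_le_mul_of_nonneg_left (sum_abs_le hsm (s.card_sq h) (cu Z i))
      (mul_nonneg hz (gg_nonneg Z i))
    linarith
  have h3 := mul_le_mul_of_nonneg_left (s.sum_gg_rr h) h0
  have h4 := mul_le_mul_of_nonneg_left (sum_u s h) (mul_nonneg hz hsm)
  linarith

theorem rem_nonneg {P : Par} {ε : ℝ} {Z : Mat ι} (s : Side P ε Z) (h : P.OK) (i j : ι) :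
    0 ≤ rem P Z i j := by
  have := gg_nonneg Z i; have := s.rr0 i; have := nu_nonneg Z i j; have := h.z1
  unfold rem
  positivity

theorem neg_le_rem {g r n z τ t a c : ℝ} (hg : 0 ≤ g) (hr : 0 ≤ r) (hτ : |τ| ≤ 3 * n)
    (ht : |t| ≤ 101 / 100 * a) (ha : a ≤ z) (hz : 0 ≤ z) :
    -(g * (2 * (τ * r + t * c))) ≤ 6 * (g * r * n) + 3 * z * (g * |c|) := by
  have h1 : -(τ * r) ≤ 3 * n * r := by nlinarith [neg_abs_le τ]
  have h2 : -(t * c) ≤ 3 / 2 * z * |c| := by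
    have h3 := neg_abs_le (t * c)
    rw [abs_mul] at h3
    have h4 : |t| ≤ 3 / 2 * z := by linarith
    nlinarith [mul_le_mul_of_nonneg_right h4 (abs_nonneg c)]
  nlinarith [mul_le_mul_of_nonneg_left h1 hg, mul_le_mul_of_nonneg_left h2 hg]

end LD1

open LD1 in
theorem ld1_of (h1 : SpecS) : LD1S := by
  intro ι _ _ P ε Z Y w e c
  have h := c.ok
  have s := c.sZ
  have hz : 0 ≤ P.z := by linarith [h.z1]
  have a1 : av w (fun i j => sumo i j fun k => gg Z k * db1 Z i j k) ≤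
      av w (fun i j => 2 * trT Z (N1 Z) i j + (rem P Z i j + rem P Z j i)) := by
    refine c.wt.av_mono fun i j h0 => ?_
    have b0 := c.wt.nu_le c.wZ h0
    obtain ⟨e1, e2, e3, e4⟩ := ze_self s.symm (tb_rho_ne b0)
    have b1 := neg_le_rem (c := cu Z i j) (gg_nonneg Z i) (s.rr0 i) (tb_12 b0) (tb_22_le b0)
      (s.diag_le h i) hz
    have b2 := neg_le_rem (c := cu Z j i) (gg_nonneg Z j) (s.rr0 j) (tb_12 b0) (tb_11_le b0)
      (s.diag_le h j) hz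
    have b3 : db1 Z i j i = 2 * ((t12 Z i j - 1) * rr Z i + t22 Z i j * cu Z i j) := by
      rw [db1, e1, e2, cu, (isSymm_sq s.symm).apply i j, rr]
    have b4 : db1 Z i j j = 2 * ((t12 Z i j - 1) * rr Z j + t11 Z i j * cu Z j i) := by
      rw [db1, e3, e4, cu, (isSymm_sq s.symm).apply j i, rr, add_comm]
    rw [sumo_eq (c.wt.ne i j h0), sum_db1 s.symm, b3, b4, rem, rem, nu_swap s.symm i j]
    linarith
  have a2 : av w (fun i j => rem P Z i j + rem P Z j i) ≤ 4 * ∑ i, ∑ j, rem P Z i j := by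
    rw [av_add, c.wt.av_swap (rem P Z)]
    have := c.wt.av_le (rem_nonneg s h) (f := rem P Z) fun _ _ _ => le_rfl
    linarith
  have a3 := (abs_le.1 (c.wt.first c.wZ (by linarith [h.al1]) s.hal (N1 Z))).2
  have a4 : T1 Z * trace (N1 Z) + ∑ i, ∑ j, N1 Z i j - P.μ * fro (ε • (Z * Z - Y * Y)) (N1 Z) =
      ∑ k, gg Z k * (T1 Z * qf Z (cv Z k) - P.μ * (ε * qf (Z * Z * Z) (cv Z k))) + ∑ k, gg Z k +
        P.μ * ∑ k, gg Z k * (ε * ((Y *ᵥ cv Z k) ⬝ᵥ (Y *ᵥ cu Z k))) := by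
    rw [trace_N1, total_N1 s.symm s.rows, fro_N1]
    simp only [K_form c.sY.symm, mul_sum, ← sum_add_distrib, ← sum_sub_distrib]
    exact sum_congr rfl fun k _ => by ring
  have a5 := sum_spec h1 s h
  have a6 := mul_le_mul_of_nonneg_left (sum_cross c) h.μ_pos.le
  have a7 := mul_le_mul_of_nonneg_left ((diag_N1 Z).trans (sum_vu s h))
    (mul_nonneg c.wt.k2_nonneg (show 0 ≤ P.al by linarith [h.al1]))
  have a8 := mul_le_mul_of_nonneg_left ((fn_N1 Z).trans (sum_vu s h)) c.wt.kF_nonneg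
  have a9 := sum_rem s h
  have a10 : ∑ k, gg Z k ≤ 6 * (P.sD * P.D) := by
    have := s.sum_gg h
    nlinarith [h.D1, h.sD1]
  rw [av_add, av_mul] at a1
  rw [a4] at a3
  have := h.sm1; have := h.m1; have := h.D1; have := h.R1; have := h.kF1; have := h.sD1
  have := h.H1; have := h.Hd_nonneg; have := h.θ_inv1; have := h.θ_pos; have := h.μ_pos
  have := h.L1; have := h.sqD1; have := h.sR1; have := h.al1; have := h.z1; have := h.sM1
  have := h.sRF1; have := h.k21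
  have p1 : 0 ≤ P.θ * P.m * P.D := by positivity
  have p2 : 0 ≤ P.sD * P.D := by positivity
  have p3 : 0 ≤ P.H * P.D := by positivity
  have p4 : 0 ≤ P.μ * P.sqD * P.L ^ 2 * P.sR * P.sM := by positivity
  have p5 : 0 ≤ P.μ * P.L * P.sM * P.D := by positivity
  have p6 : 0 ≤ P.k2 * P.al * P.sqD * P.sRF := by positivity
  have p7 : 0 ≤ P.kF * P.sqD * P.sRF := by positivity
  have p8 : 0 ≤ P.k2 * P.al * P.L * P.D := by positivity
  have p9 : 0 ≤ P.kF * P.L * P.D := by positivity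
  have p10 : 0 ≤ P.sm * P.sR * P.sD := by positivity
  have p11 : 0 ≤ P.sm * P.z * P.al * P.sD := by positivity
  have p12 : 0 ≤ P.sm * P.z * P.sqD * P.L ^ 2 := by positivity
  have p13 : 0 ≤ P.sm * P.z * P.L * P.D := by positivity
  have p14 : 0 ≤ P.k2 * P.sm * P.D := by positivity
  have p15 : 0 ≤ P.θ⁻¹ * P.al ^ 2 * P.R * P.sD := by positivity
  have p16 : 0 ≤ P.θ⁻¹ * P.L ^ 2 * P.sD := by positivity
  have p17 : 0 ≤ P.θ⁻¹ * P.al * P.L * P.sR * P.sD := by positivity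
  have p18 : 0 ≤ P.θ⁻¹ ^ 4 * (P.z ^ 2 * P.sRF ^ 2 + P.al ^ 2 * P.m + P.z ^ 8 * P.m +
      P.z ^ 4 * P.R ^ 2 * P.m + P.L ^ 2 * P.D + P.al ^ 2 * P.R ^ 2 * P.D +
      P.z ^ 8 * P.R ^ 4 * P.D + P.sD * P.D) := by positivity
  unfold C1 Par.ED
  linarith

end Vale.Agent.P049
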