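import Vale.Agent.P049.Avg

/-! The second order part of the drift of the row excess. -/

namespace Vale.Agent.P049

open Matrix Finset

namespace LD2

theorem ze_sq {θ s t x y b : ℝ} (h0 : 0 < θ) (h1 : θ ≤ 1 / 1000) (hs : |s| ≤ 1 + 3 * θ)
    (ht : |t| ≤ 101 / 100 * |b|) :
    (t * x + s * y) ^ 2 ≤ (1 + 8 * θ) * y ^ 2 + 2 * θ⁻¹ * (b ^ 2 * x ^ 2) := by
  have h2 : θ * θ⁻¹ = 1 := mul_inv_cancel₀ h0.ne'
  have h3 : 0 < θ⁻¹ := inv_pos.2 h0
  have h4 : 1000 ≤ θ⁻¹ := by nlinarith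
  have h5 : (t * x + s * y) ^ 2 ≤ (1 + θ) * (s * y) ^ 2 + (1 + θ⁻¹) * (t * x) ^ 2 := by
    have h6 : θ⁻¹ * (t * x - θ * (s * y)) ^ 2 = θ⁻¹ * (t * x) ^ 2 -
      2 * (θ * θ⁻¹) * (t * x * (s * y)) + θ * (θ * θ⁻¹) * (s * y) ^ 2 := by ring
    rw [h2] at h6
    nlinarith [mul_nonneg h3.le (sq_nonneg (t * x - θ * (s * y)))]
  have h6 : (1 + θ) * s ^ 2 ≤ 1 + 8 * θ := by
    have h7 := pow_le_pow_left₀ (abs_nonneg _) hs 2
    rw [sq_abs] at h7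
    nlinarith [mul_le_mul_of_nonneg_left h7 (show 0 ≤ 1 + θ by linarith), mul_pos h0 h0]
  have h7 : (1 + θ⁻¹) * t ^ 2 ≤ 2 * θ⁻¹ * b ^ 2 := by
    have h8 := pow_le_pow_left₀ (abs_nonneg _) ht 2
    rw [sq_abs, mul_pow, sq_abs] at h8
    nlinarith [mul_le_mul_of_nonneg_left h8 (show 0 ≤ 1 + θ⁻¹ by linarith), sq_nonneg b]
  nlinarith [mul_le_mul_of_nonneg_right h6 (sq_nonneg y),
    mul_le_mul_of_nonneg_right h7 (sq_nonneg x)]

theorem ze_mul {s t u x y a b : ℝ} (hs : |s| ≤ 101 / 100) (ht : |t| ≤ 101 / 100 * |b|)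
    (hu : |u| ≤ 101 / 100 * |a|) (hab : |a| * |b| ≤ 1 / 1000) :
    |(t * x + s * y) * (s * x + u * y)| ≤ 2 * (|b| * x ^ 2 + |a| * y ^ 2 + |x| * |y|) := by
  have hx := abs_nonneg x
  have hy := abs_nonneg y
  have ha := abs_nonneg a
  have hb := abs_nonneg b
  have h1 : |t * x + s * y| ≤ 101 / 100 * (|b| * |x| + |y|) := (abs_add_le _ _).trans (by
    rw [abs_mul, abs_mul]
    linarith [mul_le_mul_of_nonneg_right ht hx, mul_le_mul_of_nonneg_right hs hy])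
  have h2 : |s * x + u * y| ≤ 101 / 100 * (|x| + |a| * |y|) := (abs_add_le _ _).trans (by
    rw [abs_mul, abs_mul]
    linarith [mul_le_mul_of_nonneg_right hs hx, mul_le_mul_of_nonneg_right hu hy])
  rw [abs_mul, ← sq_abs x, ← sq_abs y]
  refine (mul_le_mul h1 h2 (abs_nonneg _) (by positivity)).trans ?_
  nlinarith [mul_le_mul_of_nonneg_right hab (mul_nonneg hx hy), mul_nonneg hx hy,
    mul_nonneg hb (sq_nonneg |x|), mul_nonneg ha (sq_nonneg |y|)]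

variable {ι : Type} [Fintype ι]

/-- one half of the pointwise bound -/
noncomputable def Hb (θ : ℝ) (Z : Mat ι) (i j k : ι) : ℝ :=
  (1 + 8 * θ) * (dp Z i * Z k j ^ 2) + 2 * θ⁻¹ * (dp Z i * Z k i ^ 2 * Z j j ^ 2) +
    4 * (Z k i ^ 2 * (|(Z * Z) i j| * |Z j j|)) + 2 * (|(Z * Z) i j| * |Z k i * Z k j|)

theorem Hb_nonneg {θ : ℝ} (h0 : 0 < θ) (Z : Mat ι) (i j k : ι) : 0 ≤ Hb θ Z i j k := by
  have := dp_nonneg Z i
  unfold Hb
  positivity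

theorem db2_le {θ : ℝ} (h0 : 0 < θ) (h1 : θ ≤ 1 / 1000) {Z : Mat ι} (hZ : Z.IsSymm) {i j : ι}
    (h : nu Z i j ≤ θ) (k : ι) : db2 Z i j k ≤ Hb θ Z i j k + Hb θ Z j i k := by
  have h2 := h.trans h1
  have h3 : |t12 Z i j| ≤ 1 + 3 * θ := (tb_12_le' h2).trans (by linarith)
  have h4 := mul_le_mul_of_nonneg_left
    (ze_sq (x := Z k i) (y := Z k j) h0 h1 h3 (tb_11_le h2)) (dp_nonneg Z i)
  have h5 := mul_le_mul_of_nonneg_left
    (ze_sq (x := Z k j) (y := Z k i) h0 h1 h3 (tb_22_le h2)) (dp_nonneg Z j)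
  have h6 := mul_le_mul_of_nonneg_left (ze_mul (x := Z k i) (y := Z k j) (tb_12_le h2)
    (tb_11_le h2) (tb_22_le h2) ((abs_mul_le_nu Z i j).trans h2)) (abs_nonneg ((Z * Z) i j))
  rw [← abs_mul] at h6
  have h7 := (le_abs_self _).trans h6
  simp only [db2, Hb, ze1, ze2, abs_mul, (isSymm_sq hZ).apply i j]
  linarith

variable {P : Par} {ε : ℝ} {Z : Mat ι}

theorem sum_Hb (s : Side P ε Z) (h : P.OK) (k : ι) : ∑ i, ∑ j, Hb P.θ Z i j k ≤
    ((1 + 8 * P.θ) * ∑ i, dp Z i + 2 * P.θ⁻¹ * (P.al ^ 2 * P.R) + 4 * (P.L * P.sR * P.al) +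
      2 * P.L ^ 2) * rr Z k := by
  have hθ := h.θ_pos
  have hL := zero_le_one.trans h.L1
  have hR := zero_le_one.trans h.sR1
  have h1 : ∑ i, ∑ j, dp Z i * Z k j ^ 2 = (∑ i, dp Z i) * rr Z k := by
    rw [rr_eq s.symm, sum_mul_sum]
  have h2 : ∑ i, ∑ j, dp Z i * Z k i ^ 2 * Z j j ^ 2 ≤ P.R * rr Z k * P.al ^ 2 := by
    rw [← sum_mul_sum, rr_eq s.symm, mul_sum (a := P.R)]
    exact mul_le_mul (sum_le_sum fun i _ => mul_le_mul_of_nonneg_right (s.dp_le i) (sq_nonneg _))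
      s.hal (Ad_nonneg Z)
      (sum_nonneg fun i _ => mul_nonneg (zero_le_one.trans h.R1) (sq_nonneg _))
  have h3 : ∑ i, ∑ j, Z k i ^ 2 * (|(Z * Z) i j| * |Z j j|) ≤ rr Z k * (P.L * P.sR * P.al) := by
    rw [rr_eq s.symm, sum_mul]
    refine sum_le_sum fun i _ => ?_
    rw [← mul_sum]
    refine mul_le_mul_of_nonneg_left ((sum_abs_mul_le _ _).trans ?_) (sq_nonneg _)
    exact mul_le_mul (((s.op h).row s.symm Z i).trans
      (mul_le_mul_of_nonneg_left (s.vn_row h i) hL)) (s.vn_diag h) (vn_nonneg _) (mul_nonneg hL hR)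
  have h4 : ∑ i, ∑ j, |(Z * Z) i j| * |Z k i * Z k j| ≤ P.L ^ 2 * rr Z k := by
    refine (sum2_abs_mul_le (Z * Z) (of fun i j => Z k i * Z k j)).trans ?_
    rw [Wt.fn_outer, ← sq, vn_row_sq s.symm]
    exact mul_le_mul_of_nonneg_right s.fn_sq_le (s.rr0 k)
  simp only [Hb, sum_add_distrib, ← mul_sum (a := 1 + 8 * P.θ), ← mul_sum (a := 2 * P.θ⁻¹),
    ← mul_sum (a := (4 : ℝ)), ← mul_sum (a := (2 : ℝ)), h1]
  linarith [mul_le_mul_of_nonneg_left h2 (show 0 ≤ 2 * P.θ⁻¹ by positivity)]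

theorem sum_dp_sq (s : Side P ε Z) : (∑ k, dp Z k) ^ 2 ≤ T2 Z * ∑ k, dp Z k ^ 2 := by
  have h1 := sum_mul_sq_le_sq_mul_sq univ (fun k => if dp Z k = 0 then (0 : ℝ) else 1) (dp Z)
  rw [sum_congr rfl (g := dp Z) fun k _ => by split_ifs with h <;> simp [h]] at h1
  refine h1.trans (mul_le_mul_of_nonneg_right (sum_le_sum fun k _ => ?_) (by positivity))
  show _ ≤ rr Z k
  split_ifs with h
  · simpa using s.rr0 k
  · have h2 : ¬ rr Z k - 1 ≤ 0 := fun h2 => h (max_eq_right h2)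
    linarith

theorem sum_gg_rr (s : Side P ε Z) (h : P.OK) :
    ∑ k, gg Z k * rr Z k ≤ 2 * ∑ k, dp Z k + 10 * P.D := by
  have h1 : ∀ k, gg Z k * rr Z k = 2 * dp Z k + 2 * dp Z k ^ 2 + 4 * (dp Z k ^ 3 * rr Z k) :=
    fun k => by
      have := dp_mul_rr Z k
      unfold gg
      linarith
  simp only [h1, sum_add_distrib, ← mul_sum]
  linarith [s.sum_dp2, s.sum_dp3_rr h]

theorem ED_ge (h : P.OK) : P.θ * P.m * P.D + P.sD * P.D + P.θ⁻¹ * P.al ^ 2 * P.R * P.sD +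
    P.θ⁻¹ * P.L ^ 2 * P.sD + P.θ⁻¹ * P.al * P.L * P.sR * P.sD ≤ P.ED := by
  have := h.Hd_nonneg
  have := h.θ_pos
  have := h.μ_pos
  have := zero_lt_one.trans_le h.H1
  have := zero_lt_one.trans_le h.D1
  have := zero_lt_one.trans_le h.sqD1
  have := zero_lt_one.trans_le h.sR1
  have := zero_lt_one.trans_le h.sM1
  have := zero_lt_one.trans_le h.L1
  have := zero_lt_one.trans_le h.k21
  have := zero_lt_one.trans_le h.al1
  have := zero_lt_one.trans_le h.sRF1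
  have := zero_lt_one.trans_le h.kF1
  have := zero_lt_one.trans_le h.sm1
  have := zero_lt_one.trans_le h.sD1
  have := zero_lt_one.trans_le h.z1
  have := zero_lt_one.trans_le h.m1
  have := zero_lt_one.trans_le h.R1
  rw [← sub_nonneg]
  have e : P.ED - (P.θ * P.m * P.D + P.sD * P.D + P.θ⁻¹ * P.al ^ 2 * P.R * P.sD +
      P.θ⁻¹ * P.L ^ 2 * P.sD + P.θ⁻¹ * P.al * P.L * P.sR * P.sD) = P.Hd + P.H * P.D +
      P.μ * P.sqD * P.L ^ 2 * P.sR * P.sM + P.μ * P.L * P.sM * P.D +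
      P.k2 * P.al * P.sqD * P.sRF + P.kF * P.sqD * P.sRF + P.k2 * P.al * P.L * P.D +
      P.kF * P.L * P.D + P.sm * P.sR * P.sD + P.sm * P.z * P.al * P.sD +
      P.sm * P.z * P.sqD * P.L ^ 2 + P.sm * P.z * P.L * P.D + P.k2 * P.sm * P.D +
      P.θ⁻¹ ^ 4 * (P.z ^ 2 * P.sRF ^ 2 + P.al ^ 2 * P.m + P.z ^ 8 * P.m +
        P.z ^ 4 * P.R ^ 2 * P.m + P.L ^ 2 * P.D + P.al ^ 2 * P.R ^ 2 * P.D +
        P.z ^ 8 * P.R ^ 4 * P.D + P.sD * P.D) := by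
    unfold Par.ED
    ring
  rw [e]
  positivity

theorem final {θ S G T D sD m X C : ℝ} (h0 : 0 < θ) (h1 : θ ≤ 1 / 1000) (hS : 0 ≤ S)
    (hD : 0 ≤ D) (hX : 0 ≤ X) (h2 : S ≤ sD) (h3 : G ≤ 2 * S + 10 * D) (h4 : G ≤ 12 * sD)
    (h5 : S ^ 2 ≤ T) (h6 : T ≤ m * D) (h7 : X * sD ≤ C) :
    (1 + θ) * (2 * (((1 + 8 * θ) * S + X) * G)) ≤
      4 * T + 40 * (θ * m * D) + 30 * (sD * D) + 30 * C := by
  have h8 : (1 + θ) * (1 + 8 * θ) ≤ 1 + 10 * θ := by nlinarith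
  have h9 : S * G ≤ 2 * T + 10 * (sD * D) := by
    nlinarith [mul_le_mul_of_nonneg_left h3 hS, mul_le_mul_of_nonneg_right h2 hD]
  have h10 : 0 ≤ sD * D := mul_nonneg (hS.trans h2) hD
  have h11 : 0 ≤ T := (sq_nonneg S).trans h5
  have h12 : X * G ≤ 12 * C := by nlinarith [mul_le_mul_of_nonneg_left h4 hX]
  have h13 : 0 ≤ C := (mul_nonneg hX (hS.trans h2)).trans h7
  have h15 : (1 + θ) * (1 + 8 * θ) * (S * G) ≤ (1 + 10 * θ) * (2 * T + 10 * (sD * D)) :=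
    (mul_le_mul_of_nonneg_left h9 (by positivity)).trans
      (mul_le_mul_of_nonneg_right h8 (by positivity))
  have h16 : (1 + θ) * (X * G) ≤ (1 + 1 / 1000) * (12 * C) :=
    (mul_le_mul_of_nonneg_left h12 (by positivity)).trans
      (mul_le_mul_of_nonneg_right (by linarith) (by positivity))
  nlinarith [mul_le_mul_of_nonneg_left h6 h0.le, mul_le_mul_of_nonneg_right h1 h10]

end LD2

open LD2

theorem ld2 : LD2S := by
  intro ι _ _ P ε Z Y w e c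
  have s := c.sZ
  have h := c.ok
  have hθ := h.θ_pos
  have h0 : ∀ i j k, 0 ≤ gg Z k * Hb P.θ Z i j k := fun i j k =>
    mul_nonneg (gg_nonneg Z k) (Hb_nonneg hθ Z i j k)
  have h1 := c.wt.av_le' (f := fun i j => sumo i j fun k => gg Z k * db2 Z i j k)
    (g := fun i j => ∑ k, gg Z k * Hb P.θ Z i j k + ∑ k, gg Z k * Hb P.θ Z j i k)
    (fun i j => add_nonneg (sum_nonneg fun k _ => h0 i j k) (sum_nonneg fun k _ => h0 j i k))
    fun i j hw => by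
      rw [← sum_add_distrib]
      refine sumo_le (fun k => add_nonneg (h0 i j k) (h0 j i k)) fun k _ _ => ?_
      rw [← mul_add]
      exact mul_le_mul_of_nonneg_left (db2_le hθ h.θ_le s.symm (c.wZ.nu_le i j hw) k)
        (gg_nonneg Z k)
  have h2 : ∑ i, ∑ j, ∑ k, gg Z k * Hb P.θ Z i j k ≤ ((1 + 8 * P.θ) * ∑ i, dp Z i +
      (2 * P.θ⁻¹ * (P.al ^ 2 * P.R) + 4 * (P.L * P.sR * P.al) + 2 * P.L ^ 2)) *
        ∑ k, gg Z k * rr Z k := by
    rw [sum_congr rfl fun i _ => sum_comm, sum_comm, mul_sum]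
    refine sum_le_sum fun k _ => ?_
    simp only [← mul_sum]
    linarith [mul_le_mul_of_nonneg_left (sum_Hb s h k) (gg_nonneg Z k)]
  simp only [sum_add_distrib] at h1
  rw [sum_comm (f := fun i j => ∑ k, gg Z k * Hb P.θ Z j i k), ← two_mul] at h1
  have hL := zero_lt_one.trans_le h.L1
  have hR := zero_lt_one.trans_le h.R1
  have hsR := zero_lt_one.trans_le h.sR1
  have hal := zero_lt_one.trans_le h.al1
  have hsD := zero_lt_one.trans_le h.sD1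
  have hD := zero_lt_one.trans_le h.D1
  have hm := zero_lt_one.trans_le h.m1
  have h3 := final (X := 2 * P.θ⁻¹ * (P.al ^ 2 * P.R) + 4 * (P.L * P.sR * P.al) + 2 * P.L ^ 2)
    (C := 4 * (P.θ⁻¹ * P.al ^ 2 * P.R * P.sD + P.θ⁻¹ * P.L ^ 2 * P.sD +
      P.θ⁻¹ * P.al * P.L * P.sR * P.sD)) hθ h.θ_le (sum_nonneg fun k _ => dp_nonneg Z k) hD.le
    (by positivity) (s.sum_dp h) (sum_gg_rr s h) (s.sum_gg_rr h) (sum_dp_sq s)
    (mul_le_mul s.hm s.sum_dp2 (by positivity) hm.le) (by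
      linarith [mul_le_mul_of_nonneg_right h.θ_inv1 (show 0 ≤ P.L ^ 2 * P.sD by positivity),
        mul_le_mul_of_nonneg_right h.θ_inv1 (show 0 ≤ P.al * P.L * P.sR * P.sD by positivity),
        show 0 ≤ P.θ⁻¹ * P.al ^ 2 * P.R * P.sD by positivity,
        show 0 ≤ P.θ⁻¹ * P.L ^ 2 * P.sD by positivity])
  have h4 := ED_ge h
  have h5 : 0 ≤ P.θ * P.m * P.D := by positivity
  have h6 : 0 ≤ P.sD * P.D := by positivity
  have h7 : 0 ≤ P.θ⁻¹ * P.al ^ 2 * P.R * P.sD + P.θ⁻¹ * P.L ^ 2 * P.sD +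
    P.θ⁻¹ * P.al * P.L * P.sR * P.sD := by positivity
  refine (h1.trans ((mul_le_mul_of_nonneg_left (mul_le_mul_of_nonneg_left h2 zero_le_two)
    (by positivity)).trans h3)).trans ?_
  unfold C1
  linarith

end Vale.Agent.P049
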