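import Vale.Agent.P049.LD34

/-! Second moment of the row increments. -/

namespace Vale.Agent.P049

open Matrix Finset

namespace LD3

open LD34

variable {ι : Type} [Fintype ι] {P : Par} {ε : ℝ} {Z : Mat ι} (s : Side P ε Z) (h : P.OK)
include s h

/-! ### Weight one -/

theorem a1 : s3 (q1 Z) ≤ 8 * Bq P := by
  have key : ∑ i, ∑ k, Z k i ^ 2 * (rr Z k * rr Z i) ≤ 8 * P.m := by
    have h1 := dsum_i (A := fun i k => Z k i ^ 2) (f := fun i => rr Z i ^ 2) (a := rr Z)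
      (fun _ => sq_nonneg _) (fun i => (rr_eq' s.symm i).ge)
    have h2 := dsum_k (A := fun i k => Z k i ^ 2) (f := fun k => rr Z k ^ 2) (a := rr Z)
      (fun _ => sq_nonneg _) (fun k => (rr_eq s.symm k).ge)
    have h3 : ∑ i, rr Z i ^ 2 * rr Z i ≤ 8 * P.m := by
      simpa only [← pow_succ] using s.sum_rr3 h
    have h4 : 2 * ∑ i, ∑ k, Z k i ^ 2 * (rr Z k * rr Z i) ≤
        ∑ i, ∑ k, rr Z i ^ 2 * Z k i ^ 2 + ∑ i, ∑ k, rr Z k ^ 2 * Z k i ^ 2 := by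
      simp only [mul_sum, ← sum_add_distrib]
      refine sum_le_sum fun i _ => sum_le_sum fun k _ => ?_
      nlinarith [mul_nonneg (sq_nonneg (Z k i)) (sq_nonneg (rr Z k - rr Z i))]
    linarith
  have := s3_le_c (f := q1 Z) (fun i k => Z k i ^ 2 * (rr Z k * rr Z i)) (fun j _ => Z j j ^ 2)
    (fun i j k => by
      unfold q1
      nlinarith [mul_le_mul_of_nonneg_left (eta_le s.symm k i)
        (mul_nonneg (sq_nonneg (Z k i)) (sq_nonneg (Z j j)))])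
    (fun i k => mul_nonneg (sq_nonneg _) (mul_nonneg (s.rr0 _) (s.rr0 _)))
    (fun _ _ => sq_nonneg _) key (sq_nonneg P.al) (fun _ => sdiag2 s)
  linarith [(Bq_all h).2.1]

theorem a2 : s3 (q2 Z) ≤ Bq P := by
  have := s3_le_k (f := q2 Z) (fun i k => (Z * Z) k i ^ 2) (fun j k => Z k j ^ 2)
    (rr (Z * Z)) (rr Z) (fun i j k => by unfold q2; rw [mul_pow, mul_comm])
    (fun _ _ => sq_nonneg _) (fun _ _ => sq_nonneg _) (fun k => (eta_row s.symm k).le)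
    (fun k => (rr_eq s.symm k).ge)
  have h1 := s.sum_rr_rrsq h
  simp only [mul_comm (rr Z _)] at h1
  linarith [Bq_sRF h]

theorem a3 : s3 (q3 Z) ≤ 3 * Bq P := by
  have h1 : s3 (q3 Z) ≤ P.z ^ 2 * s3 (fun i j k => (Z * Z) i j ^ 2 * (Z k i ^ 2) ^ 2) := by
    rw [← s3_mul]
    refine s3_mono fun i j k => ?_
    unfold q3
    nlinarith [mul_le_mul_of_nonneg_left (diag2 s h j)
      (mul_nonneg (sq_nonneg ((Z * Z) i j)) (sq_nonneg (Z k i ^ 2)))]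
  rw [s3_i (fun i k => (Z k i ^ 2) ^ 2) (fun i j => (Z * Z) i j ^ 2)] at h1
  have h2 : ∑ i, (∑ j, (Z * Z) i j ^ 2) * ∑ k, (Z k i ^ 2) ^ 2 ≤
      ∑ i, rr Z i ^ 2 * rr (Z * Z) i := sum_le_sum fun i _ => by
    rw [eta_row s.symm, mul_comm]
    exact mul_le_mul_of_nonneg_right (col4 s.symm i) (s.rr_sq0 i)
  have h3 := mul_le_mul_of_nonneg_left (h2.trans (s.sum_rr2_rrsq h)) (sq_nonneg P.z)
  linarith [(Bq_all h).1]

theorem a4 : s3 (q4 Z) ≤ 12 * Bq P := by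
  have hb : ∀ k, ∑ i, rr Z i * Z k i ^ 2 ≤ rr Z k + ∑ i, dp Z i * Z k i ^ 2 := fun k => by
    rw [rr_eq s.symm k, ← sum_add_distrib]
    exact sum_le_sum fun i _ => by
      nlinarith [mul_le_mul_of_nonneg_right (rr_le_dp Z i) (sq_nonneg (Z k i))]
  have := s3_le_k (f := q4 Z) (fun i k => rr Z i * Z k i ^ 2) (fun j k => rr Z j * Z k j ^ 2) _ _
    (fun i j k => by
      unfold q4
      nlinarith [mul_le_mul_of_nonneg_left (eta_le s.symm i j)
        (mul_nonneg (sq_nonneg (Z k i)) (sq_nonneg (Z k j)))])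
    (fun _ _ => mul_nonneg (s.rr0 _) (sq_nonneg _)) (fun _ _ => mul_nonneg (s.rr0 _) (sq_nonneg _))
    hb hb
  have h2 : ∑ k, (rr Z k + ∑ i, dp Z i * Z k i ^ 2) * (rr Z k + ∑ i, dp Z i * Z k i ^ 2) ≤
      2 * ∑ k, rr Z k ^ 2 + 2 * ∑ k, (∑ i, dp Z i * Z k i ^ 2) ^ 2 := by
    rw [mul_sum, mul_sum, ← sum_add_distrib]
    exact sum_le_sum fun k _ => by nlinarith [sq_nonneg (rr Z k - ∑ i, dp Z i * Z k i ^ 2)]
  have h3 := Bq_R h 1 (by norm_num)
  rw [pow_one] at h3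
  linarith [s.sum_rr2 h, cross1 s h, Bq_m h]

theorem a5' : s3 (q5 Z) ≤ 4 * P.D * P.z ^ 4 :=
  s3_le_c (f := q5 Z) (fun i k => dp Z i ^ 2 * (Z k i ^ 2) ^ 2) (fun j _ => (Z j j ^ 2) ^ 2)
    (fun i j k => by unfold q5; exact le_of_eq (by ring)) (fun _ _ => by positivity)
    (fun _ _ => by positivity)
    ((dsum_i (A := fun i k => (Z k i ^ 2) ^ 2) (fun _ => sq_nonneg _) (col4 s.symm)).trans
      (s.sum_dp2_rr2 h)) (by positivity) (fun _ => sdiag4 s)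

theorem a6' : s3 (q6 Z) ≤ 2 * P.D * (P.z ^ 2 * P.R) := by
  have hR := h.R1
  refine s3_le_c (f := q6 Z) (fun i k => dp Z i ^ 2 * Z k i ^ 2) (fun j k => P.z ^ 2 * Z k j ^ 2)
    (fun i j k => ?_) (fun _ _ => by positivity) (fun _ _ => by positivity)
    ((dsum_i (A := fun i k => Z k i ^ 2) (fun _ => sq_nonneg _)
      (fun i => (rr_eq' s.symm i).ge)).trans (s.sum_dp2_rr h)) (by positivity) (fun k => ?_)
  · unfold q6
    nlinarith [mul_le_mul_of_nonneg_left (diag2 s h j)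
      (show 0 ≤ dp Z i ^ 2 * Z k i ^ 2 * Z k j ^ 2 by positivity)]
  · rw [← mul_sum, ← rr_eq s.symm]
    exact mul_le_mul_of_nonneg_left (s.hR k) (sq_nonneg _)

theorem sS2 : s3 (S2 Z) ≤ 30 * Bq P := by
  have e : s3 (S2 Z) = s3 (q1 Z) + s3 (q2 Z) + s3 (q3 Z) + s3 (q4 Z) + s3 (q5 Z) + s3 (q6 Z) := by
    simp only [← s3_add]; rfl
  have h5 := Bq_zR h 4 0 (by norm_num) (by norm_num)
  have h6 := Bq_zR h 2 1 (by norm_num) (by norm_num)
  rw [pow_zero] at h5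
  rw [pow_one] at h6
  linarith [a1 s h, a2 s h, a3 s h, a4 s h, a5' s h, a6' s h]

/-! ### Weight `dp ^ 2` -/

theorem b1 : s3 (fun i j k => dp Z k ^ 2 * q1 Z i j k) ≤ 4 * Bq P := by
  have hR := h.R1
  have hD := h.D1
  have key : ∑ i, ∑ k, (P.R * (dp Z k ^ 2 * rr Z k)) * Z k i ^ 2 ≤ P.R * (4 * P.D) := by
    refine (dsum_k (A := fun i k => Z k i ^ 2) (f := fun k => P.R * (dp Z k ^ 2 * rr Z k))
      (a := rr Z) (fun k => by have := s.rr0 k; positivity)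
      (fun k => (rr_eq s.symm k).ge)).trans ?_
    simp only [mul_assoc, ← mul_sum, ← sq]
    exact mul_le_mul_of_nonneg_left (s.sum_dp2_rr2 h) (by positivity)
  have := s3_le_c (f := fun i j k => dp Z k ^ 2 * q1 Z i j k)
    (fun i k => (P.R * (dp Z k ^ 2 * rr Z k)) * Z k i ^ 2) (fun j _ => Z j j ^ 2)
    (fun i j k => by
      unfold q1
      have a : (Z * Z) k i ^ 2 ≤ rr Z k * P.R :=
        (eta_le s.symm k i).trans (mul_le_mul_of_nonneg_left (s.hR i) (s.rr0 k))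
      nlinarith [mul_le_mul_of_nonneg_left a
        (show 0 ≤ dp Z k ^ 2 * Z k i ^ 2 * Z j j ^ 2 by positivity)])
    (fun i k => by have := s.rr0 k; positivity)
    (fun _ _ => sq_nonneg _) key (sq_nonneg P.al) (fun _ => sdiag2 s)
  have h2 : P.al ^ 2 * P.R * P.D ≤ P.al ^ 2 * P.R ^ 2 * P.D := by
    gcongr; nlinarith
  linarith [(Bq_all h).2.2.2.2.1]

theorem b2 : s3 (fun i j k => dp Z k ^ 2 * q2 Z i j k) ≤ 4 * Bq P := by
  have := s3_le_k (f := fun i j k => dp Z k ^ 2 * q2 Z i j k)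
    (fun i k => (Z * Z) k i ^ 2) (fun j k => dp Z k ^ 2 * Z k j ^ 2)
    (fun k => P.L ^ 2 * rr Z k) (fun k => dp Z k ^ 2 * rr Z k)
    (fun i j k => by unfold q2; exact le_of_eq (by ring))
    (fun _ _ => sq_nonneg _) (fun _ _ => by positivity)
    (fun k => (eta_row s.symm k).le.trans (s.rr_sq_le h k))
    (fun k => by rw [← mul_sum, ← rr_eq s.symm])
  have e : ∑ k, P.L ^ 2 * rr Z k * (dp Z k ^ 2 * rr Z k) =
      P.L ^ 2 * ∑ k, dp Z k ^ 2 * rr Z k ^ 2 := by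
    rw [mul_sum]; exact sum_congr rfl fun _ _ => by ring
  rw [e] at this
  linarith [mul_le_mul_of_nonneg_left (s.sum_dp2_rr2 h) (sq_nonneg P.L), (Bq_all h).2.2.2.1]

theorem b3 : s3 (fun i j k => dp Z k ^ 2 * q3 Z i j k) ≤ 4 * Bq P := by
  have := s3_le_c (f := fun i j k => dp Z k ^ 2 * q3 Z i j k)
    (fun i k => dp Z k ^ 2 * (Z k i ^ 2) ^ 2) (fun j _ => P.R ^ 2 * Z j j ^ 2)
    (fun i j k => by
      unfold q3
      nlinarith [mul_le_mul_of_nonneg_left (eta_R s i j)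
        (show 0 ≤ dp Z k ^ 2 * (Z k i ^ 2) ^ 2 * Z j j ^ 2 by positivity)])
    (fun _ _ => by positivity) (fun _ _ => by positivity)
    ((dsum_k (A := fun i k => (Z k i ^ 2) ^ 2) (fun _ => sq_nonneg _) (row4 s.symm)).trans
      (s.sum_dp2_rr2 h)) (show 0 ≤ P.R ^ 2 * P.al ^ 2 by positivity)
    (fun _ => by rw [← mul_sum]; exact mul_le_mul_of_nonneg_left (sdiag2 s) (sq_nonneg _))
  linarith [(Bq_all h).2.2.2.2.1]

theorem b4 : s3 (fun i j k => dp Z k ^ 2 * q4 Z i j k) ≤ 4 * Bq P := by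
  have := s3_le_k (f := fun i j k => dp Z k ^ 2 * q4 Z i j k)
    (fun i k => P.R ^ 2 * Z k i ^ 2) (fun j k => dp Z k ^ 2 * Z k j ^ 2)
    (fun k => P.R ^ 2 * rr Z k) (fun k => dp Z k ^ 2 * rr Z k)
    (fun i j k => by
      unfold q4
      nlinarith [mul_le_mul_of_nonneg_left (eta_R s i j)
        (show 0 ≤ dp Z k ^ 2 * Z k i ^ 2 * Z k j ^ 2 by positivity)])
    (fun _ _ => by positivity) (fun _ _ => by positivity)
    (fun k => by rw [← mul_sum, ← rr_eq s.symm])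
    (fun k => by rw [← mul_sum, ← rr_eq s.symm])
  have e : ∑ k, P.R ^ 2 * rr Z k * (dp Z k ^ 2 * rr Z k) =
      P.R ^ 2 * ∑ k, dp Z k ^ 2 * rr Z k ^ 2 := by
    rw [mul_sum]; exact sum_congr rfl fun _ _ => by ring
  rw [e] at this
  linarith [mul_le_mul_of_nonneg_left (s.sum_dp2_rr2 h) (sq_nonneg P.R), Bq_R h 2 (by norm_num)]

theorem b5 : s3 (fun i j k => dp Z k ^ 2 * q5 Z i j k) ≤ 4 * Bq P := by
  have h1 : s3 (fun i j k => dp Z k ^ 2 * q5 Z i j k) ≤ P.R ^ 2 * s3 (q5 Z) := by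
    rw [← s3_mul]
    exact s3_mono fun i j k => mul_le_mul_of_nonneg_right (dp2_R s k) (sq_nonneg _)
  linarith [mul_le_mul_of_nonneg_left (a5' s h) (sq_nonneg P.R),
    Bq_zR h 4 2 (by norm_num) (by norm_num)]

theorem b6 : s3 (fun i j k => dp Z k ^ 2 * q6 Z i j k) ≤ 2 * Bq P := by
  have h1 : s3 (fun i j k => dp Z k ^ 2 * q6 Z i j k) ≤ P.R ^ 2 * s3 (q6 Z) := by
    rw [← s3_mul]
    exact s3_mono fun i j k => mul_le_mul_of_nonneg_right (dp2_R s k) (sq_nonneg _)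
  linarith [mul_le_mul_of_nonneg_left (a6' s h) (sq_nonneg P.R),
    Bq_zR h 2 3 (by norm_num) (by norm_num)]

theorem sS2p : s3 (fun i j k => dp Z k ^ 2 * S2 Z i j k) ≤ 22 * Bq P := by
  simp only [S2, mul_add, s3_add]
  linarith [b1 s h, b2 s h, b3 s h, b4 s h, b5 s h, b6 s h]

/-! ### Main terms -/

omit h in
theorem w0 {g c : ι → ℝ} (hg : ∀ k, 0 ≤ g k) (hc : ∀ k, g k * rr Z k ^ 2 ≤ c k) :
    s3 (fun i j k => g k * (dp Z i * Z k j ^ 2) ^ 2) ≤ (∑ k, dp Z k ^ 2) * ∑ k, c k := by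
  rw [mul_sum]
  refine s3_le_k (fun i _ => dp Z i ^ 2) (fun j k => g k * (Z k j ^ 2) ^ 2) _ _
    (fun i j k => le_of_eq (by ring)) (fun _ _ => sq_nonneg _)
    (fun _ k => mul_nonneg (hg k) (sq_nonneg _)) (fun _ => le_rfl) (fun k => ?_)
  rw [← mul_sum]
  exact (mul_le_mul_of_nonneg_left (row4 s.symm k) (hg k)).trans (hc k)

theorem sW : s3 (fun i j k => W Z i j k ^ 2) ≤ 2 * T2 Z * (∑ k, dp Z k ^ 2) + 8 * Bq P := by
  have h1 := w0 s (g := fun _ => 1) (c := fun k => rr Z k ^ 2) (fun _ => zero_le_one)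
    (fun k => by rw [one_mul])
  have e : s3 (fun i j k => W Z i j k ^ 2) =
      s3 (fun i j k => 1 * (dp Z i * Z k j ^ 2) ^ 2) +
      s3 (fun i j k => 1 * (dp Z j * Z k i ^ 2) ^ 2) +
      2 * s3 (fun i j k => (dp Z i * Z k i ^ 2) * (dp Z j * Z k j ^ 2)) := by
    rw [← s3_mul, ← s3_add, ← s3_add]
    refine congrArg s3 (funext fun i => funext fun j => funext fun k => ?_)
    unfold W; ring
  rw [e, s3_swap (fun i j k => 1 * (dp Z i * Z k j ^ 2) ^ 2),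
    s3_k (fun i k => dp Z i * Z k i ^ 2) (fun j k => dp Z j * Z k j ^ 2)]
  have h2 := cross1 s h
  simp only [sq (∑ _, _)] at h2
  have h3 := Bq_R h 1 (by norm_num)
  rw [pow_one] at h3
  have h4 : 0 ≤ ∑ k, dp Z k ^ 2 := by positivity
  have h5 := mul_le_mul_of_nonneg_left (s.sum_rr2_T2 h) h4
  have h6 := mul_le_mul_of_nonneg_left s.sum_dp2 (show 0 ≤ P.sD by linarith [h.sD1])
  nlinarith [(Bq_all h).2.2.2.2.2.2]

theorem sWp : s3 (fun i j k => dp Z k ^ 2 * W Z i j k ^ 2) ≤ 16 * Bq P := by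
  have h1 := w0 s (g := fun k => dp Z k ^ 2) (c := fun k => dp Z k ^ 2 * rr Z k ^ 2)
    (fun _ => sq_nonneg _) (fun k => le_rfl)
  have e : s3 (fun i j k => dp Z k ^ 2 * W Z i j k ^ 2) ≤
      2 * s3 (fun i j k => dp Z k ^ 2 * (dp Z i * Z k j ^ 2) ^ 2) +
      2 * s3 (fun i j k => dp Z k ^ 2 * (dp Z j * Z k i ^ 2) ^ 2) := by
    rw [← s3_mul, ← s3_mul, ← s3_add]
    refine s3_mono fun i j k => ?_
    unfold W
    nlinarith [mul_nonneg (sq_nonneg (dp Z k))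
      (sq_nonneg (dp Z i * Z k j ^ 2 - dp Z j * Z k i ^ 2))]
  rw [s3_swap (fun i j k => dp Z k ^ 2 * (dp Z i * Z k j ^ 2) ^ 2)] at e
  have h2 : (∑ k, dp Z k ^ 2) * ∑ k, dp Z k ^ 2 * rr Z k ^ 2 ≤ P.D * (4 * P.D) :=
    mul_le_mul s.sum_dp2 (s.sum_dp2_rr2 h) (by positivity) (by linarith [h.D1])
  linarith [Bq_DD h]

end LD3

open LD34 LD3 in
theorem ld3 : LD3S := by
  intro ι _ _ P ε Z Y w e c
  have h := c.ok
  have s := c.sZ
  have h0 := h.θ_pos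
  have hθ := h.θ_le
  have h1 := c.wt.av_le'
    (f := fun i j => sumo i j fun k => (1 + 10 * dp Z k ^ 2) * (db1 Z i j k + db2 Z i j k) ^ 2)
    (g := fun i j => ∑ k, (1 + 10 * dp Z k ^ 2) *
      ((1 + 3 * P.θ) ^ 5 * W Z i j k ^ 2 + 216 * P.θ⁻¹ * (S2 Z i j k + S2 Z j i k)))
    (fun i j => sum_nonneg fun k _ => by
      have := S2_nonneg Z i j k; have := S2_nonneg Z j i k; positivity)
    (fun i j hw => sumo_le (fun k => by
      have := S2_nonneg Z i j k; have := S2_nonneg Z j i k; positivity)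
      fun k _ _ => mul_le_mul_of_nonneg_left (point2 s.symm h0 (c.wZ.nu_le i j hw) hθ k)
        (by positivity))
  have e1 : ∑ i, ∑ j, ∑ k, (1 + 10 * dp Z k ^ 2) *
      ((1 + 3 * P.θ) ^ 5 * W Z i j k ^ 2 + 216 * P.θ⁻¹ * (S2 Z i j k + S2 Z j i k)) =
      (1 + 3 * P.θ) ^ 5 * (s3 (fun i j k => W Z i j k ^ 2) +
        10 * s3 (fun i j k => dp Z k ^ 2 * W Z i j k ^ 2)) +
      216 * P.θ⁻¹ * (s3 (S2 Z) + s3 (fun i j k => S2 Z j i k) +
        10 * s3 (fun i j k => dp Z k ^ 2 * S2 Z i j k) +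
        10 * s3 (fun i j k => dp Z k ^ 2 * S2 Z j i k)) := by
    simp only [← s3_mul, ← s3_add]
    refine congrArg s3 (funext fun i => funext fun j => funext fun k => ?_)
    ring
  rw [e1, s3_swap (S2 Z), s3_swap (fun i j k => dp Z k ^ 2 * S2 Z i j k)] at h1
  obtain ⟨X, hX⟩ : ∃ X, X = T2 Z * ∑ k, dp Z k ^ 2 := ⟨_, rfl⟩
  have hX0 : 0 ≤ X := hX ▸ mul_nonneg (T2_nonneg s.symm) (by positivity)
  have hX1 : X ≤ P.m * P.D := hX ▸ mul_le_mul s.hm s.sum_dp2 (by positivity) (by linarith [h.m1])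
  have hB := Bq_nonneg h
  have a1 : s3 (fun i j k => W Z i j k ^ 2) + 10 * s3 (fun i j k => dp Z k ^ 2 * W Z i j k ^ 2) ≤
      2 * X + 168 * Bq P := by linarith [sW s h, sWp s h]
  have a2 : s3 (S2 Z) + s3 (S2 Z) + 10 * s3 (fun i j k => dp Z k ^ 2 * S2 Z i j k) +
      10 * s3 (fun i j k => dp Z k ^ 2 * S2 Z i j k) ≤ 500 * Bq P := by
    linarith [sS2 s h, sS2p s h]
  have a3 : (1 + P.θ) * (1 + 3 * P.θ) ^ 5 ≤ 1 + 100 * P.θ := by
    refine le_trans ?_ (pow12 h0 hθ)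
    calc (1 + P.θ) * (1 + 3 * P.θ) ^ 5 ≤ (1 + 3 * P.θ) * (1 + 3 * P.θ) ^ 5 := by gcongr; linarith
      _ = (1 + 3 * P.θ) ^ 6 := by ring
      _ ≤ _ := pow_le_pow_right₀ (by linarith) (by norm_num)
  have a4 := mul_le_mul a3 a1 ((add_nonneg (sum_nonneg fun i _ => sum_nonneg fun j _ =>
    sum_nonneg fun k _ => by positivity) (mul_nonneg (by norm_num) (sum_nonneg fun i _ =>
      sum_nonneg fun j _ => sum_nonneg fun k _ => by positivity)))) (by positivity)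
  have a5 := mul_le_mul_of_nonneg_left a2 (show 0 ≤ (1 + P.θ) * (216 * P.θ⁻¹) by positivity)
  have b0 := Bq_inv h 0 (by norm_num)
  have b1 := Bq_inv h 1 (by norm_num)
  rw [pow_zero, one_mul] at b0
  rw [pow_one] at b1
  have b2 : P.θ * Bq P ≤ Bq P := by nlinarith
  have b3 : P.θ * (P.θ⁻¹ * Bq P) ≤ P.θ⁻¹ * Bq P := by
    have : 0 ≤ P.θ⁻¹ * Bq P := by positivity
    nlinarith
  have b4 := mul_le_mul_of_nonneg_left hX1 h0.le
  have b5 := ED_ge h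
  have b6 : 0 ≤ P.θ * P.m * P.D := by have := h.m1; have := h.D1; positivity
  rw [mul_assoc 2, ← hX]
  unfold C1
  nlinarith

end Vale.Agent.P049
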