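import Vale.Agent.P049.Avg

/-! Common part of the second and fourth moment bounds for the row increments. -/

namespace Vale.Agent.P049.LD34

open Matrix Finset

variable {ι : Type} [Fintype ι]

/-! ### Triple sums -/

def s3 (f : ι → ι → ι → ℝ) : ℝ := ∑ i, ∑ j, ∑ k, f i j k

theorem s3_mono {f g : ι → ι → ι → ℝ} (h : ∀ i j k, f i j k ≤ g i j k) : s3 f ≤ s3 g :=
  sum_le_sum fun i _ => sum_le_sum fun j _ => sum_le_sum fun k _ => h i j k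
theorem s3_add (f g : ι → ι → ι → ℝ) :
    s3 (fun i j k => f i j k + g i j k) = s3 f + s3 g := by
  simp only [s3, sum_add_distrib]
theorem s3_mul (c : ℝ) (f : ι → ι → ι → ℝ) : s3 (fun i j k => c * f i j k) = c * s3 f := by
  simp only [s3, mul_sum]
theorem s3_swap (f : ι → ι → ι → ℝ) : s3 (fun i j k => f j i k) = s3 f := sum_comm
theorem s3_k (A B : ι → ι → ℝ) :
    s3 (fun i j k => A i k * B j k) = ∑ k, (∑ i, A i k) * ∑ j, B j k := by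
  simp only [s3, sum_mul_sum]
  calc ∑ i, ∑ j, ∑ k, A i k * B j k = ∑ i, ∑ k, ∑ j, A i k * B j k :=
        sum_congr rfl fun _ _ => sum_comm
    _ = _ := sum_comm
theorem s3_i (A C : ι → ι → ℝ) :
    s3 (fun i j k => C i j * A i k) = ∑ i, (∑ j, C i j) * ∑ k, A i k := by
  simp only [s3, sum_mul_sum]

theorem s3_le_k {f : ι → ι → ι → ℝ} (A B : ι → ι → ℝ) (a b : ι → ℝ)
    (hf : ∀ i j k, f i j k ≤ A i k * B j k) (hA : ∀ i k, 0 ≤ A i k) (hB : ∀ j k, 0 ≤ B j k)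
    (ha : ∀ k, ∑ i, A i k ≤ a k) (hb : ∀ k, ∑ j, B j k ≤ b k) : s3 f ≤ ∑ k, a k * b k := by
  refine (s3_mono hf).trans ?_
  rw [s3_k]
  exact sum_le_sum fun k _ => mul_le_mul (ha k) (hb k) (sum_nonneg fun j _ => hB j k)
    ((sum_nonneg fun i _ => hA i k).trans (ha k))

theorem s3_le_c {f : ι → ι → ι → ℝ} (A B : ι → ι → ℝ) {α β : ℝ}
    (hf : ∀ i j k, f i j k ≤ A i k * B j k) (hA : ∀ i k, 0 ≤ A i k) (hB : ∀ j k, 0 ≤ B j k)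
    (ha : ∑ i, ∑ k, A i k ≤ α) (hβ : 0 ≤ β) (hb : ∀ k, ∑ j, B j k ≤ β) : s3 f ≤ α * β := by
  refine (s3_le_k A B (fun k => ∑ i, A i k) (fun _ => β) hf hA hB (fun _ => le_rfl) hb).trans ?_
  rw [← sum_mul, sum_comm]
  exact mul_le_mul_of_nonneg_right ha hβ

/-! ### The pointwise decomposition -/

def q1 (Z : Mat ι) (i j k : ι) : ℝ := (Z j j * Z k i * (Z * Z) k i) ^ 2
def q2 (Z : Mat ι) (i j k : ι) : ℝ := (Z k j * (Z * Z) k i) ^ 2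
def q3 (Z : Mat ι) (i j k : ι) : ℝ := ((Z * Z) i j * Z j j * Z k i ^ 2) ^ 2
def q4 (Z : Mat ι) (i j k : ι) : ℝ := ((Z * Z) i j * Z k i * Z k j) ^ 2
def q5 (Z : Mat ι) (i j k : ι) : ℝ := (dp Z i * Z j j ^ 2 * Z k i ^ 2) ^ 2
def q6 (Z : Mat ι) (i j k : ι) : ℝ := (dp Z i * Z j j * Z k i * Z k j) ^ 2
def S2 (Z : Mat ι) (i j k : ι) : ℝ :=
  q1 Z i j k + q2 Z i j k + q3 Z i j k + q4 Z i j k + q5 Z i j k + q6 Z i j k
def S4 (Z : Mat ι) (i j k : ι) : ℝ :=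
  q1 Z i j k ^ 2 + q2 Z i j k ^ 2 + q3 Z i j k ^ 2 + q4 Z i j k ^ 2 + q5 Z i j k ^ 2 +
    q6 Z i j k ^ 2
def W (Z : Mat ι) (i j k : ι) : ℝ := dp Z i * Z k j ^ 2 + dp Z j * Z k i ^ 2

theorem S2_nonneg (Z : Mat ι) (i j k : ι) : 0 ≤ S2 Z i j k := by
  unfold S2 q1 q2 q3 q4 q5 q6; positivity
theorem S4_nonneg (Z : Mat ι) (i j k : ι) : 0 ≤ S4 Z i j k := by
  unfold S4; positivity

theorem six_sq (a b c d e f : ℝ) :
    (a + b + c + d + e + f) ^ 2 ≤ 6 * (a ^ 2 + b ^ 2 + c ^ 2 + d ^ 2 + e ^ 2 + f ^ 2) := by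
  nlinarith [sq_nonneg (a - b), sq_nonneg (a - c), sq_nonneg (a - d), sq_nonneg (a - e),
    sq_nonneg (a - f), sq_nonneg (b - c), sq_nonneg (b - d), sq_nonneg (b - e), sq_nonneg (b - f),
    sq_nonneg (c - d), sq_nonneg (c - e), sq_nonneg (c - f), sq_nonneg (d - e), sq_nonneg (d - f),
    sq_nonneg (e - f)]

theorem coef_sq {c : ℝ} (hc : |c| ≤ 3) (x : ℝ) : (c * x) ^ 2 ≤ 9 * x ^ 2 := by
  rw [mul_pow]
  refine mul_le_mul_of_nonneg_right ?_ (sq_nonneg x)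
  nlinarith [sq_abs c, abs_nonneg c]

theorem six_coef {c1 c2 c3 c4 c5 c6 : ℝ} (h1 : |c1| ≤ 3) (h2 : |c2| ≤ 3) (h3 : |c3| ≤ 3)
    (h4 : |c4| ≤ 3) (h5 : |c5| ≤ 3) (h6 : |c6| ≤ 3) (a b c d e f : ℝ) :
    (c1 * a + c2 * b + c3 * c + c4 * d + c5 * e + c6 * f) ^ 2 ≤
      54 * (a ^ 2 + b ^ 2 + c ^ 2 + d ^ 2 + e ^ 2 + f ^ 2) := by
  linarith [six_sq (c1 * a) (c2 * b) (c3 * c) (c4 * d) (c5 * e) (c6 * f), coef_sq h1 a,
    coef_sq h2 b, coef_sq h3 c, coef_sq h4 d, coef_sq h5 e, coef_sq h6 f]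

theorem S2_sq (Z : Mat ι) (i j k : ι) : S2 Z i j k ^ 2 ≤ 6 * S4 Z i j k := six_sq _ _ _ _ _ _

theorem decomp {Z : Mat ι} (h : Z.IsSymm) {i j : ι} (hn : nu Z i j ≤ 1 / 1000) (k : ι) :
    ∃ V1 V2 : ℝ, db1 Z i j k + db2 Z i j k = t12 Z i j ^ 2 * W Z i j k + (V1 + V2) ∧
      V1 ^ 2 ≤ 54 * S2 Z i j k ∧ V2 ^ 2 ≤ 54 * S2 Z j i k := by
  obtain ⟨u, hu⟩ : ∃ u, u = (rho Z i j)⁻¹ := ⟨_, rfl⟩
  obtain ⟨t, ht⟩ : ∃ t, t = t12 Z i j := ⟨_, rfl⟩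
  have e1 : t11 Z i j = u * Z j j := by rw [hu, t11, div_eq_inv_mul]
  have e2 : t22 Z i j = u * Z i i := by rw [hu, t22, div_eq_inv_mul]
  have hu1 : |u| ≤ 101 / 100 := by
    have h1 := tb_inv hn
    have h2 := abs_sub_abs_le_abs_sub u 1
    rw [← hu] at h1
    rw [abs_one] at h2
    linarith
  have ht1 : |t| ≤ 101 / 100 := ht ▸ tb_12_le hn
  have hab : |Z i i * Z j j| ≤ 1 / 1000 := by
    rw [abs_mul]; exact (abs_mul_le_nu Z i j).trans hn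
  have hu0 := abs_nonneg u
  have ht0 := abs_nonneg t
  have c1 : |2 * u| ≤ 3 := by rw [abs_mul, abs_two]; linarith
  have c2 : |2 * t| ≤ 3 := by rw [abs_mul, abs_two]; linarith
  have c3 : |2 * u * t| ≤ 3 := by rw [abs_mul, abs_mul, abs_two]; nlinarith
  have c5 : |u ^ 2| ≤ 3 := by rw [abs_pow]; nlinarith
  have c4 : |u ^ 2 * (Z i i * Z j j) + t ^ 2| ≤ 3 := by
    refine (abs_add_le _ _).trans ?_
    rw [abs_mul, abs_pow t]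
    nlinarith [abs_nonneg (Z i i * Z j j), abs_nonneg (u ^ 2)]
  have hc : (Z * Z) j i = (Z * Z) i j := (isSymm_sq h).apply i j
  refine ⟨_, _, ?_, six_coef c1 c2 c3 c4 c5 c3 _ _ _ _ _ _, six_coef c1 c2 c3 c4 c5 c3 _ _ _ _ _ _⟩
  unfold db1 db2 ze1 ze2 W
  rw [e1, e2, ← ht, hc]
  ring

theorem split2 {θ : ℝ} (h0 : 0 < θ) (U V : ℝ) :
    (U + V) ^ 2 ≤ (1 + θ) * U ^ 2 + (1 + θ⁻¹) * V ^ 2 := by
  have h1 : 0 ≤ θ⁻¹ * (θ * U - V) ^ 2 := by positivity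
  have h2 : θ⁻¹ * (θ * U - V) ^ 2 = θ * U ^ 2 - 2 * U * V + θ⁻¹ * V ^ 2 := by
    field_simp; ring
  nlinarith

theorem split4 {θ : ℝ} (h0 : 0 < θ) (U V : ℝ) :
    (U + V) ^ 4 ≤ (1 + θ) ^ 3 * U ^ 4 + (1 + θ⁻¹) ^ 3 * V ^ 4 := by
  have h1 := split2 h0 U V
  have h2 := split2 h0 ((1 + θ) * U ^ 2) ((1 + θ⁻¹) * V ^ 2)
  have h3 : ((U + V) ^ 2) ^ 2 ≤ ((1 + θ) * U ^ 2 + (1 + θ⁻¹) * V ^ 2) ^ 2 :=
    pow_le_pow_left₀ (sq_nonneg _) h1 2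
  calc (U + V) ^ 4 = ((U + V) ^ 2) ^ 2 := by ring
    _ ≤ _ := h3.trans h2
    _ = _ := by ring

omit [Fintype ι] in
theorem t12_sq_le {Z : Mat ι} {i j : ι} {θ : ℝ} (hn : nu Z i j ≤ θ) (hθ : θ ≤ 1 / 1000) :
    t12 Z i j ^ 2 ≤ (1 + 3 * θ) ^ 2 := by
  rw [← sq_abs]
  exact pow_le_pow_left₀ (abs_nonneg _) ((tb_12_le' (hn.trans hθ)).trans (by linarith)) 2

theorem inv_le {θ : ℝ} (h0 : 0 < θ) (hθ : θ ≤ 1 / 1000) : 1 + θ⁻¹ ≤ 2 * θ⁻¹ := by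
  have : 1 ≤ θ⁻¹ := (one_le_inv₀ h0).2 (by linarith)
  linarith

theorem point2 {Z : Mat ι} (h : Z.IsSymm) {i j : ι} {θ : ℝ} (h0 : 0 < θ) (hn : nu Z i j ≤ θ)
    (hθ : θ ≤ 1 / 1000) (k : ι) :
    (db1 Z i j k + db2 Z i j k) ^ 2 ≤
      (1 + 3 * θ) ^ 5 * W Z i j k ^ 2 + 216 * θ⁻¹ * (S2 Z i j k + S2 Z j i k) := by
  obtain ⟨V1, V2, e, h1, h2⟩ := decomp h (hn.trans hθ) k
  rw [e]
  refine (split2 h0 _ _).trans (add_le_add ?_ ?_)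
  · have a1 : (t12 Z i j ^ 2) ^ 2 ≤ ((1 + 3 * θ) ^ 2) ^ 2 :=
      pow_le_pow_left₀ (sq_nonneg _) (t12_sq_le hn hθ) 2
    calc (1 + θ) * (t12 Z i j ^ 2 * W Z i j k) ^ 2
        = (1 + θ) * (t12 Z i j ^ 2) ^ 2 * W Z i j k ^ 2 := by ring
      _ ≤ (1 + 3 * θ) * ((1 + 3 * θ) ^ 2) ^ 2 * W Z i j k ^ 2 := by gcongr; linarith
      _ = _ := by ring
  · have a1 : (V1 + V2) ^ 2 ≤ 108 * (S2 Z i j k + S2 Z j i k) := by
      nlinarith [sq_nonneg (V1 - V2)]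
    calc (1 + θ⁻¹) * (V1 + V2) ^ 2 ≤ (2 * θ⁻¹) * (108 * (S2 Z i j k + S2 Z j i k)) :=
          mul_le_mul (inv_le h0 hθ) a1 (sq_nonneg _) (by positivity)
      _ = _ := by ring

theorem point4 {Z : Mat ι} (h : Z.IsSymm) {i j : ι} {θ : ℝ} (h0 : 0 < θ) (hn : nu Z i j ≤ θ)
    (hθ : θ ≤ 1 / 1000) (k : ι) :
    (db1 Z i j k + db2 Z i j k) ^ 4 ≤
      (1 + 3 * θ) ^ 11 * W Z i j k ^ 4 + 2 * 10 ^ 6 * θ⁻¹ ^ 3 * (S4 Z i j k + S4 Z j i k) := by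
  obtain ⟨V1, V2, e, h1, h2⟩ := decomp h (hn.trans hθ) k
  rw [e]
  refine (split4 h0 _ _).trans (add_le_add ?_ ?_)
  · have a1 : (t12 Z i j ^ 2) ^ 4 ≤ ((1 + 3 * θ) ^ 2) ^ 4 :=
      pow_le_pow_left₀ (sq_nonneg _) (t12_sq_le hn hθ) 4
    calc (1 + θ) ^ 3 * (t12 Z i j ^ 2 * W Z i j k) ^ 4
        = (1 + θ) ^ 3 * (t12 Z i j ^ 2) ^ 4 * W Z i j k ^ 4 := by ring
      _ ≤ (1 + 3 * θ) ^ 3 * ((1 + 3 * θ) ^ 2) ^ 4 * W Z i j k ^ 4 := by gcongr; linarith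
      _ = _ := by ring
  · have a1 : (V1 + V2) ^ 2 ≤ 108 * (S2 Z i j k + S2 Z j i k) := by
      nlinarith [sq_nonneg (V1 - V2)]
    have a2 : ((V1 + V2) ^ 2) ^ 2 ≤ (108 * (S2 Z i j k + S2 Z j i k)) ^ 2 :=
      pow_le_pow_left₀ (sq_nonneg _) a1 2
    have a3 : (V1 + V2) ^ 4 ≤ 250000 * (S4 Z i j k + S4 Z j i k) := by
      nlinarith [S2_sq Z i j k, S2_sq Z j i k, sq_nonneg (S2 Z i j k - S2 Z j i k),
        S4_nonneg Z i j k, S4_nonneg Z j i k]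
    calc (1 + θ⁻¹) ^ 3 * (V1 + V2) ^ 4 ≤ (2 * θ⁻¹) ^ 3 * (250000 * (S4 Z i j k + S4 Z j i k)) :=
          mul_le_mul (pow_le_pow_left₀ (by positivity) (inv_le h0 hθ) 3) a3 (by positivity)
            (by positivity)
      _ = _ := by ring

theorem pow12 {θ : ℝ} (h0 : 0 < θ) (hθ : θ ≤ 1 / 1000) : (1 + 3 * θ) ^ 12 ≤ 1 + 100 * θ := by
  have h2 : (1 + 3 * θ) ^ 2 ≤ 1 + 7 * θ := by nlinarith
  have h4 : (1 + 3 * θ) ^ 4 ≤ 1 + 15 * θ := by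
    have := pow_le_pow_left₀ (by positivity) h2 2
    nlinarith
  have h8 : (1 + 3 * θ) ^ 8 ≤ 1 + 31 * θ := by
    have := pow_le_pow_left₀ (by positivity) h4 2
    nlinarith
  have := mul_le_mul h8 h4 (by positivity) (by positivity)
  nlinarith

/-! ### The error budget -/

def Bq (P : Par) : ℝ := P.z ^ 2 * P.sRF ^ 2 + P.al ^ 2 * P.m + P.z ^ 8 * P.m +
  P.z ^ 4 * P.R ^ 2 * P.m + P.L ^ 2 * P.D + P.al ^ 2 * P.R ^ 2 * P.D + P.z ^ 8 * P.R ^ 4 * P.D +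
  P.sD * P.D

section Budget

variable {P : Par} (h : P.OK)
include h

theorem ED_ge : P.θ * P.m * P.D + P.θ⁻¹ ^ 4 * Bq P ≤ P.ED := by
  have := h.Hd_nonneg; have := h.sD1; have := h.D1; have := h.H1; have := h.μ_pos
  have := h.sqD1; have := h.L1; have := h.sR1; have := h.sM1; have := h.k21; have := h.al1
  have := h.sRF1; have := h.kF1; have := h.sm1; have := h.z1; have := h.θ_pos; have := h.R1
  have key : 0 ≤ P.Hd + P.sD * P.D + P.H * P.D +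
    P.μ * P.sqD * P.L ^ 2 * P.sR * P.sM + P.μ * P.L * P.sM * P.D +
    P.k2 * P.al * P.sqD * P.sRF + P.kF * P.sqD * P.sRF + P.k2 * P.al * P.L * P.D +
    P.kF * P.L * P.D + P.sm * P.sR * P.sD + P.sm * P.z * P.al * P.sD +
    P.sm * P.z * P.sqD * P.L ^ 2 + P.sm * P.z * P.L * P.D + P.k2 * P.sm * P.D +
    P.θ⁻¹ * P.al ^ 2 * P.R * P.sD + P.θ⁻¹ * P.L ^ 2 * P.sD +
    P.θ⁻¹ * P.al * P.L * P.sR * P.sD := by positivity
  unfold Par.ED Bq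
  linarith

theorem Bq_all : P.z ^ 2 * P.sRF ^ 2 ≤ Bq P ∧ P.al ^ 2 * P.m ≤ Bq P ∧
    P.z ^ 4 * P.R ^ 2 * P.m ≤ Bq P ∧ P.L ^ 2 * P.D ≤ Bq P ∧ P.al ^ 2 * P.R ^ 2 * P.D ≤ Bq P ∧
    P.z ^ 8 * P.R ^ 4 * P.D ≤ Bq P ∧ P.sD * P.D ≤ Bq P := by
  have := h.sD1; have := h.D1; have := h.m1; have := h.R1
  have a1 : 0 ≤ P.z ^ 2 * P.sRF ^ 2 := by positivity
  have a2 : 0 ≤ P.al ^ 2 * P.m := by positivity
  have a3 : 0 ≤ P.z ^ 8 * P.m := by positivity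
  have a4 : 0 ≤ P.z ^ 4 * P.R ^ 2 * P.m := by positivity
  have a5 : 0 ≤ P.L ^ 2 * P.D := by positivity
  have a6 : 0 ≤ P.al ^ 2 * P.R ^ 2 * P.D := by positivity
  have a7 : 0 ≤ P.z ^ 8 * P.R ^ 4 * P.D := by positivity
  have a8 : 0 ≤ P.sD * P.D := by positivity
  unfold Bq
  refine ⟨?_, ?_, ?_, ?_, ?_, ?_, ?_⟩ <;> linarith

theorem Bq_nonneg : 0 ≤ Bq P := by
  have := h.sD1; have := h.D1
  exact le_trans (by positivity) (Bq_all h).2.2.2.2.2.2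
theorem Bq_zR (a b : ℕ) (ha : a ≤ 8) (hb : b ≤ 4) : P.z ^ a * P.R ^ b * P.D ≤ Bq P := by
  have := h.D1; have := h.R1; have := h.z1
  refine le_trans ?_ (Bq_all h).2.2.2.2.2.1
  gcongr
theorem Bq_R (b : ℕ) (hb : b ≤ 4) : P.R ^ b * P.D ≤ Bq P := by
  simpa using Bq_zR h 0 b (by norm_num) hb
theorem Bq_m : P.m ≤ Bq P := by
  have := h.m1
  have := one_le_pow₀ h.al1 (n := 2)
  exact le_trans (by nlinarith) (Bq_all h).2.1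
theorem Bq_sRF : P.sRF ^ 2 ≤ Bq P := by
  have := one_le_pow₀ h.z1 (n := 2)
  exact le_trans (by nlinarith [sq_nonneg P.sRF]) (Bq_all h).1
theorem Bq_DD : P.D * P.D ≤ Bq P :=
  (mul_le_mul_of_nonneg_right h.D_le_sD (by linarith [h.D1])).trans (Bq_all h).2.2.2.2.2.2
theorem Bq_inv (n : ℕ) (hn : n ≤ 4) : P.θ⁻¹ ^ n * Bq P ≤ P.θ⁻¹ ^ 4 * Bq P :=
  mul_le_mul_of_nonneg_right (pow_le_pow_right₀ h.θ_inv1 hn) (Bq_nonneg h)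

end Budget

/-! ### Basic sums -/

section Sums

variable {Z : Mat ι} (h : Z.IsSymm)
include h

theorem sum_col_pow_le (i : ι) (n : ℕ) : ∑ k, (Z k i ^ 2) ^ (n + 1) ≤ rr Z i ^ (n + 1) := by
  simpa only [h.apply i] using sum_row_pow_le h i n
theorem row4 (k : ι) : ∑ i, (Z k i ^ 2) ^ 2 ≤ rr Z k ^ 2 := sum_row_pow_le h k 1
theorem col4 (i : ι) : ∑ k, (Z k i ^ 2) ^ 2 ≤ rr Z i ^ 2 := sum_col_pow_le h i 1
theorem row8 (k : ι) : ∑ i, (Z k i ^ 2) ^ 4 ≤ rr Z k ^ 4 := sum_row_pow_le h k 3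
theorem col8 (i : ι) : ∑ k, (Z k i ^ 2) ^ 4 ≤ rr Z i ^ 4 := sum_col_pow_le h i 3
theorem eta_le (k i : ι) : (Z * Z) k i ^ 2 ≤ rr Z k * rr Z i := mul_entry_sq_le h h k i
theorem eta_row (k : ι) : ∑ i, (Z * Z) k i ^ 2 = rr (Z * Z) k := (rr_eq (isSymm_sq h) k).symm
theorem eta_col (i : ι) : ∑ k, (Z * Z) k i ^ 2 = rr (Z * Z) i := (rr_eq' (isSymm_sq h) i).symm

end Sums

/-- Double sums with a weight on the first index. -/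
theorem dsum_i {A : ι → ι → ℝ} {f a : ι → ℝ} (hf : ∀ i, 0 ≤ f i) (ha : ∀ i, ∑ k, A i k ≤ a i) :
    ∑ i, ∑ k, f i * A i k ≤ ∑ i, f i * a i :=
  sum_le_sum fun i _ => by rw [← mul_sum]; exact mul_le_mul_of_nonneg_left (ha i) (hf i)
/-- Double sums with a weight on the second index. -/
theorem dsum_k {A : ι → ι → ℝ} {f a : ι → ℝ} (hf : ∀ k, 0 ≤ f k) (ha : ∀ k, ∑ i, A i k ≤ a k) :
    ∑ i, ∑ k, f k * A i k ≤ ∑ k, f k * a k := by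
  rw [sum_comm]; exact dsum_i (A := fun k i => A i k) hf ha

section SideFacts

variable {P : Par} {ε : ℝ} {Z : Mat ι} (s : Side P ε Z) (h : P.OK)
include s h

theorem diag2 (j : ι) : Z j j ^ 2 ≤ P.z ^ 2 := by
  rw [← sq_abs]; exact pow_le_pow_left₀ (abs_nonneg _) (s.diag_le h j) 2
omit h in
theorem sdiag2 : ∑ j, Z j j ^ 2 ≤ P.al ^ 2 := s.hal
omit h in
theorem sdiag4 : ∑ j, (Z j j ^ 2) ^ 2 ≤ P.z ^ 4 := by
  simp only [← pow_mul]; exact s.hz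
omit h in
theorem eta_R (k i : ι) : (Z * Z) k i ^ 2 ≤ P.R ^ 2 :=
  (eta_le s.symm k i).trans (by
    rw [sq]; exact mul_le_mul (s.hR k) (s.hR i) (s.rr0 i) ((s.rr0 k).trans (s.hR k)))
omit h in
theorem rr2_R (k : ι) : rr Z k ^ 2 ≤ P.R ^ 2 := pow_le_pow_left₀ (s.rr0 k) (s.hR k) 2
omit h in
theorem dp2_R (k : ι) : dp Z k ^ 2 ≤ P.R ^ 2 := pow_le_pow_left₀ (dp_nonneg Z k) (s.dp_le k) 2

theorem cross1 : ∑ k, (∑ i, dp Z i * Z k i ^ 2) ^ 2 ≤ 2 * (P.R * P.D) := by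
  have hR := h.R1
  have h1 : ∀ k, (∑ i, dp Z i * Z k i ^ 2) ^ 2 ≤ P.R * ∑ i, dp Z i ^ 2 * Z k i ^ 2 := fun k => by
    have a := sum_mul_sq_le_sq_mul_sq univ (fun i => Z k i) (fun i => dp Z i * Z k i)
    have e1 : ∑ i, Z k i * (dp Z i * Z k i) = ∑ i, dp Z i * Z k i ^ 2 :=
      sum_congr rfl fun _ _ => by ring
    rw [e1, ← rr_eq s.symm] at a
    simp only [mul_pow] at a
    exact a.trans (mul_le_mul_of_nonneg_right (s.hR k) (by positivity))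
  refine (sum_le_sum fun k _ => h1 k).trans ?_
  rw [← mul_sum, sum_comm]
  have h2 := dsum_i (A := fun i k => Z k i ^ 2) (f := fun i => dp Z i ^ 2) (a := rr Z)
    (fun _ => sq_nonneg _) (fun i => (rr_eq' s.symm i).ge)
  nlinarith [s.sum_dp2_rr h]

theorem cross2 : ∑ k, (∑ i, dp Z i ^ 2 * (Z k i ^ 2) ^ 2) ^ 2 ≤ 4 * (P.R ^ 4 * P.D) := by
  have hR := h.R1
  have h1 : ∀ k, ∑ i, dp Z i ^ 2 * (Z k i ^ 2) ^ 2 ≤ P.R ^ 4 := fun k => by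
    calc ∑ i, dp Z i ^ 2 * (Z k i ^ 2) ^ 2 ≤ ∑ i, P.R ^ 2 * (Z k i ^ 2) ^ 2 :=
          sum_le_sum fun i _ => mul_le_mul_of_nonneg_right (dp2_R s i) (by positivity)
      _ ≤ P.R ^ 2 * P.R ^ 2 := by
          rw [← mul_sum]
          exact mul_le_mul_of_nonneg_left ((row4 s.symm k).trans (rr2_R s k)) (by positivity)
      _ = _ := by ring
  have h2 : ∀ k, (∑ i, dp Z i ^ 2 * (Z k i ^ 2) ^ 2) ^ 2 ≤
      P.R ^ 4 * ∑ i, dp Z i ^ 2 * (Z k i ^ 2) ^ 2 := fun k => by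
    rw [sq]; exact mul_le_mul_of_nonneg_right (h1 k) (by positivity)
  refine (sum_le_sum fun k _ => h2 k).trans ?_
  rw [← mul_sum, sum_comm]
  have h3 := dsum_i (A := fun i k => (Z k i ^ 2) ^ 2) (f := fun i => dp Z i ^ 2)
    (a := fun i => rr Z i ^ 2) (fun _ => sq_nonneg _) (col4 s.symm)
  have h4 : 0 ≤ P.R ^ 4 := by positivity
  nlinarith [s.sum_dp2_rr2 h]

end SideFacts

end Vale.Agent.P049.LD34
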