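import Vale.Agent.P049.LD34

/-! Fourth moment of the row increments. -/

namespace Vale.Agent.P049

open Matrix Finset

namespace LD4

open LD34

variable {ι : Type} [Fintype ι] {P : Par} {ε : ℝ} {Z : Mat ι} (s : Side P ε Z) (h : P.OK)
include s h

omit h in
theorem eta4 (k i : ι) : ((Z * Z) k i ^ 2) ^ 2 ≤ rr Z k ^ 2 * rr Z i ^ 2 := by
  rw [← mul_pow]; exact pow_le_pow_left₀ (sq_nonneg _) (eta_le s.symm k i) 2

theorem c1 : s3 (fun i j k => q1 Z i j k ^ 2) ≤ 16 * Bq P := by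
  have key : ∑ i, ∑ k, (P.R ^ 2 * rr Z k ^ 2) * (Z k i ^ 2) ^ 2 ≤ P.R ^ 2 * (16 * P.m) := by
    refine (dsum_k (A := fun i k => (Z k i ^ 2) ^ 2) (f := fun k => P.R ^ 2 * rr Z k ^ 2)
      (fun k => by positivity) (row4 s.symm)).trans ?_
    simp only [mul_assoc, ← mul_sum, ← pow_add]
    exact mul_le_mul_of_nonneg_left (s.sum_rr4 h) (by positivity)
  have := s3_le_c (f := fun i j k => q1 Z i j k ^ 2)
    (fun i k => (P.R ^ 2 * rr Z k ^ 2) * (Z k i ^ 2) ^ 2) (fun j _ => (Z j j ^ 2) ^ 2)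
    (fun i j k => by
      have a : ((Z * Z) k i ^ 2) ^ 2 ≤ rr Z k ^ 2 * P.R ^ 2 :=
        (eta4 s k i).trans (mul_le_mul_of_nonneg_left (rr2_R s i) (sq_nonneg _))
      calc q1 Z i j k ^ 2 = ((Z k i ^ 2) ^ 2 * (Z j j ^ 2) ^ 2) * ((Z * Z) k i ^ 2) ^ 2 := by
            unfold q1; ring
        _ ≤ ((Z k i ^ 2) ^ 2 * (Z j j ^ 2) ^ 2) * (rr Z k ^ 2 * P.R ^ 2) :=
            mul_le_mul_of_nonneg_left a (by positivity)
        _ = _ := by ring)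
    (fun i k => by positivity) (fun _ _ => sq_nonneg _) key (show 0 ≤ P.z ^ 4 by positivity)
    (fun _ => sdiag4 s)
  linarith [(Bq_all h).2.2.1]

theorem c2 : s3 (fun i j k => q2 Z i j k ^ 2) ≤ 28 * Bq P := by
  have hs : ∀ k, ∑ i, rr Z i * (Z * Z) k i ^ 2 ≤ rr (Z * Z) k + rr Z k * (2 * P.sD) := fun k => by
    have a : ∑ i, rr Z i * (Z * Z) k i ^ 2 ≤
        ∑ i, ((Z * Z) k i ^ 2 + rr Z k * (dp Z i * rr Z i)) := sum_le_sum fun i _ => by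
      nlinarith [mul_le_mul_of_nonneg_right (rr_le_dp Z i) (sq_nonneg ((Z * Z) k i)),
        mul_le_mul_of_nonneg_left (eta_le s.symm k i) (dp_nonneg Z i)]
    rw [sum_add_distrib, eta_row s.symm, ← mul_sum] at a
    linarith [mul_le_mul_of_nonneg_left (s.sum_dp_rr h) (s.rr0 k)]
  have h1 := s3_le_k (f := fun i j k => q2 Z i j k ^ 2)
    (fun i k => rr Z k * (rr Z i * (Z * Z) k i ^ 2)) (fun j k => (Z k j ^ 2) ^ 2)
    (fun k => rr Z k * ∑ i, rr Z i * (Z * Z) k i ^ 2) (fun k => rr Z k ^ 2)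
    (fun i j k => by
      calc q2 Z i j k ^ 2 = ((Z * Z) k i ^ 2 * (Z k j ^ 2) ^ 2) * (Z * Z) k i ^ 2 := by
            unfold q2; ring
        _ ≤ ((Z * Z) k i ^ 2 * (Z k j ^ 2) ^ 2) * (rr Z k * rr Z i) :=
            mul_le_mul_of_nonneg_left (eta_le s.symm k i) (by positivity)
        _ = _ := by ring)
    (fun i k => mul_nonneg (s.rr0 _) (mul_nonneg (s.rr0 _) (sq_nonneg _)))
    (fun _ _ => sq_nonneg _) (fun k => by rw [← mul_sum]) (row4 s.symm)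
  have h2 : ∑ k, (rr Z k * ∑ i, rr Z i * (Z * Z) k i ^ 2) * rr Z k ^ 2 ≤
      ∑ k, (4 * ∑ i, rr Z i * (Z * Z) k i ^ 2 +
        (4 * P.L ^ 2 + 8 * P.sD) * (dp Z k ^ 3 * rr Z k)) := sum_le_sum fun k _ => by
    have p0 := dp_nonneg Z k
    have a0 : 0 ≤ ∑ i, rr Z i * (Z * Z) k i ^ 2 :=
      sum_nonneg fun i _ => mul_nonneg (s.rr0 _) (sq_nonneg _)
    have a1 : rr Z k ^ 3 ≤ 4 + 4 * dp Z k ^ 3 := by
      nlinarith [s.rr_pow_le k 3, mul_nonneg (add_nonneg zero_le_one p0) (sq_nonneg (dp Z k - 1))]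
    have a2 : ∑ i, rr Z i * (Z * Z) k i ^ 2 ≤ (P.L ^ 2 + 2 * P.sD) * rr Z k := by
      linarith [hs k, s.rr_sq_le h k]
    nlinarith [mul_le_mul_of_nonneg_right a1 a0,
      mul_le_mul_of_nonneg_left a2 (pow_nonneg p0 3)]
  rw [sum_add_distrib, ← mul_sum, ← mul_sum, sum_comm] at h2
  have h3 := dsum_i (A := fun i k => (Z * Z) k i ^ 2) (f := rr Z) (a := rr (Z * Z)) s.rr0
    (fun i => (eta_col s.symm i).le)
  have h4 := mul_le_mul_of_nonneg_left (s.sum_dp3_rr h)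
    (show 0 ≤ 4 * P.L ^ 2 + 8 * P.sD by have := h.sD1; positivity)
  linarith [s.sum_rr_rrsq h, Bq_sRF h, (Bq_all h).2.2.2.1, (Bq_all h).2.2.2.2.2.2]

theorem rr6 : ∑ i, rr Z i ^ 2 * rr Z i ^ 4 ≤ 32 * P.m + 32 * P.R ^ 2 * P.D := by
  have := s.sum_le_poly h (f := fun i => rr Z i ^ 2 * rr Z i ^ 4) (c0 := 32) (c1 := 0) (c2 := 0)
    (c3 := 0) (c4 := 32 * P.R ^ 2) le_rfl le_rfl le_rfl (by positivity) fun k => by
      have p0 := dp_nonneg Z k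
      have a1 : (1 + dp Z k) ^ 6 ≤ 2 ^ (6 - 1) * (1 ^ 6 + dp Z k ^ 6) :=
        add_pow_le zero_le_one p0 6
      have a2 := mul_le_mul_of_nonneg_right (dp2_R s k) (pow_nonneg p0 4)
      have a3 := s.rr_pow_le k 6
      norm_num at a1
      nlinarith
  linarith

theorem c3 : s3 (fun i j k => q3 Z i j k ^ 2) ≤ 64 * Bq P := by
  have := s3_le_c (f := fun i j k => q3 Z i j k ^ 2)
    (fun i k => rr Z i ^ 2 * (Z k i ^ 2) ^ 4) (fun j _ => P.R ^ 2 * (Z j j ^ 2) ^ 2)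
    (fun i j k => by
      have a : ((Z * Z) i j ^ 2) ^ 2 ≤ rr Z i ^ 2 * P.R ^ 2 :=
        (eta4 s i j).trans (mul_le_mul_of_nonneg_left (rr2_R s j) (sq_nonneg _))
      calc q3 Z i j k ^ 2 = ((Z k i ^ 2) ^ 4 * (Z j j ^ 2) ^ 2) * ((Z * Z) i j ^ 2) ^ 2 := by
            unfold q3; ring
        _ ≤ ((Z k i ^ 2) ^ 4 * (Z j j ^ 2) ^ 2) * (rr Z i ^ 2 * P.R ^ 2) :=
            mul_le_mul_of_nonneg_left a (by positivity)
        _ = _ := by ring)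
    (fun i k => by positivity) (fun _ _ => by positivity)
    ((dsum_i (A := fun i k => (Z k i ^ 2) ^ 4) (fun _ => sq_nonneg _) (col8 s.symm)).trans
      (rr6 s h)) (show 0 ≤ P.R ^ 2 * P.z ^ 4 by positivity)
    (fun _ => by rw [← mul_sum]; exact mul_le_mul_of_nonneg_left (sdiag4 s) (sq_nonneg _))
  linarith [(Bq_all h).2.2.1, Bq_zR h 4 4 (by norm_num) (by norm_num)]

theorem c4 : s3 (fun i j k => q4 Z i j k ^ 2) ≤ 160 * Bq P := by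
  have hb : ∀ k, ∑ i, rr Z i ^ 2 * (Z k i ^ 2) ^ 2 ≤
      2 * rr Z k ^ 2 + 2 * ∑ i, dp Z i ^ 2 * (Z k i ^ 2) ^ 2 := fun k => by
    have a : ∑ i, rr Z i ^ 2 * (Z k i ^ 2) ^ 2 ≤
        ∑ i, (2 * (Z k i ^ 2) ^ 2 + 2 * (dp Z i ^ 2 * (Z k i ^ 2) ^ 2)) := sum_le_sum fun i _ => by
      have b : rr Z i ^ 2 ≤ 2 + 2 * dp Z i ^ 2 := by
        nlinarith [s.rr_pow_le i 2, sq_nonneg (dp Z i - 1)]
      nlinarith [mul_le_mul_of_nonneg_right b (sq_nonneg (Z k i ^ 2))]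
    rw [sum_add_distrib, ← mul_sum, ← mul_sum] at a
    linarith [row4 s.symm k]
  have := s3_le_k (f := fun i j k => q4 Z i j k ^ 2)
    (fun i k => rr Z i ^ 2 * (Z k i ^ 2) ^ 2) (fun j k => rr Z j ^ 2 * (Z k j ^ 2) ^ 2) _ _
    (fun i j k => by
      calc q4 Z i j k ^ 2 = ((Z k i ^ 2) ^ 2 * (Z k j ^ 2) ^ 2) * ((Z * Z) i j ^ 2) ^ 2 := by
            unfold q4; ring
        _ ≤ ((Z k i ^ 2) ^ 2 * (Z k j ^ 2) ^ 2) * (rr Z i ^ 2 * rr Z j ^ 2) :=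
            mul_le_mul_of_nonneg_left (eta4 s i j) (by positivity)
        _ = _ := by ring)
    (fun _ _ => by positivity) (fun _ _ => by positivity) hb hb
  have h2 : ∑ k, (2 * rr Z k ^ 2 + 2 * ∑ i, dp Z i ^ 2 * (Z k i ^ 2) ^ 2) *
      (2 * rr Z k ^ 2 + 2 * ∑ i, dp Z i ^ 2 * (Z k i ^ 2) ^ 2) ≤
      8 * ∑ k, rr Z k ^ 4 + 8 * ∑ k, (∑ i, dp Z i ^ 2 * (Z k i ^ 2) ^ 2) ^ 2 := by
    rw [mul_sum, mul_sum, ← sum_add_distrib]
    exact sum_le_sum fun k _ => by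
      nlinarith [sq_nonneg (rr Z k ^ 2 - ∑ i, dp Z i ^ 2 * (Z k i ^ 2) ^ 2)]
  linarith [s.sum_rr4 h, cross2 s h, Bq_m h, Bq_R h 4 (by norm_num)]

theorem c5 : s3 (fun i j k => q5 Z i j k ^ 2) ≤ Bq P := by
  have key : ∑ i, ∑ k, dp Z i ^ 4 * (Z k i ^ 2) ^ 4 ≤ P.D * P.R ^ 4 := by
    refine (dsum_i (A := fun i k => (Z k i ^ 2) ^ 4) (f := fun i => dp Z i ^ 4)
      (a := fun _ => P.R ^ 4) (fun k => by positivity)
      (fun i => (col8 s.symm i).trans (pow_le_pow_left₀ (s.rr0 i) (s.hR i) 4))).trans ?_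
    rw [← sum_mul]
    exact mul_le_mul_of_nonneg_right s.sum_dp4 (by positivity)
  have := s3_le_c (f := fun i j k => q5 Z i j k ^ 2)
    (fun i k => dp Z i ^ 4 * (Z k i ^ 2) ^ 4) (fun j _ => P.z ^ 4 * (Z j j ^ 2) ^ 2)
    (fun i j k => by
      have a : (Z j j ^ 2) ^ 2 ≤ (P.z ^ 2) ^ 2 := pow_le_pow_left₀ (sq_nonneg _) (diag2 s h j) 2
      calc q5 Z i j k ^ 2 = (dp Z i ^ 4 * (Z k i ^ 2) ^ 4 * (Z j j ^ 2) ^ 2) * (Z j j ^ 2) ^ 2 := by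
            unfold q5; ring
        _ ≤ (dp Z i ^ 4 * (Z k i ^ 2) ^ 4 * (Z j j ^ 2) ^ 2) * (P.z ^ 2) ^ 2 :=
            mul_le_mul_of_nonneg_left a (by positivity)
        _ = _ := by ring)
    (fun i k => by positivity) (fun _ _ => by positivity) key
    (show 0 ≤ P.z ^ 4 * P.z ^ 4 by positivity)
    (fun _ => by rw [← mul_sum]; exact mul_le_mul_of_nonneg_left (sdiag4 s) (by positivity))
  linarith [(Bq_all h).2.2.2.2.2.1]

theorem c6 : s3 (fun i j k => q6 Z i j k ^ 2) ≤ Bq P := by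
  have key : ∑ i, ∑ k, dp Z i ^ 4 * (Z k i ^ 2) ^ 2 ≤ P.D * P.R ^ 2 := by
    refine (dsum_i (A := fun i k => (Z k i ^ 2) ^ 2) (f := fun i => dp Z i ^ 4)
      (a := fun _ => P.R ^ 2) (fun k => by positivity)
      (fun i => (col4 s.symm i).trans (rr2_R s i))).trans ?_
    rw [← sum_mul]
    exact mul_le_mul_of_nonneg_right s.sum_dp4 (by positivity)
  have := s3_le_c (f := fun i j k => q6 Z i j k ^ 2)
    (fun i k => dp Z i ^ 4 * (Z k i ^ 2) ^ 2) (fun j k => P.z ^ 4 * (Z k j ^ 2) ^ 2)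
    (fun i j k => by
      have a : (Z j j ^ 2) ^ 2 ≤ (P.z ^ 2) ^ 2 := pow_le_pow_left₀ (sq_nonneg _) (diag2 s h j) 2
      calc q6 Z i j k ^ 2 = (dp Z i ^ 4 * (Z k i ^ 2) ^ 2 * (Z k j ^ 2) ^ 2) * (Z j j ^ 2) ^ 2 := by
            unfold q6; ring
        _ ≤ (dp Z i ^ 4 * (Z k i ^ 2) ^ 2 * (Z k j ^ 2) ^ 2) * (P.z ^ 2) ^ 2 :=
            mul_le_mul_of_nonneg_left a (by positivity)
        _ = _ := by ring)
    (fun i k => by positivity) (fun _ _ => by positivity) key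
    (show 0 ≤ P.z ^ 4 * P.R ^ 2 by positivity)
    (fun k => by
      rw [← mul_sum]
      exact mul_le_mul_of_nonneg_left ((row4 s.symm k).trans (rr2_R s k)) (by positivity))
  linarith [Bq_zR h 4 4 (by norm_num) (by norm_num)]

theorem sS4 : s3 (S4 Z) ≤ 270 * Bq P := by
  have e : s3 (S4 Z) = s3 (fun i j k => q1 Z i j k ^ 2) + s3 (fun i j k => q2 Z i j k ^ 2) +
      s3 (fun i j k => q3 Z i j k ^ 2) + s3 (fun i j k => q4 Z i j k ^ 2) +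
      s3 (fun i j k => q5 Z i j k ^ 2) + s3 (fun i j k => q6 Z i j k ^ 2) := by
    simp only [← s3_add]; rfl
  linarith [c1 s h, c2 s h, c3 s h, c4 s h, c5 s h, c6 s h]

theorem sW : s3 (fun i j k => W Z i j k ^ 4) ≤ 3 * (T2 Z * ∑ k, dp Z k ^ 4) + 130 * Bq P := by
  have h1 : s3 (fun i j k => (dp Z i * Z k j ^ 2) ^ 4) ≤ (∑ k, dp Z k ^ 4) * ∑ k, rr Z k ^ 4 := by
    rw [mul_sum]
    exact s3_le_k (fun i _ => dp Z i ^ 4) (fun j k => (Z k j ^ 2) ^ 4) _ _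
      (fun i j k => le_of_eq (by ring)) (fun _ _ => by positivity) (fun _ _ => by positivity)
      (fun _ => le_rfl) (row8 s.symm)
  have e : s3 (fun i j k => W Z i j k ^ 4) ≤
      3 / 2 * s3 (fun i j k => (dp Z i * Z k j ^ 2) ^ 4) +
      3 / 2 * s3 (fun i j k => (dp Z j * Z k i ^ 2) ^ 4) +
      22 * s3 (fun i j k => (dp Z i ^ 2 * (Z k i ^ 2) ^ 2) * (dp Z j ^ 2 * (Z k j ^ 2) ^ 2)) := by
    rw [← s3_mul, ← s3_mul, ← s3_mul, ← s3_add, ← s3_add]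
    refine s3_mono fun i j k => ?_
    have key : ∀ a b : ℝ, (a + b) ^ 4 ≤ 3 / 2 * a ^ 4 + 3 / 2 * b ^ 4 + 22 * (a ^ 2 * b ^ 2) :=
      fun a b => by nlinarith [sq_nonneg (a ^ 2 - 4 * a * b), sq_nonneg (b ^ 2 - 4 * a * b)]
    refine (key _ _).trans (le_of_eq ?_)
    ring
  rw [s3_swap (fun i j k => (dp Z i * Z k j ^ 2) ^ 4),
    s3_k (fun i k => dp Z i ^ 2 * (Z k i ^ 2) ^ 2) (fun j k => dp Z j ^ 2 * (Z k j ^ 2) ^ 2)] at e
  have h2 := cross2 s h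
  simp only [sq (∑ _, _)] at h2
  have h3 := Bq_R h 4 (by norm_num)
  have h4 : 0 ≤ ∑ k, dp Z k ^ 4 := by positivity
  have h5 := mul_le_mul_of_nonneg_left (s.sum_rr4_T2 h) h4
  have h6 := mul_le_mul_of_nonneg_left s.sum_dp4 (show 0 ≤ P.sD by linarith [h.sD1])
  nlinarith [(Bq_all h).2.2.2.2.2.2]

end LD4

open LD34 LD4 in
theorem ld4 : LD4S := by
  intro ι _ _ P ε Z Y w e c
  have h := c.ok
  have s := c.sZ
  have h0 := h.θ_pos
  have hθ := h.θ_le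
  have h1 := c.wt.av_le'
    (f := fun i j => sumo i j fun k => 2 * (db1 Z i j k + db2 Z i j k) ^ 4)
    (g := fun i j => ∑ k, 2 * ((1 + 3 * P.θ) ^ 11 * W Z i j k ^ 4 +
      2 * 10 ^ 6 * P.θ⁻¹ ^ 3 * (S4 Z i j k + S4 Z j i k)))
    (fun i j => sum_nonneg fun k _ => by
      have := S4_nonneg Z i j k; have := S4_nonneg Z j i k; positivity)
    (fun i j hw => sumo_le (fun k => by
      have := S4_nonneg Z i j k; have := S4_nonneg Z j i k; positivity)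
      fun k _ _ => mul_le_mul_of_nonneg_left (point4 s.symm h0 (c.wZ.nu_le i j hw) hθ k)
        (by positivity))
  have e1 : ∑ i, ∑ j, ∑ k, 2 * ((1 + 3 * P.θ) ^ 11 * W Z i j k ^ 4 +
      2 * 10 ^ 6 * P.θ⁻¹ ^ 3 * (S4 Z i j k + S4 Z j i k)) =
      (1 + 3 * P.θ) ^ 11 * (2 * s3 (fun i j k => W Z i j k ^ 4)) +
      4 * 10 ^ 6 * P.θ⁻¹ ^ 3 * (s3 (S4 Z) + s3 (fun i j k => S4 Z j i k)) := by
    simp only [← s3_mul, ← s3_add]
    refine congrArg s3 (funext fun i => funext fun j => funext fun k => ?_)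
    ring
  rw [e1, s3_swap (S4 Z)] at h1
  obtain ⟨X, hX⟩ : ∃ X, X = T2 Z * ∑ k, dp Z k ^ 4 := ⟨_, rfl⟩
  have hX0 : 0 ≤ X := hX ▸ mul_nonneg (T2_nonneg s.symm) (by positivity)
  have hX1 : X ≤ P.m * P.D := hX ▸ mul_le_mul s.hm s.sum_dp4 (by positivity) (by linarith [h.m1])
  have hB := Bq_nonneg h
  have a1 : 2 * s3 (fun i j k => W Z i j k ^ 4) ≤ 6 * X + 260 * Bq P := by linarith [sW s h]
  have a2 : s3 (S4 Z) + s3 (S4 Z) ≤ 540 * Bq P := by linarith [sS4 s h]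
  have a3 : (1 + P.θ) * (1 + 3 * P.θ) ^ 11 ≤ 1 + 100 * P.θ := by
    refine le_trans ?_ (pow12 h0 hθ)
    calc (1 + P.θ) * (1 + 3 * P.θ) ^ 11 ≤ (1 + 3 * P.θ) * (1 + 3 * P.θ) ^ 11 := by gcongr; linarith
      _ = _ := by ring
  have a4 := mul_le_mul a3 a1 (mul_nonneg (by norm_num) (sum_nonneg fun i _ =>
      sum_nonneg fun j _ => sum_nonneg fun k _ => by positivity)) (by positivity)
  have a5 := mul_le_mul_of_nonneg_left a2
    (show 0 ≤ (1 + P.θ) * (4 * 10 ^ 6 * P.θ⁻¹ ^ 3) by positivity)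
  have b0 := Bq_inv h 0 (by norm_num)
  have b1 := Bq_inv h 3 (by norm_num)
  rw [pow_zero, one_mul] at b0
  have b2 : P.θ * Bq P ≤ Bq P := by nlinarith
  have b3 : P.θ * (P.θ⁻¹ ^ 3 * Bq P) ≤ P.θ⁻¹ ^ 3 * Bq P := by
    have : 0 ≤ P.θ⁻¹ ^ 3 * Bq P := by positivity
    nlinarith
  have b4 := mul_le_mul_of_nonneg_left hX1 h0.le
  have b5 := ED_ge h
  have b6 : 0 ≤ P.θ * P.m * P.D := by have := h.m1; have := h.D1; positivity
  rw [mul_assoc 6, ← hX]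
  unfold C1
  linarith

end Vale.Agent.P049
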