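import Vale.Agent.P049.Avg

/-! Drift of `T4` and of the mixed trace, from the general estimate. -/

namespace Vale.Agent.P049

open Matrix Finset

namespace LM

variable {ι : Type} [Fintype ι] [DecidableEq ι] {P : Par} {ε : ℝ} {Z Y : Mat ι} {w e : ι → ι → ℝ}

/-- The spectral bound summed over the columns of `N`. -/
theorem spec_sum (h2 : SpecS) (h : P.OK) (s : Side P ε Z) (N : Mat ι) :
    T1 Z * trace (Nᵀ * Z * N) - P.μ * (ε * trace (Nᵀ * (Z * Z * Z) * N)) ≤ P.H * fn N ^ 2 := by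
  rw [trace_conj, trace_conj, ← sum_col_dot, mul_sum, mul_sum, mul_sum, mul_sum, ← sum_sub_distrib]
  exact sum_le_sum fun k _ => (h2 ι P ε Z h s _).1

omit [DecidableEq ι] in
theorem low_sum (s : Side P ε Z) (N : Mat ι) : -fn N ^ 2 ≤ ε * trace (Nᵀ * Z * N) := by
  rw [trace_conj, ← sum_col_dot, mul_sum, ← sum_neg_distrib]
  exact sum_le_sum fun k _ => s.low _

theorem EM_nonneg (h : P.OK) {X : ℝ} (hX : 0 ≤ X) : 0 ≤ P.EM X := by
  have := h.k21
  have := h.al1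
  have := h.L1
  have := h.kF1
  have := h.sm1
  have := h.sR1
  have := h.R1
  have := h.m1
  have := h.kO1
  have := h.z1
  have := h.ϑ_pos
  unfold Par.EM
  positivity

omit [DecidableEq ι] in
theorem fro_K (ε : ℝ) (Z Y N : Mat ι) :
    fro (ε • (Z * Z - Y * Y)) N = ε * trace (Z * Z * Nᵀ) - ε * trace (Y * Y * Nᵀ) := by
  rw [fro_eq_trace, Matrix.smul_mul, trace_smul, Matrix.sub_mul, trace_sub, smul_eq_mul, mul_sub]

omit [DecidableEq ι] in
theorem eps_mul_le (s : Side P ε Z) {x c : ℝ} (h : |x| ≤ c) : |ε * x| ≤ c := by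
  rwa [abs_mul, s.abs_eps, one_mul]

theorem first4 (h2 : SpecS) (c : Ctx P ε Z Y w e) :
    T1 Z * trace (Z * Z * Z * Z * Z) - P.μ * fro (ε • (Z * Z - Y * Y)) (Z * Z * Z * Z * Z) ≤
      P.H * P.L ^ 4 + P.μ * P.L ^ 3 * P.Mx := by
  have hZ := c.sZ.symm.eq
  have hL : 0 ≤ P.L := by linarith [c.ok.L1]
  have hM : 0 ≤ P.sM := by linarith [c.ok.sM1]
  have op := c.sZ.op c.ok
  have a1 := spec_sum h2 c.ok c.sZ (Z * Z)
  have a2 : fn (Z * Z) ^ 2 ≤ P.L ^ 4 := by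
    rw [← T4_eq c.sZ.symm]
    exact c.sZ.hL
  have a3 := mul_le_mul_of_nonneg_left a2 (zero_le_one.trans c.ok.H1)
  have b1 : fn (Z * (Z * Y)) ≤ P.L * P.sM :=
    (op.fn_mul hL _).trans (mul_le_mul_of_nonneg_left c.fn_YZ.2 hL)
  have b2 : fn (Y * Z * Z * Z) ≤ P.L * (P.L * P.sM) :=
    (op.mul_fn hL c.sZ.symm _).trans (mul_le_mul_of_nonneg_left
      ((op.mul_fn hL c.sZ.symm _).trans (mul_le_mul_of_nonneg_left c.fn_YZ.1 hL)) hL)
  have b3 : |trace (Z * (Z * Y) * (Y * Z * Z * Z))| ≤ P.L ^ 3 * P.Mx := by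
    refine (abs_trace_mul_le _ _).trans ((mul_le_mul b1 b2 (fn_nonneg _) (by positivity)).trans_eq ?_)
    rw [← c.ok.sM_sq]
    ring
  have e1 : trace (Y * Y * (Z * Z * Z * Z * Z)ᵀ) = trace (Z * (Z * Y) * (Y * Z * Z * Z)) := by
    calc _ = trace ((Y * Y * Z * Z * Z) * (Z * Z)) := by
          simp only [transpose_mul, hZ, Matrix.mul_assoc]
      _ = trace ((Z * Z) * (Y * Y * Z * Z * Z)) := trace_mul_comm _ _
      _ = _ := by simp only [Matrix.mul_assoc]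
  have e2 : trace (Z * Z * (Z * Z * Z * Z * Z)ᵀ) = trace ((Z * Z)ᵀ * (Z * Z * Z) * (Z * Z)) := by
    simp only [transpose_mul, hZ, Matrix.mul_assoc]
  have e3 : trace (Z * Z * Z * Z * Z) = trace ((Z * Z)ᵀ * Z * (Z * Z)) := by
    simp only [transpose_mul, hZ, Matrix.mul_assoc]
  have b4 := mul_le_mul_of_nonneg_left ((le_abs_self _).trans (eps_mul_le c.sZ b3)) c.ok.μ_pos.le
  rw [fro_K, e1, e2, e3]
  linarith

theorem firstM (h2 : SpecS) (c : Ctx P ε Z Y w e) :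
    T1 Z * trace (Z * Z * Y * Y * Z) - P.μ * fro (ε • (Z * Z - Y * Y)) (Z * Z * Y * Y * Z) ≤
      P.H * P.Mx + P.μ * P.L * P.sM * P.Mx := by
  have hZ := c.sZ.symm.eq
  have hY := c.sY.symm.eq
  have hL : 0 ≤ P.L := by linarith [c.ok.L1]
  have hM : 0 ≤ P.sM := by linarith [c.ok.sM1]
  have a1 := spec_sum h2 c.ok c.sZ (Z * Y)
  have a2 : fn (Z * Y) ^ 2 ≤ P.Mx := by
    rw [← Mq_eq c.sZ.symm c.sY.symm]
    exact c.hM
  have a3 := mul_le_mul_of_nonneg_left a2 (zero_le_one.trans c.ok.H1)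
  have b1 : fn (Z * Y * (Y * Z)) ≤ P.sM * P.sM :=
    (fn_mul_le _ _).trans (mul_le_mul c.fn_YZ.2 c.fn_YZ.1 (fn_nonneg _) hM)
  have b2 : fn (Y * (Y * Z)) ≤ P.L * P.sM :=
    ((c.sY.op c.ok).fn_mul hL _).trans (mul_le_mul_of_nonneg_left c.fn_YZ.1 hL)
  have b3 : |trace (Z * Y * (Y * Z) * (Y * (Y * Z)))| ≤ P.L * P.sM * P.Mx := by
    refine (abs_trace_mul_le _ _).trans ((mul_le_mul b1 b2 (fn_nonneg _) (by positivity)).trans_eq ?_)
    rw [← c.ok.sM_sq]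
    ring
  have e1 : trace (Y * Y * (Z * Z * Y * Y * Z)ᵀ) = trace (Z * Y * (Y * Z) * (Y * (Y * Z))) := by
    calc _ = trace ((Y * Y * Z * Y * Y * Z) * Z) := by
          simp only [transpose_mul, hZ, hY, Matrix.mul_assoc]
      _ = trace (Z * (Y * Y * Z * Y * Y * Z)) := trace_mul_comm _ _
      _ = _ := by simp only [Matrix.mul_assoc]
  have e2 : trace (Z * Z * (Z * Z * Y * Y * Z)ᵀ) = trace ((Z * Y)ᵀ * (Z * Z * Z) * (Z * Y)) := by
    calc _ = trace ((Z * Z * Z * Y) * (Y * Z * Z)) := by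
          simp only [transpose_mul, hZ, hY, Matrix.mul_assoc]
      _ = trace ((Y * Z * Z) * (Z * Z * Z * Y)) := trace_mul_comm _ _
      _ = _ := by simp only [transpose_mul, hZ, hY, Matrix.mul_assoc]
  have e3 : trace (Z * Z * Y * Y * Z) = trace ((Z * Y)ᵀ * Z * (Z * Y)) := by
    calc _ = trace ((Z * Z * Y) * (Y * Z)) := by simp only [Matrix.mul_assoc]
      _ = trace ((Y * Z) * (Z * Z * Y)) := trace_mul_comm _ _
      _ = _ := by simp only [transpose_mul, hZ, hY, Matrix.mul_assoc]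
  have b4 := mul_le_mul_of_nonneg_left ((le_abs_self _).trans (eps_mul_le c.sZ b3)) c.ok.μ_pos.le
  rw [fro_K, e1, e2, e3]
  linarith

omit [DecidableEq ι] in
theorem cross (c : Ctx P ε Z Y w e) :
    -P.m ≤ ε * trace (Y * Y * Z) ∧ |ε * trace (Y * Y * Z)| ≤ P.sm * P.sM := by
  constructor
  · have a1 := low_sum c.sZ Y
    rw [← T2_eq c.sY.symm, c.sY.symm.eq, trace_mul_comm, ← Matrix.mul_assoc] at a1
    linarith [c.sY.hm]
  · refine eps_mul_le c.sZ ?_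
    rw [Matrix.mul_assoc]
    exact (abs_trace_mul_le _ _).trans (mul_le_mul (c.sY.fn_le_sm c.ok) c.fn_YZ.1 (fn_nonneg _)
      (by linarith [c.ok.sm1]))

omit [DecidableEq ι] in
theorem cross_mul (c : Ctx P ε Z Y w e) :
    trace (Z * Z * Y) * trace (Y * Y * Z) ≤ P.m * P.sm * P.sM := by
  obtain ⟨a1, a2⟩ := cross c
  obtain ⟨b1, b2⟩ := cross c.symm
  have e : trace (Z * Z * Y) * trace (Y * Y * Z) =
      -(-ε * trace (Z * Z * Y)) * (ε * trace (Y * Y * Z)) := by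
    rw [neg_mul ε, neg_neg, mul_mul_mul_comm, c.sZ.eps_sq, one_mul]
  rw [e, mul_assoc P.m]
  have hm : 0 ≤ P.m := by linarith [c.ok.m1]
  have hs := (abs_nonneg _).trans a2
  generalize -ε * trace (Z * Z * Y) = x at b1 b2
  generalize ε * trace (Y * Y * Z) = y at a1 a2
  generalize P.sm * P.sM = S at a2 b2 hs
  rw [abs_le] at a2 b2
  rcases le_total 0 y with h | h
  · nlinarith [mul_le_mul_of_nonneg_left a2.2 hm]
  · rcases le_total 0 x with h' | h'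
    · nlinarith [mul_le_mul_of_nonneg_left b2.2 hm]
    · nlinarith [mul_nonneg hm hs]

end LM

theorem lt4_of (h1 : LMgenS) (h2 : SpecS) : LT4S := by
  intro ι _ _ P ε Z Y w e c
  have a := h1 ι P ε ε (P.L ^ 2) Z Z _ w e c.ok c.sZ c.sZ c.wt c.wZ c.wZ (one_le_pow₀ c.ok.L1)
    (by rw [← pow_mul]; exact c.sZ.hL)
  have b1 := LM.first4 h2 c
  have b2 : trace (Z * Z * Z) * trace (Z * Z * Z) ≤ P.b3 ^ 2 := by
    rw [← sq]
    exact sq_le_sq' (abs_le.1 c.sZ.hb3).1 (abs_le.1 c.sZ.hb3).2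
  have b3 := LM.EM_nonneg c.ok (sq_nonneg P.L)
  have b4 : 0 ≤ P.H * P.L ^ 4 := by
    have := c.ok.H1
    positivity
  have b5 : 0 ≤ P.μ * P.L ^ 3 * P.Mx := by
    have := c.ok.μ_pos
    have := c.ok.L1
    have := c.ok.Mx1
    positivity
  have b6 := sq_nonneg P.b3
  simp only [← T4_eq_Mq] at a
  rw [show trace (Z * Z) = T2 Z from rfl] at a
  unfold C1 at a
  unfold C0 Par.E4
  linarith

theorem lm_of (h1 : LMgenS) (h2 : SpecS) : LMS := by
  intro ι _ _ P ε Z Y w e c ht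
  have a := h1 ι P ε (-ε) P.sM Z Y _ w e c.ok c.sZ c.sY c.wt c.wZ c.wY c.ok.sM1
    (by rw [c.ok.sM_sq]; exact c.hM)
  have b1 := LM.firstM h2 c
  have b1' := LM.firstM h2 c.symm
  rw [neg_smul, ← smul_neg, neg_sub] at b1'
  have b2 := LM.cross_mul c
  have b3 := LM.EM_nonneg c.ok (zero_le_one.trans c.ok.sM1)
  have h0 := Mq_nonneg c.sZ.symm c.sY.symm
  have b4 := mul_nonneg h0 (sub_nonneg.2 c.sZ.hm)
  have b5 := mul_nonneg h0 (sub_nonneg.2 c.sY.hm)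
  have b6 := mul_le_mul_of_nonneg_left ht h0
  have b7 : Mq Z Y * (2 * P.b1 + 1) ≤ 3 * (P.b1 * P.Mx) := by
    nlinarith [c.hM, c.ok.b11, mul_le_mul_of_nonneg_left c.hM (zero_le_one.trans c.ok.b11)]
  have := c.ok.μ_pos
  have := c.ok.L1
  have := c.ok.Mx1
  have := c.ok.H1
  have := c.ok.b11
  have := c.ok.m1
  have := c.ok.sm1
  have := c.ok.sM1
  have d1 : 0 ≤ P.b1 * P.Mx := by positivity
  have d2 : 0 ≤ P.m * P.sm * P.sM := by positivity
  have d3 : 0 ≤ P.H * P.Mx := by positivity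
  have d4 : 0 ≤ P.μ * P.L * P.sM * P.Mx := by positivity
  unfold C1 at a
  unfold C0 Par.E5
  linarith

end Vale.Agent.P049
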