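import Vale.Agent.P049.Avg

/-! Drift of the mixed quartic trace. -/

namespace Vale.Agent.P049

open Matrix Finset

namespace LMgen

structure Mono (P : Par) (X : ℝ) : Prop where
  m1 : P.k2 * P.al * P.L * X ^ 2 ≤ P.EM X
  m2 : P.kF * P.L * X ^ 2 ≤ P.EM X
  m3 : P.k2 * P.sm * P.sR * X ^ 2 ≤ P.EM X
  m4 : P.z ^ 2 * P.L ^ 2 * X ^ 2 ≤ P.EM X
  m5 : P.z ^ 2 * P.sm * X ^ 2 ≤ P.EM X
  m6 : P.al * P.L * P.sR * X ^ 2 ≤ P.EM X
  m7 : P.al * P.sm * X ^ 2 ≤ P.EM X
  m8 : P.al ^ 2 * P.R * X ^ 2 ≤ P.EM X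
  m9 : P.kF * P.m * X ≤ P.EM X
  m10 : P.kO * P.m * X ≤ P.EM X
  m11 : P.z ^ 2 * P.L ^ 2 * X * P.sm ≤ P.EM X
  m12 : P.al * P.L ^ 2 * X * P.sm ≤ P.EM X
  m13 : P.al ^ 2 * P.m * X ≤ P.EM X
  m14 : P.ϑ * P.m * X ^ 2 ≤ P.EM X
  m15 : P.z ^ 8 * P.R * P.m ^ 2 * P.ϑ⁻¹ ≤ P.EM X
  nonneg : 0 ≤ P.EM X

theorem mono {P : Par} (h : P.OK) {X : ℝ} (hX : 1 ≤ X) : Mono P X := by
  have := h.k21; have := h.al1; have := h.L1; have := h.kF1; have := h.sm1; have := h.sR1
  have := h.R1; have := h.m1; have := h.kO1; have := h.ϑ_pos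
  have a1 : 0 ≤ P.k2 * P.al * P.L * X ^ 2 := by positivity
  have a2 : 0 ≤ P.kF * P.L * X ^ 2 := by positivity
  have a3 : 0 ≤ P.k2 * P.sm * P.sR * X ^ 2 := by positivity
  have a4 : 0 ≤ P.z ^ 2 * P.L ^ 2 * X ^ 2 := by positivity
  have a5 : 0 ≤ P.z ^ 2 * P.sm * X ^ 2 := by positivity
  have a6 : 0 ≤ P.al * P.L * P.sR * X ^ 2 := by positivity
  have a7 : 0 ≤ P.al * P.sm * X ^ 2 := by positivity
  have a8 : 0 ≤ P.al ^ 2 * P.R * X ^ 2 := by positivity
  have a9 : 0 ≤ P.kF * P.m * X := by positivity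
  have a10 : 0 ≤ P.kO * P.m * X := by positivity
  have a11 : 0 ≤ P.z ^ 2 * P.L ^ 2 * X * P.sm := by positivity
  have a12 : 0 ≤ P.al * P.L ^ 2 * X * P.sm := by positivity
  have a13 : 0 ≤ P.al ^ 2 * P.m * X := by positivity
  have a14 : 0 ≤ P.ϑ * P.m * X ^ 2 := by positivity
  have a15 : 0 ≤ P.z ^ 8 * P.R * P.m ^ 2 * P.ϑ⁻¹ := by positivity
  constructor <;> unfold Par.EM <;> linarith

variable {ι : Type} [Fintype ι] [DecidableEq ι] {P : Par} {εA εB X : ℝ} {A B K : Mat ι}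
  {w e : ι → ι → ℝ}

/-- The data shared by all the pieces. -/
structure Dat (P : Par) (εA εB X : ℝ) (A B K : Mat ι) (w e : ι → ι → ℝ) : Prop where
  ok : P.OK
  sA : Side P εA A
  sB : Side P εB B
  wt : Wt w e K P.μ P.θ P.kF P.k2 P.kO
  wA : SideW w e P.θ A
  wB : SideW w e P.θ B
  hX : 1 ≤ X
  hM : Mq A B ≤ X ^ 2

namespace Dat

variable (d : Dat P εA εB X A B K w e)
include d

omit [DecidableEq ι] in
theorem swap : Dat P εB εA X B A K w e :=
  ⟨d.ok, d.sB, d.sA, d.wt, d.wB, d.wA, d.hX, by rw [Mq_comm d.sB.symm d.sA.symm]; exact d.hM⟩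

omit [DecidableEq ι] in
theorem X0 : 0 ≤ X := zero_le_one.trans d.hX
omit [DecidableEq ι] in
theorem L0 : 0 ≤ P.L := zero_le_one.trans d.ok.L1
omit [DecidableEq ι] in
theorem fAB : fn (A * B) ≤ X := fn_le_of_Mq d.sA.symm d.sB.symm d.X0 d.hM
omit [DecidableEq ι] in
theorem fBA : fn (B * A) ≤ X := d.swap.fAB
omit [DecidableEq ι] in
theorem fAAB : fn (A * A * B) ≤ P.L * X := by
  rw [Matrix.mul_assoc]
  exact ((d.sA.op d.ok).fn_mul d.L0 _).trans (mul_le_mul_of_nonneg_left d.fAB d.L0)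
omit [DecidableEq ι] in
theorem fAABB : fn (A * A * B * B) ≤ P.L ^ 2 * X :=
  ((d.sB.op d.ok).mul_fn d.L0 d.sB.symm _).trans
    ((mul_le_mul_of_nonneg_left d.fAAB d.L0).trans (le_of_eq (by ring)))
omit [DecidableEq ι] in
theorem fXX : fn (A * B) * fn (B * A) ≤ X ^ 2 := by
  rw [sq]; exact mul_le_mul d.fAB d.fBA (fn_nonneg _) d.X0
omit [DecidableEq ι] in
theorem fABBA : fn (A * B * B * A) ≤ X ^ 2 := by
  rw [Matrix.mul_assoc (A * B)]; exact (fn_mul_le _ _).trans d.fXX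
omit [DecidableEq ι] in
theorem dABBA : ∑ i, |(A * B * B * A) i i| ≤ X ^ 2 := by
  rw [Matrix.mul_assoc (A * B)]; exact (sum_abs_diag_mul _ _).trans d.fXX
omit [DecidableEq ι] in
theorem sum_rArB : ∑ i, rr A i * rr B i ≤ 4 * P.m := by
  have : 2 * ∑ i, rr A i * rr B i ≤ ∑ i, rr A i ^ 2 + ∑ i, rr B i ^ 2 := by
    rw [mul_sum, ← sum_add_distrib]
    exact sum_le_sum fun i _ => by nlinarith [sq_nonneg (rr A i - rr B i)]
  linarith [d.sA.sum_rr2 d.ok, d.sB.sum_rr2 d.ok]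

omit [DecidableEq ι] in
theorem term1 : 2 * av w (trT A (A * A * B * B * A)) ≤
    4 * (T1 A * trace (A * A * B * B * A) - P.μ * fro K (A * A * B * B * A)) + 84 * P.EM X := by
  have h := d.ok
  have M := mono h d.hX
  have h1 := d.wt.first d.wA (zero_le_one.trans h.al1) d.sA.hal (A * A * B * B * A)
  have h2 : ∑ i, ∑ j, (A * A * B * B * A) i j = P.m := by
    rw [total_of_rows (rows_mul (rows_mul (rows_mul (rows_mul d.sA.rows d.sA.rows) d.sB.rows)
      d.sB.rows) d.sA.rows), d.sA.card]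
  have h0 : fn (A * A * B) * fn (B * A) ≤ P.L * X ^ 2 :=
    (mul_le_mul d.fAAB d.fBA (fn_nonneg _) (mul_nonneg d.L0 d.X0)).trans (le_of_eq (by ring))
  have h3 : ∑ i, |(A * A * B * B * A) i i| ≤ P.L * X ^ 2 := by
    rw [Matrix.mul_assoc (A * A * B)]; exact (sum_abs_diag_mul _ _).trans h0
  have h4 : fn (A * A * B * B * A) ≤ P.L * X ^ 2 := by
    rw [Matrix.mul_assoc (A * A * B)]; exact (fn_mul_le _ _).trans h0
  have h5 := mul_le_mul_of_nonneg_left h3
    (mul_nonneg d.wt.k2_nonneg (zero_le_one.trans h.al1))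
  have h6 := mul_le_mul_of_nonneg_left h4 d.wt.kF_nonneg
  have h7 : P.m ≤ P.kF * P.m * X := by
    have := h.m1
    nlinarith [mul_le_mul h.kF1 d.hX zero_le_one d.wt.kF_nonneg]
  rw [h2] at h1
  linarith [(abs_le.1 h1).2, M.m1, M.m2, M.m9]

theorem term2 (hP : ProdS) : av w (trTT A A (A * B * B * A) (A * A - 1)) ≤
    2 * Mq A B * (T2 A - P.m) + 560 * P.EM X := by
  have h := d.ok
  have M := mono h d.hX
  have hsm : 0 ≤ P.sm := zero_le_one.trans h.sm1
  have hal : 0 ≤ P.al := zero_le_one.trans h.al1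
  have hX2 : 0 ≤ X ^ 2 := sq_nonneg _
  have hd : ∀ i, (A * A - 1 : Mat ι) i i = rr A i - 1 := fun i => by
    rw [Matrix.sub_apply, one_apply_eq]; rfl
  have v1 : vn (fun i => (A * A - 1 : Mat ι) i i) ≤ 2 * P.sm := by
    simp only [hd]; exact d.sA.vn_del h
  have h1 := hP ι w e K A A (A * B * B * A) (A * A - 1) P.μ P.θ P.kF P.k2 P.kO P.al P.z
    (P.k2 * X ^ 2 * (2 * P.sm)) d.wt d.wA d.wA hal d.sA.hal d.sA.hal h.z1 (d.sA.diag_le h)
    (d.sA.diag_le h) (Or.inl (mul_le_mul (mul_le_mul_of_nonneg_left d.dABBA d.wt.k2_nonneg) v1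
      (vn_nonneg _) (mul_nonneg d.wt.k2_nonneg hX2)))
  have t1 : trace (A * B * B * A) = Mq A B := by
    rw [trace_mul_comm, Mq]; simp only [Matrix.mul_assoc]
  have t2 : trace (A * A - 1 : Mat ι) = T2 A - P.m := by
    rw [trace_sub, trace_one, d.sA.card]; rfl
  have f1 : fn (A * A - 1 : Mat ι) ≤ P.L ^ 2 + P.sm :=
    (fn_sub_le _ _).trans (add_le_add d.sA.fn_sq_le (fn_one hsm (d.sA.card_sq h)).le)
  have e1 := mul_le_mul_of_nonneg_left (mul_le_mul d.fABBA f1 (fn_nonneg _) hX2) (sq_nonneg P.z)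
  have e2 : ∑ i, rc (A * B * B * A) i * |(A * A - 1 : Mat ι) i i| ≤ 2 * (X ^ 2 * (2 * P.sm)) :=
    (sum_rc_mul _ _).trans (mul_le_mul_of_nonneg_left (mul_le_mul d.fABBA v1 (vn_nonneg _) hX2)
      zero_le_two)
  have hLs : 1 ≤ P.L * P.sR := one_le_mul_of_one_le_of_one_le h.L1 h.sR1
  have r1 : ∀ i, rc (A * A - 1 : Mat ι) i ≤ 4 * (P.L * P.sR) := fun i => by
    have a1 := ((d.sA.op h).row d.sA.symm A i).trans
      (mul_le_mul_of_nonneg_left (d.sA.vn_row h i) d.L0)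
    have a2 := ((d.sA.op h).col A i).trans (mul_le_mul_of_nonneg_left (d.sA.vn_col h i) d.L0)
    have a3 := rc_sub_le (A * A) 1 i
    rw [rc_one, rc.eq_1 (A * A)] at a3
    linarith
  have e3 : ∑ i, rc (A * A - 1 : Mat ι) i * |(A * B * B * A) i i| ≤ 4 * (P.L * P.sR) * X ^ 2 := by
    refine (sum_le_sum fun i _ => mul_le_mul_of_nonneg_right (r1 i) (abs_nonneg _)).trans ?_
    rw [← mul_sum]
    exact mul_le_mul_of_nonneg_left d.dABBA (by linarith)
  have e4 : ∑ i, |(A * B * B * A) i i| * |(A * A - 1 : Mat ι) i i| ≤ X ^ 2 * P.R := by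
    have a : ∀ i, |(A * A - 1 : Mat ι) i i| ≤ P.R := fun i => by
      rw [hd, abs_le]; constructor <;> linarith [d.sA.rr0 i, d.sA.hR i, h.R1]
    refine (sum_le_sum fun i _ => mul_le_mul_of_nonneg_left (a i) (abs_nonneg _)).trans ?_
    rw [← sum_mul]
    exact mul_le_mul_of_nonneg_right d.dABBA (by linarith [h.R1])
  have e5 := mul_le_mul_of_nonneg_left (add_le_add e2 e3) hal
  have e6 := mul_le_mul_of_nonneg_left e4 (sq_nonneg P.al)
  have e7 : P.k2 * P.sm * X ^ 2 ≤ P.k2 * P.sm * P.sR * X ^ 2 := by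
    have : 0 ≤ P.k2 * P.sm * X ^ 2 := by have := d.wt.k2_nonneg; positivity
    nlinarith [h.sR1]
  rw [t1, t2] at h1
  linarith [(abs_le.1 h1).2, M.m3, M.m4, M.m5, M.m6, M.m7, M.m8, M.nonneg]

theorem term4 (hP : ProdS) : av w (trTT A B (A * A * B * B) (B * A - 1)) ≤
    2 * Mq A B * (trace (B * A) - P.m) + 1400 * P.EM X := by
  have h := d.ok
  have M := mono h d.hX
  have hsm : 0 ≤ P.sm := zero_le_one.trans h.sm1
  have hal : 0 ≤ P.al := zero_le_one.trans h.al1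
  have hX := d.X0
  have hL := d.L0
  have v1 : vn (fun i => (A * A * B * B) i i) ≤ 2 * P.sm * X := by
    refine vn_le_of_sq (by positivity) ?_
    have a : ∀ i, (A * A * B * B) i i ^ 2 ≤ X ^ 2 * (rr A i * rr B i) := fun i => by
      have a1 := abs_mul_apply_le A (A * B * B) i i
      have a2 := ((op_fn (A * B)).mono d.fAB).col B i
      have a3 := a1.trans (mul_le_mul_of_nonneg_left a2 (vn_nonneg _))
      have a4 := pow_le_pow_left₀ (abs_nonneg _) a3 2
      rw [sq_abs, mul_pow, mul_pow, vn_row_sq d.sA.symm, vn_col_sq d.sB.symm,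
        ← Matrix.mul_assoc, ← Matrix.mul_assoc] at a4
      linarith
    refine (sum_le_sum fun i _ => a i).trans ?_
    rw [← mul_sum, mul_pow, mul_pow, h.sm_sq]
    linarith [mul_le_mul_of_nonneg_left d.sum_rArB (sq_nonneg X)]
  have v2 : vn (fun i => (B * A - 1 : Mat ι) i i) ≤ 3 * P.sm := by
    have a1 : vn (fun i => (B * A) i i) ≤ 2 * P.sm := by
      refine vn_le_of_sq (by positivity) ?_
      refine (sum_le_sum fun i _ => mul_entry_sq_le d.sB.symm d.sA.symm i i).trans ?_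
      rw [mul_pow, h.sm_sq]
      linarith [d.swap.sum_rArB]
    have a2 := vn_sub_le (fun i => (B * A) i i) (fun _ => 1)
    rw [vn_const_one hsm (d.sA.card_sq h)] at a2
    simp only [Matrix.sub_apply, one_apply_eq]
    linarith
  have v3 := mul_le_mul v1 v2 (vn_nonneg _) (by positivity)
  have hk : 0 ≤ P.kO + P.kF := add_nonneg d.wt.kO_nonneg d.wt.kF_nonneg
  have h1 := hP ι w e K A B (A * A * B * B) (B * A - 1) P.μ P.θ P.kF P.k2 P.kO P.al P.z
    ((P.kO + P.kF) * (2 * P.sm * X * (3 * P.sm))) d.wt d.wA d.wB hal d.sA.hal d.sB.hal h.z1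
    (d.sA.diag_le h) (d.sB.diag_le h)
    (Or.inr (Or.inr (by rw [mul_assoc]; exact mul_le_mul_of_nonneg_left v3 hk)))
  have t2 : trace (B * A - 1 : Mat ι) = trace (B * A) - P.m := by
    rw [trace_sub, trace_one, d.sA.card]
  have f1 : fn (B * A - 1 : Mat ι) ≤ X + P.sm :=
    (fn_sub_le _ _).trans (add_le_add d.fBA (fn_one hsm (d.sA.card_sq h)).le)
  have e1 := mul_le_mul_of_nonneg_left (mul_le_mul d.fAABB f1 (fn_nonneg _) (by positivity))
    (sq_nonneg P.z)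
  have e2 := (sum_rc_mul (A * A * B * B) fun i => (B * A - 1 : Mat ι) i i).trans
    (mul_le_mul_of_nonneg_left (mul_le_mul d.fAABB v2 (vn_nonneg _) (by positivity)) zero_le_two)
  have e3 := (sum_rc_mul (B * A - 1) fun i => (A * A * B * B) i i).trans
    (mul_le_mul_of_nonneg_left (mul_le_mul f1 v1 (vn_nonneg _) (by positivity)) zero_le_two)
  have e4 := (sum_abs_mul_le (fun i => (A * A * B * B) i i) fun i => (B * A - 1 : Mat ι) i i).trans
    v3
  have e5 := mul_le_mul_of_nonneg_left (add_le_add e2 e3) hal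
  have e6 := mul_le_mul_of_nonneg_left e4 (sq_nonneg P.al)
  have e7 : P.al * P.m * X ≤ P.al ^ 2 * P.m * X := by
    have : 0 ≤ P.al * P.m * X := by have := h.m1; positivity
    nlinarith [h.al1]
  have m9 := M.m9; have m10 := M.m10; have m13 := M.m13
  rw [t2] at h1
  rw [← h.sm_sq] at m9 m10 m13 e7
  unfold Mq
  linarith [(abs_le.1 h1).2, M.m4, M.m7, M.m11, M.m12, M.nonneg]

omit [DecidableEq ι] in
theorem vAAB : vn (fun i => (A * A * B) i i) ≤ P.sR * X := by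
  have hs : 0 ≤ P.sR := zero_le_one.trans d.ok.sR1
  have a1 : vn (fun i => (A * A * B) i i) ≤ vn (fun i => P.sR * vn fun k => (A * B) k i) :=
    vn_mono fun i => by
      rw [Matrix.mul_assoc, abs_of_nonneg (mul_nonneg hs (vn_nonneg _))]
      exact (abs_mul_apply_le A (A * B) i i).trans
        (mul_le_mul_of_nonneg_right (d.sA.vn_row d.ok i) (vn_nonneg _))
  rw [vn_smul, ← fn_eq_vn_cols, abs_of_nonneg hs] at a1
  exact a1.trans (mul_le_mul_of_nonneg_left d.fAB hs)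

theorem term5 (hP : ProdS) : av w (trTT A B (A * A * B) (B * B * A)) ≤
    2 * (trace (A * A * B) * trace (B * B * A)) + 280 * P.EM X := by
  have h := d.ok
  have M := mono h d.hX
  have hsm : 0 ≤ P.sm := zero_le_one.trans h.sm1
  have hal : 0 ≤ P.al := zero_le_one.trans h.al1
  have hs : 0 ≤ P.sR := zero_le_one.trans d.ok.sR1
  have hX := d.X0
  have hL := d.L0
  have hk := d.wt.k2_nonneg
  have s1 : ∑ i, |(A * A * B) i i| ≤ P.sm * X := by
    rw [Matrix.mul_assoc]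
    exact (sum_abs_diag_mul _ _).trans (mul_le_mul (d.sA.fn_le_sm h) d.fAB (fn_nonneg _) hsm)
  have h1 := hP ι w e K A B (A * A * B) (B * B * A) P.μ P.θ P.kF P.k2 P.kO P.al P.z
    (P.k2 * (P.sm * X) * (P.sR * X)) d.wt d.wA d.wB hal d.sA.hal d.sB.hal h.z1
    (d.sA.diag_le h) (d.sB.diag_le h) (Or.inl (mul_le_mul (mul_le_mul_of_nonneg_left s1 hk)
      d.swap.vAAB (vn_nonneg _) (by positivity)))
  have e1 := mul_le_mul_of_nonneg_left (mul_le_mul d.fAAB d.swap.fAAB (fn_nonneg _)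
    (by positivity)) (sq_nonneg P.z)
  have e2 := (sum_rc_mul (A * A * B) fun i => (B * B * A) i i).trans
    (mul_le_mul_of_nonneg_left (mul_le_mul d.fAAB d.swap.vAAB (vn_nonneg _) (by positivity))
      zero_le_two)
  have e3 := (sum_rc_mul (B * B * A) fun i => (A * A * B) i i).trans
    (mul_le_mul_of_nonneg_left (mul_le_mul d.swap.fAAB d.vAAB (vn_nonneg _) (by positivity))
      zero_le_two)
  have e4 := (sum_abs_mul_le (fun i => (A * A * B) i i) fun i => (B * B * A) i i).trans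
    (mul_le_mul d.vAAB d.swap.vAAB (vn_nonneg _) (by positivity))
  have e5 := mul_le_mul_of_nonneg_left (add_le_add e2 e3) hal
  have e6 := mul_le_mul_of_nonneg_left e4 (sq_nonneg P.al)
  have m8 := M.m8
  rw [← h.sR_sq] at m8
  linarith [(abs_le.1 h1).2, M.m3, M.m4, M.m6, M.nonneg]

omit [DecidableEq ι] in
theorem av_sep {f : ι → ι → ℝ} {g : ι → ℝ} {c : ℝ} (hg : ∀ i, 0 ≤ g i) (hc : ∑ i, g i ≤ c)
    (hf : ∀ i j, f i j ≤ g i + g j) : av w f ≤ 4 * (P.m * c) := by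
  have h1 := d.wt.av_le (f := f) (g := fun i j => g i + g j) (fun i j => add_nonneg (hg i) (hg j))
    (fun i j _ => hf i j)
  simp only [sum_add_distrib, d.sA.sum_const, ← mul_sum] at h1
  linarith [mul_le_mul_of_nonneg_left hc (zero_le_one.trans d.ok.m1)]

omit [DecidableEq ι] in
theorem term6 : P.ϑ * av w (fun i j => (A * B * B * A) i i + (A * B * B * A) j j +
    (B * A * A * B) i i + (B * A * A * B) j j) ≤ 8 * P.EM X := by
  have h1 := d.av_sep (f := fun i j => (A * B * B * A) i i + (A * B * B * A) j j +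
    (B * A * A * B) i i + (B * A * A * B) j j)
    (g := fun i => |(A * B * B * A) i i| + |(B * A * A * B) i i|) (c := 2 * X ^ 2)
    (fun i => by positivity) (by rw [sum_add_distrib]; linarith [d.dABBA, d.swap.dABBA])
    (fun i j => by
      linarith [le_abs_self ((A * B * B * A) i i), le_abs_self ((A * B * B * A) j j),
        le_abs_self ((B * A * A * B) i i), le_abs_self ((B * A * A * B) j j)])
  linarith [mul_le_mul_of_nonneg_left h1 d.ok.ϑ_pos.le, (mono d.ok d.hX).m14]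

omit [DecidableEq ι] in
theorem term7 : 10 ^ 8 * P.z ^ 8 * P.ϑ⁻¹ *
    av w (fun i j => (2 + rr A i + rr B i + rr A j + rr B j) ^ 5) ≤ 10 ^ 14 * P.EM X := by
  have h := d.ok
  have hR := h.R1
  have q0 : ∀ i, 0 ≤ 1 + rr A i + rr B i := fun i => by linarith [d.sA.rr0 i, d.sB.rr0 i]
  have q1 : ∀ i, (1 + rr A i + rr B i) ^ 5 ≤ 192 * P.R * (1 + rr A i ^ 4 + rr B i ^ 4) :=
    fun i => by
      have a0 := d.sA.rr0 i; have b0 := d.sB.rr0 i
      have a1 : (1 + rr A i + rr B i) ^ 4 ≤ 2 ^ (4 - 1) * ((1 + rr A i) ^ 4 + rr B i ^ 4) :=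
        add_pow_le (by linarith) b0 4
      have a2 : (1 + rr A i) ^ 4 ≤ 2 ^ (4 - 1) * (1 ^ 4 + rr A i ^ 4) :=
        add_pow_le zero_le_one a0 4
      norm_num at a1 a2
      have a3 : (1 + rr A i + rr B i) ^ 4 ≤ 64 * (1 + rr A i ^ 4 + rr B i ^ 4) := by
        linarith [pow_nonneg b0 4]
      have a4 : 1 + rr A i + rr B i ≤ 3 * P.R := by linarith [d.sA.hR i, d.sB.hR i]
      calc (1 + rr A i + rr B i) ^ 5 = (1 + rr A i + rr B i) * (1 + rr A i + rr B i) ^ 4 := by ring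
        _ ≤ (3 * P.R) * (64 * (1 + rr A i ^ 4 + rr B i ^ 4)) :=
            mul_le_mul a4 a3 (by positivity) (by positivity)
        _ = _ := by ring
  have q2 : ∑ i, 16 * (1 + rr A i + rr B i) ^ 5 ≤ 16 * (192 * P.R * (33 * P.m)) := by
    rw [← mul_sum]
    refine mul_le_mul_of_nonneg_left ((sum_le_sum fun i _ => q1 i).trans ?_) (by norm_num)
    rw [← mul_sum]
    refine mul_le_mul_of_nonneg_left ?_ (by positivity)
    rw [sum_add_distrib, sum_add_distrib, d.sA.sum_const]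
    linarith [d.sA.sum_rr4 h, d.sB.sum_rr4 h]
  have h1 := d.av_sep (f := fun i j => (2 + rr A i + rr B i + rr A j + rr B j) ^ 5)
    (g := fun i => 16 * (1 + rr A i + rr B i) ^ 5) (fun i => by have := q0 i; positivity) q2
    (fun i j => by
      have a := add_pow_le (q0 i) (q0 j) 5
      norm_num at a
      rw [show 2 + rr A i + rr B i + rr A j + rr B j =
        1 + rr A i + rr B i + (1 + rr A j + rr B j) by ring]
      linarith)
  have h2 := mul_le_mul_of_nonneg_left h1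
    (show 0 ≤ 10 ^ 8 * P.z ^ 8 * P.ϑ⁻¹ by have := h.ϑ_pos; positivity)
  linarith [(mono h d.hX).m15, (mono h d.hX).nonneg]

end Dat

end LMgen

open LMgen in
theorem lmgen_of (h1 : IdentMS) (h2 : ProdS) : LMgenS := by
  intro ι _ _ P εA εB X A B K w e h sA sB wt wA wB hX hM
  have d : Dat P εA εB X A B K w e := ⟨h, sA, sB, wt, wA, wB, hX, hM⟩
  have key := wt.av_mono (f := fun i j => Mq (upd A i j) (upd B i j) - Mq A B)
    (g := fun i j => 2 * trT B (B * B * A * A * B) i j +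
      2 * trT A (A * A * B * B * A) i j + trTT B B (B * A * A * B) (B * B - 1) i j +
      trTT A A (A * B * B * A) (A * A - 1) i j + 2 * trTT A B (A * A * B * B) (B * A - 1) i j +
      2 * trTT A B (A * A * B) (B * B * A) i j +
      P.ϑ * ((A * B * B * A) i i + (A * B * B * A) j j + (B * A * A * B) i i +
        (B * A * A * B) j j) +
      10 ^ 8 * P.z ^ 8 * P.ϑ⁻¹ * (2 + rr A i + rr B i + rr A j + rr B j) ^ 5)
    (fun i j hw => by
      have := h1 ι A B i j P.z P.ϑ sA.symm sB.symm (wt.ne i j hw) (wt.nu_le wA hw)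
        (wt.nu_le wB hw) h.z1 (sA.diag_le h) (sB.diag_le h) h.ϑ_pos h.ϑ_le
      rw [div_eq_mul_inv] at this
      linarith)
  rw [av_add, av_add, av_add, av_add, av_add, av_add, av_add, av_mul, av_mul, av_mul, av_mul,
    av_mul, av_mul] at key
  have t1 := d.term1
  have t1' := d.swap.term1
  have t2 := d.term2 h2
  have t2' := d.swap.term2 h2
  rw [Mq_comm sB.symm sA.symm] at t2'
  have t4 := d.term4 h2
  have t5 := d.term5 h2
  have t6 := d.term6
  have t7 := d.term7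
  have t8 := (mono h hX).nonneg
  unfold C1
  linarith

end Vale.Agent.P049
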