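import Vale.Agent.P049.Defs

/-! Interface statements.  Each is proved in its own file, from other statements taken as
hypotheses.  See `skel/P049/BLUEPRINT.md`. -/

namespace Vale.Agent.P049

open Matrix Finset

/-! ### Identities -/

def IdentS : Prop := ∀ (ι : Type) [Fintype ι] [DecidableEq ι] (Z : Mat ι) (i j : ι),
  Z.IsSymm → i ≠ j → rho Z i j ≠ 0 →
    T1 (upd Z i j) - T1 Z = trT Z (Z * Z - 1) i j ∧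
    T2 (upd Z i j) - T2 Z = 2 * trT Z (Z * Z * Z) i j + trTT Z Z (Z * Z) (Z * Z) i j -
      2 * trTT Z Z (Z * Z) 1 i j + t11 Z i j ^ 2 + t22 Z i j ^ 2 + 2 * (t12 Z i j - 1) ^ 2 ∧
    T3 (upd Z i j) - T3 Z = 3 * trT Z (Z * Z * Z * Z - Z * Z) i j +
      3 * trTT Z Z (Z * Z - 1) (Z * Z * Z - Z) i j +
      trace ((Tm Z i j * blk (Z * Z - 1) i j) ^ 3) ∧
    (∀ k, k ≠ i → k ≠ j → rr (upd Z i j) k = rr Z k + db1 Z i j k +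
      (rr Z i - 1) * ze1 Z i j k ^ 2 + (rr Z j - 1) * ze2 Z i j k ^ 2 +
      2 * (Z * Z) i j * (ze1 Z i j k * ze2 Z i j k)) ∧
    rr (upd Z i j) i = 0 ∧ rr (upd Z i j) j = 0

def IdentMS : Prop := ∀ (ι : Type) [Fintype ι] [DecidableEq ι] (A B : Mat ι) (i j : ι) (z ϑ : ℝ),
  A.IsSymm → B.IsSymm → i ≠ j → nu A i j ≤ 1 / 1000 → nu B i j ≤ 1 / 1000 → 1 ≤ z →
  (∀ k, |A k k| ≤ z) → (∀ k, |B k k| ≤ z) → 0 < ϑ → ϑ ≤ 1 →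
    Mq (upd A i j) (upd B i j) ≤ Mq A B + 2 * trT B (B * B * A * A * B) i j +
      2 * trT A (A * A * B * B * A) i j + trTT B B (B * A * A * B) (B * B - 1) i j +
      trTT A A (A * B * B * A) (A * A - 1) i j + 2 * trTT A B (A * A * B * B) (B * A - 1) i j +
      2 * trTT A B (A * A * B) (B * B * A) i j +
      ϑ * ((A * B * B * A) i i + (A * B * B * A) j j + (B * A * A * B) i i + (B * A * A * B) j j) +
      10 ^ 8 * z ^ 8 * (2 + rr A i + rr B i + rr A j + rr B j) ^ 5 / ϑ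

/-! ### Averages of two-block traces -/

def ProdS : Prop := ∀ (ι : Type) [Fintype ι] [DecidableEq ι] (w e : ι → ι → ℝ)
  (K A B N N' : Mat ι) (μ θ kF k2 kO al z Q : ℝ),
  Wt w e K μ θ kF k2 kO → SideW w e θ A → SideW w e θ B → 0 ≤ al → Ad A ≤ al ^ 2 →
  Ad B ≤ al ^ 2 → 1 ≤ z → (∀ k, |A k k| ≤ z) → (∀ k, |B k k| ≤ z) →
  (k2 * (∑ i, |N i i|) * vn (fun i => N' i i) ≤ Q ∨
    k2 * (∑ i, |N' i i|) * vn (fun i => N i i) ≤ Q ∨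
    (kO + kF) * vn (fun i => N i i) * vn (fun i => N' i i) ≤ Q) →
  |av w (trTT A B N N') - 2 * (trace N * trace N')| ≤
    40 * (Q + z ^ 2 * (fn N * fn N') +
      al * (∑ i, rc N i * |N' i i| + ∑ i, rc N' i * |N i i|) +
      al ^ 2 * ∑ i, |N i i| * |N' i i|)

/-! ### Spectral facts -/

def SpecS : Prop := ∀ (ι : Type) [Fintype ι] [DecidableEq ι] (P : Par) (ε : ℝ) (Z : Mat ι),
  P.OK → Side P ε Z → ∀ v : ι → ℝ,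
    T1 Z * qf Z v - P.μ * (ε * qf (Z * Z * Z) v) ≤ P.H * (v ⬝ᵥ v) ∧
    T1 Z * qf Z v - P.μ * (ε * qf (Z * Z * Z) v) ≤
      P.b1 * |qf Z v| + (P.b1' + P.μ) * (v ⬝ᵥ v)

def TrABS : Prop := ∀ (ι : Type) [Fintype ι] [DecidableEq ι] (A B : Mat ι) (κ b : ℝ),
  St univ A → St univ B → LowA κ A → UpB κ univ B → 0 ≤ κ → κ ^ 2 ≤ 1 / 2 → 0 ≤ b →
  T1 A ≤ b → -T1 B ≤ b → trace (B * A) ≤ (Fintype.card ι : ℝ) / 2 + 2 * b + 1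

/-! ### Drift lemmas -/

def LT1S : Prop := ∀ (ι : Type) [Fintype ι] [DecidableEq ι] (P : Par) (ε : ℝ) (Z Y : Mat ι)
  (w e : ι → ι → ℝ), Ctx P ε Z Y w e →
    ε * av w (fun i j => T1 (upd Z i j) - T1 Z) ≤ 2 * (ε * T1 Z) * (T2 Z - P.m) + C0 * P.E1 ∧
    |av w (fun i j => T1 (upd Z i j) - T1 Z) - 2 * T1 Z * (T2 Z - P.m)| ≤
      C0 * (P.E1 + P.μ * P.L ^ 4) ∧
    av w (fun i j => (T1 (upd Z i j) - T1 Z) ^ 2) ≤ C0 * P.Q1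

def LT2S : Prop := ∀ (ι : Type) [Fintype ι] [DecidableEq ι] (P : Par) (ε : ℝ) (Z Y : Mat ι)
  (w e : ι → ι → ℝ), Ctx P ε Z Y w e →
    av w (fun i j => T2 (upd Z i j) - T2 Z) ≤ 2 * T2 Z ^ 2 - 4 * P.m * T2 Z + C0 * P.E2

def LQ2S : Prop := ∀ (ι : Type) [Fintype ι] [DecidableEq ι] (P : Par) (ε : ℝ) (Z Y : Mat ι)
  (w e : ι → ι → ℝ), Ctx P ε Z Y w e →
    av w (fun i j => (T2 (upd Z i j) - T2 Z) ^ 2) ≤ C0 * P.Q2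

def LT3S : Prop := ∀ (ι : Type) [Fintype ι] [DecidableEq ι] (P : Par) (ε : ℝ) (Z Y : Mat ι)
  (w e : ι → ι → ℝ), Ctx P ε Z Y w e →
    ε * av w (fun i j => T3 (upd Z i j) - T3 Z) ≤ 6 * (T2 Z - P.m) * (ε * T3 Z) + C0 * P.E3

def LMgenS : Prop := ∀ (ι : Type) [Fintype ι] [DecidableEq ι] (P : Par) (εA εB X : ℝ)
  (A B K : Mat ι) (w e : ι → ι → ℝ), P.OK → Side P εA A → Side P εB B →
  Wt w e K P.μ P.θ P.kF P.k2 P.kO → SideW w e P.θ A → SideW w e P.θ B → 1 ≤ X →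
  Mq A B ≤ X ^ 2 →
    av w (fun i j => Mq (upd A i j) (upd B i j) - Mq A B) ≤
      4 * (T1 B * trace (B * B * A * A * B) - P.μ * fro K (B * B * A * A * B)) +
      4 * (T1 A * trace (A * A * B * B * A) - P.μ * fro K (A * A * B * B * A)) +
      2 * Mq A B * (T2 A - P.m) + 2 * Mq A B * (T2 B - P.m) +
      4 * Mq A B * (trace (B * A) - P.m) + 4 * (trace (A * A * B) * trace (B * B * A)) +
      C1 * P.EM X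

def LT4S : Prop := ∀ (ι : Type) [Fintype ι] [DecidableEq ι] (P : Par) (ε : ℝ) (Z Y : Mat ι)
  (w e : ι → ι → ℝ), Ctx P ε Z Y w e →
    av w (fun i j => T4 (upd Z i j) - T4 Z) ≤ 8 * (T2 Z - P.m) * T4 Z + C0 * P.E4

def LMS : Prop := ∀ (ι : Type) [Fintype ι] [DecidableEq ι] (P : Par) (ε : ℝ) (Z Y : Mat ι)
  (w e : ι → ι → ℝ), Ctx P ε Z Y w e → trace (Y * Z) ≤ P.m / 2 + 2 * P.b1 + 1 →
    av w (fun i j => Mq (upd Z i j) (upd Y i j) - Mq Z Y) ≤ -(2 * P.m * Mq Z Y) + C0 * P.E5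

def LD1S : Prop := ∀ (ι : Type) [Fintype ι] [DecidableEq ι] (P : Par) (ε : ℝ) (Z Y : Mat ι)
  (w e : ι → ι → ℝ), Ctx P ε Z Y w e →
    av w (fun i j => sumo i j fun k => gg Z k * db1 Z i j k) ≤ C1 * P.ED

def LD2S : Prop := ∀ (ι : Type) [Fintype ι] [DecidableEq ι] (P : Par) (ε : ℝ) (Z Y : Mat ι)
  (w e : ι → ι → ℝ), Ctx P ε Z Y w e →
    av w (fun i j => sumo i j fun k => gg Z k * db2 Z i j k) ≤
      4 * T2 Z * (∑ k, dp Z k ^ 2) + C1 * P.ED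

def LD3S : Prop := ∀ (ι : Type) [Fintype ι] [DecidableEq ι] (P : Par) (ε : ℝ) (Z Y : Mat ι)
  (w e : ι → ι → ℝ), Ctx P ε Z Y w e →
    av w (fun i j => sumo i j fun k =>
      (1 + 10 * dp Z k ^ 2) * (db1 Z i j k + db2 Z i j k) ^ 2) ≤
      2 * T2 Z * (∑ k, dp Z k ^ 2) + C1 * P.ED

def LD4S : Prop := ∀ (ι : Type) [Fintype ι] [DecidableEq ι] (P : Par) (ε : ℝ) (Z Y : Mat ι)
  (w e : ι → ι → ℝ), Ctx P ε Z Y w e →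
    av w (fun i j => sumo i j fun k => 2 * (db1 Z i j k + db2 Z i j k) ^ 4) ≤
      6 * T2 Z * (∑ k, dp Z k ^ 4) + C1 * P.ED

def LDS : Prop := ∀ (ι : Type) [Fintype ι] [DecidableEq ι] (P : Par) (ε : ℝ) (Z Y : Mat ι)
  (w e : ι → ι → ℝ), Ctx P ε Z Y w e →
    av w (fun i j => Dp (upd Z i j) - Dp Z) ≤ (6 * T2 Z - 2 * P.m) * Dp Z + C0 * P.ED

def LA2S : Prop := ∀ (ι : Type) [Fintype ι] [DecidableEq ι] (P : Par) (ε : ℝ) (Z Y : Mat ι)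
  (w e : ι → ι → ℝ), Ctx P ε Z Y w e →
    av w (fun i j => Ad (upd Z i j) - Ad Z) ≤ (2 * T2 Z - 2 * P.m) * Ad Z + C0 * P.EA2

def LA4S : Prop := ∀ (ι : Type) [Fintype ι] [DecidableEq ι] (P : Par) (ε : ℝ) (Z Y : Mat ι)
  (w e : ι → ι → ℝ), Ctx P ε Z Y w e →
    av w (fun i j => A4 (upd Z i j) - A4 Z) ≤ C0 * P.EA4

def LCS : Prop := ∀ (ι : Type) [Fintype ι] [DecidableEq ι] (Z K : Mat ι) (w e : ι → ι → ℝ)
  (θ kF k2 kO u sm : ℝ), St univ Z → Wt w e K 0 θ kF k2 kO → SideW w e θ Z → 1 ≤ u →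
  T2 Z ≤ u ^ 2 → u ^ 2 ≤ sm → sm ^ 2 = Fintype.card ι →
    av w (fun i j => T2 (upd Z i j) - T2 Z) ≤ -(19 / 10 * sm ^ 2 * (T2 Z - 1)) +
      C0 * (k2 * u ^ 2 * sm + kF * u ^ 3 + u ^ 4 * sm)

/-! ### Weights -/

def WeightsS : Prop := ∀ (ι : Type) [Fintype ι] [DecidableEq ι] (A B : Mat ι)
  (ok : ι → ι → Prop) (cd : ℕ) (μ θ kF k2 kO s al sR z L sm scd : ℝ),
  St univ A → St univ B → OkRel ok univ cd → 0 ≤ μ → 0 < θ → θ ≤ 1 / 1000 →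
  0 ≤ s → 0 ≤ al → 0 ≤ sR → 0 ≤ z → 0 ≤ L → 0 ≤ sm → 0 ≤ scd →
  sm ^ 2 = Fintype.card ι → (cd : ℝ) ≤ scd ^ 2 →
  T2 A ≤ s ^ 2 → T2 B ≤ s ^ 2 → Ad A ≤ al ^ 2 → Ad B ≤ al ^ 2 →
  (∀ k, rr A k ≤ sR ^ 2) → (∀ k, rr B k ≤ sR ^ 2) → (∀ k, |A k k| ≤ z) → (∀ k, |B k k| ≤ z) →
  T4 A ≤ L ^ 4 → T4 B ≤ L ^ 4 →
  2 * (s + al ^ 2) / θ + scd * sm ≤ kF → 2 * (sR + z * al) / θ + scd ≤ k2 →
  2 * μ * L * sR ≤ k2 → 2 * μ * L ^ 2 ≤ kO → 2 * μ * sR ^ 2 ≤ θ →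
    ∃ w e : ι → ι → ℝ, Wt w e (A * A - B * B) μ θ kF k2 kO ∧ SideW w e θ A ∧ SideW w e θ B ∧
      ∀ i j, w i j ≠ 0 → ok i j

/-! ### One step on a state with full support -/

def CoreAS : Prop := ∀ (ι : Type) [Fintype ι] [DecidableEq ι] (A B : Mat ι)
  (ok : ι → ι → Prop) (cd : ℕ) (κ t : ℝ),
  St univ A → St univ B → LowA κ A → UpB κ univ B → 0 ≤ κ → κ ^ 2 ≤ 1 / 2 →
  OkRel ok univ cd → 10 ^ 40 ≤ t → (cd : ℝ) ≤ t → t ^ en1 ≤ Fintype.card ι →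
  (Fintype.card ι : ℝ) ≤ t ^ (eN + 1) → Phi t (Fintype.card ι) A B ≤ 1 →
    T2 A ≤ Fintype.card ι ∧ T2 B ≤ Fintype.card ι ∧
    ∃ i j, ok i j ∧ 1 / 2 ≤ rho A i j ∧ 1 / 2 ≤ rho B i j ∧
      Phi t (Fintype.card ι - 2) (upd A i j) (upd B i j) ≤
        Phi t (Fintype.card ι) A B + 5000 / (t * Fintype.card ι)

def CoreCS : Prop := ∀ (ι : Type) [Fintype ι] [DecidableEq ι] (A B : Mat ι)
  (ok : ι → ι → Prop) (cd : ℕ) (t : ℝ),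
  St univ A → St univ B → OkRel ok univ cd → 10 ^ 40 ≤ t → (cd : ℝ) ≤ t →
  t ^ en2 ≤ Fintype.card ι → (T2 A + T2 B - 2) ^ 2 * t ^ eC ≤ Fintype.card ι →
    T2 A ≤ Fintype.card ι ∧ T2 B ≤ Fintype.card ι ∧
    ∃ i j, ok i j ∧ 1 / 2 ≤ rho A i j ∧ 1 / 2 ≤ rho B i j ∧
      (T2 (upd A i j) + T2 (upd B i j) - 2 + 1 / (Fintype.card ι : ℝ) ^ 2) * t ^ (eC / 2) ≤
        √(Fintype.card ι - 2)

/-! ### Invariants, rounding, soundness -/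

def UpdS : Prop := ∀ (ι : Type) [Fintype ι] [DecidableEq ι] (F : Finset ι) (Z : Mat ι) (i j : ι),
  St F Z → i ∈ F → j ∈ F → i ≠ j → 0 < rho Z i j →
    St ((F.erase i).erase j) (upd Z i j) ∧
    (∀ κ : ℝ, 0 ≤ κ → κ ≤ 1 → LowA κ Z → LowA κ (upd Z i j)) ∧
    (∀ κ : ℝ, 0 ≤ κ → κ ≤ 1 → UpB κ F Z → UpB κ ((F.erase i).erase j) (upd Z i j)) ∧
    ∀ τ : ι → ι, Function.Involutive τ → τ i = j → (∀ k ∈ F, τ k ∈ F) → ∀ Z' : Mat ι,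
      ((∀ v, qf (upd Z i j) v ≤ qf Z' v) → Pos ((F.erase i).erase j) Z' τ → Pos F Z τ) ∧
      ((∀ v, qf Z' v ≤ qf (upd Z i j) v) → Neg ((F.erase i).erase j) Z' τ → Neg F Z τ)

def BaseS : Prop := ∀ (ι : Type) [Fintype ι] [DecidableEq ι] (F : Finset ι) (Z : Mat ι),
  St F Z → (F.Nonempty → 1 ≤ T2 Z) ∧ (T2 Z < 2 → ∀ τ : ι → ι, Function.Involutive τ →
    (∀ k ∈ F, τ k ∈ F) → Pos F Z τ ∧ Neg F Z τ)

def FinalS : Prop := ∀ (ι V : Type) [Fintype ι] [DecidableEq ι] [Fintype V] [DecidableEq V]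
  (π : ι → V) (d : ℕ) (a κ : ℝ) (τ : ι → ι),
  (∀ u, (univ.filter fun k => π k = u).card = d) → 0 < d → 0 < a → 0 ≤ κ → κ < 1 →
  Function.Involutive τ → Pos univ (A0 π d a κ) τ → Neg univ (B0 π d a κ) τ →
    ∀ v : V → ℝ, ∑ u, v u = 0 →
      |∑ k, v (π k) * v (π (τ k))| ≤ (κ * d + (1 - κ ^ 2) / a) * (v ⬝ᵥ v)

def RndS : Prop := ∀ (ι : Type) [Fintype ι] [DecidableEq ι] (F : Finset ι) (Z : Mat ι) (G : ℝ),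
  St F Z → 0 < G →
    (St F (rnd (fl G) F Z) ∧ (∀ v, qf Z v ≤ qf (rnd (fl G) F Z) v) ∧
      ∀ k l, |rnd (fl G) F Z k l - Z k l| ≤ Fintype.card ι / G) ∧
    (St F (rnd (ce G) F Z) ∧ (∀ v, qf (rnd (ce G) F Z) v ≤ qf Z v) ∧
      ∀ k l, |rnd (ce G) F Z k l - Z k l| ≤ Fintype.card ι / G)

def LipS : Prop := ∀ (ι : Type) [Fintype ι] [DecidableEq ι] (A B A' B' : Mat ι) (β ξ : ℝ),
  1 ≤ β → 0 ≤ ξ → 1 ≤ Fintype.card ι →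
  (∀ k l, |A k l| ≤ β) → (∀ k l, |B k l| ≤ β) → (∀ k l, |A' k l| ≤ β) → (∀ k l, |B' k l| ≤ β) →
  (∀ k l, |A' k l - A k l| ≤ ξ) → (∀ k l, |B' k l - B k l| ≤ ξ) →
    |T2 A' - T2 A| ≤ 2 * (Fintype.card ι : ℝ) ^ 2 * β * ξ ∧
    ∀ t m : ℝ, 0 ≤ Te t m → Te t m ≤ Fintype.card ι → 1 ≤ B1 t m → 1 ≤ B1' t m → 1 ≤ BS t m →
      1 ≤ B3 t m → 1 ≤ B4 t m → 1 ≤ BD t m → 1 ≤ BA t m → 1 ≤ BZ t → 1 ≤ BM t m →
      |Phi t m A' B' - Phi t m A B| ≤ 10 ^ 5 * (Fintype.card ι : ℝ) ^ 5 * β ^ 8 * ξ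

def InitS : Prop := ∀ (ι V : Type) [Fintype ι] [DecidableEq ι] [Fintype V] [DecidableEq V]
  (π : ι → V) (d : ℕ) (a κ t : ℝ),
  (∀ u, (univ.filter fun k => π k = u).card = d) → 3 ≤ d → 10 ^ 40 ≤ t → (d : ℝ) ≤ t →
  t ^ eN ≤ Fintype.card ι → (Fintype.card ι : ℝ) ≤ 2 * t ^ eN → 0 ≤ a →
  (d - 1) * a ^ 2 ≤ 1 - 4 * t ^ eh / Fintype.card ι →
  1 - 4 * t ^ eh / Fintype.card ι < (d - 1) * (a + 1 / Fintype.card ι) ^ 2 →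
  κ = a - 64 * (t ^ eh / Fintype.card ι) ^ 2 →
    0 < a ∧ 0 ≤ κ ∧ κ ^ 2 ≤ 1 / 2 ∧ κ * d + (1 - κ ^ 2) / a ≤ 2 * √(d - 1) ∧
    St univ (A0 π d a κ) ∧ St univ (B0 π d a κ) ∧ LowA κ (A0 π d a κ) ∧
    UpB κ univ (B0 π d a κ) ∧ Phi t (Fintype.card ι) (A0 π d a κ) (B0 π d a κ) ≤ 1 / 2

/-! ### One rounded step on a padded state -/

def StepAS : Prop := ∀ (ι : Type) [Fintype ι] [DecidableEq ι] (F : Finset ι) (A B : Mat ι)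
  (ok : ι → ι → Prop) (cd : ℕ) (κ t : ℝ),
  St F A → St F B → LowA κ A → UpB κ F B → 0 ≤ κ → κ ^ 2 ≤ 1 / 2 →
  OkRel ok F cd → 10 ^ 40 ≤ t → (cd : ℝ) ≤ t → t ^ en1 ≤ F.card →
  (Fintype.card ι : ℝ) ≤ t ^ (eN + 1) → Phi t F.card A B ≤ 1 →
    ∃ i ∈ F, ∃ j ∈ F, ok i j ∧ 0 < rho A i j ∧ 0 < rho B i j ∧
      (∀ k l, |rnd (fl ((Fintype.card ι : ℝ) ^ eG)) ((F.erase i).erase j) (upd A i j) k l| ≤
        (Fintype.card ι : ℝ) ^ 4) ∧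
      (∀ k l, |rnd (ce ((Fintype.card ι : ℝ) ^ eG)) ((F.erase i).erase j) (upd B i j) k l| ≤
        (Fintype.card ι : ℝ) ^ 4) ∧
      Phi t (F.card - 2) (rnd (fl ((Fintype.card ι : ℝ) ^ eG)) ((F.erase i).erase j) (upd A i j))
        (rnd (ce ((Fintype.card ι : ℝ) ^ eG)) ((F.erase i).erase j) (upd B i j)) ≤
        Phi t F.card A B + 10000 / (t * F.card)

def StepCS : Prop := ∀ (ι : Type) [Fintype ι] [DecidableEq ι] (F : Finset ι) (A B : Mat ι)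
  (ok : ι → ι → Prop) (cd : ℕ) (t : ℝ),
  St F A → St F B → OkRel ok F cd → 10 ^ 40 ≤ t → (cd : ℝ) ≤ t → t ^ en2 ≤ F.card →
  (T2 A + T2 B - 2) ^ 2 * t ^ eC ≤ F.card →
    ∃ i ∈ F, ∃ j ∈ F, ok i j ∧ 0 < rho A i j ∧ 0 < rho B i j ∧
      (∀ k l, |rnd (fl ((Fintype.card ι : ℝ) ^ eG)) ((F.erase i).erase j) (upd A i j) k l| ≤
        (Fintype.card ι : ℝ) ^ 4) ∧
      (∀ k l, |rnd (ce ((Fintype.card ι : ℝ) ^ eG)) ((F.erase i).erase j) (upd B i j) k l| ≤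
        (Fintype.card ι : ℝ) ^ 4) ∧
      (T2 (rnd (fl ((Fintype.card ι : ℝ) ^ eG)) ((F.erase i).erase j) (upd A i j)) +
        T2 (rnd (ce ((Fintype.card ι : ℝ) ^ eG)) ((F.erase i).erase j) (upd B i j)) - 2) ^ 2 *
        t ^ eC ≤ F.card - 2

/-- Passing from the first phase to the second one. -/
def SwitchS : Prop := ∀ (ι : Type) [Fintype ι] [DecidableEq ι] (F : Finset ι) (A B : Mat ι)
  (κ t : ℝ), St F A → St F B → LowA κ A → UpB κ F B → 0 ≤ κ → κ ≤ 1 → 10 ^ 40 ≤ t →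
  F.Nonempty → (F.card : ℝ) ≤ t ^ en1 → Phi t F.card A B ≤ 1 →
    (T2 A + T2 B - 2) ^ 2 * t ^ eC ≤ F.card

end Vale.Agent.P049
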