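import Vale.Agent.P049.Avg
import Vale.Agent.P049.Stmts

/-! The second moment of the increment of `T2`. -/

namespace Vale.Agent.P049

open Matrix Finset

namespace LQ2

theorem am {x y X Y : ℝ} (hx : |x| ≤ X) (hy : |y| ≤ Y) : |x * y| ≤ X * Y := by
  rw [abs_mul]; exact mul_le_mul hx hy (abs_nonneg _) ((abs_nonneg _).trans hx)

theorem aa {x y X Y : ℝ} (hx : |x| ≤ X) (hy : |y| ≤ Y) : |x + y| ≤ X + Y :=
  (abs_add_le _ _).trans (add_le_add hx hy)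

theorem pt2 {A B C U U' V V' r r' e : ℝ} (ha : 0 ≤ A) (hb : 0 ≤ B) (hu : 0 ≤ U)
    (hu' : 0 ≤ U') (hv : 0 ≤ V) (hv' : 0 ≤ V') (hr : 0 ≤ r) (hr' : 0 ≤ r') (he : 0 ≤ e)
    (hab : A * B ≤ 1) :
    2 * (2 * B * U + 2 * A * U' + 2 * (V + V')) +
      ((2 * B * r + 2 * C) * (2 * B * r + 2 * C) + (2 * B * C + 2 * r') * (2 * r + 2 * A * C) +
        (2 * r + 2 * A * C) * (2 * B * C + 2 * r') + (2 * C + 2 * A * r') * (2 * C + 2 * A * r')) +
      2 * ((2 * B * r + 2 * C) * (2 * B) + (2 * B * C + 2 * r') * 2 + (2 * r + 2 * A * C) * 2 +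
        (2 * C + 2 * A * r') * (2 * A)) + 2 * B * (2 * B) + 2 * A * (2 * A) + 2 * e ≤
    100 * (B * U + A * U' + V + V' + r * r' + B ^ 2 * r ^ 2 + A ^ 2 * r' ^ 2 + C ^ 2 + r + r' +
      B ^ 2 * r + A ^ 2 * r' + A ^ 2 + B ^ 2 + e) := by
  have z1 := sq_nonneg (B * r - C)
  have z2 := sq_nonneg (A * r' - C)
  have z3 := mul_le_mul_of_nonneg_right hab (sq_nonneg C)
  have z4 := sq_nonneg (B - C)
  have z5 := sq_nonneg (A - C)
  have w1 := mul_nonneg hb hu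
  have w2 := mul_nonneg ha hu'
  have w3 := mul_nonneg hr hr'
  have w4 := sq_nonneg (B * r)
  have w5 := sq_nonneg (A * r')
  have w6 := sq_nonneg C
  have w7 := mul_nonneg (sq_nonneg B) hr
  have w8 := mul_nonneg (sq_nonneg A) hr'
  have w9 := sq_nonneg A
  have w10 := sq_nonneg B
  linarith

theorem pt0 {p s t a b r r' c u u' v v' e : ℝ} (hp : |p| ≤ 2 * |b|) (hs : |s| ≤ 2 * |a|)
    (ht : |t| ≤ 2) (hab : |a| * |b| ≤ 1) (hr : 0 ≤ r) (hr' : 0 ≤ r') (he : (t - 1) ^ 2 ≤ e) :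
    |2 * (p * u + s * u' + t * (v + v')) +
      ((p * r + t * c) * (p * r + t * c) + (p * c + t * r') * (t * r + s * c) +
        (t * r + s * c) * (p * c + t * r') + (t * c + s * r') * (t * c + s * r')) -
      2 * ((p * r + t * c) * p + (p * c + t * r') * t + (t * r + s * c) * t +
        (t * c + s * r') * s) + p ^ 2 + s ^ 2 + 2 * (t - 1) ^ 2| ≤
    100 * (|b * u| + |a * u'| + |v| + |v'| + r * r' + (b * r) ^ 2 + (a * r') ^ 2 + c ^ 2 + r + r' +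
      b ^ 2 * r + a ^ 2 * r' + a ^ 2 + b ^ 2 + e) := by
  have r1 : |r| ≤ r := (abs_of_nonneg hr).le
  have r2 : |r'| ≤ r' := (abs_of_nonneg hr').le
  have c1 : |c| ≤ |c| := le_rfl
  have x1 := aa (am hp r1) (am ht c1)
  have x2 := aa (am hp c1) (am ht r2)
  have x3 := aa (am ht r1) (am hs c1)
  have x4 := aa (am ht c1) (am hs r2)
  have y1 := aa (aa (am hp (le_refl |u|)) (am hs (le_refl |u'|)))
    (am ht (aa (le_refl |v|) (le_refl |v'|)))
  have y2 := aa (aa (aa (am x1 x1) (am x2 x3)) (am x3 x2)) (am x4 x4)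
  have y3 := aa (aa (aa (am x1 hp) (am x2 ht)) (am x3 ht)) (am x4 hs)
  have y4 : |p ^ 2| ≤ (2 * |b|) * (2 * |b|) := by rw [sq]; exact am hp hp
  have y5 : |s ^ 2| ≤ (2 * |a|) * (2 * |a|) := by rw [sq]; exact am hs hs
  have y6 : |(t - 1) ^ 2| ≤ e := by rwa [abs_of_nonneg (sq_nonneg _)]
  have k2 : |(2 : ℝ)| ≤ 2 := by norm_num
  have k3 : |(-2 : ℝ)| ≤ 2 := by norm_num
  have y := aa (aa (aa (aa (aa (am k2 y1) y2) (am k3 y3)) y4) y5) (am k2 y6)
  rw [neg_mul, ← sub_eq_add_neg] at y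
  refine y.trans ?_
  have he0 : 0 ≤ e := (sq_nonneg _).trans he
  rw [← sq_abs a, ← sq_abs b, ← sq_abs c, mul_pow, mul_pow, ← sq_abs a, ← sq_abs b, abs_mul,
    abs_mul]
  exact pt2 (abs_nonneg _) (abs_nonneg _) (abs_nonneg _) (abs_nonneg _) (abs_nonneg _)
    (abs_nonneg _) hr hr' he0 hab

theorem pt1 {x x1 x2 x3 x4 x5 x6 x7 x8 x9 x10 x11 x12 x13 x14 x15 : ℝ}
    (h : |x| ≤ 100 * (x1 + x2 + x3 + x4 + x5 + x6 + x7 + x8 + x9 + x10 + x11 + x12 + x13 + x14 +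
      x15)) :
    x ^ 2 ≤ 150000 * (x1 ^ 2 + x2 ^ 2 + x3 ^ 2 + x4 ^ 2 + x5 ^ 2 + x6 ^ 2 + x7 ^ 2 + x8 ^ 2 +
      x9 ^ 2 + x10 ^ 2 + x11 ^ 2 + x12 ^ 2 + x13 ^ 2 + x14 ^ 2 + x15 ^ 2) := by
  have h1 := sq_sum_le_card_mul_sum_sq (s := (univ : Finset (Fin 15)))
    (f := ![x1, x2, x3, x4, x5, x6, x7, x8, x9, x10, x11, x12, x13, x14, x15])
  simp only [Fin.sum_univ_succ, card_univ, Fintype.card_fin, cons_val_zero, cons_val_succ,
    Finset.univ_unique, sum_singleton, cons_val_fin_one, Nat.cast_ofNat] at h1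
  have h2 := pow_le_pow_left₀ (abs_nonneg x) h 2
  rw [sq_abs] at h2
  nlinarith

end LQ2

open LQ2 in
theorem lq2_of (h1 : IdentS) : LQ2S := by
  intro ι _ _ P ε Z Y w e c
  have ok := c.ok
  have s := c.sZ
  have hsym : ∀ i j, (Z * Z) j i = (Z * Z) i j := fun i j => (isSymm_sq s.symm).apply i j
  refine (c.wt.av_le (g := fun i j => 150000 * (((Z * Z * Z) i i ^ 2 * Z j j ^ 2 +
      Z i i ^ 2 * (Z * Z * Z) j j ^ 2) + ((Z * Z * Z) i j ^ 2 + (Z * Z * Z) j i ^ 2) +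
      rr Z i ^ 2 * rr Z j ^ 2 + (rr Z i ^ 4 * Z j j ^ 4 + Z i i ^ 4 * rr Z j ^ 4) +
      (Z * Z) i j ^ 4 + (rr Z i ^ 2 * 1 + 1 * rr Z j ^ 2) +
      (rr Z i ^ 2 * Z j j ^ 4 + Z i i ^ 4 * rr Z j ^ 2) + (Z i i ^ 4 * 1 + 1 * Z j j ^ 4) +
      e i j ^ 2)) (fun i j => by positivity) fun i j h0 => ?_).trans ?_
  · have hij := c.wt.ne i j h0
    have hn := c.wt.nu_le c.wZ h0
    have hn0 := nu_nonneg Z i j
    have he : (t12 Z i j - 1) ^ 2 ≤ e i j := by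
      have a1 := pow_le_pow_left₀ (abs_nonneg _) (tb_12 hn) 2
      rw [sq_abs] at a1
      nlinarith [c.wZ.nu_e i j, c.wt.θ_le, c.wt.e_nonneg i j]
    have := pt1 (pt0 (u := (Z * Z * Z) i i) (u' := (Z * Z * Z) j j) (v := (Z * Z * Z) i j)
      (v' := (Z * Z * Z) j i) (c := (Z * Z) i j)
      ((tb_11_le hn).trans (by linarith [abs_nonneg (Z j j)]))
      ((tb_22_le hn).trans (by linarith [abs_nonneg (Z i i)])) ((tb_12_le hn).trans (by norm_num))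
      ((abs_mul_le_nu Z i j).trans (by linarith)) (s.rr0 i) (s.rr0 j) he)
    rw [(h1 ι Z i j s.symm hij (tb_rho_ne hn)).2.1, trTT_eq, trTT_eq, one_apply_eq, one_apply_eq,
      one_apply_ne hij, one_apply_ne hij.symm, hsym i j]
    simp only [sq_abs] at this
    refine le_of_eq_of_le ?_ (this.trans (le_of_eq ?_))
    · simp only [trT, rr]; ring
    · ring
  · simp only [← mul_sum, sum_add_distrib, ← sum_mul]
    have hm : ∑ _i : ι, (1 : ℝ) = P.m := by rw [s.sum_const, mul_one]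
    have m1 := ok.m1
    have L1 := ok.L1
    have R1 := ok.R1
    have a2 : ∑ i, Z i i ^ 2 ≤ P.al ^ 2 := s.hal
    have a4 : ∑ i, Z i i ^ 4 ≤ P.z ^ 4 := s.hz
    have r2 := s.sum_rr2 ok
    have r4 := s.sum_rr4 ok
    have r2' : ∑ i, rr Z i ^ 2 ≤ P.R * P.t2 := by
      refine le_trans ?_ (mul_le_mul_of_nonneg_left s.ht2 (by linarith))
      rw [← sum_rr, mul_sum]
      exact sum_le_sum fun i _ => by nlinarith [s.hR i, s.rr0 i]
    have u2 : ∑ i, (Z * Z * Z) i i ^ 2 ≤ P.L ^ 2 * (4 * P.m) := by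
      refine le_trans ?_ (mul_le_mul_of_nonneg_left r2 (by positivity))
      rw [mul_sum]
      refine sum_le_sum fun i _ => ?_
      rw [← mul_pow, ← sq_abs]
      exact pow_le_pow_left₀ (abs_nonneg _) ((s.op ok).cube_diag_le s.symm i) 2
    have v2 : ∑ i, ∑ j, (Z * Z * Z) i j ^ 2 ≤ P.L ^ 4 * P.t2 := by
      have b1 := ((s.op ok).mul (s.op ok) (by linarith)).fn_mul (by positivity) Z
      have b2 := b1.trans (mul_le_mul_of_nonneg_left (s.fn_le_s2 ok) (by positivity))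
      have b3 := pow_le_pow_left₀ (fn_nonneg _) b2 2
      rw [fn_sq] at b3
      rw [← ok.s2_sq]
      exact b3.trans (le_of_eq (by ring))
    have v2' : ∑ i, ∑ j, (Z * Z * Z) j i ^ 2 ≤ P.L ^ 4 * P.t2 := by rwa [sum_comm]
    have c4 : ∑ i, ∑ j, (Z * Z) i j ^ 4 ≤ P.R ^ 2 * P.L ^ 4 := by
      refine le_trans ?_ (mul_le_mul_of_nonneg_left s.hL (by positivity))
      rw [T4_eq s.symm, fn_sq, mul_sum]
      refine sum_le_sum fun i _ => ?_
      rw [mul_sum]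
      refine sum_le_sum fun j _ => ?_
      have b1 := (mul_entry_sq_le s.symm s.symm i j).trans
        (mul_le_mul (s.hR i) (s.hR j) (s.rr0 j) (by linarith))
      nlinarith [mul_le_mul_of_nonneg_right b1 (sq_nonneg ((Z * Z) i j))]
    have eF := c.wt.eF
    have p1 : 0 ≤ ∑ i, Z i i ^ 2 := by positivity
    have p2 : 0 ≤ ∑ i, Z i i ^ 4 := by positivity
    have p3 : 0 ≤ ∑ i, rr Z i ^ 2 := by positivity
    have p4 : 0 ≤ ∑ i, rr Z i ^ 4 := by positivity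
    have p5 : 0 ≤ ∑ i, (Z * Z * Z) i i ^ 2 := by positivity
    have q1 := mul_le_mul u2 a2 p1 (by positivity)
    have q2 := mul_le_mul r2 r2' p3 (by positivity)
    have q3 := mul_le_mul r4 a4 p2 (by positivity)
    have q4 := mul_le_mul_of_nonneg_right r2' (show 0 ≤ P.m by positivity)
    have q5 := mul_le_mul r2 a4 p2 (by positivity)
    have q6 := mul_le_mul_of_nonneg_right a4 (show 0 ≤ P.m by positivity)
    have t1 := ok.t21
    have n1 : 0 ≤ P.m * P.R * P.t2 := by positivity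
    have n2 : 0 ≤ P.al ^ 2 * P.L ^ 2 * P.m := by positivity
    have n3 : 0 ≤ P.L ^ 4 * P.t2 := by positivity
    have n4 : 0 ≤ P.z ^ 4 * P.m := by positivity
    have n5 : 0 ≤ P.R ^ 2 * P.L ^ 4 := by positivity
    have n6 : 0 ≤ P.kF ^ 2 := by positivity
    rw [hm, s.sum_const (∑ i, rr Z i ^ 2), s.sum_const (∑ i, Z i i ^ 4)]
    unfold C0 Par.Q2
    linarith

end Vale.Agent.P049
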