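import Vale.Agent.P049.Avg

/-! Drift estimates for the first two traces. -/

namespace Vale.Agent.P049

open Matrix Finset

namespace LT2

variable {ι : Type} [Fintype ι] [DecidableEq ι] {P : Par} {ε : ℝ} {Z Y : Mat ι}
  {w e : ι → ι → ℝ}

theorem fro_N (hZ : Z.IsSymm) (hY : Y.IsSymm) (ε : ℝ) :
    fro (ε • (Z * Z - Y * Y)) (Z * Z - 1) = ε * (T4 Z - Mq Z Y - T2 Z + T2 Y) := by
  have e1 : (Z * Z - 1 : Mat ι)ᵀ = Z * Z - 1 := by
    rw [transpose_sub, transpose_mul, hZ.eq, transpose_one]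
  rw [fro_eq_trace, e1, smul_mul_assoc, trace_smul, smul_eq_mul, Mq_comm hZ hY]
  congr 1
  simp only [sub_mul, mul_sub, Matrix.mul_one, trace_sub, T4, Mq, T2, Matrix.mul_assoc]
  ring

omit [DecidableEq ι] in
theorem fro_cube (hZ : Z.IsSymm) (ε : ℝ) :
    fro (ε • (Z * Z - Y * Y)) (Z * Z * Z) =
      ε * (trace (Zᵀ * (Z * Z * Z) * Z) - trace ((Z * Y) * (Y * Z * Z))) := by
  have e1 : (Z * Z * Z : Mat ι)ᵀ = Z * Z * Z := by
    simp only [transpose_mul, hZ.eq, Matrix.mul_assoc]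
  rw [fro_eq_trace, e1, smul_mul_assoc, trace_smul, smul_eq_mul, hZ.eq]
  congr 1
  have e2 : trace (Z * Y * (Y * Z * Z)) = trace (Y * Y * (Z * Z * Z)) := by
    calc trace (Z * Y * (Y * Z * Z)) = trace (Z * (Y * Y * Z * Z)) := by
          simp only [Matrix.mul_assoc]
      _ = trace (Y * Y * Z * Z * Z) := trace_mul_comm _ _
      _ = _ := by simp only [Matrix.mul_assoc]
  rw [e2]
  simp only [sub_mul, trace_sub, Matrix.mul_assoc]

theorem first_N (h1 : IdentS) (c : Ctx P ε Z Y w e) :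
    |av w (fun i j => T1 (upd Z i j) - T1 Z) -
      2 * (T1 Z * (T2 Z - P.m) - P.μ * (ε * (T4 Z - Mq Z Y - T2 Z + T2 Y)))| ≤
      40 * (P.k2 * P.al * P.m) + 20 * (P.kF * P.L ^ 2) + 20 * P.kF ^ 2 := by
  have ok := c.ok
  have e0 : av w (fun i j => T1 (upd Z i j) - T1 Z) = av w (trT Z (Z * Z - 1)) :=
    av_congr fun i j h0 =>
      (h1 ι Z i j c.sZ.symm (c.wt.ne i j h0) (tb_rho_ne (c.wt.nu_le c.wZ h0))).1
  have h := c.wt.first c.wZ (by linarith [ok.al1]) c.sZ.hal (Z * Z - 1)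
  have e1 : trace (Z * Z - 1 : Mat ι) = T2 Z - P.m := by
    rw [trace_sub, trace_one, c.sZ.card, T2]
  have e2 : ∑ i, ∑ j, (Z * Z - 1 : Mat ι) i j = 0 := by
    simp only [Matrix.sub_apply, sum_sub_distrib]
    rw [total_of_rows (rows_mul c.sZ.rows c.sZ.rows), total_of_rows rows_one, sub_self]
  have e3 : ∑ i, |(Z * Z - 1 : Mat ι) i i| ≤ 2 * P.m := by
    have := c.sZ.sum_abs_del_pow ok 1 (by simp)
    simpa only [pow_one, Matrix.sub_apply, one_apply_eq, rr] using this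
  have e4 : fn (Z * Z - 1 : Mat ι) ≤ P.L ^ 2 + P.kF := by
    have := fn_sub_le (Z * Z) (1 : Mat ι)
    rw [fn_one (by linarith [ok.sm1]) (c.sZ.card_sq ok)] at this
    linarith [c.sZ.fn_sq_le, ok.sm_le]
  rw [e1, e2, fro_N c.sZ.symm c.sY.symm, add_zero, ← e0] at h
  refine h.trans ?_
  have a1 : 0 ≤ P.k2 * P.al := mul_nonneg (by linarith [ok.k21]) (by linarith [ok.al1])
  have a2 : 0 ≤ P.kF := by linarith [ok.kF1]
  nlinarith [mul_le_mul_of_nonneg_left e3 a1, mul_le_mul_of_nonneg_left e4 a2]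

theorem sq_bound (h1 : IdentS) (c : Ctx P ε Z Y w e) :
    av w (fun i j => (T1 (upd Z i j) - T1 Z) ^ 2) ≤
      104 * (P.al ^ 2 * P.m) + 26 * P.L ^ 4 := by
  have ok := c.ok
  have h := c.wt.av_le (f := fun i j => (T1 (upd Z i j) - T1 Z) ^ 2)
    (g := fun i j => 13 * ((rr Z i - 1) ^ 2 * Z j j ^ 2) + 13 * (Z i i ^ 2 * (rr Z j - 1) ^ 2) +
      13 * (Z * Z) i j ^ 2) (fun i j => by positivity) (fun i j h0 => by
      have hn := c.wt.nu_le c.wZ h0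
      have hij := c.wt.ne i j h0
      rw [(h1 ι Z i j c.sZ.symm hij (tb_rho_ne hn)).1]
      have e1 : trT Z (Z * Z - 1) i j = t11 Z i j * (rr Z i - 1) + t22 Z i j * (rr Z j - 1) +
          t12 Z i j * (2 * (Z * Z) i j) := by
        unfold trT
        simp only [Matrix.sub_apply, one_apply_eq, one_apply_ne hij, one_apply_ne hij.symm, rr,
          (isSymm_sq c.sZ.symm).apply i j]
        ring
      rw [e1]
      have b1 : t11 Z i j ^ 2 ≤ 2 * Z j j ^ 2 := by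
        have := pow_le_pow_left₀ (abs_nonneg _) (tb_11_le hn) 2
        rw [sq_abs, mul_pow, sq_abs] at this
        nlinarith [sq_nonneg (Z j j)]
      have b2 : t22 Z i j ^ 2 ≤ 2 * Z i i ^ 2 := by
        have := pow_le_pow_left₀ (abs_nonneg _) (tb_22_le hn) 2
        rw [sq_abs, mul_pow, sq_abs] at this
        nlinarith [sq_nonneg (Z i i)]
      have b3 : t12 Z i j ^ 2 ≤ 13 / 12 := by
        have := pow_le_pow_left₀ (abs_nonneg _) (tb_12_le hn) 2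
        rw [sq_abs] at this
        linarith
      set x := t11 Z i j * (rr Z i - 1)
      set y := t22 Z i j * (rr Z j - 1)
      set u := t12 Z i j * (2 * (Z * Z) i j)
      have c1 : x ^ 2 ≤ 2 * ((rr Z i - 1) ^ 2 * Z j j ^ 2) := by
        simp only [x, mul_pow]
        nlinarith [mul_le_mul_of_nonneg_right b1 (sq_nonneg (rr Z i - 1))]
      have c2 : y ^ 2 ≤ 2 * (Z i i ^ 2 * (rr Z j - 1) ^ 2) := by
        simp only [y, mul_pow]
        nlinarith [mul_le_mul_of_nonneg_right b2 (sq_nonneg (rr Z j - 1))]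
      have c3 : u ^ 2 ≤ 13 / 3 * (Z * Z) i j ^ 2 := by
        simp only [u, mul_pow]
        nlinarith [mul_le_mul_of_nonneg_right b3 (sq_nonneg ((Z * Z) i j))]
      have c4 : 0 ≤ (rr Z i - 1) ^ 2 * Z j j ^ 2 := by positivity
      have c5 : 0 ≤ Z i i ^ 2 * (rr Z j - 1) ^ 2 := by positivity
      nlinarith [sq_nonneg (x - y), sq_nonneg (y - u), sq_nonneg (x - u)])
  simp only [sum_add_distrib, ← mul_sum, ← sum_mul] at h
  have d1 : ∑ i, (rr Z i - 1) ^ 2 ≤ 2 * P.m := by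
    simpa only [sq_abs] using c.sZ.sum_abs_del_pow ok 2 (by simp)
  have d2 : ∑ i, Z i i ^ 2 ≤ P.al ^ 2 := c.sZ.hal
  have d3 : ∑ i, ∑ j, (Z * Z) i j ^ 2 ≤ P.L ^ 4 := by
    rw [← fn_sq, ← T4_eq c.sZ.symm]; exact c.sZ.hL
  have d4 : 0 ≤ ∑ i, (rr Z i - 1) ^ 2 := by positivity
  have d5 : 0 ≤ ∑ i, Z i i ^ 2 := by positivity
  have d6 := mul_le_mul d1 d2 d5 (by linarith [ok.m1])
  nlinarith

theorem cube_bound (h3 : SpecS) (c : Ctx P ε Z Y w e) :
    av w (trT Z (Z * Z * Z)) ≤ 2 * (P.H * P.t2) + 2 * (P.μ * P.L * P.Mx) + 2 * P.kF ^ 2 +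
      20 * (P.k2 * P.al * P.L ^ 2 * P.s2) + 20 * (P.kF * P.L ^ 2 * P.s2) := by
  have ok := c.ok
  have h := c.wt.first c.wZ (by linarith [ok.al1]) c.sZ.hal (Z * Z * Z)
  have e2 : ∑ i, ∑ j, (Z * Z * Z : Mat ι) i j = P.m := by
    rw [total_of_rows (rows_mul (rows_mul c.sZ.rows c.sZ.rows) c.sZ.rows), c.sZ.card]
  have hL2 : 0 ≤ P.L ^ 2 := by positivity
  have f1 : fn (Z * Z) * fn Z ≤ P.L ^ 2 * P.s2 :=
    mul_le_mul c.sZ.fn_sq_le (c.sZ.fn_le_s2 ok) (fn_nonneg _) hL2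
  have e3 : ∑ i, |(Z * Z * Z : Mat ι) i i| ≤ P.L ^ 2 * P.s2 := (sum_abs_diag_mul _ _).trans f1
  have e4 : fn (Z * Z * Z : Mat ι) ≤ P.L ^ 2 * P.s2 := (fn_mul_le _ _).trans f1
  have e5 : T1 Z * trace (Z * Z * Z) - P.μ * (ε * trace (Zᵀ * (Z * Z * Z) * Z)) ≤ P.H * P.t2 := by
    have e6 : trace (Z * Z * Z) = ∑ k, qf Z (fun l => Z l k) := by
      rw [← trace_conj, c.sZ.symm.eq]
    rw [e6, trace_conj, mul_sum, mul_sum, mul_sum, ← sum_sub_distrib]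
    refine (sum_le_sum fun k _ => (h3 ι P ε Z ok c.sZ (fun l => Z l k)).1).trans ?_
    rw [← mul_sum, sum_col_dot, ← T2_eq c.sZ.symm]
    exact mul_le_mul_of_nonneg_left c.sZ.ht2 (by linarith [ok.H1])
  have e7 : |trace ((Z * Y) * (Y * Z * Z))| ≤ P.L * P.Mx := by
    refine (abs_trace_mul_le _ _).trans ?_
    have a1 := (c.sZ.op ok).mul_fn (by linarith [ok.L1]) c.sZ.symm (Y * Z)
    have a2 := c.fn_YZ
    have a3 : fn (Y * Z * Z) ≤ P.L * P.sM :=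
      a1.trans (mul_le_mul_of_nonneg_left a2.1 (by linarith [ok.L1]))
    have := mul_le_mul a2.2 a3 (fn_nonneg _) (by linarith [ok.sM1])
    rw [← ok.sM_sq]; linarith
  have e8 : P.μ * (ε * trace ((Z * Y) * (Y * Z * Z))) ≤ P.μ * P.L * P.Mx := by
    rw [mul_assoc P.μ P.L]
    refine mul_le_mul_of_nonneg_left ((le_abs_self _).trans ?_) ok.μ_pos.le
    rwa [abs_mul, c.sZ.abs_eps, one_mul]
  have e9 : P.m ≤ P.kF ^ 2 := by
    rw [← ok.sm_sq]; exact pow_le_pow_left₀ (by linarith [ok.sm1]) ok.sm_le 2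
  rw [e2, fro_cube c.sZ.symm] at h
  have a1 : 0 ≤ P.k2 * P.al := mul_nonneg (by linarith [ok.k21]) (by linarith [ok.al1])
  have a2 : 0 ≤ P.kF := by linarith [ok.kF1]
  have := (abs_le.1 h).2
  nlinarith [mul_le_mul_of_nonneg_left e3 a1, mul_le_mul_of_nonneg_left e4 a2]

omit [DecidableEq ι] in
theorem sum_abs_rr (s : Side P ε Z) : ∑ i, |(Z * Z) i i| = T2 Z := by
  rw [← sum_rr]; exact sum_congr rfl fun i _ => abs_of_nonneg (s.rr0 i)

theorem prod_sq (h2 : ProdS) (c : Ctx P ε Z Y w e) :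
    av w (trTT Z Z (Z * Z) (Z * Z)) ≤ 2 * T2 Z ^ 2 + 80 * (P.k2 * P.t2 * P.sm) +
      40 * (P.z ^ 2 * P.L ^ 4) + 320 * (P.al * P.L ^ 2 * P.sm) + 160 * (P.al ^ 2 * P.m) := by
  have ok := c.ok
  have hv : vn (fun i => (Z * Z) i i) ≤ 2 * P.sm := c.sZ.vn_rr ok
  have hk : 0 ≤ P.k2 := by linarith [ok.k21]
  have h := h2 ι w e _ Z Z (Z * Z) (Z * Z) P.μ P.θ P.kF P.k2 P.kO P.al P.z
    (2 * (P.k2 * P.t2 * P.sm)) c.wt c.wZ c.wZ (by linarith [ok.al1]) c.sZ.hal c.sZ.hal ok.z1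
    (c.sZ.diag_le ok) (c.sZ.diag_le ok) (Or.inl (by
      rw [sum_abs_rr c.sZ]
      have := mul_le_mul c.sZ.ht2 hv (vn_nonneg _) (by linarith [ok.t21])
      nlinarith [mul_le_mul_of_nonneg_left this hk]))
  have hL2 : 0 ≤ P.L ^ 2 := by positivity
  have a1 : fn (Z * Z) * fn (Z * Z) ≤ P.L ^ 4 := by
    nlinarith [mul_le_mul c.sZ.fn_sq_le c.sZ.fn_sq_le (fn_nonneg _) hL2]
  have a2 : ∑ i, rc (Z * Z) i * |(Z * Z) i i| ≤ 4 * (P.L ^ 2 * P.sm) := by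
    have := sum_rc_mul (Z * Z) (fun i => (Z * Z) i i)
    nlinarith [mul_le_mul c.sZ.fn_sq_le hv (vn_nonneg _) hL2]
  have a3 : ∑ i, |(Z * Z) i i| * |(Z * Z) i i| ≤ 4 * P.m := by
    refine le_trans (le_of_eq ?_) (c.sZ.sum_rr2 ok)
    exact sum_congr rfl fun i _ => by rw [abs_mul_abs_self, sq]; rfl
  have e1 : trace (Z * Z) = T2 Z := rfl
  rw [e1] at h
  have := (abs_le.1 h).2
  nlinarith [mul_le_mul_of_nonneg_left a1 (sq_nonneg P.z),
    mul_le_mul_of_nonneg_left a2 (show 0 ≤ P.al by linarith [ok.al1]),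
    mul_le_mul_of_nonneg_left a3 (sq_nonneg P.al)]

theorem prod_one (h2 : ProdS) (c : Ctx P ε Z Y w e) :
    2 * (T2 Z * P.m) - (40 * (P.k2 * P.t2 * P.sm) + 40 * (P.z ^ 2 * P.L ^ 2 * P.sm) +
      80 * (P.al * P.L ^ 2 * P.sm) + 120 * (P.al ^ 2 * P.m)) ≤ av w (trTT Z Z (Z * Z) 1) := by
  have ok := c.ok
  have hsm : 0 ≤ P.sm := by linarith [ok.sm1]
  have hv : vn (fun i => (1 : Mat ι) i i) = P.sm := by
    simp only [one_apply_eq]; exact vn_const_one hsm (c.sZ.card_sq ok)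
  have hk : 0 ≤ P.k2 := by linarith [ok.k21]
  have h := h2 ι w e _ Z Z (Z * Z) 1 P.μ P.θ P.kF P.k2 P.kO P.al P.z
    (P.k2 * P.t2 * P.sm) c.wt c.wZ c.wZ (by linarith [ok.al1]) c.sZ.hal c.sZ.hal ok.z1
    (c.sZ.diag_le ok) (c.sZ.diag_le ok) (Or.inl (by
      rw [sum_abs_rr c.sZ, hv]
      exact mul_le_mul_of_nonneg_right (mul_le_mul_of_nonneg_left c.sZ.ht2 hk) hsm))
  have hL2 : 0 ≤ P.L ^ 2 := by positivity
  have a1 : fn (Z * Z) * fn (1 : Mat ι) ≤ P.L ^ 2 * P.sm := by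
    rw [fn_one hsm (c.sZ.card_sq ok)]
    exact mul_le_mul_of_nonneg_right c.sZ.fn_sq_le hsm
  have a2 : ∑ i, rc (Z * Z) i * |(1 : Mat ι) i i| ≤ 2 * (P.L ^ 2 * P.sm) := by
    have := sum_rc_mul (Z * Z) (fun i => (1 : Mat ι) i i)
    rw [hv] at this
    nlinarith [mul_le_mul_of_nonneg_right c.sZ.fn_sq_le hsm]
  have a3 : ∑ i, rc (1 : Mat ι) i * |(Z * Z) i i| ≤ 2 * (P.al * P.m) := by
    simp only [rc_one, ← mul_sum]
    rw [sum_abs_rr c.sZ]
    nlinarith [c.sZ.hm, ok.al1, ok.m1]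
  have a4 : ∑ i, |(Z * Z) i i| * |(1 : Mat ι) i i| ≤ P.m := by
    simp only [one_apply_eq, abs_one, mul_one]
    rw [sum_abs_rr c.sZ]; exact c.sZ.hm
  have e1 : trace (Z * Z) = T2 Z := rfl
  rw [e1, trace_one, c.sZ.card] at h
  have := (abs_le.1 h).1
  have hal : 0 ≤ P.al := by linarith [ok.al1]
  nlinarith [mul_le_mul_of_nonneg_left a1 (sq_nonneg P.z), mul_le_mul_of_nonneg_left a2 hal,
    mul_le_mul_of_nonneg_left a3 hal, mul_le_mul_of_nonneg_left a4 (sq_nonneg P.al)]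

omit [DecidableEq ι] in
theorem rest_bound (c : Ctx P ε Z Y w e) :
    av w (fun i j => t11 Z i j ^ 2 + t22 Z i j ^ 2 + 2 * (t12 Z i j - 1) ^ 2) ≤
      8 * (P.al ^ 2 * P.m) + 2 * P.kF ^ 2 := by
  have ok := c.ok
  have h := c.wt.av_le (f := fun i j => t11 Z i j ^ 2 + t22 Z i j ^ 2 + 2 * (t12 Z i j - 1) ^ 2)
    (g := fun i j => 2 * Z j j ^ 2 + 2 * Z i i ^ 2 + e i j ^ 2) (fun i j => by positivity)
    (fun i j h0 => by
      have hn := c.wt.nu_le c.wZ h0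
      have b1 : t11 Z i j ^ 2 ≤ 2 * Z j j ^ 2 := by
        have := pow_le_pow_left₀ (abs_nonneg _) (tb_11_le hn) 2
        rw [sq_abs, mul_pow, sq_abs] at this
        nlinarith [sq_nonneg (Z j j)]
      have b2 : t22 Z i j ^ 2 ≤ 2 * Z i i ^ 2 := by
        have := pow_le_pow_left₀ (abs_nonneg _) (tb_22_le hn) 2
        rw [sq_abs, mul_pow, sq_abs] at this
        nlinarith [sq_nonneg (Z i i)]
      have b3 : |t12 Z i j - 1| ≤ 1 / 2 * e i j := by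
        nlinarith [tb_12 hn, c.wZ.nu_e i j, c.wt.θ_le, c.wt.e_nonneg i j]
      have b4 := pow_le_pow_left₀ (abs_nonneg _) b3 2
      rw [sq_abs] at b4
      nlinarith [sq_nonneg (e i j)])
  simp only [sum_add_distrib, ← mul_sum, c.sZ.sum_const] at h
  have d2 : ∑ i, Z i i ^ 2 ≤ P.al ^ 2 := c.sZ.hal
  have d3 := c.wt.eF
  nlinarith [mul_le_mul_of_nonneg_left d2 (show 0 ≤ P.m by linarith [ok.m1])]

end LT2

open LT2

theorem lt1_of (h1 : IdentS) : LT1S := by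
  intro ι _ _ P ε Z Y w e c
  have ok := c.ok
  have h := first_N h1 c
  have hμ := ok.μ_pos.le
  have p1 : 0 ≤ P.k2 * P.al * P.m := by
    have := ok.k21; have := ok.al1; have := ok.m1; positivity
  have p2 : 0 ≤ P.kF * P.L ^ 2 := by have := ok.kF1; positivity
  have p3 : 0 ≤ P.kF ^ 2 := by positivity
  have p4 : 0 ≤ P.μ * P.m := by have := ok.m1; positivity
  have p5 : 0 ≤ P.μ * P.Mx := by have := ok.Mx1; positivity
  have p6 : 0 ≤ P.μ * P.L ^ 4 := by positivity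
  have q1 := mul_le_mul_of_nonneg_left c.sZ.hL hμ
  have q2 := mul_le_mul_of_nonneg_left c.hM hμ
  have q3 := mul_le_mul_of_nonneg_left c.sZ.hm hμ
  have q4 := mul_le_mul_of_nonneg_left c.sY.hm hμ
  have r1 := mul_nonneg hμ (T4_nonneg c.sZ.symm)
  have r2 := mul_nonneg hμ (Mq_nonneg c.sZ.symm c.sY.symm)
  have r3 := mul_nonneg hμ (T2_nonneg c.sZ.symm)
  have r4 := mul_nonneg hμ (T2_nonneg c.sY.symm)
  rw [abs_le] at h
  refine ⟨?_, ?_, ?_⟩
  · unfold C0 Par.E1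
    rcases c.sZ.eps with rfl | rfl <;> nlinarith [h.1, h.2]
  · unfold C0 Par.E1
    rw [abs_le]
    rcases c.sZ.eps with rfl | rfl <;> constructor <;> nlinarith [h.1, h.2]
  · have := sq_bound h1 c
    have s1 : 0 ≤ P.al ^ 2 * P.m := by have := ok.m1; positivity
    have s2 : 0 ≤ P.L ^ 4 := by positivity
    unfold C0 Par.Q1
    linarith

theorem lt2_of (h1 : IdentS) (h2 : ProdS) (h3 : SpecS) : LT2S := by
  intro ι _ _ P ε Z Y w e c
  have ok := c.ok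
  have e0 : av w (fun i j => T2 (upd Z i j) - T2 Z) = 2 * av w (trT Z (Z * Z * Z)) +
      av w (trTT Z Z (Z * Z) (Z * Z)) - 2 * av w (trTT Z Z (Z * Z) 1) +
      av w (fun i j => t11 Z i j ^ 2 + t22 Z i j ^ 2 + 2 * (t12 Z i j - 1) ^ 2) := by
    simp only [← av_mul, ← av_add, ← av_sub]
    exact av_congr fun i j h0 => by
      rw [(h1 ι Z i j c.sZ.symm (c.wt.ne i j h0) (tb_rho_ne (c.wt.nu_le c.wZ h0))).2.1]; ring
  have a1 := cube_bound h3 c
  have a2 := prod_sq h2 c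
  have a3 := prod_one h2 c
  have a4 := rest_bound c
  have := ok.H1; have := ok.t21; have := ok.μ_pos; have := ok.L1; have := ok.Mx1
  have := ok.k21; have := ok.al1; have := ok.s21; have := ok.kF1; have := ok.sm1
  have := ok.z1; have := ok.m1
  have p1 : 0 ≤ P.H * P.t2 := by positivity
  have p2 : 0 ≤ P.μ * P.L * P.Mx := by positivity
  have p3 : 0 ≤ P.k2 * P.al * P.L ^ 2 * P.s2 := by positivity
  have p4 : 0 ≤ P.kF * P.L ^ 2 * P.s2 := by positivity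
  have p5 : 0 ≤ P.k2 * P.t2 * P.sm := by positivity
  have p6 : 0 ≤ P.z ^ 2 * P.L ^ 4 := by positivity
  have p7 : 0 ≤ P.z ^ 2 * P.L ^ 2 * P.sm := by positivity
  have p8 : 0 ≤ P.al * P.L ^ 2 * P.sm := by positivity
  have p9 : 0 ≤ P.al ^ 2 * P.m := by positivity
  have p10 : 0 ≤ P.kF ^ 2 := by positivity
  rw [e0]
  unfold C0 Par.E2
  linarith

end Vale.Agent.P049
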