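import Vale.Agent.P049.Avg

/-! Drift of the third trace. -/

namespace Vale.Agent.P049

open Matrix Finset

namespace LT3

theorem trace_cube (X : Matrix (Fin 2) (Fin 2) ℝ) : trace (X ^ 3) =
    X 0 0 ^ 3 + X 1 1 ^ 3 + 3 * (X 0 1 * X 1 0) * (X 0 0 + X 1 1) := by
  simp only [pow_succ, pow_zero, Matrix.one_mul, trace_fin_two, mul_apply, Fin.sum_univ_two]
  ring

theorem cube_sum {u v c : ℝ} (hu : 0 ≤ u) (hv : 0 ≤ v) (hc : 0 ≤ c) :
    (u + v + c) ^ 3 ≤ 9 * (u ^ 3 + v ^ 3 + c ^ 3) := by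
  nlinarith [mul_nonneg (add_nonneg hu hv) (sq_nonneg (u - v)),
    mul_nonneg (add_nonneg hu hc) (sq_nonneg (u - c)),
    mul_nonneg (add_nonneg hv hc) (sq_nonneg (v - c)), mul_nonneg hu (sq_nonneg (v - c)),
    mul_nonneg hv (sq_nonneg (u - c)), mul_nonneg hc (sq_nonneg (u - v))]

theorem lin_le {p q x y p' q' : ℝ} (hp : |p| ≤ 2 * p') (hq : |q| ≤ 2 * q') :
    |p * x + q * y| ≤ 2 * (p' * |x| + q' * |y|) := by
  refine (abs_add_le _ _).trans ?_
  rw [abs_mul, abs_mul]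
  nlinarith [mul_le_mul_of_nonneg_right hp (abs_nonneg x),
    mul_le_mul_of_nonneg_right hq (abs_nonneg y)]

theorem cube_abs {x11 x12 x21 x22 s d : ℝ} (hd : 0 ≤ d) (h1 : |x11| ≤ 2 * s)
    (h2 : |x22| ≤ 2 * s) (h3 : |x12| * |x21| ≤ 4 * (s ^ 2 + d)) :
    |x11 ^ 3 + x22 ^ 3 + 3 * (x12 * x21) * (x11 + x22)| ≤ 64 * s ^ 3 + 48 * (d * s) := by
  refine (abs_add_three _ _ _).trans ?_
  rw [abs_pow, abs_pow, abs_mul, abs_mul, abs_mul, abs_of_pos (show (0 : ℝ) < 3 by norm_num)]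
  have h4 := pow_le_pow_left₀ (abs_nonneg _) h1 3
  have h5 := pow_le_pow_left₀ (abs_nonneg _) h2 3
  have h6 : |x11 + x22| ≤ 4 * s := (abs_add_le _ _).trans (by linarith)
  have h7 := mul_le_mul h3 h6 (abs_nonneg _) (by positivity)
  nlinarith

theorem cube_le {p11 p12 p22 di dj c a b : ℝ} (ha : 0 ≤ a) (hb : 0 ≤ b) (hab : a * b ≤ 1)
    (h11 : |p11| ≤ 2 * b) (h22 : |p22| ≤ 2 * a) (h12 : |p12| ≤ 2 * 1) :
    |(p11 * di + p12 * c) ^ 3 + (p12 * c + p22 * dj) ^ 3 +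
      3 * ((p11 * c + p12 * dj) * (p12 * di + p22 * c)) *
        ((p11 * di + p12 * c) + (p12 * c + p22 * dj))| ≤
      576 * (|di| ^ 3 * b ^ 3 + a ^ 3 * |dj| ^ 3 + |c| ^ 3) +
        48 * (|di| ^ 2 * (|dj| * b) + |di| * a * |dj| ^ 2 + |c| * (|di| * |dj|)) := by
  have e1 := lin_le (x := di) (y := c) h11 h12
  have e2 := lin_le (x := c) (y := dj) h12 h22
  have e3 := lin_le (x := c) (y := dj) h11 h12
  have e4 := lin_le (x := di) (y := c) h12 h22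
  have k1 := abs_nonneg di
  have k2 := abs_nonneg dj
  have k3 := abs_nonneg c
  generalize |di| = x at *
  generalize |dj| = y at *
  generalize |c| = g at *
  have hu : 0 ≤ b * x := by positivity
  have hv : 0 ≤ a * y := by positivity
  have e5 := mul_le_mul e3 e4 (abs_nonneg _) (by positivity)
  have e6 : 2 * (b * g + 1 * y) * (2 * (1 * x + a * g)) ≤
      4 * ((b * x + a * y + g) ^ 2 + x * y) := by
    nlinarith [mul_le_mul_of_nonneg_right hab (sq_nonneg g), mul_nonneg hu k3, mul_nonneg hv k3,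
      sq_nonneg (b * x + a * y)]
  have e7 := cube_abs (s := b * x + a * y + g) (d := x * y) (by positivity)
    (e1.trans (by linarith)) (e2.trans (by linarith)) (e5.trans e6)
  have e8 := cube_sum hu hv k3
  refine e7.trans ?_
  nlinarith

variable {ι : Type} [Fintype ι] [DecidableEq ι]

/-- Bound for the cubic term. -/
noncomputable def cb (Z : Mat ι) (i j : ι) : ℝ :=
  576 * (|rr Z i - 1| ^ 3 * |Z j j| ^ 3 + |Z i i| ^ 3 * |rr Z j - 1| ^ 3 + |(Z * Z) i j| ^ 3) +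
    48 * (|rr Z i - 1| ^ 2 * (|rr Z j - 1| * |Z j j|) +
      |rr Z i - 1| * |Z i i| * |rr Z j - 1| ^ 2 +
      |(Z * Z) i j| * (|rr Z i - 1| * |rr Z j - 1|))

theorem cubic_le {Z : Mat ι} (hZ : Z.IsSymm) {i j : ι} (hij : i ≠ j) (h : nu Z i j ≤ 1 / 1000) :
    |trace ((Tm Z i j * blk (Z * Z - 1) i j) ^ 3)| ≤ cb Z i j := by
  have h1 := cube_le (di := rr Z i - 1) (dj := rr Z j - 1) (c := (Z * Z) i j)
    (p11 := t11 Z i j) (p12 := t12 Z i j) (p22 := t22 Z i j) (abs_nonneg (Z i i))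
    (abs_nonneg (Z j j)) (by linarith [abs_mul_le_nu Z i j])
    (by linarith [tb_11_le h, abs_nonneg (Z j j)]) (by linarith [tb_22_le h, abs_nonneg (Z i i)])
    (by linarith [tb_12_le h])
  refine le_of_eq_of_le (congrArg _ ?_) h1
  rw [trace_cube]
  simp [Tm, blk, mul_apply (M := !![_, _; _, _]), Fin.sum_univ_two, rr, hij, hij.symm,
    (isSymm_sq hZ).apply i j]

variable {P : Par} {ε : ℝ} {Z : Mat ι}

omit [DecidableEq ι] in
theorem sum_cb (s : Side P ε Z) (h : P.OK) : ∑ i, ∑ j, cb Z i j ≤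
    2304 * (P.z * P.al ^ 2 * P.m) + 576 * (P.R * P.L ^ 4) + 384 * (P.al * P.sm * P.m) +
      192 * (P.L ^ 2 * P.m) := by
  have hz : 0 ≤ P.z := by linarith [h.z1]
  have hm : 0 ≤ P.m := by linarith [h.m1]
  have hsm : 0 ≤ P.sm := by linarith [h.sm1]
  have hR : 0 ≤ P.R := by linarith [h.R1]
  have d2 := s.sum_abs_del_pow h 2 (by simp)
  have d3 := s.sum_abs_del_pow h 3 (by simp)
  have z3 : ∑ k, |Z k k| ^ 3 ≤ P.z * P.al ^ 2 := by
    refine le_trans ?_ (mul_le_mul_of_nonneg_left s.hal hz)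
    rw [Ad, mul_sum]
    refine sum_le_sum fun k _ => ?_
    rw [← sq_abs, pow_succ']
    exact mul_le_mul_of_nonneg_right (s.diag_le h k) (by positivity)
  have dz : ∑ k, |rr Z k - 1| * |Z k k| ≤ 2 * P.sm * P.al :=
    (sum_abs_mul_le (fun k => rr Z k - 1) fun k => Z k k).trans
      (mul_le_mul (s.vn_del h) (s.vn_diag h) (vn_nonneg _) (by positivity))
  have c3 : ∑ i, ∑ j, |(Z * Z) i j| ^ 3 ≤ P.R * P.L ^ 4 := by
    refine le_trans ?_ (mul_le_mul_of_nonneg_left s.hL hR)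
    rw [T4_eq s.symm, fn_sq, mul_sum]
    refine sum_le_sum fun i _ => ?_
    rw [mul_sum]
    refine sum_le_sum fun j _ => ?_
    rw [← sq_abs, pow_succ']
    refine mul_le_mul_of_nonneg_right (abs_le_of_sq_le_sq' ?_ hR |> abs_le.2) (by positivity)
    rw [sq P.R]
    exact (mul_entry_sq_le s.symm s.symm i j).trans (mul_le_mul (s.hR i) (s.hR j) (s.rr0 j) hR)
  have c4 : ∑ i, ∑ j, |(Z * Z) i j| * (|rr Z i - 1| * |rr Z j - 1|) ≤ 4 * (P.L ^ 2 * P.m) := by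
    have h1 := sum2_abs_mul_le (Z * Z) (of fun i j => (rr Z i - 1) * (rr Z j - 1))
    simp only [of_apply, abs_mul, Wt.fn_outer] at h1
    have h2 := mul_le_mul (s.vn_del h) (s.vn_del h) (vn_nonneg _) (by positivity)
    have h3 := mul_le_mul s.fn_sq_le h2 (mul_nonneg (vn_nonneg _) (vn_nonneg _)) (by positivity)
    rw [← h.sm_sq]
    linarith
  have p1 := mul_le_mul d3 z3 (by positivity) (by positivity)
  have p2 := mul_le_mul d2 dz (by positivity) (by positivity)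
  simp only [cb, sum_add_distrib, ← mul_sum, ← sum_mul]
  linarith

omit [DecidableEq ι] in
theorem sum_poly (s : Side P ε Z) (h : P.OK) {f : ι → ℝ} {c : ℝ} (hc : 0 ≤ c)
    (hf : ∀ k, f k ≤ c * (1 + rr Z k ^ 2)) : ∑ k, f k ≤ 5 * (c * P.m) := by
  refine (sum_le_sum fun k _ => hf k).trans ?_
  rw [← mul_sum, sum_add_distrib, s.sum_const]
  nlinarith [mul_le_mul_of_nonneg_left (s.sum_rr2 h) hc]

theorem pointwise (s : Side P ε Z) (h : P.OK) (i : ι) :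
    ∃ x, 0 ≤ x ∧ x ^ 2 = rr Z i ∧ rc (Z * Z - 1) i ≤ 2 * P.L * (x + 1) ∧
      rc (Z * Z * Z - Z) i ≤ 4 * P.L ^ 2 * x ∧ |(Z * Z - 1 : Mat ι) i i| ≤ 1 + x ^ 2 ∧
      |(Z * Z * Z - Z : Mat ι) i i| ≤ P.L * (x ^ 2 + x) := by
  have hL := h.L1
  have hL0 : 0 ≤ P.L := by linarith
  have ho := s.op h
  have e1 : (Z * Z - 1 : Mat ι) i i = rr Z i - 1 := by simp [rr]
  have a0 : vn (fun l => Z i l) = vn (fun l => Z l i) := by simp only [s.symm.apply i]
  have a1 := ho.col Z i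
  have a2 := ho.row s.symm Z i
  have a3 := ho.row s.symm (Z * Z) i
  have a4 := ho.col (Z * Z) i
  have a5 := rc_sub_le (Z * Z) 1 i
  have a6 := rc_sub_le (Z * Z * Z) Z i
  have a7 := ho.cube_diag_le s.symm i
  have a8 : |Z i i| ≤ vn (fun l => Z l i) := abs_le_vn (fun l => Z l i) i
  have a9 := vn_col_sq s.symm i
  have a10 := vn_nonneg (fun l => Z l i)
  rw [← Matrix.mul_assoc] at a4
  rw [rc_one] at a5
  simp only [rc, a0] at a2 a5 a6 ⊢
  refine ⟨_, a10, a9, by linarith, ?_, ?_, ?_⟩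
  · have b1 := mul_le_mul_of_nonneg_left a1 hL0
    have b2 := mul_le_mul_of_nonneg_left a2 hL0
    have b3 := mul_le_mul_of_nonneg_right (one_le_pow₀ (n := 2) hL) a10
    linarith
  · rw [e1, a9, abs_le]
    constructor <;> linarith [s.rr0 i]
  · refine (abs_sub ((Z * Z * Z) i i) (Z i i)).trans ?_
    rw [a9]
    linarith [mul_le_mul_of_nonneg_right hL a10]

theorem pol1 (x : ℝ) : (x + 1) * (x ^ 2 + x) ≤ 8 * (1 + (x ^ 2) ^ 2) := by
  nlinarith [sq_nonneg (x ^ 2 - x), sq_nonneg (x - 1), sq_nonneg (x ^ 2 - 1)]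
theorem pol2 (x : ℝ) : x * (1 + x ^ 2) ≤ 4 * (1 + (x ^ 2) ^ 2) := by
  nlinarith [sq_nonneg (x ^ 2 - x), sq_nonneg (x - 1), sq_nonneg (x ^ 2 - 1)]
theorem pol3 (x : ℝ) : (1 + x ^ 2) * (x ^ 2 + x) ≤ 8 * (1 + (x ^ 2) ^ 2) := by
  nlinarith [sq_nonneg (x ^ 2 - x), sq_nonneg (x - 1), sq_nonneg (x ^ 2 - 1)]

theorem sums_rc (s : Side P ε Z) (h : P.OK) :
    ∑ i, rc (Z * Z - 1) i * |(Z * Z * Z - Z : Mat ι) i i| ≤ 5 * (16 * P.L ^ 2 * P.m) ∧
    ∑ i, rc (Z * Z * Z - Z) i * |(Z * Z - 1 : Mat ι) i i| ≤ 5 * (16 * P.L ^ 2 * P.m) ∧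
    ∑ i, |(Z * Z - 1 : Mat ι) i i| * |(Z * Z * Z - Z : Mat ι) i i| ≤ 5 * (8 * P.L * P.m) := by
  have hL0 : 0 ≤ P.L := by linarith [h.L1]
  refine ⟨sum_poly s h (by positivity) fun i => ?_, sum_poly s h (by positivity) fun i => ?_,
    sum_poly s h (by positivity) fun i => ?_⟩
  · obtain ⟨x, b0, b1, b2, -, -, b5⟩ := pointwise s h i
    have b6 := mul_le_mul b2 b5 (abs_nonneg _) (by positivity)
    rw [← b1]
    linarith [mul_le_mul_of_nonneg_left (pol1 x) (sq_nonneg P.L)]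
  · obtain ⟨x, b0, b1, -, b3, b4, -⟩ := pointwise s h i
    have b6 := mul_le_mul b3 b4 (abs_nonneg _) (by positivity)
    rw [← b1]
    linarith [mul_le_mul_of_nonneg_left (pol2 x) (sq_nonneg P.L)]
  · obtain ⟨x, b0, b1, -, -, b4, b5⟩ := pointwise s h i
    have b6 := mul_le_mul b4 b5 (abs_nonneg _) (by positivity)
    rw [← b1]
    linarith [mul_le_mul_of_nonneg_left (pol3 x) hL0]

theorem prod_part (h2 : ProdS) {Y : Mat ι} {w e : ι → ι → ℝ} (c : Ctx P ε Z Y w e) :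
    |av w (trTT Z Z (Z * Z - 1) (Z * Z * Z - Z)) - 2 * ((T2 Z - P.m) * (T3 Z - T1 Z))| ≤
      80 * (P.k2 * P.sm * P.s2 * P.L ^ 2) + 80 * (P.k2 * P.m * P.al) +
        40 * (P.z ^ 2 * P.L ^ 5) + 80 * (P.z ^ 2 * P.sm * P.L ^ 3) + 40 * (P.z ^ 2 * P.m) +
        8000 * (P.al * P.L ^ 2 * P.m) + 2000 * (P.al ^ 2 * P.L * P.m) := by
  have h := c.ok
  have s := c.sZ
  have hL := h.L1
  have hL0 : 0 ≤ P.L := by linarith
  have hsm : 0 ≤ P.sm := by linarith [h.sm1]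
  have hal : 0 ≤ P.al := by linarith [h.al1]
  have hk := c.wt.k2_nonneg
  have ho := s.op h
  have e1 : ∀ i, (Z * Z - 1 : Mat ι) i i = rr Z i - 1 := fun i => by simp [rr]
  have q1 : ∑ i, |(Z * Z * Z - Z : Mat ι) i i| ≤ P.L ^ 2 * P.s2 + P.sm * P.al := by
    have a1 := (sum_abs_diag_mul (Z * Z) Z).trans
      (mul_le_mul s.fn_sq_le (s.fn_le_s2 h) (fn_nonneg _) (by positivity))
    have a2 := (sum_abs_le hsm (s.card_sq h) fun j => Z j j).trans
      (mul_le_mul_of_nonneg_left (s.vn_diag h) hsm)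
    refine le_trans (sum_le_sum fun i _ => abs_sub ((Z * Z * Z) i i) (Z i i)) ?_
    rw [sum_add_distrib]
    linarith
  have q2 : vn (fun i => (Z * Z - 1 : Mat ι) i i) ≤ 2 * P.sm := by
    simp only [e1]
    exact s.vn_del h
  have q3 := mul_le_mul (mul_le_mul_of_nonneg_left q1 hk) q2 (vn_nonneg _)
    (mul_nonneg hk (le_trans (by positivity) q1))
  have key := h2 ι w e _ Z Z (Z * Z - 1) (Z * Z * Z - Z) P.μ P.θ P.kF P.k2 P.kO P.al P.z _
    c.wt c.wZ c.wZ hal s.hal s.hal h.z1 (s.diag_le h) (s.diag_le h) (Or.inr (Or.inl q3))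
  have t1 : trace (Z * Z - 1 : Mat ι) = T2 Z - P.m := by
    rw [trace_sub, trace_one, s.card, T2]
  have t2 : trace (Z * Z * Z - Z) = T3 Z - T1 Z := trace_sub _ _
  have f1 : fn (Z * Z - 1) ≤ P.L ^ 2 + P.sm := by
    have := fn_sub_le (Z * Z) 1
    rw [fn_one hsm (s.card_sq h)] at this
    linarith [s.fn_sq_le]
  have f2 : fn (Z * Z * Z - Z) ≤ P.L ^ 3 + P.sm := by
    have a1 := fn_sub_le (Z * Z * Z) Z
    have a2 := (ho.mul_fn hL0 s.symm (Z * Z)).trans (mul_le_mul_of_nonneg_left s.fn_sq_le hL0)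
    linarith [s.fn_le_sm h]
  have f3 : fn (Z * Z - 1) * fn (Z * Z * Z - Z) ≤ P.L ^ 5 + 2 * (P.sm * P.L ^ 3) + P.m := by
    have a1 := mul_le_mul f1 f2 (fn_nonneg _) (by positivity)
    have a2 : P.L ^ 2 ≤ P.L ^ 3 := pow_le_pow_right₀ hL (by norm_num)
    rw [← h.sm_sq]
    linarith [mul_le_mul_of_nonneg_left a2 hsm]
  obtain ⟨g1, g2, g3⟩ := sums_rc s h
  have g4 := mul_le_mul_of_nonneg_left (add_le_add g1 g2) hal
  have g5 := mul_le_mul_of_nonneg_left g3 (sq_nonneg P.al)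
  have g6 := mul_le_mul_of_nonneg_left f3 (sq_nonneg P.z)
  have hm := h.m1
  have g7 : 0 ≤ P.al * P.L ^ 2 * P.m := by positivity
  have g8 : 0 ≤ P.al ^ 2 * P.L * P.m := by positivity
  have g9 : P.k2 * P.m * P.al = P.k2 * P.sm ^ 2 * P.al := by rw [h.sm_sq]
  rw [t1, t2] at key
  linarith

omit [DecidableEq ι] in
theorem first_part {Y : Mat ι} {w e : ι → ι → ℝ} (c : Ctx P ε Z Y w e) :
    ε * av w (trT Z (Z * Z * Z * Z - Z * Z)) ≤
      P.b1 ^ 2 * P.t2 * P.μ⁻¹ + 2 * (P.b1' * P.m) + 2 * (P.μ * P.L ^ 4) +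
        2 * (P.μ * P.L ^ 2 * P.Mx) + 20 * (P.k2 * P.al * P.L ^ 4) + 20 * (P.k2 * P.m * P.al) +
        40 * (P.kF * P.L ^ 4) := by
  have h := c.ok
  have s := c.sZ
  have hL := h.L1
  have hL0 : 0 ≤ P.L := by linarith
  have hal : 0 ≤ P.al := by linarith [h.al1]
  have hμ := h.μ_pos
  have ho := s.op h
  have hZ := s.symm.eq
  have hY := c.sY.symm.eq
  have key := c.wt.first c.wZ hal s.hal (Z * Z * Z * Z - Z * Z)
  have t1 : trace (Z * Z * Z * Z - Z * Z) = T4 Z - T2 Z := trace_sub _ _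
  have t2 : ∑ i, ∑ j, (Z * Z * Z * Z - Z * Z) i j = 0 := by
    have a1 := rows_mul s.rows s.rows
    have a2 := rows_mul (rows_mul a1 s.rows) s.rows
    simp only [Matrix.sub_apply, sum_sub_distrib, a1, a2, sub_self, sum_const_zero]
  have t3 : fro (ε • (Z * Z - Y * Y)) (Z * Z * Z * Z - Z * Z) =
      ε * (fn (Z * Z * Z) ^ 2 - T4 Z - fn (Z * Z * Y) ^ 2 + Mq Z Y) := by
    have a1 : trace (Y * Y * (Z * Z * Z * Z)) = fn (Z * Z * Y) ^ 2 := by
      rw [fn_sq_eq_trace]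
      simp only [transpose_mul, hZ, hY]
      calc trace (Y * Y * (Z * Z * Z * Z)) = trace (Y * Y * (Z * Z) * (Z * Z)) := by
            simp only [Matrix.mul_assoc]
        _ = trace (Z * Z * (Y * Y * (Z * Z))) := trace_mul_comm _ _
        _ = _ := by simp only [Matrix.mul_assoc]
    have a2 : trace (Y * Y * (Z * Z)) = Mq Z Y := by
      rw [trace_mul_comm, Mq]
      simp only [Matrix.mul_assoc]
    have a3 : trace (Z * Z * (Z * Z * Z * Z)) = fn (Z * Z * Z) ^ 2 := by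
      rw [fn_sq_eq_trace]
      simp only [transpose_mul, hZ, Matrix.mul_assoc]
    have a4 : trace (Z * Z * (Z * Z)) = T4 Z := by simp only [T4, Matrix.mul_assoc]
    have a5 : (Z * Z * Z * Z - Z * Z)ᵀ = Z * Z * Z * Z - Z * Z := by
      simp only [transpose_sub, transpose_mul, hZ, Matrix.mul_assoc]
    rw [fro_eq_trace, a5, Matrix.smul_mul, trace_smul, Matrix.sub_mul, Matrix.mul_sub,
      Matrix.mul_sub, trace_sub, trace_sub, trace_sub, a1, a2, a3, a4, smul_eq_mul]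
    ring
  have f0 := s.fn_sq_le
  have f1 : ∑ i, |(Z * Z * Z * Z - Z * Z) i i| ≤ P.L ^ 4 + P.m := by
    have a1 := (sum_abs_diag_mul (Z * Z) (Z * Z)).trans
      (mul_le_mul f0 f0 (fn_nonneg _) (by positivity))
    have a2 := sum_abs_diag_mul Z Z
    rw [← sq (fn Z), ← T2_eq s.symm] at a2
    rw [← Matrix.mul_assoc] at a1
    refine le_trans (sum_le_sum fun i _ => abs_sub ((Z * Z * Z * Z) i i) ((Z * Z) i i)) ?_
    rw [sum_add_distrib]
    linarith [s.hm]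
  have f2 : fn (Z * Z * Z * Z - Z * Z) ≤ 2 * P.L ^ 4 := by
    have a1 := (fn_mul_le (Z * Z) (Z * Z)).trans (mul_le_mul f0 f0 (fn_nonneg _) (by positivity))
    have a2 := fn_sub_le (Z * Z * Z * Z) (Z * Z)
    have a3 : P.L ^ 2 ≤ P.L ^ 4 := pow_le_pow_right₀ hL (by norm_num)
    rw [← Matrix.mul_assoc] at a1
    linarith
  have f3 : fn (Z * Z * Y) ^ 2 ≤ P.L ^ 2 * P.Mx := by
    have a1 := (ho.fn_mul hL0 (Z * Y)).trans (mul_le_mul_of_nonneg_left c.fn_YZ.2 hL0)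
    rw [← Matrix.mul_assoc] at a1
    rw [← h.sM_sq, ← mul_pow]
    exact pow_le_pow_left₀ (fn_nonneg _) a1 2
  have f4 : T4 Z ≤ fn (Z * Z * Z) * P.s2 :=
    (le_abs_self _).trans ((abs_trace_mul_le (Z * Z * Z) Z).trans
      (mul_le_mul_of_nonneg_left (s.fn_le_s2 h) (fn_nonneg _)))
  have f5 : ε * T1 Z * T4 Z - P.μ * fn (Z * Z * Z) ^ 2 ≤ P.b1 ^ 2 * P.t2 * P.μ⁻¹ / 4 := by
    have a1 := mul_le_mul_of_nonneg_right s.hb1 (T4_nonneg s.symm)
    have a2 := mul_le_mul_of_nonneg_left f4 (show 0 ≤ P.b1 by linarith [h.b11])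
    have a3 : P.μ * (P.b1 * P.s2 * P.μ⁻¹ / 2 - fn (Z * Z * Z)) ^ 2 =
        P.b1 ^ 2 * P.s2 ^ 2 * P.μ⁻¹ / 4 - P.b1 * (fn (Z * Z * Z) * P.s2) +
          P.μ * fn (Z * Z * Z) ^ 2 := by
      field_simp
      ring
    have a4 : 0 ≤ P.μ * (P.b1 * P.s2 * P.μ⁻¹ / 2 - fn (Z * Z * Z)) ^ 2 := by positivity
    rw [← h.s2_sq]
    linarith
  have f6 : -(ε * T1 Z * T2 Z) ≤ P.b1' * P.m := by
    refine (neg_le_abs _).trans ?_
    rw [abs_mul, abs_mul, s.abs_eps, one_mul, abs_of_nonneg (T2_nonneg s.symm)]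
    exact mul_le_mul s.hb1' s.hm (T2_nonneg s.symm) (by linarith [h.b1'1])
  have f7 := mul_le_mul_of_nonneg_left s.hL hμ.le
  have f8 := mul_le_mul_of_nonneg_left f3 hμ.le
  have f9 := mul_nonneg hμ.le (Mq_nonneg s.symm c.sY.symm)
  have f10 := mul_le_mul_of_nonneg_left f1 (mul_nonneg c.wt.k2_nonneg hal)
  have f11 := mul_le_mul_of_nonneg_left f2 c.wt.kF_nonneg
  have f12 : 0 ≤ P.b1 ^ 2 * P.t2 * P.μ⁻¹ := by have := h.t21; positivity
  rw [t1, t2, t3, abs_le] at key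
  rcases s.eps with rfl | rfl <;> linarith [key.1, key.2]

end LT3

open LT3 in
theorem lt3_of (h1 : IdentS) (h2 : ProdS) : LT3S := by
  intro ι _ _ P ε Z Y w e c
  have h := c.ok
  have s := c.sZ
  have a1 : av w (fun i j => T3 (upd Z i j) - T3 Z) =
      3 * av w (trT Z (Z * Z * Z * Z - Z * Z)) +
        3 * av w (trTT Z Z (Z * Z - 1) (Z * Z * Z - Z)) +
        av w (fun i j => trace ((Tm Z i j * blk (Z * Z - 1) i j) ^ 3)) := by
    rw [← av_mul, ← av_mul, ← av_add, ← av_add]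
    exact av_congr fun i j h0 =>
      (h1 ι Z i j s.symm (c.wt.ne i j h0) (tb_rho_ne (c.wt.nu_le c.wZ h0))).2.2.1
  have a2 := first_part c
  have a3 := abs_le.1 (prod_part h2 c)
  have a4 := abs_le.1 (c.wt.abs_av_le_sum (g := cb Z) (fun i j => by unfold cb; positivity)
    fun i j h0 => cubic_le s.symm (c.wt.ne i j h0) (c.wt.nu_le c.wZ h0))
  have a5 := sum_cb s h
  have a6 : |(T2 Z - P.m) * T1 Z| ≤ P.b1' * P.m := by
    rw [abs_mul, mul_comm]
    refine mul_le_mul s.hb1' (abs_le.2 ⟨?_, ?_⟩) (abs_nonneg _) (by linarith [h.b1'1])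
    · linarith [T2_nonneg s.symm]
    · linarith [s.hm, h.m1]
  have a7 := abs_le.1 a6
  have := h.sm1; have := h.m1; have := h.R1; have := h.kF1; have := h.μ_pos; have := h.t21
  have := h.L1; have := h.al1; have := h.z1; have := h.Mx1; have := h.k21; have := h.s21
  have := h.b1'1
  have a8 : P.L ^ 2 * P.m ≤ P.al * P.L ^ 2 * P.m := by
    rw [mul_assoc]
    exact le_mul_of_one_le_left (by positivity) h.al1
  have p1 : 0 ≤ P.b1 ^ 2 * P.t2 * P.μ⁻¹ := by positivity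
  have p2 : 0 ≤ P.b1' * P.m := by positivity
  have p3 : 0 ≤ P.μ * P.L ^ 4 := by positivity
  have p4 : 0 ≤ P.μ * P.L ^ 2 * P.Mx := by positivity
  have p5 : 0 ≤ P.k2 * P.al * P.L ^ 4 := by positivity
  have p6 : 0 ≤ P.kF * P.L ^ 4 := by positivity
  have p7 : 0 ≤ P.k2 * P.sm * P.s2 * P.L ^ 2 := by positivity
  have p8 : 0 ≤ P.k2 * P.m * P.al := by positivity
  have p9 : 0 ≤ P.z ^ 2 * P.L ^ 5 := by positivity
  have p10 : 0 ≤ P.z ^ 2 * P.sm * P.L ^ 3 := by positivity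
  have p11 : 0 ≤ P.z ^ 2 * P.m := by positivity
  have p12 : 0 ≤ P.al * P.L ^ 2 * P.m := by positivity
  have p13 : 0 ≤ P.al ^ 2 * P.L * P.m := by positivity
  have p14 : 0 ≤ P.al * P.sm * P.m := by positivity
  have p15 : 0 ≤ P.z * P.al ^ 2 * P.m := by positivity
  have p16 : 0 ≤ P.R * P.L ^ 4 := by positivity
  rw [a1]
  unfold C0 Par.E3
  rcases s.eps with rfl | rfl <;> linarith [a3.1, a3.2, a4.1, a4.2, a7.1, a7.2]

end Vale.Agent.P049
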