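import Vale.Agent.P049.Avg

/-! Weighted average of the two-block trace. -/

namespace Vale.Agent.P049

open Matrix Finset

namespace ProdAux

theorem term {x y X Y : ℝ} (hx : |x| ≤ 101 / 100 * X) (hy : |y| ≤ 101 / 100 * Y) (u v : ℝ) :
    |x * y * (u * v)| ≤ 2 * (X * Y * (|u| * |v|)) := by
  have h1 : 0 ≤ X := by linarith [abs_nonneg x]
  have h2 : 0 ≤ Y := by linarith [abs_nonneg y]
  have h3 := mul_le_mul hx hy (abs_nonneg _) (by positivity)
  have h4 : |x| * |y| ≤ 2 * (X * Y) := by nlinarith [mul_nonneg h1 h2]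
  rw [abs_mul, abs_mul, abs_mul, ← mul_assoc 2]
  exact mul_le_mul_of_nonneg_right h4 (by positivity)

theorem point {p q r p' q' r' P Q P' Q' z e : ℝ} (hp : |p| ≤ 101 / 100 * P)
    (hq : |q| ≤ 101 / 100 * Q) (hr : |r| ≤ 101 / 100 * 1) (hp' : |p'| ≤ 101 / 100 * P')
    (hq' : |q'| ≤ 101 / 100 * Q') (hr' : |r'| ≤ 101 / 100 * 1) (hP : P ≤ z) (hQ : Q ≤ z)
    (hP' : P' ≤ z) (hQ' : Q' ≤ z) (he : |r * r' - 1| ≤ e) (a b c d a' b' c' d' : ℝ) :
    |(p * a + r * c) * (p' * a' + r' * c') + (p * b + r * d) * (r' * a' + q' * c') +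
      (r * a + q * c) * (p' * b' + r' * d') + (r * b + q * d) * (r' * b' + q' * d') -
      (a * d' + a' * d)| ≤
    e * (|a| * |d'|) + e * (|a'| * |d|) + 2 * (|a| * |a'| * (P * P') + Q * Q' * (|d| * |d'|) +
      (P * |c'| * |a| + P' * |c| * |a'| + P * |b| * |a'| + P' * |b'| * |a|) +
      (Q' * |c'| * |d| + Q * |c| * |d'| + Q' * |b| * |d'| + Q * |b'| * |d|) +
      (|c| * |c'| + |b| * |b'| + z ^ 2 * (|b| * |c'|) + z ^ 2 * (|c| * |b'|))) := by
  have m : ∀ {x X : ℝ}, |x| ≤ 101 / 100 * X → X ≤ z → |x| ≤ 101 / 100 * z := fun h h' => by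
    linarith
  have n : ∀ u v : ℝ, |(r * r' - 1) * (u * v)| ≤ e * (|u| * |v|) := fun u v => by
    rw [abs_mul, abs_mul u]
    exact mul_le_mul_of_nonneg_right he (by positivity)
  have h1 := abs_le.1 (term hp hp' a a')
  have h2 := abs_le.1 (term hp hr' a c')
  have h3 := abs_le.1 (term hr hp' c a')
  have h4 := abs_le.1 (term hr hr' c c')
  have h5 := abs_le.1 (term hp hr' b a')
  have h6 := abs_le.1 (term (m hp hP) (m hq' hQ') b c')
  have h7 := abs_le.1 (n a' d)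
  have h8 := abs_le.1 (term hr hq' d c')
  have h9 := abs_le.1 (term hr hp' a b')
  have h10 := abs_le.1 (n a d')
  have h11 := abs_le.1 (term (m hq hQ) (m hp' hP') c b')
  have h12 := abs_le.1 (term hq hr' c d')
  have h13 := abs_le.1 (term hr hr' b b')
  have h14 := abs_le.1 (term hr hq' b d')
  have h15 := abs_le.1 (term hq hr' d b')
  have h16 := abs_le.1 (term hq hq' d d')
  refine abs_le.2 ⟨?_, ?_⟩
  · linarith [h1.1, h2.1, h3.1, h4.1, h5.1, h6.1, h7.1, h8.1, h9.1, h10.1, h11.1, h12.1, h13.1,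
      h14.1, h15.1, h16.1]
  · linarith [h1.2, h2.2, h3.2, h4.2, h5.2, h6.2, h7.2, h8.2, h9.2, h10.2, h11.2, h12.2, h13.2,
      h14.2, h15.2, h16.2]

variable {ι : Type} [Fintype ι]

theorem mixed {g : ι → ℝ} {al : ℝ} (hg : vn g ≤ al) (M : ι → ι → ℝ) (f : ι → ℝ) :
    ∑ i, ∑ j, |g j| * |M i j| * |f i| ≤ al * ∑ i, vn (M i) * |f i| := by
  rw [mul_sum]
  refine sum_le_sum fun i _ => ?_
  rw [← sum_mul, ← mul_assoc]
  exact mul_le_mul_of_nonneg_right ((sum_abs_mul_le g (M i)).trans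
    (mul_le_mul_of_nonneg_right hg (vn_nonneg _))) (abs_nonneg _)

theorem mixed' {g : ι → ℝ} {al : ℝ} (hg : vn g ≤ al) (M : ι → ι → ℝ) (f : ι → ℝ) :
    ∑ i, ∑ j, |g i| * |M j i| * |f j| ≤ al * ∑ i, vn (M i) * |f i| :=
  sum_comm.trans_le (mixed hg M f)

theorem main {w e : ι → ι → ℝ} {K : Mat ι} {μ θ kF k2 kO Q : ℝ} (h : Wt w e K μ θ kF k2 kO)
    (f g : ι → ℝ) (hQ : k2 * (∑ i, |f i|) * vn g ≤ Q ∨ k2 * (∑ i, |g i|) * vn f ≤ Q ∨
      (kO + kF) * vn f * vn g ≤ Q) :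
    |av w (fun i j => f i * g j) - (∑ i, f i) * ∑ j, g j| ≤ 3 * Q ∧
      ∑ i, ∑ j, e i j * (|f i| * |g j|) ≤ Q := by
  rcases hQ with hQ | hQ | hQ
  · exact ⟨by linarith [h.av_prod1 f g], by linarith [h.sum_e1 f g]⟩
  · exact ⟨by linarith [h.av_prod1' f g], by linarith [h.sum_e1' f g]⟩
  · have h0 := mul_nonneg (vn_nonneg f) (vn_nonneg g)
    have h1 := mul_nonneg h.kF_nonneg h0
    have h2 := mul_nonneg h.kO_nonneg h0
    exact ⟨by linarith [h.av_prod2 f g], by linarith [h.sum_e2 f g]⟩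

end ProdAux

open ProdAux

theorem prodS : ProdS := by
  intro ι _ _ w e K A B N N' μ θ kF k2 kO al z Q h sA sB h0 hA hB hz hzA hzB hQ
  have hA' : vn (fun k => A k k) ≤ al := vn_le_of_sq h0 hA
  have hB' : vn (fun k => B k k) ≤ al := vn_le_of_sq h0 hB
  obtain ⟨m1, m2⟩ := main h _ _ hQ
  obtain ⟨m3, m4⟩ := main h (fun i => N' i i) (fun i => N i i) (Q := Q) (by
    rcases hQ with hQ | hQ | hQ
    exacts [Or.inr (Or.inl hQ), Or.inl hQ, Or.inr (Or.inr (by rwa [mul_right_comm]))])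
  have h1 := h.abs_av_le_sum (f := fun i j => trTT A B N N' i j - (N i i * N' j j + N' i i * N j j))
    (g := fun i j => e i j * (|N i i| * |N' j j|) + e i j * (|N' i i| * |N j j|) +
      2 * (|N i i| * |N' i i| * (|A j j| * |B j j|) + |A i i| * |B i i| * (|N j j| * |N' j j|) +
      (|A j j| * |N' j i| * |N i i| + |B j j| * |N j i| * |N' i i| + |A j j| * |N i j| * |N' i i| +
        |B j j| * |N' i j| * |N i i|) +
      (|B i i| * |N' j i| * |N j j| + |A i i| * |N j i| * |N' j j| + |B i i| * |N i j| * |N' j j| +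
        |A i i| * |N' i j| * |N j j|) +
      (|N j i| * |N' j i| + |N i j| * |N' i j| + z ^ 2 * (|N i j| * |N' j i|) +
        z ^ 2 * (|N j i| * |N' i j|))))
    (fun i j => by have := h.e_nonneg i j; positivity) fun i j hw => by
      have a1 := h.nu_le sA hw
      have a2 := h.nu_le sB hw
      have a3 : |t12 A i j * t12 B i j - 1| ≤ e i j := by
        have a4 := mul_le_mul (tb_12 a1) (tb_12_le a2) (abs_nonneg _)
          (by linarith [nu_nonneg A i j])
        have a5 := abs_add_le ((t12 A i j - 1) * t12 B i j) (t12 B i j - 1)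
        rw [abs_mul, show (t12 A i j - 1) * t12 B i j + (t12 B i j - 1) =
          t12 A i j * t12 B i j - 1 by ring] at a5
        nlinarith [tb_12 a2, sA.nu_e i j, sB.nu_e i j, h.θ_le, h.e_nonneg i j]
      rw [trTT_eq]
      exact point (tb_11_le a1) (tb_22_le a1) ((tb_12_le a1).trans_eq (mul_one _).symm)
        (tb_11_le a2) (tb_22_le a2) ((tb_12_le a2).trans_eq (mul_one _).symm) (hzA j) (hzA i)
        (hzB j) (hzB i) a3 _ _ _ _ _ _ _ _
  have h2 : ∑ j, |A j j| * |B j j| ≤ al ^ 2 :=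
    (sum_abs_mul_le _ _).trans (sq al ▸ mul_le_mul hA' hB' (vn_nonneg _) h0)
  have h3 : 0 ≤ ∑ i, |N i i| * |N' i i| := by positivity
  have h4 := mul_le_mul_of_nonneg_right h2 h3
  have h5 : ∑ i, ∑ j, |N i i| * |N' i i| * (|A j j| * |B j j|) =
      (∑ j, |A j j| * |B j j|) * ∑ i, |N i i| * |N' i i| := by rw [mul_comm, sum_mul_sum]
  have h6 : ∑ i, ∑ j, |A i i| * |B i i| * (|N j j| * |N' j j|) =
      (∑ j, |A j j| * |B j j|) * ∑ i, |N i i| * |N' i i| := by rw [sum_mul_sum]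
  have t2 := mixed hA' (fun i j => N' j i) fun i => N i i
  have t3 := mixed hB' (fun i j => N j i) fun i => N' i i
  have t5 := mixed hA' (fun i j => N i j) fun i => N' i i
  have t9 := mixed hB' (fun i j => N' i j) fun i => N i i
  have t8 := mixed' hB' (fun i j => N' i j) fun i => N i i
  have t12 := mixed' hA' (fun i j => N i j) fun i => N' i i
  have t14 := mixed' hB' (fun i j => N j i) fun i => N' i i
  have t15 := mixed' hA' (fun i j => N' j i) fun i => N i i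
  have t4 := sum2_abs_mul_le Nᵀ N'ᵀ
  have t13 := sum2_abs_mul_le N N'
  have t6 := mul_le_mul_of_nonneg_left (sum2_abs_mul_le N N'ᵀ) (sq_nonneg z)
  have t11 := mul_le_mul_of_nonneg_left (sum2_abs_mul_le Nᵀ N') (sq_nonneg z)
  simp only [fn_transpose, transpose_apply] at t4 t6 t11
  have h7 := mul_nonneg (fn_nonneg N) (fn_nonneg N')
  have h8 := le_mul_of_one_le_left h7 (one_le_pow₀ hz (n := 2))
  have h9 : ∀ (M : Mat ι) (f : ι → ℝ), 0 ≤ al * ∑ i, rc M i * |f i| := fun M f =>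
    mul_nonneg h0 (sum_nonneg fun i _ => mul_nonneg (rc_nonneg M i) (abs_nonneg _))
  have h10 := h9 N fun i => N' i i
  have h11 := h9 N' fun i => N i i
  have h12 := mul_nonneg (sq_nonneg al) h3
  have h13 : 0 ≤ Q := by linarith [abs_nonneg (av w (fun i j => N i i * N' j j) -
    (∑ i, N i i) * ∑ j, N' j j)]
  simp only [sum_add_distrib, ← mul_sum (a := (2 : ℝ)), ← mul_sum (a := z ^ 2), h5, h6,
    av_sub, av_add] at h1
  simp only [rc, add_mul, sum_add_distrib, mul_add] at h10 h11 ⊢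
  have e1 : trace N * trace N' = (∑ i, N i i) * ∑ j, N' j j := rfl
  rw [mul_comm (∑ i, N' i i)] at m3
  rw [e1]
  rw [abs_le] at h1 m1 m3 ⊢
  constructor <;> linarith [h1.1, h1.2, m1.1, m1.2, m3.1, m3.2]

end Vale.Agent.P049
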