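import Vale.Agent.P049.Stmts

/-! Rounding and the Lipschitz bound for the potential. -/

namespace Vale.Agent.P049

open Matrix Finset

namespace Rnd

variable {ι : Type} [Fintype ι] [DecidableEq ι]

theorem st {F : Finset ι} {Z : Mat ι} (h : St F Z) {r : ℝ → ℝ} (hr : r 0 = 0) :
    St F (rnd r F Z) := by
  refine ⟨Matrix.IsSymm.ext fun k l => ?_, fun k l hk => ?_, fun k hk => ?_⟩
  · by_cases e : k = l
    · rw [e]
    · rw [rnd, rnd, if_neg e, if_neg (Ne.symm e), h.symm.apply]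
  · by_cases e : k = l
    · rw [rnd, if_pos e, if_neg hk]
    · rw [rnd, if_neg e, h.supp k l hk, hr]
  · have h1 : ∀ l, rnd r F Z k l = (if l = k then 0 else r (Z k l)) +
        if l = k then 1 - ∑ p, (if p = k then 0 else r (Z k p)) else 0 := fun l => by
      by_cases e : l = k
      · rw [rnd, if_pos e.symm, if_pos hk, if_pos e, if_pos e, zero_add]
      · rw [rnd, if_neg (Ne.symm e), if_neg e, if_neg e, add_zero]
    simp only [h1, sum_add_distrib, sum_ite_eq', mem_univ, if_true]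
    ring

theorem rows {F : Finset ι} {Z Y : Mat ι} (h : St F Z) (h' : St F Y) (k : ι) :
    ∑ l, (Y - Z) k l = 0 := by
  simp only [Matrix.sub_apply, sum_sub_distrib]
  by_cases hk : k ∈ F
  · rw [h.rows k hk, h'.rows k hk, sub_self]
  · simp [h.supp k _ hk, h'.supp k _ hk]

omit [DecidableEq ι] in
theorem qf_eq {E : Mat ι} (hs : E.IsSymm) (h0 : ∀ k, ∑ l, E k l = 0) (v : ι → ℝ) :
    ∑ k, ∑ l, E k l * (v k - v l) ^ 2 = -2 * qf E v := by
  have h1 : ∑ k, ∑ l, E k l * v k ^ 2 = 0 := by simp only [← sum_mul, h0, zero_mul, sum_const_zero]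
  have h2 : ∑ k, ∑ l, E k l * v l ^ 2 = 0 := by
    rw [sum_comm]
    simp only [hs.apply, h1]
  have h3 : ∀ k l, E k l * (v k - v l) ^ 2 =
      E k l * v k ^ 2 + E k l * v l ^ 2 + -2 * (v k * (E k l * v l)) := fun k l => by ring
  simp only [h3, sum_add_distrib, h1, h2, zero_add, qf, dotProduct, mulVec, mul_sum]

theorem qf_le {F : Finset ι} {Z Y : Mat ι} (h : St F Z) (h' : St F Y)
    (hle : ∀ k l, k ≠ l → Y k l ≤ Z k l) (v : ι → ℝ) : qf Z v ≤ qf Y v := by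
  have h1 := qf_eq (h'.symm.sub h.symm) (rows h h') v
  have h2 : ∑ k, ∑ l, (Y - Z) k l * (v k - v l) ^ 2 ≤ 0 :=
    sum_nonpos fun k _ => sum_nonpos fun l _ => by
      by_cases e : k = l
      · simp [e]
      · exact mul_nonpos_of_nonpos_of_nonneg (sub_nonpos.2 (hle k l e)) (sq_nonneg _)
  have h3 : qf (Y - Z) v = qf Y v - qf Z v := by rw [qf, sub_mulVec, dotProduct_sub, qf, qf]
  linarith

theorem entry {F : Finset ι} {Z Y : Mat ι} (h : St F Z) (h' : St F Y) {G : ℝ} (hG : 0 < G)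
    (hle : ∀ k l, k ≠ l → |Y k l - Z k l| ≤ 1 / G) (k l : ι) :
    |Y k l - Z k l| ≤ Fintype.card ι / G := by
  by_cases e : k = l
  · subst e
    have h1 := rows h h' k
    rw [← add_sum_erase _ _ (mem_univ k), add_eq_zero_iff_eq_neg] at h1
    rw [← Matrix.sub_apply, h1, abs_neg]
    refine (abs_sum_le_sum_abs _ _).trans ((sum_le_card_nsmul _ _ (1 / G) fun l hl =>
      hle k l (ne_of_mem_erase hl).symm).trans ?_)
    rw [nsmul_eq_mul, mul_one_div]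
    exact div_le_div_of_nonneg_right (Nat.cast_le.2 (card_le_univ _)) hG.le
  · refine (hle k l e).trans (div_le_div_of_nonneg_right ?_ hG.le)
    exact Nat.one_le_cast.2 (Fintype.card_pos_iff.2 ⟨k⟩)

theorem fl_bd {G : ℝ} (hG : 0 < G) (x : ℝ) : fl G x ≤ x ∧ |fl G x - x| ≤ 1 / G := by
  have h1 := Int.floor_le (G * x)
  have h2 := Int.lt_floor_add_one (G * x)
  rw [fl, div_le_iff₀' hG, div_sub' hG.ne', abs_div, abs_of_pos hG]
  exact ⟨h1, div_le_div_of_nonneg_right (abs_le.2 ⟨by linarith, by linarith⟩) hG.le⟩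

theorem ce_bd {G : ℝ} (hG : 0 < G) (x : ℝ) : x ≤ ce G x ∧ |ce G x - x| ≤ 1 / G := by
  have h1 := Int.le_ceil (G * x)
  have h2 := Int.ceil_lt_add_one (G * x)
  rw [ce, le_div_iff₀' hG, div_sub' hG.ne', abs_div, abs_of_pos hG]
  exact ⟨h1, div_le_div_of_nonneg_right (abs_le.2 ⟨by linarith, by linarith⟩) hG.le⟩

/-- bounded and close -/
def Cl (n β ξ c : ℝ) (p q : ℕ) (x y : ℝ) : Prop :=
  |x| ≤ c * n ^ p * β ^ q ∧ |y| ≤ c * n ^ p * β ^ q ∧ |x - y| ≤ c * n ^ p * β ^ q * ξ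

variable {n β ξ c c' x y x' y' : ℝ} {p q p' q' : ℕ}

theorem Cl.mul (h : Cl n β ξ c p q x y) (h' : Cl n β ξ c' p' q' x' y') :
    Cl n β ξ (2 * c * c') (p + p') (q + q') (x * x') (y * y') := by
  have e : 2 * c * c' * n ^ (p + p') * β ^ (q + q') =
      2 * ((c * n ^ p * β ^ q) * (c' * n ^ p' * β ^ q')) := by ring
  obtain ⟨h1, h2, h3⟩ := h
  obtain ⟨g1, g2, g3⟩ := h'
  have h0 := (abs_nonneg _).trans h1
  have g0 := (abs_nonneg _).trans g1
  have h4 := mul_nonneg h0 g0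
  rw [Cl, e, abs_mul, abs_mul, show x * x' - y * y' = x * (x' - y') + (x - y) * y' by ring]
  refine ⟨by linarith [mul_le_mul h1 g1 (abs_nonneg _) h0],
    by linarith [mul_le_mul h2 g2 (abs_nonneg _) h0], (abs_add_le _ _).trans ?_⟩
  rw [abs_mul, abs_mul]
  linarith [mul_le_mul h1 g3 (abs_nonneg _) h0,
    mul_le_mul h3 g2 (abs_nonneg _) ((abs_nonneg _).trans h3)]

theorem Cl.sq (h : Cl n β ξ c p q x y) :
    Cl n β ξ (2 * c * c) (p + p) (q + q) (x ^ 2) (y ^ 2) := by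
  rw [pow_two, pow_two]
  exact h.mul h

theorem Cl.four (h : Cl n β ξ c p q x y) :
    Cl n β ξ (2 * (2 * c * c) * (2 * c * c)) (p + p + (p + p)) (q + q + (q + q)) (x ^ 4)
      (y ^ 4) := by
  have h1 := h.sq.sq
  rwa [← pow_mul, ← pow_mul] at h1

theorem Cl.add (h : Cl n β ξ c p q x y) (h' : Cl n β ξ c' p q x' y') :
    Cl n β ξ (c + c') p q (x + x') (y + y') := by
  obtain ⟨h1, h2, h3⟩ := h
  obtain ⟨g1, g2, g3⟩ := h'
  rw [Cl, add_sub_add_comm]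
  exact ⟨(abs_add_le _ _).trans (by linarith), (abs_add_le _ _).trans (by linarith),
    (abs_add_le _ _).trans (by linarith)⟩

omit [DecidableEq ι] in
theorem Cl.sum {f g : ι → ℝ} (h : ∀ i, Cl (Fintype.card ι) β ξ c p q (f i) (g i)) :
    Cl (Fintype.card ι) β ξ c (p + 1) q (∑ i, f i) (∑ i, g i) := by
  have h1 : ∀ (u : ι → ℝ) (b : ℝ), (∀ i, |u i| ≤ b) → |∑ i, u i| ≤ Fintype.card ι * b :=
    fun u b hu => (abs_sum_le_sum_abs _ _).trans ((sum_le_card_nsmul _ _ b fun i _ => hu i).trans_eq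
      (by rw [card_univ, nsmul_eq_mul]))
  rw [Cl, ← sum_sub_distrib]
  exact ⟨(h1 _ _ fun i => (h i).1).trans_eq (by ring),
    (h1 _ _ fun i => (h i).2.1).trans_eq (by ring), (h1 _ _ fun i => (h i).2.2).trans_eq (by ring)⟩

theorem Cl.smul (h : Cl n β ξ c p q x y) {a : ℝ} (ha : |a| ≤ 1) :
    Cl n β ξ c p q (a * x) (a * y) := by
  have h1 : ∀ u b : ℝ, |u| ≤ b → |a * u| ≤ b := fun u b hu => by
    rw [abs_mul]
    exact (mul_le_of_le_one_left (abs_nonneg _) ha).trans hu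
  rw [Cl, ← mul_sub]
  exact ⟨h1 _ _ h.1, h1 _ _ h.2.1, h1 _ _ h.2.2⟩

theorem Cl.div (h : Cl n β ξ c p q x y) {a : ℝ} (ha : 1 ≤ a) :
    Cl n β ξ c p q (x / a) (y / a) := by
  rw [div_eq_inv_mul, div_eq_inv_mul]
  refine h.smul ?_
  rw [abs_of_nonneg (inv_nonneg.2 (zero_le_one.trans ha))]
  exact inv_le_one_of_one_le₀ ha

theorem Cl.pos (h : Cl n β ξ c p q x y) : Cl n β ξ c p q (max x 0) (max y 0) := by
  have h1 : ∀ u : ℝ, |max u 0| ≤ |u| := fun u => by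
    simpa using abs_max_sub_max_le_abs u 0 0
  exact ⟨(h1 x).trans h.1, (h1 y).trans h.2.1, (abs_max_sub_max_le_abs x y 0).trans h.2.2⟩

theorem Cl.sub (h : Cl n β ξ c p q x y) (hξ : 0 ≤ ξ) {a : ℝ} (ha : |a| ≤ c' * n ^ p * β ^ q) :
    Cl n β ξ (c + c') p q (x - a) (y - a) := by
  rw [sub_eq_add_neg, sub_eq_add_neg]
  refine h.add ⟨by rwa [abs_neg], by rwa [abs_neg], ?_⟩
  rw [sub_self, abs_zero]
  exact mul_nonneg ((abs_nonneg _).trans ha) hξ

/-- the standing assumptions -/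
structure Hy (n β ξ : ℝ) : Prop where
  n1 : 1 ≤ n
  β1 : 1 ≤ β
  ξ0 : 0 ≤ ξ

theorem Cl.mono (h : Cl n β ξ c p q x y) (H : Hy n β ξ) (c' : ℝ) (p' q' : ℕ)
    (hc : 0 ≤ c' ∧ c ≤ c' ∧ p ≤ p' ∧ q ≤ q') : Cl n β ξ c' p' q' x y := by
  have hn := zero_le_one.trans H.n1
  have hβ := zero_le_one.trans H.β1
  have h1 : c * n ^ p * β ^ q ≤ c' * n ^ p' * β ^ q' :=
    mul_le_mul (mul_le_mul hc.2.1 (pow_le_pow_right₀ H.n1 hc.2.2.1) (pow_nonneg hn _) hc.1)
      (pow_le_pow_right₀ H.β1 hc.2.2.2) (pow_nonneg hβ _) (mul_nonneg hc.1 (pow_nonneg hn _))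
  exact ⟨h.1.trans h1, h.2.1.trans h1, h.2.2.trans (mul_le_mul_of_nonneg_right h1 H.ξ0)⟩

/-- entrywise version -/
def CM (β ξ c : ℝ) (p q : ℕ) (X Y : Mat ι) : Prop :=
  ∀ k l, Cl (Fintype.card ι) β ξ c p q (X k l) (Y k l)

variable {X Y X' Y' : Mat ι}

omit [DecidableEq ι] in
theorem CM.mul (h : CM β ξ c p q X Y) (h' : CM β ξ c' p' q' X' Y') :
    CM β ξ (2 * c * c') (p + p' + 1) (q + q') (X * X') (Y * Y') :=
  fun k l => Cl.sum fun i => (h k i).mul (h' i l)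

omit [DecidableEq ι] in
theorem CM.trace (h : CM β ξ c p q X Y) :
    Cl (Fintype.card ι) β ξ c (p + 1) q (trace X) (trace Y) := Cl.sum fun i => h i i

omit [DecidableEq ι] in
theorem CM.of (H : Hy (Fintype.card ι) β ξ) (h1 : ∀ k l, |X k l| ≤ β) (h2 : ∀ k l, |Y k l| ≤ β)
    (h3 : ∀ k l, |X k l - Y k l| ≤ ξ) : CM β ξ 1 0 1 X Y := fun k l =>
  ⟨by simpa using h1 k l, by simpa using h2 k l,
    by simpa using (h3 k l).trans (le_mul_of_one_le_left H.ξ0 H.β1)⟩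

omit [DecidableEq ι] in
theorem cl_side (H : Hy (Fintype.card ι) β ξ) (h : CM β ξ 1 0 1 X Y) {t m ε : ℝ} (hε : |ε| ≤ 1)
    (h0 : 0 ≤ Te t m) (h0' : Te t m ≤ Fintype.card ι) (h1 : 1 ≤ B1 t m) (h1' : 1 ≤ B1' t m)
    (hS : 1 ≤ BS t m) (h3 : 1 ≤ B3 t m) (h4 : 1 ≤ B4 t m) (hD : 1 ≤ BD t m) (hA : 1 ≤ BA t m)
    (hZ : 1 ≤ BZ t) : Cl (Fintype.card ι) β ξ 712 5 8 (side t m ε X) (side t m ε Y) := by
  have t1 : Cl _ β ξ 1 1 1 (T1 X) (T1 Y) := h.trace
  have t2 : Cl _ β ξ 2 2 2 (T2 X) (T2 Y) := (h.mul h).trace.mono H 2 2 2 (by norm_num)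
  have t3 : Cl _ β ξ 4 5 8 (T3 X) (T3 Y) := ((h.mul h).mul h).trace.mono H 4 5 8 (by norm_num)
  have t4 : Cl _ β ξ 8 5 8 (T4 X) (T4 Y) := (((h.mul h).mul h).mul h).trace.mono H 8 5 8 (by norm_num)
  have hb : ∀ p q : ℕ, (1 : ℝ) ≤ 1 * (Fintype.card ι : ℝ) ^ p * β ^ q := fun p q => by
    rw [one_mul]
    exact one_le_mul_of_one_le_of_one_le (one_le_pow₀ H.n1) (one_le_pow₀ H.β1)
  have d1 : ∀ k, Cl _ β ξ 3 1 2 (dp X k) (dp Y k) := fun k =>
    ((h.mul h k k).sub H.ξ0 (abs_one.trans_le (hb _ _))).pos.mono H 3 1 2 (by norm_num)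
  have d2 : Cl _ β ξ 666 5 8 (Dp X) (Dp Y) :=
    (Cl.sum fun k => ((d1 k).sq.mono H 18 4 8 (by norm_num)).add ((d1 k).four.mono H 648 4 8 (by norm_num))).mono H 666 5 8 (by norm_num)
  have a2 : Cl _ β ξ 2 5 8 (Ad X) (Ad Y) := (Cl.sum fun k => (h k k).sq).mono H 2 5 8 (by norm_num)
  have a4 : Cl _ β ξ 8 5 8 (A4 X) (A4 Y) := (Cl.sum fun k => (h k k).four).mono H 8 5 8 (by norm_num)
  have e1 : |Te t m| ≤ 1 * (Fintype.card ι : ℝ) ^ 2 * β ^ 2 := by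
    rw [abs_of_nonneg h0]
    have h5 := hb 1 2
    have h6 := H.n1
    nlinarith
  exact ((((((((((t1.smul hε).pos.sq.mono H 2 5 8 (by norm_num)).div (one_le_pow₀ h1)).add
    ((t1.sq.mono H 2 5 8 (by norm_num)).div (one_le_pow₀ h1'))).add
    (((t2.sub H.ξ0 e1).pos.sq.mono H 18 5 8 (by norm_num)).div (one_le_pow₀ hS))).add
    (((t3.smul hε).add (t2.mono H 2 5 8 (by norm_num))).div h3)).add (t4.div h4)).add (d2.div hD)).add
    (a2.div hA)).add (a4.div hZ)).mono H 712 5 8 (by norm_num)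

end Rnd

open Rnd

theorem rndS : RndS := by
  intro ι _ _ F Z G h hG
  have h1 := st h (r := fl G) (by simp [fl])
  have h2 := st h (r := ce G) (by simp [ce])
  have h3 : ∀ r k l, k ≠ l → rnd r F Z k l = r (Z k l) := fun r k l e => if_neg e
  refine ⟨⟨h1, qf_le h h1 fun k l e => ?_, entry h h1 hG fun k l e => ?_⟩,
    h2, qf_le h2 h fun k l e => ?_, entry h h2 hG fun k l e => ?_⟩ <;> rw [h3 _ k l e]
  · exact (fl_bd hG _).1
  · exact (fl_bd hG _).2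
  · exact (ce_bd hG _).1
  · exact (ce_bd hG _).2

theorem lipS : LipS := by
  intro ι _ _ A B A' B' β ξ hβ hξ hn hA hB hA' hB' dA dB
  have H : Hy (Fintype.card ι) β ξ := ⟨Nat.one_le_cast.2 hn, hβ, hξ⟩
  have cA := CM.of H hA' hA dA
  have cB := CM.of H hB' hB dB
  refine ⟨?_, fun t m h0 h0' h1 h1' hS h3 h4 hD hA hZ hM => ?_⟩
  · have h1 : ∀ k l, |A' k l * A' l k - A k l * A l k| ≤ 2 * β * ξ := fun k l => by
      rw [show A' k l * A' l k - A k l * A l k =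
        A' k l * (A' l k - A l k) + (A' k l - A k l) * A l k by ring]
      refine (abs_add_le _ _).trans ?_
      rw [abs_mul, abs_mul]
      linarith [mul_le_mul (hA' k l) (dA l k) (abs_nonneg _) (zero_le_one.trans hβ),
        mul_le_mul (dA k l) (hA l k) (abs_nonneg _) hξ]
    simp only [T2, trace, Matrix.diag, mul_apply, ← sum_sub_distrib]
    refine (abs_sum_le_sum_abs _ _).trans ((sum_le_sum fun k _ => (abs_sum_le_sum_abs _ _).trans
      (sum_le_sum fun l _ => h1 k l)).trans_eq ?_)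
    simp only [sum_const, card_univ, nsmul_eq_mul]
    ring
  · have h5 : Cl _ β ξ 8 5 8 (Mq A' B') (Mq A B) :=
      (((cA.mul cA).mul cB).mul cB).trace.mono H 8 5 8 (by norm_num)
    exact ((((cl_side H cA (by simp) h0 h0' h1 h1' hS h3 h4 hD hA hZ).add
      (cl_side H cB (by simp) h0 h0' h1 h1' hS h3 h4 hD hA hZ)).add (h5.div hM)).mono H
        (10 ^ 5) 5 8 (by norm_num)).2.2

end Vale.Agent.P049
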