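import Vale.Agent.P049.Stmts

/-! Norm toolbox. -/

namespace Vale.Agent.P049

open Matrix Finset

variable {ι : Type} [Fintype ι]

theorem vn_nonneg (f : ι → ℝ) : 0 ≤ vn f := Real.sqrt_nonneg _
theorem fn_nonneg (N : Mat ι) : 0 ≤ fn N := Real.sqrt_nonneg _
theorem rc_nonneg (N : Mat ι) (i : ι) : 0 ≤ rc N i := add_nonneg (vn_nonneg _) (vn_nonneg _)
theorem vn_sq (f : ι → ℝ) : vn f ^ 2 = ∑ i, f i ^ 2 := Real.sq_sqrt (by positivity)
theorem fn_sq (N : Mat ι) : fn N ^ 2 = ∑ i, ∑ j, N i j ^ 2 := Real.sq_sqrt (by positivity)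
theorem vn_sq_dot (f : ι → ℝ) : vn f ^ 2 = f ⬝ᵥ f := by rw [vn_sq]; simp only [dotProduct, sq]

theorem vn_le_of_sq {f : ι → ℝ} {c : ℝ} (hc : 0 ≤ c) (h : ∑ i, f i ^ 2 ≤ c ^ 2) : vn f ≤ c :=
  Real.sqrt_le_iff.2 ⟨hc, h⟩
theorem fn_le_of_sq {N : Mat ι} {c : ℝ} (hc : 0 ≤ c) (h : ∑ i, ∑ j, N i j ^ 2 ≤ c ^ 2) :
    fn N ≤ c := Real.sqrt_le_iff.2 ⟨hc, h⟩
theorem vn_mono {f g : ι → ℝ} (h : ∀ i, |f i| ≤ |g i|) : vn f ≤ vn g :=
  Real.sqrt_le_sqrt (sum_le_sum fun i _ => sq_le_sq.2 (h i))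
theorem vn_abs (f : ι → ℝ) : vn (fun i => |f i|) = vn f := by simp [vn]
theorem abs_le_vn (f : ι → ℝ) (i : ι) : |f i| ≤ vn f :=
  Real.abs_le_sqrt (single_le_sum (f := fun i => f i ^ 2) (fun _ _ => sq_nonneg _) (mem_univ i))

theorem fn_eq_vn (N : Mat ι) : fn N = vn (fun p : ι × ι => N p.1 p.2) := by
  simp [fn, vn, Fintype.sum_prod_type]
theorem fn_eq_vn_rows (N : Mat ι) : fn N = vn (fun i => vn (fun k => N i k)) := by
  simp only [fn]; rw [vn]; simp only [vn_sq]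
theorem fn_transpose (N : Mat ι) : fn Nᵀ = fn N := by
  simp only [fn, transpose_apply]; rw [sum_comm]
theorem fn_eq_vn_cols (N : Mat ι) : fn N = vn (fun i => vn (fun k => N k i)) := by
  rw [← fn_transpose, fn_eq_vn_rows]; rfl
theorem abs_le_fn (N : Mat ι) (i j : ι) : |N i j| ≤ fn N := by
  rw [fn_eq_vn]; exact abs_le_vn (fun p : ι × ι => N p.1 p.2) (i, j)

theorem sum_mul_le (f g : ι → ℝ) : ∑ i, f i * g i ≤ vn f * vn g := by
  rw [vn, vn, ← Real.sqrt_mul (by positivity)]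
  exact Real.le_sqrt_of_sq_le (sum_mul_sq_le_sq_mul_sq _ _ _)
theorem sum_abs_mul_le (f g : ι → ℝ) : ∑ i, |f i| * |g i| ≤ vn f * vn g := by
  simpa only [vn_abs] using sum_mul_le (fun i => |f i|) (fun i => |g i|)
theorem abs_sum_mul_le (f g : ι → ℝ) : |∑ i, f i * g i| ≤ vn f * vn g :=
  (abs_sum_le_sum_abs _ _).trans (by simpa only [abs_mul] using sum_abs_mul_le f g)
theorem abs_dot_le (f g : ι → ℝ) : |f ⬝ᵥ g| ≤ vn f * vn g := abs_sum_mul_le f g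
theorem sum2_mul_le (N N' : Mat ι) : ∑ i, ∑ j, N i j * N' i j ≤ fn N * fn N' := by
  rw [fn_eq_vn, fn_eq_vn, ← Fintype.sum_prod_type']
  exact sum_mul_le (fun p : ι × ι => N p.1 p.2) (fun p : ι × ι => N' p.1 p.2)
theorem sum2_abs_mul_le (N N' : Mat ι) : ∑ i, ∑ j, |N i j| * |N' i j| ≤ fn N * fn N' := by
  rw [fn_eq_vn, fn_eq_vn, ← Fintype.sum_prod_type']
  exact sum_abs_mul_le (fun p : ι × ι => N p.1 p.2) (fun p : ι × ι => N' p.1 p.2)
theorem abs_fro_le (K N : Mat ι) : |fro K N| ≤ fn K * fn N := by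
  refine le_trans ?_ (sum2_abs_mul_le K N)
  refine (abs_sum_le_sum_abs _ _).trans (sum_le_sum fun i _ => ?_)
  simpa only [abs_mul] using abs_sum_le_sum_abs (fun j => K i j * N i j) univ

theorem vn_const_one {sm : ℝ} (h0 : 0 ≤ sm) (h : sm ^ 2 = Fintype.card ι) :
    vn (fun _ : ι => (1 : ℝ)) = sm := by
  simp [vn, ← h, Real.sqrt_sq h0]
theorem sum_abs_le {sm : ℝ} (h0 : 0 ≤ sm) (h : sm ^ 2 = Fintype.card ι) (f : ι → ℝ) :
    ∑ i, |f i| ≤ sm * vn f := by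
  simpa [vn_const_one h0 h] using sum_abs_mul_le (fun _ : ι => (1 : ℝ)) f
theorem vn_le_sum_abs (f : ι → ℝ) : vn f ≤ ∑ i, |f i| := by
  refine vn_le_of_sq (by positivity) ?_
  rw [sq, sum_mul]
  refine sum_le_sum fun i _ => ?_
  rw [← sq_abs, sq]
  exact mul_le_mul_of_nonneg_left
    (single_le_sum (f := fun i => |f i|) (fun _ _ => abs_nonneg _) (mem_univ i)) (abs_nonneg _)

theorem vn_add_le (f g : ι → ℝ) : vn (fun i => f i + g i) ≤ vn f + vn g := by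
  refine vn_le_of_sq (add_nonneg (vn_nonneg _) (vn_nonneg _)) ?_
  have := sum_mul_le f g
  have e : ∑ i, (f i + g i) ^ 2 = ∑ i, f i ^ 2 + 2 * ∑ i, f i * g i + ∑ i, g i ^ 2 := by
    rw [mul_sum, ← sum_add_distrib, ← sum_add_distrib]; exact sum_congr rfl fun i _ => by ring
  rw [e, ← vn_sq, ← vn_sq]; nlinarith
theorem vn_neg (f : ι → ℝ) : vn (fun i => -f i) = vn f := by simp [vn]
theorem vn_sub_le (f g : ι → ℝ) : vn (fun i => f i - g i) ≤ vn f + vn g := by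
  simpa only [sub_eq_add_neg, vn_neg] using vn_add_le f (fun i => -g i)
theorem vn_smul (c : ℝ) (f : ι → ℝ) : vn (fun i => c * f i) = |c| * vn f := by
  simp only [vn, mul_pow, ← mul_sum]; rw [Real.sqrt_mul (sq_nonneg c), Real.sqrt_sq_eq_abs]
theorem fn_add_le (N N' : Mat ι) : fn (N + N') ≤ fn N + fn N' := by
  simp only [fn_eq_vn]; exact vn_add_le _ _
theorem fn_sub_le (N N' : Mat ι) : fn (N - N') ≤ fn N + fn N' := by
  simp only [fn_eq_vn]; exact vn_sub_le _ _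
theorem fn_smul (c : ℝ) (N : Mat ι) : fn (c • N) = |c| * fn N := by
  simp only [fn_eq_vn]; exact vn_smul c _

theorem vn_diag_le (N : Mat ι) : vn (fun i => N i i) ≤ fn N := by
  rw [fn_eq_vn_rows]
  exact vn_mono fun i => (abs_le_vn (fun k => N i k) i).trans (le_abs_self _)
theorem vn_row_le (N : Mat ι) (i : ι) : vn (fun k => N i k) ≤ fn N := by
  rw [fn_eq_vn_rows]; exact (le_abs_self _).trans (abs_le_vn (fun i => vn (fun k => N i k)) i)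
theorem vn_col_le (N : Mat ι) (i : ι) : vn (fun k => N k i) ≤ fn N := by
  rw [fn_eq_vn_cols]; exact (le_abs_self _).trans (abs_le_vn (fun i => vn (fun k => N k i)) i)
theorem sum_rc_mul (N : Mat ι) (f : ι → ℝ) : ∑ i, rc N i * |f i| ≤ 2 * (fn N * vn f) := by
  have h1 := sum_mul_le (fun i => vn (fun k => N i k)) (fun i => |f i|)
  have h2 := sum_mul_le (fun i => vn (fun k => N k i)) (fun i => |f i|)
  rw [← fn_eq_vn_rows, vn_abs] at h1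
  rw [← fn_eq_vn_cols, vn_abs] at h2
  simp only [rc, add_mul, sum_add_distrib]; linarith

theorem abs_mul_apply_le (P Q : Mat ι) (i j : ι) :
    |(P * Q) i j| ≤ vn (fun k => P i k) * vn (fun k => Q k j) := abs_sum_mul_le _ _
theorem sum_abs_diag_mul (P Q : Mat ι) : ∑ i, |(P * Q) i i| ≤ fn P * fn Q := by
  rw [fn_eq_vn_rows P, fn_eq_vn_cols Q]
  exact (sum_le_sum fun i _ => abs_mul_apply_le P Q i i).trans (sum_mul_le _ _)
theorem abs_trace_mul_le (P Q : Mat ι) : |trace (P * Q)| ≤ fn P * fn Q :=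
  (abs_sum_le_sum_abs _ _).trans (sum_abs_diag_mul P Q)
theorem vn_mulVec_le (N : Mat ι) (v : ι → ℝ) : vn (N *ᵥ v) ≤ fn N * vn v := by
  rw [fn_eq_vn_rows, mul_comm, ← abs_of_nonneg (vn_nonneg v), ← vn_smul]
  refine vn_mono fun i => ?_
  rw [abs_of_nonneg (mul_nonneg (vn_nonneg _) (vn_nonneg _)), mul_comm]
  exact abs_dot_le _ _
theorem abs_qf_le (N : Mat ι) (v : ι → ℝ) : |qf N v| ≤ fn N * (v ⬝ᵥ v) := by
  have h1 := abs_dot_le v (N *ᵥ v)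
  have h2 := vn_mulVec_le N v
  rw [← vn_sq_dot]
  exact h1.trans (by nlinarith [vn_nonneg v])

/-- Operator norm bound. -/
def Op (Z : Mat ι) (L : ℝ) : Prop := ∀ v : ι → ℝ, vn (Z *ᵥ v) ≤ L * vn v

theorem op_fn (N : Mat ι) : Op N (fn N) := vn_mulVec_le N
theorem Op.mono {Z : Mat ι} {L L' : ℝ} (h : Op Z L) (h' : L ≤ L') : Op Z L' := fun v =>
  (h v).trans (mul_le_mul_of_nonneg_right h' (vn_nonneg v))
theorem Op.mul {Z Y : Mat ι} {L L' : ℝ} (h : Op Z L) (h' : Op Y L') (hL : 0 ≤ L) :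
    Op (Z * Y) (L * L') := fun v => by
  rw [← mulVec_mulVec, mul_assoc]
  exact (h _).trans (mul_le_mul_of_nonneg_left (h' v) hL)
theorem Op.col {Z : Mat ι} {L : ℝ} (h : Op Z L) (N : Mat ι) (j : ι) :
    vn (fun k => (Z * N) k j) ≤ L * vn (fun k => N k j) := h (fun k => N k j)
theorem Op.row {Z : Mat ι} {L : ℝ} (h : Op Z L) (hZ : Z.IsSymm) (N : Mat ι) (i : ι) :
    vn (fun k => (N * Z) i k) ≤ L * vn (fun k => N i k) := by
  have := h.col Nᵀ i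
  rwa [← hZ.eq, ← transpose_mul] at this
theorem Op.fn_mul {Z : Mat ι} {L : ℝ} (h : Op Z L) (hL : 0 ≤ L) (N : Mat ι) :
    fn (Z * N) ≤ L * fn N := by
  rw [fn_eq_vn_cols, fn_eq_vn_cols, ← abs_of_nonneg hL, ← vn_smul]
  refine vn_mono fun i => ?_
  rw [abs_of_nonneg (vn_nonneg _), abs_of_nonneg (mul_nonneg hL (vn_nonneg _))]
  exact h.col N i
theorem Op.mul_fn {Z : Mat ι} {L : ℝ} (h : Op Z L) (hL : 0 ≤ L) (hZ : Z.IsSymm) (N : Mat ι) :
    fn (N * Z) ≤ L * fn N := by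
  rw [← fn_transpose, transpose_mul, hZ.eq, ← fn_transpose N]; exact h.fn_mul hL _
theorem Op.abs_qf {Z : Mat ι} {L : ℝ} (h : Op Z L) (v : ι → ℝ) : |qf Z v| ≤ L * (v ⬝ᵥ v) := by
  have h1 := abs_dot_le v (Z *ᵥ v)
  have h2 := h v
  rw [← vn_sq_dot]
  exact h1.trans (by nlinarith [vn_nonneg v])
theorem fn_mul_le (P Q : Mat ι) : fn (P * Q) ≤ fn P * fn Q := (op_fn P).fn_mul (fn_nonneg P) Q

theorem trace_mul_transpose (P Q : Mat ι) : trace (P * Qᵀ) = ∑ i, ∑ j, P i j * Q i j := by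
  simp [trace, mul_apply]
theorem fro_eq_trace (K N : Mat ι) : fro K N = trace (K * Nᵀ) := (trace_mul_transpose K N).symm
theorem fn_sq_eq_trace (N : Mat ι) : fn N ^ 2 = trace (N * Nᵀ) := by
  rw [fn_sq, trace_mul_transpose]; simp only [sq]
/-- A trace as a sum of quadratic forms over the columns of `N`. -/
theorem trace_conj (S N : Mat ι) : trace (Nᵀ * S * N) = ∑ k, qf S (fun l => N l k) := by
  simp only [trace, diag_apply, Matrix.mul_assoc]; rfl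
theorem conj_apply (S N : Mat ι) (k : ι) : (Nᵀ * S * N) k k = qf S (fun l => N l k) := by
  simp only [Matrix.mul_assoc]; rfl
theorem sum_col_dot (N : Mat ι) : ∑ k, (fun l => N l k) ⬝ᵥ (fun l => N l k) = fn N ^ 2 := by
  rw [fn_eq_vn_cols, vn_sq]; exact sum_congr rfl fun k _ => (vn_sq_dot _).symm

theorem T2_eq {Z : Mat ι} (h : Z.IsSymm) : T2 Z = fn Z ^ 2 := by rw [fn_sq_eq_trace, h.eq, T2]
theorem Mq_eq {A B : Mat ι} (hA : A.IsSymm) (hB : B.IsSymm) : Mq A B = fn (A * B) ^ 2 := by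
  rw [fn_sq_eq_trace, transpose_mul, hA.eq, hB.eq, Mq]
  calc trace (A * A * B * B) = trace (A * (A * B * B)) := by simp only [Matrix.mul_assoc]
    _ = trace (A * B * B * A) := trace_mul_comm _ _
    _ = _ := by simp only [Matrix.mul_assoc]
theorem fn_mul_comm {A B : Mat ι} (hA : A.IsSymm) (hB : B.IsSymm) : fn (A * B) = fn (B * A) := by
  rw [← fn_transpose, transpose_mul, hA.eq, hB.eq]
theorem Mq_comm {A B : Mat ι} (hA : A.IsSymm) (hB : B.IsSymm) : Mq A B = Mq B A := by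
  rw [Mq_eq hA hB, Mq_eq hB hA, fn_mul_comm hA hB]
theorem T4_eq_Mq (Z : Mat ι) : T4 Z = Mq Z Z := rfl
theorem T4_eq {Z : Mat ι} (h : Z.IsSymm) : T4 Z = fn (Z * Z) ^ 2 := Mq_eq h h
theorem T2_nonneg {Z : Mat ι} (h : Z.IsSymm) : 0 ≤ T2 Z := by rw [T2_eq h]; positivity
theorem T4_nonneg {Z : Mat ι} (h : Z.IsSymm) : 0 ≤ T4 Z := by rw [T4_eq h]; positivity
theorem Mq_nonneg {A B : Mat ι} (hA : A.IsSymm) (hB : B.IsSymm) : 0 ≤ Mq A B := by
  rw [Mq_eq hA hB]; positivity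
theorem Ad_nonneg (Z : Mat ι) : 0 ≤ Ad Z := sum_nonneg fun _ _ => sq_nonneg _
theorem A4_nonneg (Z : Mat ι) : 0 ≤ A4 Z := sum_nonneg fun _ _ => by positivity
theorem Dp_nonneg (Z : Mat ι) : 0 ≤ Dp Z := sum_nonneg fun _ _ => by positivity
theorem fn_le_of_T2 {Z : Mat ι} (h : Z.IsSymm) {s : ℝ} (hs : 0 ≤ s) (h2 : T2 Z ≤ s ^ 2) :
    fn Z ≤ s := by
  rw [T2_eq h] at h2; exact (pow_le_pow_iff_left₀ (fn_nonneg _) hs two_ne_zero).1 h2
theorem fn_le_of_Mq {A B : Mat ι} (hA : A.IsSymm) (hB : B.IsSymm) {s : ℝ} (hs : 0 ≤ s)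
    (h2 : Mq A B ≤ s ^ 2) : fn (A * B) ≤ s := by
  rw [Mq_eq hA hB] at h2; exact (pow_le_pow_iff_left₀ (fn_nonneg _) hs two_ne_zero).1 h2
theorem fn_sq_le_of_T4 {Z : Mat ι} (h : Z.IsSymm) {L : ℝ} (h2 : T4 Z ≤ L ^ 4) :
    fn (Z * Z) ≤ L ^ 2 := fn_le_of_Mq h h (sq_nonneg _) (by rw [← pow_mul]; exact h2)

theorem dot_mulVec_symm {Z : Mat ι} (h : Z.IsSymm) (u v : ι → ℝ) :
    (Z *ᵥ u) ⬝ᵥ v = u ⬝ᵥ Z *ᵥ v := by
  rw [dotProduct_mulVec, ← mulVec_transpose, h.eq]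
theorem op_of_T4 {Z : Mat ι} (h : Z.IsSymm) {L : ℝ} (hL : 0 ≤ L) (h2 : T4 Z ≤ L ^ 4) :
    Op Z L := fun v => by
  refine (pow_le_pow_iff_left₀ (vn_nonneg _) (mul_nonneg hL (vn_nonneg _)) two_ne_zero).1 ?_
  rw [vn_sq_dot, dot_mulVec_symm h, mulVec_mulVec, mul_pow, vn_sq_dot]
  refine (le_abs_self _).trans ((abs_qf_le (Z * Z) v).trans ?_)
  rw [← vn_sq_dot]
  exact mul_le_mul_of_nonneg_right (fn_sq_le_of_T4 h h2) (sq_nonneg _)

theorem T3_low {Z : Mat ι} (h : Z.IsSymm) {ε : ℝ} (hl : ∀ v : ι → ℝ, -(v ⬝ᵥ v) ≤ ε * qf Z v) :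
    0 ≤ ε * T3 Z + T2 Z := by
  have e : T3 Z = ∑ k, qf Z (fun l => Z l k) := by rw [← trace_conj, h.eq, T3]
  rw [e, T2_eq h, ← sum_col_dot, mul_sum, ← sum_add_distrib]
  exact sum_nonneg fun k _ => by linarith [hl (fun l => Z l k)]

/-! ### Row norms -/

theorem rr_eq {Z : Mat ι} (h : Z.IsSymm) (k : ι) : rr Z k = ∑ l, Z k l ^ 2 := by
  simp only [rr, mul_apply, sq]; exact sum_congr rfl fun l _ => by rw [h.apply k l]
theorem rr_eq' {Z : Mat ι} (h : Z.IsSymm) (k : ι) : rr Z k = ∑ l, Z l k ^ 2 := by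
  rw [rr_eq h]; exact sum_congr rfl fun l _ => by rw [h.apply k l]
theorem vn_row_sq {Z : Mat ι} (h : Z.IsSymm) (k : ι) : vn (fun l => Z k l) ^ 2 = rr Z k := by
  rw [vn_sq, rr_eq h]
theorem vn_col_sq {Z : Mat ι} (h : Z.IsSymm) (k : ι) : vn (fun l => Z l k) ^ 2 = rr Z k := by
  rw [vn_sq, rr_eq' h]
theorem rr_nonneg {Z : Mat ι} (h : Z.IsSymm) (k : ι) : 0 ≤ rr Z k := by rw [rr_eq h]; positivity
theorem sum_rr (Z : Mat ι) : ∑ k, rr Z k = T2 Z := rfl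
theorem entry_sq_le {Z : Mat ι} (h : Z.IsSymm) (k l : ι) : Z k l ^ 2 ≤ rr Z k := by
  rw [rr_eq h]; exact single_le_sum (f := fun l => Z k l ^ 2) (fun _ _ => sq_nonneg _) (mem_univ l)
theorem entry_sq_le' {Z : Mat ι} (h : Z.IsSymm) (k l : ι) : Z k l ^ 2 ≤ rr Z l := by
  rw [← h.apply k l]; exact entry_sq_le h l k
theorem mul_entry_sq_le {A B : Mat ι} (hA : A.IsSymm) (hB : B.IsSymm) (k l : ι) :
    (A * B) k l ^ 2 ≤ rr A k * rr B l := by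
  rw [← vn_row_sq hA, ← vn_col_sq hB, ← mul_pow, ← sq_abs]
  exact pow_le_pow_left₀ (abs_nonneg _) (abs_mul_apply_le A B k l) 2
/-- Sums of even powers along a row. -/
theorem sum_row_pow_le {Z : Mat ι} (h : Z.IsSymm) (k : ι) (n : ℕ) :
    ∑ l, (Z k l ^ 2) ^ (n + 1) ≤ rr Z k ^ (n + 1) := by
  rw [pow_succ, rr_eq h k, mul_sum, ← rr_eq h k]
  refine sum_le_sum fun l _ => ?_
  rw [pow_succ]
  exact mul_le_mul_of_nonneg_right (pow_le_pow_left₀ (sq_nonneg _) (entry_sq_le h k l) n)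
    (sq_nonneg _)
theorem isSymm_sq {Z : Mat ι} (h : Z.IsSymm) : (Z * Z).IsSymm := by
  rw [IsSymm, transpose_mul, h.eq]
theorem sum_rr_sq {Z : Mat ι} : ∑ k, rr (Z * Z) k = T4 Z := by
  rw [sum_rr, T2, T4]; simp only [Matrix.mul_assoc]
theorem Op.rr_sq_le {Z : Mat ι} {L : ℝ} (ho : Op Z L) (h : Z.IsSymm) (k : ι) :
    rr (Z * Z) k ≤ L ^ 2 * rr Z k := by
  rw [← vn_col_sq (isSymm_sq h), ← vn_col_sq h, ← mul_pow]
  exact pow_le_pow_left₀ (vn_nonneg _) (ho.col Z k) 2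
theorem cube_diag {Z : Mat ι} (h : Z.IsSymm) (k : ι) :
    (Z * Z * Z) k k = qf Z (fun l => Z l k) := by rw [← conj_apply, h.eq]
theorem cube_diag_sq_le {Z : Mat ι} (h : Z.IsSymm) (k : ι) :
    (Z * Z * Z) k k ^ 2 ≤ rr (Z * Z) k * rr Z k := mul_entry_sq_le (isSymm_sq h) h k k
theorem Op.cube_diag_le {Z : Mat ι} {L : ℝ} (ho : Op Z L) (h : Z.IsSymm) (k : ι) :
    |(Z * Z * Z) k k| ≤ L * rr Z k := by
  rw [cube_diag h, ← vn_col_sq h, vn_sq_dot]; exact ho.abs_qf _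

theorem dp_nonneg (Z : Mat ι) (k : ι) : 0 ≤ dp Z k := le_max_right _ _
theorem rr_le_dp (Z : Mat ι) (k : ι) : rr Z k ≤ 1 + dp Z k := by
  have := le_max_left (rr Z k - 1) 0; unfold dp; linarith
theorem dp_le_rr {Z : Mat ι} (h : Z.IsSymm) (k : ι) : dp Z k ≤ rr Z k :=
  max_le (by linarith) (rr_nonneg h k)
theorem dp_mul_rr (Z : Mat ι) (k : ι) : dp Z k * rr Z k = dp Z k * (1 + dp Z k) := by
  unfold dp; rcases le_total (rr Z k - 1) 0 with h | h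
  · simp [max_eq_right h]
  · rw [max_eq_left h]; ring
theorem abs_del_pow_le {Z : Mat ι} (h : Z.IsSymm) (k : ι) (n : ℕ) :
    |rr Z k - 1| ^ n ≤ 1 + dp Z k ^ n := by
  have h0 := rr_nonneg h k
  have h1 : 0 ≤ dp Z k ^ n := pow_nonneg (dp_nonneg Z k) n
  rcases le_total (rr Z k - 1) 0 with h2 | h2
  · have : |rr Z k - 1| ^ n ≤ 1 := pow_le_one₀ (abs_nonneg _) (abs_le.2 ⟨by linarith, by linarith⟩)
    linarith
  · rw [abs_of_nonneg h2, dp, max_eq_left h2]; linarith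
theorem gg_nonneg (Z : Mat ι) (k : ι) : 0 ≤ gg Z k := by
  have := dp_nonneg Z k; unfold gg; positivity

variable [DecidableEq ι]

theorem fn_one {sm : ℝ} (h0 : 0 ≤ sm) (h : sm ^ 2 = Fintype.card ι) : fn (1 : Mat ι) = sm := by
  have : ∑ i : ι, ∑ j : ι, (1 : Mat ι) i j ^ 2 = sm ^ 2 := by simp [one_apply, h]
  rw [fn, this, Real.sqrt_sq h0]
theorem rc_one (i : ι) : rc (1 : Mat ι) i = 2 := by
  simp [rc, vn, one_apply]; norm_num
omit [DecidableEq ι] in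
theorem rc_sub_le (N N' : Mat ι) (i : ι) : rc (N - N') i ≤ rc N i + rc N' i := by
  have h1 := vn_sub_le (fun k => N i k) (fun k => N' i k)
  have h2 := vn_sub_le (fun k => N k i) (fun k => N' k i)
  simp only [rc, Matrix.sub_apply]; linarith
omit [DecidableEq ι] in
theorem rows_mul {A B : Mat ι} (hA : ∀ k, ∑ l, A k l = 1) (hB : ∀ k, ∑ l, B k l = 1) (k : ι) :
    ∑ l, (A * B) k l = 1 := by
  simp only [mul_apply]; rw [sum_comm]; simp only [← mul_sum, hB, mul_one, hA]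
theorem rows_one (k : ι) : ∑ l, (1 : Mat ι) k l = 1 := by simp [one_apply]
omit [DecidableEq ι] in
theorem total_of_rows {A : Mat ι} (hA : ∀ k, ∑ l, A k l = 1) :
    ∑ k, ∑ l, A k l = Fintype.card ι := by simp [hA]

/-! ### Consequences of `Par.OK` -/

namespace Par.OK

variable {P : Par} (h : P.OK)
include h

theorem sm1 : 1 ≤ P.sm := by rw [← h.qm_sq]; exact one_le_pow₀ h.qm1
theorem m1 : 1 ≤ P.m := by rw [← h.sm_sq]; exact one_le_pow₀ h.sm1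
theorem qm4 : P.qm ^ 4 = P.m := by rw [← h.sm_sq, ← h.qm_sq]; ring
theorem sm_le_m : P.sm ≤ P.m := by rw [← h.sm_sq]; nlinarith [h.sm1]
theorem b1'1 : 1 ≤ P.b1' := h.b11.trans h.b1_le
theorem t21 : 1 ≤ P.t2 := by rw [← h.s2_sq]; exact one_le_pow₀ h.s21
theorem D1 : 1 ≤ P.D := by rw [← h.sqD_sq]; exact one_le_pow₀ h.sqD1
theorem R1 : 1 ≤ P.R := by rw [← h.sR_sq]; exact one_le_pow₀ h.sR1
theorem Mx1 : 1 ≤ P.Mx := by rw [← h.sM_sq]; exact one_le_pow₀ h.sM1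
theorem kF1 : 1 ≤ P.kF := h.sm1.trans h.sm_le
theorem sD1 : 1 ≤ P.sD := by rw [h.sD_eq]; exact one_le_mul_of_one_le_of_one_le h.sm1 h.sqD1
theorem H1 : 1 ≤ P.H := by
  have := h.hH; have := mul_nonneg (zero_le_one.trans h.b11) h.β_nonneg
  linarith [h.b1'1, h.μ_pos]
theorem D_le_sD : P.D ≤ P.sD := by rw [h.sD_eq, ← h.sqD_sq]; nlinarith [h.sqD_le, h.sqD1]
theorem D_le_m : P.D ≤ P.m := by rw [← h.sqD_sq, ← h.sm_sq]; nlinarith [h.sqD_le, h.sqD1]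
theorem sD_le_m : P.sD ≤ P.m := by rw [h.sD_eq, ← h.sm_sq]; nlinarith [h.sqD_le, h.sm1]
theorem sR_le_R : P.sR ≤ P.R := by rw [← h.sR_sq]; nlinarith [h.sR1]
theorem Hd_nonneg : 0 ≤ P.Hd := by
  have := h.H1; have := h.sD1; have := h.b11; have := h.sqD1; have := h.sRF1; have := h.b1'1
  rcases h.hHd with h1 | h1 <;> exact le_trans (by positivity) h1
theorem θ_inv1 : 1 ≤ P.θ⁻¹ := (one_le_inv₀ h.θ_pos).2 (by linarith [h.θ_le])
theorem ϑ_inv1 : 1 ≤ P.ϑ⁻¹ := (one_le_inv₀ h.ϑ_pos).2 h.ϑ_le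

end Par.OK

/-! ### Consequences of `Side` -/

namespace Side

omit [DecidableEq ι]

variable {P : Par} {ε : ℝ} {Z : Mat ι} (s : Side P ε Z)
include s

theorem eps_sq : ε * ε = 1 := by rcases s.eps with h | h <;> simp [h]
theorem abs_eps : |ε| = 1 := by rcases s.eps with h | h <;> simp [h]
theorem card_sq (h : P.OK) : P.sm ^ 2 = Fintype.card ι := by rw [h.sm_sq, s.card]
theorem sum_const (c : ℝ) : ∑ _k : ι, c = P.m * c := by simp [s.card]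
theorem op (h : P.OK) : Op Z P.L := op_of_T4 s.symm (by linarith [h.L1]) s.hL
theorem fn_le_sm (h : P.OK) : fn Z ≤ P.sm :=
  fn_le_of_T2 s.symm (by linarith [h.sm1]) (by rw [h.sm_sq]; exact s.hm)
theorem fn_le_s2 (h : P.OK) : fn Z ≤ P.s2 :=
  fn_le_of_T2 s.symm (by linarith [h.s21]) (by rw [h.s2_sq]; exact s.ht2)
theorem fn_sq_le : fn (Z * Z) ≤ P.L ^ 2 := fn_sq_le_of_T4 s.symm s.hL
theorem diag_le (h : P.OK) (k : ι) : |Z k k| ≤ P.z := by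
  refine (pow_le_pow_iff_left₀ (abs_nonneg _) (by linarith [h.z1]) four_ne_zero).1 ?_
  rw [show |Z k k| ^ 4 = Z k k ^ 4 by rw [pow_abs, abs_of_nonneg (by positivity)]]
  exact (single_le_sum (f := fun k => Z k k ^ 4) (fun _ _ => by positivity) (mem_univ k)).trans
    s.hz
theorem vn_diag (h : P.OK) : vn (fun k => Z k k) ≤ P.al := vn_le_of_sq (by linarith [h.al1]) s.hal
theorem vn_row (h : P.OK) (k : ι) : vn (fun l => Z k l) ≤ P.sR :=
  vn_le_of_sq (by linarith [h.sR1]) (by rw [← rr_eq s.symm, h.sR_sq]; exact s.hR k)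
theorem vn_col (h : P.OK) (k : ι) : vn (fun l => Z l k) ≤ P.sR :=
  vn_le_of_sq (by linarith [h.sR1]) (by rw [← rr_eq' s.symm, h.sR_sq]; exact s.hR k)
theorem rr0 (k : ι) : 0 ≤ rr Z k := rr_nonneg s.symm k
theorem dp_le (k : ι) : dp Z k ≤ P.R := (dp_le_rr s.symm k).trans (s.hR k)

/-- Master moment bound: a polynomial of degree at most four in `dp`. -/
theorem sum_dp2 : ∑ k, dp Z k ^ 2 ≤ P.D :=
  (sum_le_sum fun k _ => le_add_of_nonneg_right (by positivity)).trans s.hD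
theorem sum_dp4 : ∑ k, dp Z k ^ 4 ≤ P.D :=
  (sum_le_sum fun k _ => le_add_of_nonneg_left (by positivity)).trans s.hD
theorem sum_dp3 : ∑ k, dp Z k ^ 3 ≤ P.D :=
  (sum_le_sum fun k _ => by
    have := dp_nonneg Z k
    nlinarith [mul_nonneg (sq_nonneg (dp Z k)) (sq_nonneg (dp Z k - 1)), sq_nonneg (dp Z k),
      sq_nonneg (dp Z k ^ 2)]).trans s.hD
theorem vn_dp (h : P.OK) : vn (dp Z) ≤ P.sqD :=
  vn_le_of_sq (by linarith [h.sqD1]) (by rw [h.sqD_sq]; exact s.sum_dp2)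
theorem sum_dp (h : P.OK) : ∑ k, dp Z k ≤ P.sD := by
  have h1 := sum_abs_le (by linarith [h.sm1]) (s.card_sq h) (dp Z)
  simp only [abs_of_nonneg (dp_nonneg Z _)] at h1
  rw [h.sD_eq]
  exact h1.trans (mul_le_mul_of_nonneg_left (s.vn_dp h) (by linarith [h.sm1]))
/-- If `f k ≤ c0 + c1 p + c2 p^2 + c3 p^3 + c4 p^4` with `p = dp Z k`, its sum is bounded. -/
theorem sum_le_poly (h : P.OK) {f : ι → ℝ} {c0 c1 c2 c3 c4 : ℝ} (h1 : 0 ≤ c1) (h2 : 0 ≤ c2)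
    (h3 : 0 ≤ c3) (h4 : 0 ≤ c4) (hf : ∀ k, f k ≤ c0 + c1 * dp Z k + c2 * dp Z k ^ 2 +
      c3 * dp Z k ^ 3 + c4 * dp Z k ^ 4) :
    ∑ k, f k ≤ c0 * P.m + c1 * P.sD + (c2 + c3 + c4) * P.D := by
  refine (sum_le_sum fun k _ => hf k).trans ?_
  simp only [sum_add_distrib, ← mul_sum, s.sum_const]
  nlinarith [mul_le_mul_of_nonneg_left (s.sum_dp h) h1, mul_le_mul_of_nonneg_left s.sum_dp2 h2,
    mul_le_mul_of_nonneg_left s.sum_dp3 h3, mul_le_mul_of_nonneg_left s.sum_dp4 h4]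
theorem rr_pow_le (k : ι) (n : ℕ) : rr Z k ^ n ≤ (1 + dp Z k) ^ n :=
  pow_le_pow_left₀ (s.rr0 k) (rr_le_dp Z k) n
theorem sum_rr2 (h : P.OK) : ∑ k, rr Z k ^ 2 ≤ 4 * P.m := by
  have := s.sum_le_poly h (f := fun k => rr Z k ^ 2) (c0 := 2) (c1 := 0) (c2 := 2) (c3 := 0)
    (c4 := 0) le_rfl (by norm_num) le_rfl le_rfl fun k => by
      nlinarith [s.rr_pow_le k 2, sq_nonneg (dp Z k - 1)]
  linarith [h.D_le_m]
theorem sum_rr3 (h : P.OK) : ∑ k, rr Z k ^ 3 ≤ 8 * P.m := by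
  have := s.sum_le_poly h (f := fun k => rr Z k ^ 3) (c0 := 1) (c1 := 3) (c2 := 3) (c3 := 1)
    (c4 := 0) (by norm_num) (by norm_num) (by norm_num) le_rfl fun k => by
      nlinarith [s.rr_pow_le k 3]
  linarith [h.D_le_m, h.sD_le_m]
theorem sum_rr4 (h : P.OK) : ∑ k, rr Z k ^ 4 ≤ 16 * P.m := by
  have := s.sum_le_poly h (f := fun k => rr Z k ^ 4) (c0 := 1) (c1 := 4) (c2 := 6) (c3 := 4)
    (c4 := 1) (by norm_num) (by norm_num) (by norm_num) (by norm_num) fun k => by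
      nlinarith [s.rr_pow_le k 4]
  linarith [h.D_le_m, h.sD_le_m]
theorem vn_rr (h : P.OK) : vn (rr Z) ≤ 2 * P.sm :=
  vn_le_of_sq (by linarith [h.sm1]) (by rw [mul_pow, h.sm_sq]; linarith [s.sum_rr2 h])
theorem sum_abs_del_pow (h : P.OK) (n : ℕ) (hn : n = 1 ∨ n = 2 ∨ n = 3 ∨ n = 4) :
    ∑ k, |rr Z k - 1| ^ n ≤ 2 * P.m := by
  refine (sum_le_sum fun k _ => abs_del_pow_le s.symm k n).trans ?_
  rw [sum_add_distrib, s.sum_const]
  have h1 := s.sum_dp h; have h2 := s.sum_dp2; have h3 := s.sum_dp3; have h4 := s.sum_dp4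
  have := h.D_le_m; have := h.sD_le_m
  rcases hn with rfl | rfl | rfl | rfl <;> (try simp only [pow_one]) <;> linarith
theorem vn_del (h : P.OK) : vn (fun k => rr Z k - 1) ≤ 2 * P.sm :=
  vn_le_of_sq (by linarith [h.sm1]) (by
    have := s.sum_abs_del_pow h 2 (by simp)
    simp only [sq_abs] at this
    rw [mul_pow, h.sm_sq]; linarith [h.m1])
theorem sum_rr2_T2 (h : P.OK) : ∑ k, rr Z k ^ 2 ≤ T2 Z + 2 * P.sD := by
  have := s.sum_le_poly h (f := fun k => rr Z k ^ 2 - rr Z k) (c0 := 0) (c1 := 1) (c2 := 1)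
    (c3 := 0) (c4 := 0) (by norm_num) (by norm_num) le_rfl le_rfl fun k => by
      nlinarith [dp_mul_rr Z k, mul_le_mul_of_nonneg_left (rr_le_dp Z k) (s.rr0 k)]
  rw [sum_sub_distrib, sum_rr] at this
  linarith [h.D_le_sD]
theorem sum_rr4_T2 (h : P.OK) : ∑ k, rr Z k ^ 4 ≤ T2 Z + 14 * P.sD := by
  have := s.sum_le_poly h (f := fun k => rr Z k ^ 4 - rr Z k) (c0 := 0) (c1 := 3) (c2 := 6)
    (c3 := 4) (c4 := 1) (by norm_num) (by norm_num) (by norm_num) (by norm_num) fun k => by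
      have h1 := mul_le_mul_of_nonneg_left (s.rr_pow_le k 3) (s.rr0 k)
      have h2 := dp_mul_rr Z k
      have e : rr Z k * (1 + dp Z k) ^ 3 = rr Z k + dp Z k * rr Z k *
        (3 + 3 * dp Z k + dp Z k ^ 2) := by ring
      rw [e, h2] at h1
      nlinarith
  rw [sum_sub_distrib, sum_rr] at this
  linarith [h.D_le_sD]
theorem sum_dp_rr (h : P.OK) : ∑ k, dp Z k * rr Z k ≤ 2 * P.sD := by
  have := s.sum_le_poly h (f := fun k => dp Z k * rr Z k) (c0 := 0) (c1 := 1) (c2 := 1)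
    (c3 := 0) (c4 := 0) (by norm_num) (by norm_num) le_rfl le_rfl fun k => by
      rw [dp_mul_rr]; nlinarith
  linarith [h.D_le_sD]
theorem sum_dp2_rr (h : P.OK) : ∑ k, dp Z k ^ 2 * rr Z k ≤ 2 * P.D := by
  have := s.sum_le_poly h (f := fun k => dp Z k ^ 2 * rr Z k) (c0 := 0) (c1 := 0) (c2 := 1)
    (c3 := 1) (c4 := 0) le_rfl (by norm_num) (by norm_num) le_rfl fun k => by
      nlinarith [mul_le_mul_of_nonneg_left (rr_le_dp Z k) (sq_nonneg (dp Z k))]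
  linarith
theorem sum_dp3_rr (h : P.OK) : ∑ k, dp Z k ^ 3 * rr Z k ≤ 2 * P.D := by
  have := s.sum_le_poly h (f := fun k => dp Z k ^ 3 * rr Z k) (c0 := 0) (c1 := 0) (c2 := 0)
    (c3 := 1) (c4 := 1) le_rfl le_rfl (by norm_num) (by norm_num) fun k => by
      nlinarith [mul_le_mul_of_nonneg_left (rr_le_dp Z k) (pow_nonneg (dp_nonneg Z k) 3)]
  linarith
theorem sum_dp2_rr2 (h : P.OK) : ∑ k, dp Z k ^ 2 * rr Z k ^ 2 ≤ 4 * P.D := by
  have := s.sum_le_poly h (f := fun k => dp Z k ^ 2 * rr Z k ^ 2) (c0 := 0) (c1 := 0) (c2 := 1)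
    (c3 := 2) (c4 := 1) le_rfl (by norm_num) (by norm_num) (by norm_num) fun k => by
      nlinarith [mul_le_mul_of_nonneg_left (s.rr_pow_le k 2) (sq_nonneg (dp Z k))]
  linarith
theorem sum_gg_rr (h : P.OK) : ∑ k, gg Z k * rr Z k ≤ 12 * P.sD := by
  simp only [gg, add_mul, mul_assoc, sum_add_distrib, ← mul_sum]
  linarith [s.sum_dp_rr h, s.sum_dp3_rr h, h.D_le_sD]
theorem sum_gg (h : P.OK) : ∑ k, gg Z k ≤ 6 * P.sD := by
  simp only [gg, sum_add_distrib, ← mul_sum]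
  linarith [s.sum_dp h, s.sum_dp3, h.D_le_sD]
theorem rr_sq_le (h : P.OK) (k : ι) : rr (Z * Z) k ≤ P.L ^ 2 * rr Z k :=
  (s.op h).rr_sq_le s.symm k
theorem rr_sq0 (k : ι) : 0 ≤ rr (Z * Z) k := rr_nonneg (isSymm_sq s.symm) k
theorem sum_rr_rrsq (h : P.OK) : ∑ k, rr Z k * rr (Z * Z) k ≤ P.sRF ^ 2 := by
  have h1 : ∀ k, rr Z k * rr (Z * Z) k ≤ rr (Z * Z) k + P.L ^ 2 * (dp Z k * rr Z k) := fun k => by
    nlinarith [mul_le_mul_of_nonneg_right (rr_le_dp Z k) (s.rr_sq0 k),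
      mul_le_mul_of_nonneg_left (s.rr_sq_le h k) (dp_nonneg Z k)]
  refine (sum_le_sum fun k _ => h1 k).trans ?_
  rw [sum_add_distrib, sum_rr_sq, ← mul_sum]
  nlinarith [s.hL, h.hRF, mul_le_mul_of_nonneg_left (s.sum_dp_rr h) (sq_nonneg P.L)]
theorem sum_rr2_rrsq (h : P.OK) : ∑ k, rr Z k ^ 2 * rr (Z * Z) k ≤ 3 * P.sRF ^ 2 := by
  have h1 : ∀ k, rr Z k ^ 2 * rr (Z * Z) k ≤ rr (Z * Z) k +
      P.L ^ 2 * (2 * (dp Z k * rr Z k) + dp Z k ^ 2 * rr Z k) := fun k => by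
    have := dp_nonneg Z k
    nlinarith [mul_le_mul_of_nonneg_right (s.rr_pow_le k 2) (s.rr_sq0 k),
      mul_le_mul_of_nonneg_left (s.rr_sq_le h k) (show 0 ≤ 2 * dp Z k + dp Z k ^ 2 by positivity)]
  refine (sum_le_sum fun k _ => h1 k).trans ?_
  rw [sum_add_distrib, sum_rr_sq, ← mul_sum, sum_add_distrib, ← mul_sum]
  have h2 : 2 * ∑ k, dp Z k * rr Z k + ∑ k, dp Z k ^ 2 * rr Z k ≤ 6 * P.sD := by
    linarith [s.sum_dp_rr h, s.sum_dp2_rr h, h.D_le_sD]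
  have h3 : 0 ≤ P.L ^ 4 := by positivity
  nlinarith [s.hL, h.hRF, mul_le_mul_of_nonneg_left h2 (sq_nonneg P.L)]

end Side

omit [DecidableEq ι] in
theorem Ctx.symm {P : Par} {ε : ℝ} {Z Y : Mat ι} {w e : ι → ι → ℝ} (c : Ctx P ε Z Y w e) :
    Ctx P (-ε) Y Z w e :=
  ⟨c.ok, c.sY, by simpa using c.sZ, by rw [Mq_comm c.sY.symm c.sZ.symm]; exact c.hM,
    by simpa only [neg_smul, ← smul_neg, neg_sub] using c.wt, c.wY, c.wZ⟩

omit [DecidableEq ι] in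
theorem Ctx.fn_YZ {P : Par} {ε : ℝ} {Z Y : Mat ι} {w e : ι → ι → ℝ} (c : Ctx P ε Z Y w e) :
    fn (Y * Z) ≤ P.sM ∧ fn (Z * Y) ≤ P.sM := by
  have := fn_le_of_Mq c.sZ.symm c.sY.symm (by linarith [c.ok.sM1]) (s := P.sM)
    (by rw [c.ok.sM_sq]; exact c.hM)
  exact ⟨by rwa [fn_mul_comm c.sY.symm c.sZ.symm], this⟩

end Vale.Agent.P049
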