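import Vale.Agent.P049.Stmts
import Vale.Agent.P049.Norms

namespace Vale.Agent.P049

open Matrix Finset

namespace Spec

variable {ι : Type} [Fintype ι] [DecidableEq ι]

theorem exists_diag {Z : Mat ι} (h : Z.IsSymm) :
    ∃ (U : Mat ι) (l : ι → ℝ), Uᵀ * U = 1 ∧ U * Uᵀ = 1 ∧ Z = U * diagonal l * Uᵀ := by
  have hH : Z.IsHermitian := by
    rw [IsHermitian, conjTranspose_eq_transpose_of_trivial]; exact h
  refine ⟨hH.eigenvectorUnitary, hH.eigenvalues, ?_, ?_, ?_⟩
  · rw [← conjTranspose_eq_transpose_of_trivial]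
    exact Unitary.coe_star_mul_self hH.eigenvectorUnitary
  · rw [← conjTranspose_eq_transpose_of_trivial]
    exact Unitary.coe_mul_star_self hH.eigenvectorUnitary
  · rw [← conjTranspose_eq_transpose_of_trivial]
    exact hH.spectral_theorem

theorem qf_diag (U : Mat ι) (d v : ι → ℝ) :
    qf (U * diagonal d * Uᵀ) v = ∑ i, d i * (Uᵀ *ᵥ v) i ^ 2 := by
  rw [qf, ← mulVec_mulVec, ← mulVec_mulVec, dotProduct_mulVec, ← mulVec_transpose]
  simp only [dotProduct, mulVec_diagonal]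
  exact sum_congr rfl fun i _ => by ring

theorem dot_diag {U : Mat ι} (h : U * Uᵀ = 1) (v : ι → ℝ) : v ⬝ᵥ v = ∑ i, (Uᵀ *ᵥ v) i ^ 2 := by
  have := qf_diag U (fun _ => 1) v
  simpa [qf, h] using this

theorem eig {U : Mat ι} (h : Uᵀ * U = 1) (h' : U * Uᵀ = 1) (d : ι → ℝ) (i : ι) :
    ∃ v : ι → ℝ, v ⬝ᵥ v = 1 ∧ qf (U * diagonal d * Uᵀ) v = d i := by
  have e : Uᵀ *ᵥ (U *ᵥ Pi.single i 1) = Pi.single i 1 := by rw [mulVec_mulVec, h, one_mulVec]
  refine ⟨U *ᵥ Pi.single i 1, ?_, ?_⟩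
  · rw [dot_diag h', e]
    simp [Pi.single_apply]
  · rw [qf_diag, e]
    simp [Pi.single_apply]

theorem cube_eq {U : Mat ι} (h : Uᵀ * U = 1) (d : ι → ℝ) :
    U * diagonal d * Uᵀ * (U * diagonal d * Uᵀ) * (U * diagonal d * Uᵀ) =
      U * diagonal (fun i => d i ^ 3) * Uᵀ := by
  have e : diagonal d * diagonal d * diagonal d = diagonal fun i => d i ^ 3 := by
    rw [diagonal_mul_diagonal, diagonal_mul_diagonal]
    congr 1; funext i; ring
  rw [← e]
  simp only [Matrix.mul_assoc]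
  rw [← Matrix.mul_assoc Uᵀ U, ← Matrix.mul_assoc Uᵀ U, h, Matrix.one_mul, Matrix.one_mul]

theorem trace_nonneg {X Y : Mat ι} (hX : X.IsSymm) (h : ∀ v, 0 ≤ qf X v) (h' : ∀ v, 0 ≤ qf Y v) :
    0 ≤ trace (X * Y) := by
  obtain ⟨U, l, h1, h2, rfl⟩ := exists_diag hX
  rw [Matrix.mul_assoc, Matrix.mul_assoc, trace_mul_comm, Matrix.mul_assoc]
  simp only [trace, diag_apply, diagonal_mul, conj_apply]
  refine sum_nonneg fun k _ => mul_nonneg ?_ (h' _)
  obtain ⟨v, -, hv⟩ := eig h1 h2 l k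
  exact hv ▸ h v

theorem scalar {τ s μ b b' β H : ℝ} (hs : -1 ≤ s) (h1 : τ ≤ b) (h2 : -b' ≤ τ) (hb : 1 ≤ b)
    (hb' : b ≤ b') (hμ : 0 < μ) (hβ : 0 ≤ β) (hH : b * β + b' + μ ≤ H) (hβ' : b ≤ μ * β ^ 2) :
    τ * s - μ * s ^ 3 ≤ H := by
  have h0 : 0 ≤ b * β := by positivity
  rcases le_total s 0 with h | h
  · have a1 : τ * s ≤ b' := by nlinarith
    have a2 : -1 ≤ s ^ 3 := by nlinarith [mul_nonneg (by linarith : 0 ≤ s + 1) (sq_nonneg (s - 1 / 2))]
    nlinarith
  · have a1 : τ * s ≤ b * s := mul_le_mul_of_nonneg_right h1 h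
    have a2 : 0 ≤ μ * s ^ 3 := by positivity
    rcases le_total s β with h' | h'
    · nlinarith
    · have a3 : β ^ 2 ≤ s ^ 2 := pow_le_pow_left₀ hβ h' 2
      have a4 : b * s ≤ μ * s ^ 2 * s :=
        mul_le_mul_of_nonneg_right (hβ'.trans (mul_le_mul_of_nonneg_left a3 hμ.le)) h
      nlinarith

end Spec

open Spec

theorem specS : SpecS := by
  intro ι _ _ P ε Z ok sd v
  obtain ⟨U, l, h1, h2, hZ⟩ := exists_diag sd.symm
  have hε : ε * ε = 1 := by rcases sd.eps with h | h <;> rw [h] <;> norm_num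
  have hε' : |ε| = 1 := by rcases sd.eps with h | h <;> rw [h] <;> norm_num
  have hl : ∀ i, -1 ≤ ε * l i := by
    intro i
    obtain ⟨u, a, b⟩ := eig h1 h2 l i
    have := sd.low u
    rwa [a, hZ, b] at this
  have hτ : -P.b1' ≤ ε * T1 Z := by
    have := neg_abs_le (ε * T1 Z)
    rw [abs_mul, hε', one_mul] at this
    linarith [sd.hb1']
  have q1 : qf Z v = ∑ i, l i * (Uᵀ *ᵥ v) i ^ 2 := by rw [hZ, qf_diag]
  have q3 : qf (Z * Z * Z) v = ∑ i, l i ^ 3 * (Uᵀ *ᵥ v) i ^ 2 := by rw [hZ, cube_eq h1, qf_diag]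
  have e3 : ∀ i, (ε * l i) ^ 3 = ε * l i ^ 3 := fun i => by
    rw [mul_pow, pow_succ ε 2, sq, hε, one_mul]
  constructor
  · rw [q1, q3, dot_diag h2]
    simp only [mul_sum, ← sum_sub_distrib]
    refine sum_le_sum fun i _ => ?_
    have := scalar (hl i) sd.hb1 hτ ok.b11 ok.b1_le ok.μ_pos ok.β_nonneg ok.hH ok.hβ
    have e : ε * T1 Z * (ε * l i) = T1 Z * l i := by
      rw [mul_mul_mul_comm, hε, one_mul]
    rw [e, e3] at this
    nlinarith [sq_nonneg ((Uᵀ *ᵥ v) i)]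
  · have a1 : -(v ⬝ᵥ v) ≤ ε * qf (Z * Z * Z) v := by
      rw [q3, dot_diag h2, mul_sum, ← sum_neg_distrib]
      refine sum_le_sum fun i _ => ?_
      have a2 : -1 ≤ (ε * l i) ^ 3 := by
        nlinarith [mul_nonneg (by linarith [hl i] : 0 ≤ ε * l i + 1) (sq_nonneg (ε * l i - 1 / 2)),
          hl i]
      rw [e3] at a2
      nlinarith [sq_nonneg ((Uᵀ *ᵥ v) i)]
    have a0 : 0 ≤ v ⬝ᵥ v := by rw [dot_diag h2]; positivity
    have a2 : T1 Z * qf Z v ≤ P.b1 * |qf Z v| + P.b1' * (v ⬝ᵥ v) := by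
      have e : T1 Z * qf Z v = ε * T1 Z * (ε * qf Z v) := by rw [mul_mul_mul_comm, hε, one_mul]
      have e' : |qf Z v| = |ε * qf Z v| := by rw [abs_mul, hε', one_mul]
      rw [e, e']
      have b1 := sd.low v
      have b2 := sd.hb1
      have b3 := ok.b11
      have b4 := ok.b1_le
      rcases le_total 0 (ε * qf Z v) with h | h
      · rw [abs_of_nonneg h]
        nlinarith
      · rw [abs_of_nonpos h]
        nlinarith
    nlinarith [ok.μ_pos]

theorem trABS : TrABS := by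
  intro ι _ _ A B κ b sA sB hA hB hκ hκ' hb tA tB
  rcases isEmpty_or_nonempty ι with hι | hι
  · simp only [trace, univ_eq_empty, sum_empty]
    positivity
  have hm : (0 : ℝ) < Fintype.card ι := by exact_mod_cast Fintype.card_pos
  set m : ℝ := (Fintype.card ι : ℝ) with hmd
  let Jm : Mat ι := of fun _ _ => 1
  have hX : (A + κ • (1 : Mat ι)).IsSymm := sA.symm.add (isSymm_one.smul κ)
  have h1 : ∀ v, 0 ≤ qf (A + κ • (1 : Mat ι)) v := fun v => by
    have := hA v
    simp only [qf, add_mulVec, smul_mulVec, one_mulVec, dotProduct_add, dotProduct_smul,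
      smul_eq_mul] at this ⊢
    linarith
  have hB1 : B *ᵥ (fun _ => 1) = fun _ => 1 := by
    funext k
    simpa [mulVec, dotProduct] using sB.rows k (mem_univ k)
  have h2 : ∀ v, 0 ≤ qf (κ • (1 : Mat ι) + ((1 - κ) / m) • Jm - B) v := fun v => by
    set c := (∑ k, v k) / m with hc
    have hs : ∑ k, v k = c * m := by rw [hc]; field_simp
    have h0 := hB (v - c • fun _ => 1) (by
      simp only [Pi.sub_apply, Pi.smul_apply, smul_eq_mul, mul_one, sum_sub_distrib, sum_const,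
        card_univ, nsmul_eq_mul, hs]
      ring)
    have d1 : v ⬝ᵥ (fun _ => 1) = c * m := by simpa [dotProduct] using hs
    have d2 : (fun _ => 1 : ι → ℝ) ⬝ᵥ (fun _ => 1) = m := by simp [dotProduct, hmd]
    have d3 : (fun _ => 1 : ι → ℝ) ⬝ᵥ B *ᵥ v = c * m := by
      rw [dotProduct_mulVec, ← mulVec_transpose, sB.symm.eq, hB1, dotProduct_comm, d1]
    have d4 : Jm *ᵥ v = (c * m) • fun _ => 1 := by
      funext k
      simpa [Jm, mulVec, dotProduct] using hs
    simp only [qf, add_mulVec, sub_mulVec, smul_mulVec, one_mulVec, dotProduct_add, dotProduct_sub,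
      sub_dotProduct, smul_dotProduct, dotProduct_smul, mulVec_sub, mulVec_smul, smul_eq_mul, hB1,
      d1, d2, d3, d4, dotProduct_comm (fun _ => 1) v] at h0 ⊢
    have e : (1 - κ) / m * (c * m * (c * m)) = (1 - κ) * (c * c * m) := by field_simp
    rw [e]
    nlinarith
  have h3 := Spec.trace_nonneg hX h1 h2
  have t1 : trace (A * Jm) = m := by
    simp only [trace, diag_apply, mul_apply, Jm, of_apply, mul_one]
    rw [sum_congr rfl fun k hk => sA.rows k hk]
    simp [hmd]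
  have t2 : trace Jm = m := by simp [trace, Jm, hmd]
  simp only [Matrix.add_mul, Matrix.mul_add, Matrix.mul_sub, Matrix.smul_mul, Matrix.mul_smul,
    Matrix.mul_one, Matrix.one_mul, trace_add, trace_sub, trace_smul, trace_one, smul_eq_mul, t1,
    t2, ← hmd] at h3
  have e : (1 - κ) / m * m = 1 - κ := by field_simp
  rw [trace_mul_comm]
  unfold T1 at tA tB
  have hκ1 : κ ≤ 1 := by nlinarith
  have e' : (1 - κ) / m * (κ * m) = κ * (1 - κ) := by field_simp
  nlinarith [mul_le_mul_of_nonneg_left tA hκ, mul_le_mul_of_nonneg_left tB hκ]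

end Vale.Agent.P049
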