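import Vale.Agent.P049.Norms

/-! One rounded step on a padded state. -/

namespace Vale.Agent.P049

open Matrix Finset

namespace Step

variable {ι : Type} [Fintype ι] [DecidableEq ι]

/-! ### Restriction to the free indices -/

def res (F : Finset ι) (Z : Mat ι) : Mat F := fun k l => Z k l

def Sup (F : Finset ι) (Z : Mat ι) : Prop := ∀ k l, k ∉ F ∨ l ∉ F → Z k l = 0

variable {F : Finset ι}

omit [DecidableEq ι] in
theorem sum_res {f : ι → ℝ} (h : ∀ k, k ∉ F → f k = 0) : ∑ k : F, f k = ∑ k, f k := by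
  rw [sum_coe_sort F f]
  exact sum_subset (subset_univ _) fun k _ hk => h k hk

omit [DecidableEq ι] in
theorem sup_of_st {G : Finset ι} {Z : Mat ι} (h : St G Z) (hG : G ⊆ F) : Sup F Z := by
  rintro k l (hk | hl)
  · exact h.supp k l fun a => hk (hG a)
  · rw [h.symm.apply l k]
    exact h.supp l k fun a => hl (hG a)

omit [DecidableEq ι] in
theorem Sup.mul {X Y : Mat ι} (hX : Sup F X) (hY : Sup F Y) : Sup F (X * Y) := by
  rintro k l (hk | hl)
  · rw [mul_apply]
    exact sum_eq_zero fun p _ => by rw [hX k p (Or.inl hk), zero_mul]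
  · rw [mul_apply]
    exact sum_eq_zero fun p _ => by rw [hY p l (Or.inr hl), mul_zero]

omit [DecidableEq ι] in
theorem res_mul {X : Mat ι} (hX : Sup F X) (Y : Mat ι) : res F (X * Y) = res F X * res F Y := by
  ext k l
  rw [mul_apply]
  show (X * Y) k l = ∑ p : F, X k p * Y p l
  rw [mul_apply, sum_res (f := fun p => X k p * Y p l)]
  intro p hp
  rw [hX k p (Or.inr hp), zero_mul]

omit [DecidableEq ι] in
theorem trace_res {X : Mat ι} (hX : Sup F X) : trace (res F X) = trace X :=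
  sum_res (f := fun k => X k k) fun k hk => hX k k (Or.inl hk)

omit [DecidableEq ι] in
theorem T2_res {Z : Mat ι} (h : Sup F Z) : T2 (res F Z) = T2 Z := by
  rw [T2, T2, ← res_mul h, trace_res (h.mul h)]

omit [DecidableEq ι] in
theorem T3_res {Z : Mat ι} (h : Sup F Z) : T3 (res F Z) = T3 Z := by
  rw [T3, T3, ← res_mul h, ← res_mul (h.mul h), trace_res ((h.mul h).mul h)]

omit [DecidableEq ι] in
theorem Mq_res {A B : Mat ι} (h : Sup F A) (h' : Sup F B) : Mq (res F A) (res F B) = Mq A B := by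
  rw [Mq, Mq, ← res_mul h, ← res_mul (h.mul h), ← res_mul ((h.mul h).mul h'),
    trace_res (((h.mul h).mul h').mul h')]

omit [DecidableEq ι] in
theorem Dp_res {Z : Mat ι} (h : Sup F Z) : Dp (res F Z) = Dp Z := by
  have e : ∀ k : F, dp (res F Z) k = dp Z k := by
    intro k
    rw [dp, rr, ← res_mul h]
    rfl
  rw [Dp, Dp, ← sum_res (F := F)]
  · exact sum_congr rfl fun k _ => by rw [e]
  · intro k hk
    have : dp Z k = 0 := by
      rw [dp, rr, (h.mul h) k k (Or.inl hk)]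
      norm_num
    rw [this]
    norm_num

omit [DecidableEq ι] in
theorem Ad_res {Z : Mat ι} (h : Sup F Z) : Ad (res F Z) = Ad Z :=
  sum_res (f := fun k => Z k k ^ 2) fun k hk => by rw [h k k (Or.inl hk)]; norm_num

omit [DecidableEq ι] in
theorem A4_res {Z : Mat ι} (h : Sup F Z) : A4 (res F Z) = A4 Z :=
  sum_res (f := fun k => Z k k ^ 4) fun k hk => by rw [h k k (Or.inl hk)]; norm_num

omit [DecidableEq ι] in
theorem side_res {Z : Mat ι} (h : Sup F Z) (t m ε : ℝ) : side t m ε (res F Z) = side t m ε Z := by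
  rw [side, side, T2_res h, T3_res h, T4_eq_Mq, T4_eq_Mq, Mq_res h h, Dp_res h, Ad_res h,
    A4_res h, T1, T1, trace_res h]

omit [DecidableEq ι] in
theorem Phi_res {A B : Mat ι} (h : Sup F A) (h' : Sup F B) (t m : ℝ) :
    Phi t m (res F A) (res F B) = Phi t m A B := by
  rw [Phi, Phi, side_res h, side_res h', Mq_res h h']

omit [Fintype ι] in
theorem upd_res (Z : Mat ι) (i j : F) : upd (res F Z) i j = res F (upd Z i j) := by
  ext k l
  show upd (res F Z) i j k l = upd Z i j k l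
  unfold upd
  by_cases hc : k = i ∨ k = j ∨ l = i ∨ l = j
  · rw [if_pos hc, if_pos (by simpa only [Subtype.ext_iff] using hc)]
  · rw [if_neg hc, if_neg (by simpa only [Subtype.ext_iff] using hc)]
    rfl

omit [DecidableEq ι] in
theorem st_res {Z : Mat ι} (h : St F Z) : St univ (res F Z) := by
  refine ⟨?_, fun k _ hk => absurd (mem_univ k) hk, fun k _ => ?_⟩
  · ext k l
    exact h.symm.apply k l
  · rw [← h.rows k k.2]
    exact sum_res (f := fun l => Z k l) fun l hl => sup_of_st h Subset.rfl k l (Or.inr hl)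

/-- Extension by zero. -/
def ext0 (F : Finset ι) (v : F → ℝ) : ι → ℝ := fun k => if h : k ∈ F then v ⟨k, h⟩ else 0

omit [Fintype ι] in
theorem ext0_mem (v : F → ℝ) (k : F) : ext0 F v k = v k := dif_pos k.2

omit [Fintype ι] in
theorem ext0_not (v : F → ℝ) {k : ι} (hk : k ∉ F) : ext0 F v k = 0 := dif_neg hk

theorem dot_ext0 (v : F → ℝ) (u : ι → ℝ) : ext0 F v ⬝ᵥ u = v ⬝ᵥ fun k => u k := by
  rw [dotProduct, ← sum_res (F := F)]
  · exact sum_congr rfl fun k _ => by rw [ext0_mem]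
  · intro k hk
    rw [ext0_not v hk, zero_mul]

theorem dot_ext0_self (v : F → ℝ) : ext0 F v ⬝ᵥ ext0 F v = v ⬝ᵥ v := by
  rw [dot_ext0]
  exact sum_congr rfl fun k _ => by simp only [ext0_mem]

theorem qf_ext0 (Z : Mat ι) (v : F → ℝ) : qf Z (ext0 F v) = qf (res F Z) v := by
  rw [qf, dot_ext0, qf]
  congr 1
  funext k
  show (fun l => Z k l) ⬝ᵥ ext0 F v = _
  rw [dotProduct_comm, dot_ext0, dotProduct_comm]
  rfl

theorem lowA_res {Z : Mat ι} {κ : ℝ} (h : LowA κ Z) : LowA κ (res F Z) := by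
  intro v
  rw [← qf_ext0, ← dot_ext0_self]
  exact h _

theorem upB_res {Z : Mat ι} {κ : ℝ} (h : UpB κ F Z) : UpB κ univ (res F Z) := by
  intro v hv
  rw [← qf_ext0, ← dot_ext0_self]
  refine h _ ?_
  rw [← sum_coe_sort F, ← hv]
  exact sum_congr rfl fun k _ => ext0_mem v k

omit [Fintype ι] in
theorem okRel_res {ok : ι → ι → Prop} {cd : ℕ} (h : OkRel ok F cd) :
    OkRel (fun i j : F => ok i j) univ cd := by
  refine ⟨fun i j => h.symm i j, fun i => h.irr i, fun i _ => ?_⟩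
  obtain ⟨S, hS, hS'⟩ := h.few i i.2
  refine ⟨S.subtype (· ∈ F), ?_, fun j _ hj => hS' j j.2 fun a => hj (mem_subtype.2 a)⟩
  rw [card_subtype]
  exact (card_filter_le _ _).trans hS

/-! ### Sizes of the entries -/

omit [DecidableEq ι] in
theorem entry_le {Z : Mat ι} (h : Z.IsSymm) {n : ℝ} (hn : 1 ≤ n) (h2 : T2 Z ≤ n) (k l : ι) :
    |Z k l| ≤ n :=
  (abs_le_fn Z k l).trans (fn_le_of_T2 h (by linarith) (by nlinarith))

omit [Fintype ι] in
theorem upd_le {Z : Mat ι} {n : ℝ} (hn : 1 ≤ n) (h : ∀ k l, |Z k l| ≤ n) {i j : ι}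
    (hr : 1 / 2 ≤ rho Z i j) (k l : ι) : |upd Z i j k l| ≤ 13 * n ^ 3 := by
  have hn0 : 0 ≤ n := by linarith
  have hr0 : 0 < rho Z i j := by linarith
  have hd : ∀ x c : ℝ, |x| ≤ c → |x / rho Z i j| ≤ 2 * c := by
    intro x c hx
    rw [abs_div, abs_of_pos hr0, div_le_iff₀ hr0]
    nlinarith [abs_nonneg x]
  have hm : ∀ x y a b : ℝ, |x| ≤ a → |y| ≤ b → |x * y| ≤ a * b := by
    intro x y a b hx hy
    rw [abs_mul]
    exact mul_le_mul hx hy (abs_nonneg _) ((abs_nonneg _).trans hx)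
  have h11 : |t11 Z i j| ≤ 2 * n := hd _ _ (h _ _)
  have h22 : |t22 Z i j| ≤ 2 * n := hd _ _ (h _ _)
  have h12 : |t12 Z i j| ≤ 2 * (2 * n) := by
    refine hd _ _ ((abs_sub _ _).trans ?_)
    have := h i j
    rw [abs_one]
    linarith
  unfold upd
  split_ifs
  · rw [abs_zero]
    positivity
  · have a1 := hm _ _ _ _ h11 (hm _ _ _ _ (h k i) (h l i))
    have a2 := hm _ _ _ _ h22 (hm _ _ _ _ (h k j) (h l j))
    have a3 := hm _ _ _ _ h12 ((abs_add_le _ _).trans
      (add_le_add (hm _ _ _ _ (h k i) (h l j)) (hm _ _ _ _ (h k j) (h l i))))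
    have a4 := h k l
    have a5 : n ≤ n ^ 3 := le_self_pow₀ hn (by norm_num)
    refine (abs_add_le _ _).trans ?_
    refine (add_le_add_left ((abs_add_le _ _).trans (add_le_add_left (abs_add_le _ _) _)) _).trans ?_
    nlinarith

theorem xi_eq {n : ℝ} (hn : 0 < n) : n / n ^ eG = 1 / n ^ 39 := by
  unfold eG
  field_simp

theorem round_le {n x y : ℝ} (hn : 14 ≤ n) (hy : |y| ≤ 13 * n ^ 3) (h : |x - y| ≤ n / n ^ eG) :
    |x| ≤ n ^ 4 := by
  rw [xi_eq (by linarith)] at h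
  have h1 : (1 : ℝ) ≤ n ^ 39 := one_le_pow₀ (by linarith)
  have h2 : 1 / n ^ 39 ≤ 1 := by
    rw [div_le_one (by linarith)]
    exact h1
  have h3 : (1 : ℝ) ≤ n ^ 3 := one_le_pow₀ (by linarith)
  have h4 := abs_sub_abs_le_abs_sub x y
  nlinarith

/-- Everything about the rounded matrices. -/
theorem round (h2 : UpdS) (h3 : RndS) {Z : Mat ι} (hZ : St F Z) {i j : ι} (hi : i ∈ F) (hj : j ∈ F)
    (hij : i ≠ j) (hr : 1 / 2 ≤ rho Z i j) (hn : (14 : ℝ) ≤ Fintype.card ι)
    (hT : T2 Z ≤ Fintype.card ι) :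
    St ((F.erase i).erase j) (upd Z i j) ∧ (∀ k l, |upd Z i j k l| ≤ (Fintype.card ι : ℝ) ^ 4) ∧
    ∀ Z' : Mat ι, Z' = rnd (fl ((Fintype.card ι : ℝ) ^ eG)) ((F.erase i).erase j) (upd Z i j) ∨
      Z' = rnd (ce ((Fintype.card ι : ℝ) ^ eG)) ((F.erase i).erase j) (upd Z i j) →
      St ((F.erase i).erase j) Z' ∧ (∀ k l, |Z' k l| ≤ (Fintype.card ι : ℝ) ^ 4) ∧
        ∀ k l, |Z' k l - upd Z i j k l| ≤ Fintype.card ι / (Fintype.card ι : ℝ) ^ eG := by
  have hs := (h2 ι F Z i j hZ hi hj hij (by linarith)).1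
  have hn1 : (1 : ℝ) ≤ Fintype.card ι := by linarith
  have hu := upd_le hn1 (entry_le hZ.symm hn1 hT) hr
  obtain ⟨r1, r2⟩ := h3 ι _ _ ((Fintype.card ι : ℝ) ^ eG) hs (by positivity)
  refine ⟨hs, fun k l => round_le hn (hu k l) ?_, ?_⟩
  · rw [sub_self, abs_zero]
    positivity
  · rintro Z' (rfl | rfl)
    · exact ⟨r1.1, fun k l => round_le hn (hu k l) (r1.2.2 k l), r1.2.2⟩
    · exact ⟨r2.1, fun k l => round_le hn (hu k l) (r2.2.2 k l), r2.2.2⟩

/-! ### Budgets -/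

theorem bud_nonneg (e a b : ℕ) {t m : ℝ} (ht : 0 ≤ t) (hm : 0 ≤ m) : 0 ≤ bud e a b t m := by
  unfold bud
  positivity

theorem bud_pos (e a b : ℕ) {t m : ℝ} (ht : 0 < t) (hm : 0 < m) : 0 < bud e a b t m := by
  unfold bud
  positivity

theorem bud_ge_one {e a c x y : ℕ} {t m : ℝ} (ht : 2 ≤ t) (hlo : t ^ x ≤ m) (hhi : m ≤ t ^ y)
    (h1 : (eh + 1) * (a + c) ≤ e + x * a) (h2 : a + c + y * c ≤ e) : 1 ≤ bud e a (a + c) t m := by
  have ht1 : 1 ≤ t := by linarith
  have ht0 : 0 < t := by linarith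
  have hx : 0 < t ^ x := by positivity
  have hm : 0 < m := lt_of_lt_of_le hx hlo
  have hh : 0 < t ^ eh := by positivity
  unfold bud
  rw [one_le_div (by positivity)]
  rcases le_total m (t ^ eh) with h | h
  · calc (m + t ^ eh) ^ (a + c) ≤ (t ^ (eh + 1)) ^ (a + c) := by
          refine pow_le_pow_left₀ (by positivity) ?_ _
          rw [pow_succ]
          nlinarith
      _ ≤ t ^ (e + x * a) := by
          rw [← pow_mul]
          exact pow_le_pow_right₀ ht1 h1
      _ ≤ t ^ e * m ^ a := by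
          rw [pow_add, pow_mul]
          exact mul_le_mul_of_nonneg_left (pow_le_pow_left₀ hx.le hlo _) (by positivity)
  · calc (m + t ^ eh) ^ (a + c) ≤ (t * m) ^ (a + c) := by
          refine pow_le_pow_left₀ (by positivity) ?_ _
          nlinarith
      _ = t ^ (a + c) * m ^ c * m ^ a := by rw [mul_pow, pow_add m, mul_assoc, mul_comm (m ^ c)]
      _ ≤ t ^ (a + c) * (t ^ y) ^ c * m ^ a := by
          refine mul_le_mul_of_nonneg_right (mul_le_mul_of_nonneg_left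
            (pow_le_pow_left₀ hm.le hhi _) (by positivity)) (by positivity)
      _ ≤ t ^ e * m ^ a := by
          rw [← pow_mul, ← pow_add]
          exact mul_le_mul_of_nonneg_right (pow_le_pow_right₀ ht1 h2) (by positivity)

theorem Te_le {t m : ℝ} (ht : 0 < t) (hm : 0 < m) : Te t m ≤ m := by
  have hh : 0 < t ^ eh := by positivity
  unfold Te bud
  rw [div_le_iff₀ (by positivity), pow_zero, pow_one]
  nlinarith

omit [DecidableEq ι] in
theorem up_all {B : Mat ι} {κ : ℝ} (hB : St univ B) (hU : UpB κ univ B) (hκ : κ ≤ 1)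
    (hn : (Fintype.card ι : ℝ) ≠ 0) (v : ι → ℝ) : qf B v ≤ v ⬝ᵥ v := by
  obtain ⟨u, hu⟩ : ∃ u : ι → ℝ, u = fun _ => (∑ k, v k) / Fintype.card ι := ⟨_, rfl⟩
  have h1 : B *ᵥ u = u := by
    funext k
    rw [hu]
    simp only [mulVec, dotProduct]
    rw [← sum_mul, hB.rows k (mem_univ k), one_mul]
  have h2 := hU (v - u) (by
    rw [hu]
    simp only [Pi.sub_apply, sum_sub_distrib, sum_const, card_univ, nsmul_eq_mul]
    field_simp
    ring)
  have h3 : u ⬝ᵥ B *ᵥ v = u ⬝ᵥ v := by rw [← dot_mulVec_symm hB.symm, h1]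
  have h4 : qf B (v - u) = qf B v - v ⬝ᵥ v + (v - u) ⬝ᵥ (v - u) := by
    simp only [qf, mulVec_sub, h1, sub_dotProduct, dotProduct_sub, h3]
    ring
  have h5 : 0 ≤ (v - u) ⬝ᵥ (v - u) := by
    rw [← vn_sq_dot]
    positivity
  nlinarith

omit [DecidableEq ι] in
theorem side_low {Z : Mat ι} (hZ : Z.IsSymm) {ε t m : ℝ} (ht : 0 < t) (hm : 0 < m)
    (hl : ∀ v : ι → ℝ, -(v ⬝ᵥ v) ≤ ε * qf Z v) :
    max (T2 Z - Te t m) 0 ^ 2 / BS t m ^ 2 ≤ side t m ε Z := by
  have a3 := div_nonneg (T3_low hZ hl) (bud_pos e3 2 2 ht hm).le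
  have a4 := div_nonneg (T4_nonneg hZ) (bud_pos e4 3 4 ht hm).le
  have a5 := div_nonneg (Dp_nonneg Z) (bud_pos eD 1 3 ht hm).le
  have a6 := div_nonneg (Ad_nonneg Z)
    (add_nonneg (bud_pos eA 1 2 ht hm).le (pow_pos ht eA').le)
  have a7 := div_nonneg (A4_nonneg Z) (pow_pos ht eZ).le
  have a1 := div_nonneg (sq_nonneg (max (ε * T1 Z) 0)) (sq_nonneg (B1 t m))
  have a2 := div_nonneg (sq_nonneg (T1 Z)) (sq_nonneg (B1' t m))
  unfold side sideV B3 B4 BD BA BZ
  linarith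

theorem T2_le_of {x t m : ℝ} (ht : 1 ≤ t) (hm : 0 < m)
    (h : max (x - Te t m) 0 ^ 2 / BS t m ^ 2 ≤ 1) : x * t ^ eh ≤ 2 * m ^ 2 := by
  have ht0 : 0 < t := by linarith
  have hh : 0 < t ^ eh := by positivity
  have hB : 0 < BS t m := bud_pos _ _ _ ht0 hm
  rw [div_le_one (by positivity), pow_le_pow_iff_left₀ (le_max_right _ _) hB.le two_ne_zero] at h
  have h1 : x - Te t m ≤ BS t m := (le_max_left _ _).trans h
  have h2 : BS t m ≤ Te t m := by
    have : t ^ eS ≤ t ^ eh := pow_le_pow_right₀ ht (by unfold eS eh; norm_num)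
    unfold BS Te bud
    rw [div_le_div_iff₀ (by positivity) (by positivity), pow_zero, pow_one, one_mul, sq (m + _),
      ← mul_assoc]
    refine mul_le_mul_of_nonneg_right ?_ (by positivity)
    rw [mul_comm]
    exact mul_le_mul_of_nonneg_left (by linarith) (by positivity)
  have h3 : Te t m * t ^ eh ≤ m ^ 2 := by
    unfold Te bud
    rw [pow_zero, pow_one, one_mul, div_mul_eq_mul_div, div_le_iff₀ (by positivity)]
    exact mul_le_mul_of_nonneg_left (by linarith) (by positivity)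
  have h4 : x * t ^ eh ≤ 2 * Te t m * t ^ eh := mul_le_mul_of_nonneg_right (by linarith) hh.le
  linarith

end Step

open Step

theorem stepA_of (h1 : CoreAS) (h2 : UpdS) (h3 : RndS) (h4 : LipS) : StepAS := by
  intro ι _ _ F A B ok cd κ t hA hB hl hu hκ0 hκ hok ht hcd hlo hhi hΦ
  have sA := sup_of_st hA (Subset.refl F)
  have sB := sup_of_st hB (Subset.refl F)
  have hmn : (F.card : ℝ) ≤ Fintype.card ι := by exact_mod_cast card_le_univ F
  have hc := h1 F (res F A) (res F B) (fun i j => ok i j) cd κ t (st_res hA) (st_res hB)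
    (lowA_res hl) (upB_res hu) hκ0 hκ (okRel_res hok) ht hcd
  rw [Fintype.card_coe, Phi_res sA sB, T2_res sA, T2_res sB] at hc
  obtain ⟨tA, tB, i, j, hij, rA, rB, hP⟩ := hc hlo (hmn.trans hhi) hΦ
  have hne : (i : ι) ≠ j := by
    intro e
    rw [e] at hij
    exact hok.irr _ hij
  have ht1 : (1 : ℝ) ≤ t := le_trans (by norm_num) ht
  have ht20 : (20 : ℝ) ≤ t := le_trans (by norm_num) ht
  obtain ⟨x, hx⟩ : ∃ x : ℕ, x = 18102 := ⟨_, rfl⟩
  have hx1 : en1 = x + 1 := by rw [hx]; unfold en1; rfl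
  have hxt : t ≤ t ^ x := le_self_pow₀ ht1 (by omega)
  rw [hx1, pow_succ] at hlo
  have hlo' : t ^ x ≤ (F.card : ℝ) - 2 := by nlinarith
  have hm20 : 20 * t ≤ F.card := by nlinarith
  have hn : (14 : ℝ) ≤ Fintype.card ι := by linarith
  obtain ⟨uA, bA, cA⟩ := round h2 h3 hA i.2 j.2 hne rA hn (tA.trans hmn)
  obtain ⟨uB, bB, cB⟩ := round h2 h3 hB i.2 j.2 hne rB hn (tB.trans hmn)
  obtain ⟨-, dA, eA⟩ := cA _ (Or.inl rfl)
  obtain ⟨-, dB, eB⟩ := cB _ (Or.inr rfl)
  have hsub : (F.erase i).erase j ⊆ F := (erase_subset _ _).trans (erase_subset _ _)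
  rw [upd_res, upd_res, Phi_res (sup_of_st uA hsub) (sup_of_st uB hsub)] at hP
  refine ⟨i, i.2, j, j.2, hij, lt_of_lt_of_le (by norm_num) rA, lt_of_lt_of_le (by norm_num) rB,
    dA, dB, ?_⟩
  have hn0 : (0 : ℝ) < Fintype.card ι := by linarith
  have hm2 : (1 : ℝ) ≤ (F.card : ℝ) - 2 := by linarith
  have hhi' : (F.card : ℝ) - 2 ≤ t ^ (eN + 1) := by linarith
  have ht2 : (2 : ℝ) ≤ t := by linarith
  have hL := (h4 ι _ _ _ _ _ _ (one_le_pow₀ (by linarith)) (by positivity)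
    (by exact_mod_cast (show (1 : ℝ) ≤ Fintype.card ι by linarith)) bA bB dA dB eA eB).2 t
    ((F.card : ℝ) - 2) (bud_nonneg _ _ _ (by linarith) (by linarith))
    ((Te_le (by linarith) (by linarith)).trans (by linarith))
    (bud_ge_one (c := 0) ht2 hlo' hhi' (by rw [hx]; unfold eh e1; norm_num) (by unfold e1; norm_num))
    (bud_ge_one (c := 0) ht2 hlo' hhi' (by rw [hx]; unfold eh e1'; norm_num)
      (by unfold e1'; norm_num))
    (bud_ge_one (c := 0) ht2 hlo' hhi' (by rw [hx]; unfold eh eS; norm_num) (by unfold eS; norm_num))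
    (bud_ge_one (c := 0) ht2 hlo' hhi' (by rw [hx]; unfold eh e3; norm_num) (by unfold e3; norm_num))
    (bud_ge_one (c := 1) ht2 hlo' hhi' (by rw [hx]; unfold eh e4; norm_num)
      (by unfold eN e4; norm_num))
    (bud_ge_one (c := 2) ht2 hlo' hhi' (by rw [hx]; unfold eh eD; norm_num)
      (by unfold eN eD; norm_num))
    (le_add_of_nonneg_of_le (bud_nonneg _ _ _ (by linarith) (by linarith)) (one_le_pow₀ ht1))
    (one_le_pow₀ ht1) (one_le_mul_of_one_le_of_one_le (one_le_pow₀ ht1) hm2)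
  have hm0 : (0 : ℝ) < F.card := by linarith
  have ht0 : 0 < t := by linarith
  have key : 10 ^ 5 * (Fintype.card ι : ℝ) ^ 5 * ((Fintype.card ι : ℝ) ^ 4) ^ 8 *
      (Fintype.card ι / (Fintype.card ι : ℝ) ^ eG) ≤ 5000 / (t * F.card) := by
    rw [xi_eq hn0]
    generalize (Fintype.card ι : ℝ) = n at hmn hn0
    have e : 10 ^ 5 * n ^ 5 * (n ^ 4) ^ 8 * (1 / n ^ 39) = 10 ^ 5 / n ^ 2 := by
      field_simp
    rw [e, div_le_div_iff₀ (by positivity) (by positivity)]
    nlinarith [mul_le_mul (hm20.trans hmn) hmn hm0.le hn0.le]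
  have e2 : (10000 : ℝ) / (t * F.card) = 5000 / (t * F.card) + 5000 / (t * F.card) := by ring
  have := (abs_le.1 hL).2
  linarith

theorem stepC_of (h1 : CoreCS) (h2 : UpdS) (h3 : RndS) (h4 : LipS) (h5 : BaseS) : StepCS := by
  intro ι _ _ F A B ok cd t hA hB hok ht hcd hlo hX
  have sA := sup_of_st hA (Subset.refl F)
  have sB := sup_of_st hB (Subset.refl F)
  have hmn : (F.card : ℝ) ≤ Fintype.card ι := by exact_mod_cast card_le_univ F
  have hc := h1 F (res F A) (res F B) (fun i j => ok i j) cd t (st_res hA) (st_res hB)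
    (okRel_res hok) ht hcd
  rw [Fintype.card_coe, T2_res sA, T2_res sB] at hc
  obtain ⟨tA, tB, i, j, hij, rA, rB, hP⟩ := hc hlo hX
  have hne : (i : ι) ≠ j := by
    intro e
    rw [e] at hij
    exact hok.irr _ hij
  have ht1 : (1 : ℝ) ≤ t := le_trans (by norm_num) ht
  have ht20 : (20 : ℝ) ≤ t := le_trans (by norm_num) ht
  have hxt : t ≤ t ^ en2 := le_self_pow₀ ht1 (by unfold en2; norm_num)
  have hm20 : (20 : ℝ) ≤ F.card := by linarith
  have hn : (14 : ℝ) ≤ Fintype.card ι := by linarith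
  obtain ⟨uA, bA, cA⟩ := round h2 h3 hA i.2 j.2 hne rA hn (tA.trans hmn)
  obtain ⟨uB, bB, cB⟩ := round h2 h3 hB i.2 j.2 hne rB hn (tB.trans hmn)
  obtain ⟨sA', dA, eA⟩ := cA _ (Or.inl rfl)
  obtain ⟨sB', dB, eB⟩ := cB _ (Or.inr rfl)
  have hsub : (F.erase i).erase j ⊆ F := (erase_subset _ _).trans (erase_subset _ _)
  rw [upd_res, upd_res, T2_res (sup_of_st uA hsub), T2_res (sup_of_st uB hsub)] at hP
  refine ⟨i, i.2, j, j.2, hij, lt_of_lt_of_le (by norm_num) rA, lt_of_lt_of_le (by norm_num) rB,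
    dA, dB, ?_⟩
  have hn0 : (0 : ℝ) < Fintype.card ι := by linarith
  have hn1 : 1 ≤ Fintype.card ι := by
    exact_mod_cast (show (1 : ℝ) ≤ Fintype.card ι by linarith)
  have hLA := (h4 ι _ _ _ _ _ _ (one_le_pow₀ (by linarith)) (by positivity) hn1
    bA bB dA dB eA eB).1
  have hLB := (h4 ι _ _ _ _ _ _ (one_le_pow₀ (by linarith)) (by positivity) hn1
    bB bA dB dA eB eA).1
  have hne' : ((F.erase i).erase j).Nonempty := by
    rw [← card_pos]
    have a1 := pred_card_le_card_erase (s := F) (a := (i : ι))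
    have a2 := pred_card_le_card_erase (s := F.erase i) (a := (j : ι))
    have a3 : 20 ≤ F.card := by exact_mod_cast hm20
    omega
  have pA := (h5 ι _ _ sA').1 hne'
  have pB := (h5 ι _ _ sB').1 hne'
  have hm0 : (0 : ℝ) < F.card := by linarith
  have key : 2 * (2 * (Fintype.card ι : ℝ) ^ 2 * (Fintype.card ι : ℝ) ^ 4 *
      (Fintype.card ι / (Fintype.card ι : ℝ) ^ eG)) ≤ 1 / (F.card : ℝ) ^ 2 := by
    rw [xi_eq hn0]
    generalize (Fintype.card ι : ℝ) = n at hmn hn0 hn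
    have e : 2 * (2 * n ^ 2 * n ^ 4 * (1 / n ^ 39)) = 4 / (n ^ 31 * n ^ 2) := by
      field_simp
      norm_num
    have a1 : n ≤ n ^ 31 := le_self_pow₀ (by linarith) (by norm_num)
    have a2 : (F.card : ℝ) ^ 2 ≤ n ^ 2 := pow_le_pow_left₀ hm0.le hmn 2
    rw [e, div_le_div_iff₀ (by positivity) (by positivity), one_mul]
    exact mul_le_mul (by linarith) a2 (by positivity) (by positivity)
  have b1 := (abs_le.1 hLA).2
  have b2 := (abs_le.1 hLB).2
  generalize T2 (rnd (fl ((Fintype.card ι : ℝ) ^ eG)) ((F.erase i).erase j) (upd A i j)) = x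
    at pA b1
  generalize T2 (rnd (ce ((Fintype.card ι : ℝ) ^ eG)) ((F.erase i).erase j) (upd B i j)) = y
    at pB b2
  have hp : 0 < t ^ (eC / 2) := by positivity
  have c1 : (x + y - 2) * t ^ (eC / 2) ≤ √((F.card : ℝ) - 2) :=
    le_trans (mul_le_mul_of_nonneg_right (by linarith) hp.le) hP
  have c2 := pow_le_pow_left₀ (mul_nonneg (by linarith) hp.le) c1 2
  rw [Real.sq_sqrt (by linarith), mul_pow, ← pow_mul] at c2
  have e : eC / 2 * 2 = eC := by unfold eC; norm_num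
  rwa [e] at c2

theorem switch_of (h5 : BaseS) : SwitchS := by
  intro ι _ _ F A B κ t hA hB hl hu hκ0 hκ ht hF hhi hΦ
  have sA := sup_of_st hA (Subset.refl F)
  have sB := sup_of_st hB (Subset.refl F)
  have pA := (h5 ι _ _ hA).1 hF
  have pB := (h5 ι _ _ hB).1 hF
  have hm0 : (0 : ℝ) < F.card := by exact_mod_cast card_pos.2 hF
  have ht1 : (1 : ℝ) ≤ t := le_trans (by norm_num) ht
  have ht16 : (16 : ℝ) ≤ t := le_trans (by norm_num) ht
  have ht0 : 0 < t := by linarith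
  have lA := side_low hA.symm (ε := 1) ht0 hm0 fun v => by
    have a1 := hl v
    have a2 : 0 ≤ v ⬝ᵥ v := by
      rw [← vn_sq_dot]
      positivity
    nlinarith
  have lB := side_low (st_res hB).symm (ε := -1) ht0 hm0 fun v => by
    have a1 := up_all (st_res hB) (upB_res hu) hκ (by rw [Fintype.card_coe]; exact hm0.ne') v
    linarith
  rw [side_res sB, T2_res sB] at lB
  have lM : 0 ≤ Mq A B / BM t (F.card : ℝ) :=
    div_nonneg (Mq_nonneg hA.symm hB.symm) (mul_pos (pow_pos ht0 _) hm0).le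
  have nA : 0 ≤ max (T2 A - Te t (F.card : ℝ)) 0 ^ 2 / BS t (F.card : ℝ) ^ 2 := by positivity
  have nB : 0 ≤ max (T2 B - Te t (F.card : ℝ)) 0 ^ 2 / BS t (F.card : ℝ) ^ 2 := by positivity
  unfold Phi at hΦ
  have qA := T2_le_of (x := T2 A) ht1 hm0 (by linarith)
  have qB := T2_le_of (x := T2 B) ht1 hm0 (by linarith)
  have hh : 0 < t ^ eh := by positivity
  generalize (F.card : ℝ) = m at *
  have c1 : (T2 A + T2 B - 2) * t ^ eh ≤ 4 * m ^ 2 := by nlinarith
  have c2 := pow_le_pow_left₀ (mul_nonneg (by linarith) hh.le) c1 2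
  have c3 : 16 * m ^ 3 * t ^ eC ≤ (t ^ eh) ^ 2 := by
    calc 16 * m ^ 3 * t ^ eC ≤ t ^ 1 * (t ^ en1) ^ 3 * t ^ eC := by
          refine mul_le_mul_of_nonneg_right (mul_le_mul (by rw [pow_one]; exact ht16)
            (pow_le_pow_left₀ hm0.le hhi 3) (by positivity) (by positivity)) (by positivity)
      _ ≤ (t ^ eh) ^ 2 := by
          rw [← pow_mul, ← pow_mul, ← pow_add, ← pow_add]
          exact pow_le_pow_right₀ ht1 (by unfold en1 eC eh; norm_num)
  refine le_of_mul_le_mul_right ?_ (show 0 < (t ^ eh) ^ 2 by positivity)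
  have hC : 0 < t ^ eC := by positivity
  calc (T2 A + T2 B - 2) ^ 2 * t ^ eC * (t ^ eh) ^ 2
      = ((T2 A + T2 B - 2) * t ^ eh) ^ 2 * t ^ eC := by
        generalize t ^ eC = a
        generalize t ^ eh = b
        ring
    _ ≤ (4 * m ^ 2) ^ 2 * t ^ eC := mul_le_mul_of_nonneg_right c2 hC.le
    _ = m * (16 * m ^ 3 * t ^ eC) := by
        generalize t ^ eC = a
        ring
    _ ≤ m * (t ^ eh) ^ 2 := mul_le_mul_of_nonneg_left c3 hm0.le

end Vale.Agent.P049
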