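import Vale.Agent.P049.Ident
import Vale.Agent.P049.Norms

/-! The update preserves the spectral invariants; the base case. -/

namespace Vale.Agent.P049

open Matrix Finset

namespace Upd

variable {ι : Type} [Fintype ι] [DecidableEq ι]

/-! ### An indefinite binary form on a line -/

theorem quad_pos {A B C : ℝ} (h : A * C - B ^ 2 < 0) : ∃ r, 0 < C + 2 * r * B + r ^ 2 * A := by
  rcases lt_trichotomy A 0 with hA | hA | hA
  · refine ⟨-B / A, ?_⟩
    have : C + 2 * (-B / A) * B + (-B / A) ^ 2 * A = (A * C - B ^ 2) / A := by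
      field_simp [hA.ne]
      ring
    rw [this]
    exact div_pos_of_neg_of_neg h hA
  · subst hA
    have hB : B ≠ 0 := by
      rintro rfl
      simp at h
    refine ⟨(1 - C) / (2 * B), ?_⟩
    have : C + 2 * ((1 - C) / (2 * B)) * B + ((1 - C) / (2 * B)) ^ 2 * 0 = 1 := by
      field_simp
      ring
    rw [this]
    exact one_pos
  · refine ⟨(-B + (B ^ 2 - A * C + 1)) / A, ?_⟩
    have : C + 2 * ((-B + (B ^ 2 - A * C + 1)) / A) * B +
        ((-B + (B ^ 2 - A * C + 1)) / A) ^ 2 * A =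
        ((B ^ 2 - A * C + 1) ^ 2 - (B ^ 2 - A * C)) / A := by
      field_simp
      ring
    rw [this]
    exact div_pos (by nlinarith) hA

def Qf (a c b s t : ℝ) : ℝ := -a * s ^ 2 + 2 * c * (s * t) - b * t ^ 2

theorem line_pos {a c b : ℝ} (h : 0 < c ^ 2 - a * b) {g1 g2 σ : ℝ} (hg : g2 ≠ σ * g1) :
    ∃ r, 0 < Qf a c b (g1 + r) (g2 + σ * r) := by
  have h1 : 0 < (c ^ 2 - a * b) * (g2 - σ * g1) ^ 2 :=
    mul_pos h (sq_pos_of_ne_zero (sub_ne_zero.2 hg))
  obtain ⟨r, hr⟩ := quad_pos (A := Qf a c b 1 σ) (B := -a * g1 + c * (g1 * σ + g2) - b * (g2 * σ))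
    (C := Qf a c b g1 g2) (by unfold Qf; linarith)
  exact ⟨r, by unfold Qf at hr ⊢; linarith⟩

theorem line_neg {a c b : ℝ} (h : 0 < c ^ 2 - a * b) {g1 g2 σ : ℝ} (hg : g2 ≠ σ * g1) :
    ∃ r, Qf a c b (g1 + r) (g2 + σ * r) < 0 := by
  obtain ⟨r, hr⟩ := line_pos (a := -a) (c := -c) (b := -b) (by linarith) hg
  exact ⟨r, by unfold Qf at hr ⊢; linarith⟩

theorem line_nonneg {a c b : ℝ} (h : 0 < c ^ 2 - a * b) (g1 g2 σ : ℝ) :
    ∃ r, 0 ≤ Qf a c b (g1 + r) (g2 + σ * r) := by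
  by_cases hg : g2 = σ * g1
  · exact ⟨-g1, by simp [hg, Qf]⟩
  · exact (line_pos h hg).imp fun _ => le_of_lt

theorem line_nonpos {a c b : ℝ} (h : 0 < c ^ 2 - a * b) (g1 g2 σ : ℝ) :
    ∃ r, Qf a c b (g1 + r) (g2 + σ * r) ≤ 0 := by
  by_cases hg : g2 = σ * g1
  · exact ⟨-g1, by simp [hg, Qf]⟩
  · exact (line_neg h hg).imp fun _ => le_of_lt

/-! ### Quadratic forms -/

omit [DecidableEq ι] in
theorem qf_add {Z : Mat ι} (hZ : Z.IsSymm) (v w : ι → ℝ) :
    qf Z (v + w) = qf Z v + 2 * (w ⬝ᵥ Z *ᵥ v) + qf Z w := by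
  have := dot_mulVec_symm hZ v w
  simp only [qf, mulVec_add, add_dotProduct, dotProduct_add]
  rw [← this, dotProduct_comm w (Z *ᵥ v)]
  ring

/-- Set the coordinates `i` and `j` to zero. -/
def zo (i j : ι) (v : ι → ℝ) : ι → ℝ := fun k => if k = i ∨ k = j then 0 else v k

/-- Add values at the coordinates `i` and `j`. -/
def ex (i j : ι) (w : ι → ℝ) (s t : ℝ) : ι → ℝ := w + Pi.single i s + Pi.single j t

omit [Fintype ι] in
theorem zo_i (i j : ι) (v : ι → ℝ) : zo i j v i = 0 := by simp [zo]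

omit [Fintype ι] in
theorem zo_j (i j : ι) (v : ι → ℝ) : zo i j v j = 0 := by simp [zo]

theorem qf_upd_zo (Z : Mat ι) (i j : ι) (v : ι → ℝ) :
    qf (upd Z i j) v = qf (upd Z i j) (zo i j v) := by
  simp only [qf, dotProduct, mulVec, mul_sum]
  refine sum_congr rfl fun k _ => sum_congr rfl fun l _ => ?_
  simp only [upd, zo]
  by_cases h1 : k = i ∨ k = j
  · rw [if_pos (by tauto)]
    simp
  · by_cases h2 : l = i ∨ l = j
    · rw [if_pos (by tauto)]
      simp
    · rw [if_neg h1, if_neg h2]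

theorem zo_dot (i j : ι) (v : ι → ℝ) : zo i j v ⬝ᵥ zo i j v ≤ v ⬝ᵥ v := by
  refine sum_le_sum fun k _ => ?_
  simp only [zo]
  split_ifs
  · simpa using mul_self_nonneg (v k)
  · exact le_rfl

theorem qf_upd {Z : Mat ι} (hZ : Z.IsSymm) {i j : ι} {w : ι → ℝ} (hi : w i = 0) (hj : w j = 0) :
    qf (upd Z i j) w = qf Z w + t11 Z i j * (Z *ᵥ w) i ^ 2 + t22 Z i j * (Z *ᵥ w) j ^ 2 +
      2 * t12 Z i j * ((Z *ᵥ w) i * (Z *ᵥ w) j) := by
  have e : ∀ k l, w k * (upd Z i j k l * w l) = w k * (Z k l * w l) +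
      t11 Z i j * ((Z i k * w k) * (Z i l * w l)) + t22 Z i j * ((Z j k * w k) * (Z j l * w l)) +
      t12 Z i j * ((Z i k * w k) * (Z j l * w l)) +
      t12 Z i j * ((Z j k * w k) * (Z i l * w l)) := by
    intro k l
    simp only [upd]
    by_cases h : k = i ∨ k = j ∨ l = i ∨ l = j
    · rcases h with rfl | rfl | rfl | rfl <;> simp [hi, hj]
    · rw [if_neg h, hZ.apply i k, hZ.apply j k, hZ.apply i l, hZ.apply j l]
      ring
  simp only [qf, dotProduct, mulVec, mul_sum, e, sum_add_distrib]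
  simp only [← mul_sum, ← sum_mul]
  ring

theorem key {Z : Mat ι} (hZ : Z.IsSymm) {i j : ι} (hρ : rho Z i j ≠ 0) {w : ι → ℝ}
    (hi : w i = 0) (hj : w j = 0) (s t : ℝ) :
    qf Z (ex i j w s t) - 2 * (s * t) = qf (upd Z i j) w - Qf (Z i i) (1 - Z i j) (Z j j)
      (s - (t11 Z i j * (Z *ᵥ w) i + t12 Z i j * (Z *ᵥ w) j))
      (t - (t12 Z i j * (Z *ᵥ w) i + t22 Z i j * (Z *ᵥ w) j)) := by
  have h1 : rho Z i j = (1 - Z i j) ^ 2 - Z i i * Z j j := rfl
  rw [qf_upd hZ hi hj, ex, qf_add hZ, qf_add hZ]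
  simp only [qf, mulVec_add, single_dotProduct, mulVec_single, Pi.add_apply, Qf, t11, t12, t22,
    hZ.apply i j, Pi.smul_apply, col_apply, MulOpposite.smul_eq_mul_unop, MulOpposite.unop_op]
  generalize (Z *ᵥ w) i = x
  generalize (Z *ᵥ w) j = y
  field_simp
  rw [h1]
  ring

theorem ex_dot {i j : ι} (h : i ≠ j) {w : ι → ℝ} (hi : w i = 0) (hj : w j = 0) (s t : ℝ) :
    ex i j w s t ⬝ᵥ ex i j w s t = w ⬝ᵥ w + s ^ 2 + t ^ 2 := by
  simp [ex, add_dotProduct, dotProduct_add, hi, hj, h, h.symm]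
  ring

theorem ex_tau {i j : ι} (h : i ≠ j) {τ : ι → ι} (hτ : Function.Involutive τ) (hij : τ i = j)
    {w : ι → ℝ} (hi : w i = 0) (hj : w j = 0) (s t : ℝ) :
    ∑ k, ex i j w s t k * ex i j w s t (τ k) = ∑ k, w k * w (τ k) + 2 * (s * t) := by
  have hji : τ j = i := by rw [← hij, hτ]
  have e : ∀ k, ex i j w s t k * ex i j w s t (τ k) = w k * w (τ k) +
      (if k = i then s * t else 0) + (if k = j then s * t else 0) := by
    intro k
    by_cases h1 : k = i
    · subst h1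
      simp [ex, hi, hj, hij, h, h.symm]
    · by_cases h2 : k = j
      · subst h2
        simp [ex, hi, hj, hji, h, h.symm, mul_comm]
      · have h3 : τ k ≠ i := fun h3 => h2 (by rw [← hij, ← h3, hτ])
        have h4 : τ k ≠ j := fun h4 => h1 (by rw [← hji, ← h4, hτ])
        simp [ex, h1, h2, h3, h4]
  simp only [e, sum_add_distrib, sum_ite_eq', mem_univ, if_true]
  ring

theorem form_ex {Z : Mat ι} (hZ : Z.IsSymm) {i j : ι} (h : i ≠ j) (hρ : rho Z i j ≠ 0)
    {τ : ι → ι} (hτ : Function.Involutive τ) (hij : τ i = j) {w : ι → ℝ} (hi : w i = 0)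
    (hj : w j = 0) (s t : ℝ) :
    form τ Z (ex i j w s t) = form τ (upd Z i j) w + Qf (Z i i) (1 - Z i j) (Z j j)
      (s - (t11 Z i j * (Z *ᵥ w) i + t12 Z i j * (Z *ᵥ w) j))
      (t - (t12 Z i j * (Z *ᵥ w) i + t22 Z i j * (Z *ᵥ w) j)) := by
  have := key hZ hρ hi hj s t
  rw [form, form, ex_tau h hτ hij hi hj]
  linarith

/-! ### Constants on `F` -/

def ind (F : Finset ι) : ι → ℝ := fun k => if k ∈ F then 1 else 0

theorem ind_dot (F : Finset ι) (v : ι → ℝ) : ind F ⬝ᵥ v = ∑ k ∈ F, v k := by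
  simp [ind, dotProduct]

theorem ind_ind (F : Finset ι) : ind F ⬝ᵥ ind F = F.card := by
  have : ∀ k ∈ F, ind F k = 1 := fun k hk => if_pos hk
  rw [ind_dot, sum_congr rfl this]
  simp

theorem Z_ind {F : Finset ι} {Z : Mat ι} (h : St F Z) : Z *ᵥ ind F = ind F := by
  funext k
  have : (Z *ᵥ ind F) k = ∑ l, Z k l := by
    refine sum_congr rfl fun l _ => ?_
    by_cases hl : l ∈ F
    · simp [ind, hl]
    · simp [← h.symm.apply k l, h.supp l k hl]
  rw [this]
  by_cases hk : k ∈ F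
  · rw [h.rows k hk, ind, if_pos hk]
  · simp [ind, hk, h.supp k _ hk]

theorem qf_shift {F : Finset ι} {Z : Mat ι} (h : St F Z) (v : ι → ℝ) (c : ℝ) :
    qf Z (v + c • ind F) = qf Z v + 2 * c * (∑ k ∈ F, v k) + c ^ 2 * F.card := by
  rw [qf_add h.symm, ← dot_mulVec_symm h.symm, qf, qf, mulVec_smul, Z_ind h, smul_dotProduct,
    smul_dotProduct, dotProduct_smul, ind_dot, ind_ind]
  simp only [smul_eq_mul]
  ring

theorem dot_shift (F : Finset ι) (v : ι → ℝ) (c : ℝ) :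
    (v + c • ind F) ⬝ᵥ (v + c • ind F) = v ⬝ᵥ v + 2 * c * (∑ k ∈ F, v k) + c ^ 2 * F.card := by
  simp only [add_dotProduct, dotProduct_add, smul_dotProduct, dotProduct_smul, smul_eq_mul,
    dotProduct_comm v (ind F), ind_ind]
  rw [ind_dot]
  ring

omit [Fintype ι] in
theorem ind_tau {F : Finset ι} {τ : ι → ι} (hτ : Function.Involutive τ) (hF : ∀ k ∈ F, τ k ∈ F)
    (k : ι) : ind F (τ k) = ind F k := by
  have : τ k ∈ F ↔ k ∈ F := ⟨fun h => by simpa only [hτ k] using hF _ h, hF k⟩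
  simp only [ind, this]

theorem form_shift {F : Finset ι} {Z : Mat ι} (h : St F Z) {τ : ι → ι}
    (hτ : Function.Involutive τ) (hF : ∀ k ∈ F, τ k ∈ F) (v : ι → ℝ) (c : ℝ) :
    form τ Z (v + c • ind F) = form τ Z v := by
  have e1 : ∑ k, ind F k * v (τ k) = ∑ k ∈ F, v k := by
    rw [← ind_dot F v, dotProduct, ← Equiv.sum_comp hτ.toPerm]
    simp only [Function.Involutive.coe_toPerm, hτ _, ind_tau hτ hF]
  have e2 : ∑ k, ind F k * v k = ∑ k ∈ F, v k := ind_dot F v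
  have e3 : ∑ k, ind F k * ind F k = F.card := ind_ind F
  have e : ∀ k, (v + c • ind F) k * (v + c • ind F) (τ k) = v k * v (τ k) +
      c * (ind F k * v k) + c * (ind F k * v (τ k)) + c ^ 2 * (ind F k * ind F k) := by
    intro k
    simp only [Pi.add_apply, Pi.smul_apply, smul_eq_mul, ind_tau hτ hF]
    ring
  rw [form, form, qf_shift h]
  simp only [e, sum_add_distrib, ← mul_sum, e1, e2, e3]
  ring

theorem mean_split {F : Finset ι} (hF : F.Nonempty) (v : ι → ℝ) :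
    ∃ (v0 : ι → ℝ) (c : ℝ), v = v0 + c • ind F ∧ ∑ k ∈ F, v0 k = 0 ∧ c * F.card = ∑ k ∈ F, v k := by
  have hm : (F.card : ℝ) ≠ 0 := by exact_mod_cast hF.card_pos.ne'
  refine ⟨v - ((∑ k ∈ F, v k) / F.card) • ind F, (∑ k ∈ F, v k) / F.card, by simp, ?_, by
    field_simp⟩
  rw [← ind_dot F (v - _), dotProduct_sub, dotProduct_smul, ind_ind, ind_dot, smul_eq_mul]
  field_simp
  ring

theorem st_upd {F : Finset ι} {Z : Mat ι} (hZ : St F Z) {i j : ι} (hi : i ∈ F) (hj : j ∈ F)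
    (h : i ≠ j) (hρ : rho Z i j ≠ 0) : St ((F.erase i).erase j) (upd Z i j) := by
  refine ⟨Ident.upd_symm hZ.symm i j, fun k l hk => ?_, fun k hk => ?_⟩
  · simp only [upd]
    split_ifs with h1
    · rfl
    · have : k ∉ F := fun h2 => hk (by simp only [mem_erase]; tauto)
      simp [hZ.supp k _ this]
  · simp only [mem_erase] at hk
    have h1 : rho Z i j = (1 - Z i j) ^ 2 - Z i i * Z j j := rfl
    have e : ∀ l, upd Z i j k l = if l = i ∨ l = j then 0 else
        (Z k l + ze1 Z i j k * Z i l + ze2 Z i j k * Z j l) := by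
      intro l
      simp only [upd]
      by_cases h2 : l = i ∨ l = j
      · rw [if_pos (by tauto), if_pos h2]
      · rw [if_neg (by tauto), if_neg h2, ze1, ze2, hZ.symm.apply i l, hZ.symm.apply j l]
        ring
    have ei : Z k i + ze1 Z i j k * Z i i + ze2 Z i j k * Z j i = ze2 Z i j k := by
      rw [hZ.symm.apply i j]
      simp only [ze1, ze2, t11, t12, t22]
      field_simp
      linear_combination Z k i * h1
    have ej : Z k j + ze1 Z i j k * Z i j + ze2 Z i j k * Z j j = ze1 Z i j k := by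
      simp only [ze1, ze2, t11, t12, t22]
      field_simp
      linear_combination Z k j * h1
    rw [sum_congr rfl fun l _ => e l, Ident.sum_ite2 h, ei, ej]
    simp only [sum_add_distrib, ← mul_sum, hZ.rows k hk.2.2, hZ.rows i hi, hZ.rows j hj]
    ring

theorem low_upd {Z : Mat ι} (hZ : Z.IsSymm) {i j : ι} (h : i ≠ j) (hρ : 0 < rho Z i j) {κ : ℝ}
    (h0 : 0 ≤ κ) (h1 : κ ≤ 1) (hL : LowA κ Z) : LowA κ (upd Z i j) := by
  intro v
  obtain ⟨r, hr⟩ := line_nonneg hρ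
    (-(t11 Z i j * (Z *ᵥ zo i j v) i + t12 Z i j * (Z *ᵥ zo i j v) j))
    (-(t12 Z i j * (Z *ᵥ zo i j v) i + t22 Z i j * (Z *ᵥ zo i j v) j)) (-1)
  have h2 := key hZ hρ.ne' (zo_i i j v) (zo_j i j v) r (-1 * r)
  have h3 := hL (ex i j (zo i j v) r (-1 * r))
  rw [ex_dot h (zo_i i j v) (zo_j i j v)] at h3
  rw [neg_add_eq_sub, neg_add_eq_sub] at hr
  have h4 := mul_le_mul_of_nonneg_left (zo_dot i j v) h0
  have h5 : κ * r ^ 2 ≤ r ^ 2 := mul_le_of_le_one_left (sq_nonneg r) h1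
  rw [qf_upd_zo]
  linarith

theorem up_upd {F : Finset ι} {Z : Mat ι} (hZ : St F Z) {i j : ι} (hi : i ∈ F) (hj : j ∈ F)
    (h : i ≠ j) (hρ : 0 < rho Z i j) {κ : ℝ} (h0 : 0 ≤ κ) (h1 : κ ≤ 1) (hU : UpB κ F Z) :
    UpB κ ((F.erase i).erase j) (upd Z i j) := by
  intro v hv
  obtain ⟨r, hr⟩ := line_nonpos hρ
    (-(t11 Z i j * (Z *ᵥ zo i j v) i + t12 Z i j * (Z *ᵥ zo i j v) j))
    (-(t12 Z i j * (Z *ᵥ zo i j v) i + t22 Z i j * (Z *ᵥ zo i j v) j)) 1
  have h2 := key hZ.symm hρ.ne' (zo_i i j v) (zo_j i j v) r (1 * r)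
  rw [neg_add_eq_sub, neg_add_eq_sub] at hr
  obtain ⟨v0, c, hv0, hs, hc⟩ := mean_split ⟨i, hi⟩ (ex i j (zo i j v) r (1 * r))
  have h3 := ex_dot h (zo_i i j v) (zo_j i j v) r (1 * r)
  have hsum : ∑ k ∈ F, ex i j (zo i j v) r (1 * r) k = 2 * r := by
    have e1 : ∑ k ∈ F, zo i j v k = 0 := by
      rw [← add_sum_erase F _ hi, ← add_sum_erase _ _ (mem_erase.2 ⟨h.symm, hj⟩), zo_i, zo_j,
        zero_add, zero_add, ← hv]
      refine sum_congr rfl fun k hk => ?_
      simp only [mem_erase] at hk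
      exact if_neg (by tauto)
    simp only [ex, Pi.add_apply, sum_add_distrib, e1, sum_pi_single', hi, hj, if_true]
    ring
  have hm : (2 : ℝ) ≤ F.card := by
    have : 1 < F.card := one_lt_card.2 ⟨i, hi, j, hj, h⟩
    exact_mod_cast this
  rw [hsum] at hc
  rw [hv0, qf_shift hZ, hs] at h2
  rw [hv0, dot_shift, hs] at h3
  have h4 := hU v0 hs
  have h5 := mul_le_mul_of_nonneg_left (zo_dot i j v) h0
  have h6 : c ^ 2 * F.card ≤ 2 * r ^ 2 := by
    have e : r = c * F.card / 2 := by linarith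
    generalize (F.card : ℝ) = m at e hm
    have : 0 ≤ c ^ 2 * m * (m - 2) :=
      mul_nonneg (mul_nonneg (sq_nonneg c) (by linarith)) (by linarith)
    rw [e]
    linarith
  have h7 := mul_le_mul_of_nonneg_left h6 (sub_nonneg.2 h1)
  have h8 : κ * (v0 ⬝ᵥ v0) = κ * (zo i j v ⬝ᵥ zo i j v + 2 * r ^ 2 - c ^ 2 * F.card) := by
    congr 1
    linarith
  rw [qf_upd_zo]
  linarith

omit [Fintype ι] [DecidableEq ι] in
theorem tau_iff {i j : ι} {τ : ι → ι} (hτ : Function.Involutive τ) (hij : τ i = j) (k : ι) :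
    (τ k = i ↔ k = j) ∧ (τ k = j ↔ k = i) := by
  have hji : τ j = i := by rw [← hij, hτ]
  exact ⟨⟨fun h => by rw [← hij, ← h, hτ], fun h => by rw [h, hji]⟩,
    ⟨fun h => by rw [← hji, ← h, hτ], fun h => by rw [h, hij]⟩⟩

omit [Fintype ι] in
theorem zo_supp {F : Finset ι} {i j : ι} {p : ι → ℝ} (hp : ∀ k, k ∉ F → p k = 0) (k : ι)
    (hk : k ∉ (F.erase i).erase j) : zo i j p k = 0 := by
  simp only [zo]
  split_ifs with h1
  · rfl
  · exact hp k fun h2 => hk (by simp only [mem_erase]; tauto)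

omit [Fintype ι] in
theorem ex_supp {F : Finset ι} {i j : ι} (hi : i ∈ F) (hj : j ∈ F) {o : ι → ℝ}
    (ho : ∀ k, k ∉ (F.erase i).erase j → o k = 0) (s t : ℝ) (k : ι) (hk : k ∉ F) :
    ex i j o s t k = 0 := by
  have h1 : k ≠ i := fun h => hk (h ▸ hi)
  have h2 : k ≠ j := fun h => hk (h ▸ hj)
  have h3 := ho k (by simp [hk])
  simp [ex, h1, h2, h3]

theorem pos_upd {F : Finset ι} {Z Z' : Mat ι} (hZ : St F Z) {i j : ι} (hi : i ∈ F) (hj : j ∈ F)
    (h : i ≠ j) (hρ : 0 < rho Z i j) {τ : ι → ι} (hτ : Function.Involutive τ) (hij : τ i = j)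
    (hF : ∀ k ∈ F, τ k ∈ F) (hle : ∀ v, qf (upd Z i j) v ≤ qf Z' v)
    (hP : Pos ((F.erase i).erase j) Z' τ) : Pos F Z τ := by
  intro p hp he hc
  have hpj : p j = p i := by rw [← hij, he]
  have hodd : ∀ (o : ι → ℝ) (r : ℝ), (∀ k, o (τ k) = -o k) →
      ∀ k, ex i j o r (-1 * r) (τ k) = -ex i j o r (-1 * r) k := by
    intro o r ho k
    simp only [ex, Pi.add_apply, ho, Pi.single_apply, (tau_iff hτ hij k).1, (tau_iff hτ hij k).2]
    split_ifs <;> ring
  by_cases hc' : ∃ c, ∀ k ∈ (F.erase i).erase j, zo i j p k = c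
  · obtain ⟨c, hc'⟩ := hc'
    have hc2 : ∀ k ∈ F, k ≠ i → k ≠ j → p k = c := fun k hk h1 h2 => by
      rw [← hc' k (by simp [hk, h1, h2]), zo, if_neg (by tauto)]
    have hne : p i - c ≠ -1 * (p i - c) := by
      intro h1
      refine hc ⟨c, fun k hk => ?_⟩
      by_cases h2 : k = i
      · rw [h2]; linarith
      · by_cases h3 : k = j
        · rw [h3]; linarith
        · exact hc2 k hk h2 h3
    obtain ⟨r, hr⟩ := line_pos hρ hne
    refine ⟨ex i j 0 r (-1 * r), ex_supp hi hj (fun _ _ => rfl) _ _, hodd 0 r (by simp), ?_⟩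
    have e : p + ex i j 0 r (-1 * r) = ex i j 0 (p i - c + r) (p i - c + -1 * r) + c • ind F := by
      funext k
      by_cases h2 : k = i
      · subst h2
        simp [ex, ind, hi, h]
        ring
      · by_cases h3 : k = j
        · subst h3
          simp [ex, ind, hj, h2, hpj]
          ring
        · by_cases h4 : k ∈ F
          · simp [ex, ind, h2, h3, h4, hc2 k h4 h2 h3]
          · simp [ex, ind, h2, h3, h4, hp k h4]
    rw [e, form_shift hZ hτ hF, form_ex hZ.symm h hρ.ne' hτ hij rfl rfl]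
    simpa [form, qf] using hr
  · obtain ⟨o, ho1, ho2, ho3⟩ := hP (zo i j p) (zo_supp hp) (fun k => by
      simp only [zo, (tau_iff hτ hij k).1, (tau_iff hτ hij k).2, he, or_comm]) hc'
    have hoi : o i = 0 := ho1 i (by simp)
    have hoj : o j = 0 := ho1 j (by simp)
    have hwi : (zo i j p + o) i = 0 := by simp [zo_i, hoi]
    have hwj : (zo i j p + o) j = 0 := by simp [zo_j, hoj]
    obtain ⟨r, hr⟩ := line_nonneg hρ
      (p i - (t11 Z i j * (Z *ᵥ (zo i j p + o)) i + t12 Z i j * (Z *ᵥ (zo i j p + o)) j))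
      (p i - (t12 Z i j * (Z *ᵥ (zo i j p + o)) i + t22 Z i j * (Z *ᵥ (zo i j p + o)) j)) (-1)
    refine ⟨ex i j o r (-1 * r), ex_supp hi hj ho1 _ _, hodd o r ho2, ?_⟩
    have e : p + ex i j o r (-1 * r) = ex i j (zo i j p + o) (p i + r) (p i + -1 * r) := by
      funext k
      by_cases h2 : k = i
      · subst h2
        simp [ex, zo, h, hoi]
      · by_cases h3 : k = j
        · subst h3
          simp [ex, zo, h2, hoj, hpj]
        · simp [ex, zo, h2, h3]
    rw [e, form_ex hZ.symm h hρ.ne' hτ hij hwi hwj, ← sub_add_eq_add_sub, ← sub_add_eq_add_sub]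
    have := hle (zo i j p + o)
    simp only [form] at ho3 ⊢
    linarith

theorem neg_upd {F : Finset ι} {Z Z' : Mat ι} (hZ : St F Z) {i j : ι} (hi : i ∈ F) (hj : j ∈ F)
    (h : i ≠ j) (hρ : 0 < rho Z i j) {τ : ι → ι} (hτ : Function.Involutive τ) (hij : τ i = j)
    (hle : ∀ v, qf Z' v ≤ qf (upd Z i j) v)
    (hN : Neg ((F.erase i).erase j) Z' τ) : Neg F Z τ := by
  intro o ho he hc
  have hoj : o j = -o i := by rw [← hij, he]
  have heven : ∀ (p : ι → ℝ) (r : ℝ), (∀ k, p (τ k) = p k) →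
      ∀ k, ex i j p r (1 * r) (τ k) = ex i j p r (1 * r) k := by
    intro p r hp k
    simp only [ex, Pi.add_apply, hp, Pi.single_apply, (tau_iff hτ hij k).1, (tau_iff hτ hij k).2]
    split_ifs <;> ring
  have e : ∀ (p : ι → ℝ) (r : ℝ), p i = 0 → p j = 0 →
      o + ex i j p r (1 * r) = ex i j (zo i j o + p) (o i + r) (-o i + 1 * r) := by
    intro p r hpi hpj
    funext k
    by_cases h2 : k = i
    · subst h2
      simp [ex, zo, h, hpi]
    · by_cases h3 : k = j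
      · subst h3
        simp [ex, zo, h2, hoj, hpj]
      · simp [ex, zo, h2, h3]
  by_cases hc' : zo i j o = 0
  · have hne : -o i ≠ 1 * o i := by
      intro h1
      refine hc (funext fun k => ?_)
      by_cases h2 : k = i
      · rw [h2, Pi.zero_apply]; linarith
      · by_cases h3 : k = j
        · rw [h3, Pi.zero_apply]; linarith
        · simpa [zo, h2, h3] using congrFun hc' k
    obtain ⟨r, hr⟩ := line_neg hρ hne
    refine ⟨ex i j 0 r (1 * r), ex_supp hi hj (fun _ _ => rfl) _ _, heven 0 r (by simp), ?_⟩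
    rw [e 0 r rfl rfl, hc', add_zero, form_ex hZ.symm h hρ.ne' hτ hij rfl rfl]
    simpa [form, qf] using hr
  · obtain ⟨p, hp1, hp2, hp3⟩ := hN (zo i j o) (zo_supp ho) (fun k => by
      simp only [zo, (tau_iff hτ hij k).1, (tau_iff hτ hij k).2, he, or_comm]
      split_ifs <;> simp) hc'
    have hpi : p i = 0 := hp1 i (by simp)
    have hpj : p j = 0 := hp1 j (by simp)
    have hwi : (zo i j o + p) i = 0 := by simp [zo_i, hpi]
    have hwj : (zo i j o + p) j = 0 := by simp [zo_j, hpj]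
    obtain ⟨r, hr⟩ := line_nonpos hρ
      (o i - (t11 Z i j * (Z *ᵥ (zo i j o + p)) i + t12 Z i j * (Z *ᵥ (zo i j o + p)) j))
      (-o i - (t12 Z i j * (Z *ᵥ (zo i j o + p)) i + t22 Z i j * (Z *ᵥ (zo i j o + p)) j)) 1
    refine ⟨ex i j p r (1 * r), ex_supp hi hj hp1 _ _, heven p r hp2, ?_⟩
    rw [e p r hpi hpj, form_ex hZ.symm h hρ.ne' hτ hij hwi hwj, ← sub_add_eq_add_sub,
      ← sub_add_eq_add_sub]
    have := hle (zo i j o + p)
    simp only [form] at hp3 ⊢
    linarith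

/-! ### The base case -/

theorem centred {F : Finset ι} {Z : Mat ι} (hZ : St F Z) (hF : F.Nonempty) :
    ∃ Z0 : Mat ι, fn Z0 ^ 2 = T2 Z - 1 ∧ ∀ v, ∑ k ∈ F, v k = 0 → qf Z0 v = qf Z v := by
  have hm : (F.card : ℝ) ≠ 0 := by exact_mod_cast hF.card_pos.ne'
  refine ⟨Matrix.of fun k l => Z k l - ind F k * ind F l / F.card, ?_, fun v hv => ?_⟩
  · have e1 : ∑ k, ∑ l, ind F k * (Z k l * ind F l) = F.card := by
      simp only [← mul_sum]
      have := ind_ind F
      nth_rewrite 2 [← Z_ind hZ] at this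
      exact this
    have e2 : ∑ k, ∑ l, (ind F k * ind F k) * (ind F l * ind F l) = F.card * F.card := by
      rw [← sum_mul_sum, ← ind_ind F]
      rfl
    have e : ∀ k l, (Z k l - ind F k * ind F l / F.card) ^ 2 = Z k l ^ 2 -
        2 / F.card * (ind F k * (Z k l * ind F l)) +
        1 / F.card ^ 2 * ((ind F k * ind F k) * (ind F l * ind F l)) := by
      intro k l
      ring
    rw [T2_eq hZ.symm, fn_sq, fn_sq]
    simp only [of_apply, e, sum_add_distrib, sum_sub_distrib, ← mul_sum (a := 2 / (F.card : ℝ)),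
      ← mul_sum (a := 1 / (F.card : ℝ) ^ 2), e1, e2]
    field_simp
    ring
  · have e1 : ∑ l, ind F l * v l = 0 := (ind_dot F v).trans hv
    have e : ∀ k l, (Z k l - ind F k * ind F l / F.card) * v l =
        Z k l * v l - ind F k / F.card * (ind F l * v l) := by
      intro k l
      ring
    simp only [qf, dotProduct, mulVec, of_apply, e, sum_sub_distrib, ← mul_sum, e1, mul_zero, sub_zero]

theorem qf_lt {F : Finset ι} {Z : Mat ι} (hZ : St F Z) (hF : F.Nonempty) (h2 : T2 Z < 2)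
    {v : ι → ℝ} (hv : ∑ k ∈ F, v k = 0) (h0 : v ≠ 0) : |qf Z v| < v ⬝ᵥ v := by
  obtain ⟨Z0, h3, h4⟩ := centred hZ hF
  have h5 : fn Z0 < 1 := by
    by_contra h6
    have h7 : 1 ≤ fn Z0 := not_lt.1 h6
    nlinarith
  have h6 : 0 < v ⬝ᵥ v := lt_of_le_of_ne (sum_nonneg fun k _ => mul_self_nonneg _)
    (fun h => h0 (dotProduct_self_eq_zero.1 h.symm))
  rw [← h4 v hv]
  exact (abs_qf_le Z0 v).trans_lt (mul_lt_of_lt_one_left h6 h5)

end Upd

open Upd in
theorem updS : UpdS := fun _ _ _ _ _ _ _ hZ hi hj h hρ =>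
  ⟨st_upd hZ hi hj h hρ.ne', fun _ h0 h1 => low_upd hZ.symm h hρ h0 h1,
    fun _ h0 h1 => up_upd hZ hi hj h hρ h0 h1, fun _ hτ hij hF _ =>
      ⟨pos_upd hZ hi hj h hρ hτ hij hF, neg_upd hZ hi hj h hρ hτ hij⟩⟩

open Upd in
theorem baseS : BaseS := by
  intro ι _ _ F Z hZ
  refine ⟨fun hF => ?_, fun h2 τ hτ hF => ⟨fun p hp he hc => ?_, fun o ho he hc => ?_⟩⟩
  · obtain ⟨Z0, h3, -⟩ := centred hZ hF
    nlinarith [sq_nonneg (fn Z0)]
  · have hne : F.Nonempty := by
      rw [nonempty_iff_ne_empty]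
      rintro rfl
      exact hc ⟨0, by simp⟩
    obtain ⟨p0, c, hp0, hs, -⟩ := mean_split hne p
    have h0 : p0 ≠ 0 := by
      rintro rfl
      exact hc ⟨c, fun k hk => by simp [hp0, ind, hk]⟩
    have he0 : ∀ k, p0 (τ k) = p0 k := fun k => by
      have := he k
      rw [hp0] at this
      simpa [ind_tau hτ hF] using this
    refine ⟨0, by simp, by simp, ?_⟩
    rw [add_zero, hp0, form_shift hZ hτ hF, form]
    simp only [he0]
    exact sub_pos.2 (abs_lt.1 (qf_lt hZ hne h2 hs h0)).2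
  · have hne : F.Nonempty := by
      rw [nonempty_iff_ne_empty]
      rintro rfl
      exact hc (funext fun k => ho k (by simp))
    have hs : ∑ k ∈ F, o k = 0 := by
      have e1 : ∑ k ∈ F, o k = ∑ k, o k := sum_subset (subset_univ F) fun k _ hk => ho k hk
      have e2 := Equiv.sum_comp hτ.toPerm o
      simp only [Function.Involutive.coe_toPerm, he, sum_neg_distrib] at e2
      linarith
    refine ⟨0, by simp, by simp, ?_⟩
    rw [add_zero, form]
    simp only [he, mul_neg, sum_neg_distrib]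
    have := (abs_lt.1 (qf_lt hZ hne h2 hs hc)).1
    simp only [dotProduct] at this
    linarith

end Vale.Agent.P049
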