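import Vale.Agent.P049.Avg

/-! The weights of the averaging argument. -/

namespace Vale.Agent.P049

open Matrix Finset

section

variable {ι : Type} [Fintype ι]

theorem wt_fn_nu {Z : Mat ι} (h : Z.IsSymm) {s al : ℝ} (hs : 0 ≤ s)
    (h2 : T2 Z ≤ s ^ 2) (hd : Ad Z ≤ al ^ 2) :
    vn (fun p : ι × ι => nu Z p.1 p.2) ≤ s + al ^ 2 := by
  have h1 := vn_add_le (fun p : ι × ι => |Z p.1 p.2|) (fun p : ι × ι => |Z p.1 p.1 * Z p.2 p.2|)
  rw [vn_abs (fun p : ι × ι => Z p.1 p.2), vn_abs (fun p : ι × ι => Z p.1 p.1 * Z p.2 p.2),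
    ← fn_eq_vn Z] at h1
  have h3 : vn (fun p : ι × ι => Z p.1 p.1 * Z p.2 p.2) ≤ al ^ 2 := by
    refine vn_le_of_sq (sq_nonneg _) ?_
    have e : ∑ p : ι × ι, (Z p.1 p.1 * Z p.2 p.2) ^ 2 = Ad Z * Ad Z := by
      rw [Fintype.sum_prod_type, Ad, sum_mul_sum]
      exact sum_congr rfl fun i _ => sum_congr rfl fun j _ => by ring
    rw [e, sq (al ^ 2)]
    exact mul_le_mul hd hd (Ad_nonneg Z) (sq_nonneg _)
  have h4 := fn_le_of_T2 h hs h2
  exact h1.trans (add_le_add h4 h3)

theorem wt_row_nu {Z : Mat ι} (h : Z.IsSymm) {sR z al : ℝ} (hs : 0 ≤ sR) (hal : 0 ≤ al)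
    (hr : ∀ k, rr Z k ≤ sR ^ 2) (hz : ∀ k, |Z k k| ≤ z) (hd : Ad Z ≤ al ^ 2) (i : ι) :
    vn (fun j => nu Z i j) ≤ sR + z * al := by
  have h1 := vn_add_le (fun j => |Z i j|) (fun j => |Z i i * Z j j|)
  rw [vn_abs (fun j => Z i j), vn_abs (fun j => Z i i * Z j j), vn_smul] at h1
  have h3 : vn (fun j => Z i j) ≤ sR := vn_le_of_sq hs (by rw [← rr_eq h]; exact hr i)
  have h4 : vn (fun j => Z j j) ≤ al := vn_le_of_sq hal hd
  have h5 : |Z i i| * vn (fun j => Z j j) ≤ z * al :=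
    mul_le_mul (hz i) h4 (vn_nonneg _) ((abs_nonneg _).trans (hz i))
  exact h1.trans (add_le_add h3 h5)

theorem wt_ind_row [DecidableEq ι] {ok : ι → ι → Prop} [∀ i j, Decidable (ok i j)] {cd : ℕ}
    (h : OkRel ok univ cd) (i : ι) :
    ∑ j, (if ok i j then (0 : ℝ) else 1) ^ 2 ≤ cd := by
  obtain ⟨S, hS, hS'⟩ := h.few i (mem_univ i)
  have h1 : ∀ j, (if ok i j then (0 : ℝ) else 1) ^ 2 ≤ if j ∈ S then 1 else 0 := fun j => by
    by_cases hj : j ∈ S
    · rw [if_pos hj]; split_ifs <;> norm_num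
    · rw [if_neg hj, if_pos (hS' j (mem_univ j) hj)]; norm_num
  refine (sum_le_sum fun j _ => h1 j).trans ?_
  rw [sum_ite_mem, univ_inter, sum_const, nsmul_eq_mul, mul_one]
  exact_mod_cast hS

theorem wt_sq_entry {Z : Mat ι} (h : Z.IsSymm) {sR : ℝ} (hr : ∀ k, rr Z k ≤ sR ^ 2) (i j : ι) :
    |(Z * Z) i j| ≤ sR ^ 2 := by
  refine abs_le_of_sq_le_sq' ?_ (sq_nonneg _) |> abs_le.2
  refine (mul_entry_sq_le h h i j).trans ?_
  rw [sq (sR ^ 2)]
  exact mul_le_mul (hr i) (hr j) (rr_nonneg h j) (sq_nonneg _)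

theorem wt_sq_row {Z : Mat ι} (h : Z.IsSymm) {sR L : ℝ} (hs : 0 ≤ sR) (hL : 0 ≤ L)
    (hr : ∀ k, rr Z k ≤ sR ^ 2) (h4 : T4 Z ≤ L ^ 4) (i : ι) :
    vn (fun j => (Z * Z) i j) ≤ L * sR := by
  refine ((op_of_T4 h hL h4).row h Z i).trans (mul_le_mul_of_nonneg_left ?_ hL)
  exact vn_le_of_sq hs (by rw [← rr_eq h]; exact hr i)

theorem wt_bilin (K : Mat ι) (f g : ι → ℝ) :
    |∑ i, ∑ j, K i j * (f i * g j)| ≤ fn K * (vn f * vn g) := by
  have e : ∑ i, ∑ j, K i j * (f i * g j) = f ⬝ᵥ K *ᵥ g := by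
    simp only [dotProduct, mulVec, mul_sum]
    exact sum_congr rfl fun i _ => sum_congr rfl fun j _ => by ring
  rw [e]
  refine (abs_dot_le _ _).trans ?_
  have := mul_le_mul_of_nonneg_left (vn_mulVec_le K g) (vn_nonneg f)
  linarith

theorem wt_vn3 {α : Type} [Fintype α] (f g u : α → ℝ) {θ a c : ℝ} (hθ : 0 < θ)
    (hf : vn f ≤ a) (hg : vn g ≤ a) (hu : vn u ≤ c) :
    vn (fun p => (f p + g p) / θ + u p) ≤ 2 * a / θ + c := by
  have h1 := vn_add_le (fun p => θ⁻¹ * (f p + g p)) u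
  rw [vn_smul, abs_of_pos (inv_pos.2 hθ)] at h1
  have h2 := vn_add_le f g
  have h3 : θ⁻¹ * vn (fun p => f p + g p) ≤ θ⁻¹ * (2 * a) :=
    mul_le_mul_of_nonneg_left (by linarith) (inv_pos.2 hθ).le
  have e : (fun p => (f p + g p) / θ + u p) = fun p => θ⁻¹ * (f p + g p) + u p :=
    funext fun p => by rw [div_eq_inv_mul]
  rw [e, div_eq_inv_mul]
  linarith

end

theorem weightsS : WeightsS := by
  intro ι _ _ A B ok cd μ θ kF k2 kO s al sR z L sm scd hA hB hok hμ hθ hθ' hs hal hsR hz hL hsm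
    hscd hcard hcd hT2A hT2B hAdA hAdB hrA hrB hzA hzB hT4A hT4B hkF hk2 hk2' hkO hμθ
  classical
  have hK : ∀ i j, |μ * (A * A - B * B) i j| ≤ θ := fun i j => by
    have h1 := wt_sq_entry hA.symm hrA i j
    have h2 := wt_sq_entry hB.symm hrB i j
    have h3 : |(A * A - B * B) i j| ≤ 2 * sR ^ 2 := by
      rw [Matrix.sub_apply]; exact (abs_sub _ _).trans (by linarith)
    rw [abs_mul, abs_of_nonneg hμ]
    nlinarith [mul_le_mul_of_nonneg_left h3 hμ]
  have hKs : ∀ i j, (A * A - B * B) i j = (A * A - B * B) j i := fun i j => by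
    rw [Matrix.sub_apply, Matrix.sub_apply, (isSymm_sq hA.symm).apply i j,
      (isSymm_sq hB.symm).apply i j]
  have hoks : ∀ i j, ok i j ↔ ok j i := fun i j => ⟨hok.symm i j, hok.symm j i⟩
  have he0 : ∀ i j, 0 ≤ (nu A i j + nu B i j) / θ + (if ok i j then (0 : ℝ) else 1) :=
    fun i j => by
      have := nu_nonneg A i j; have := nu_nonneg B i j
      have : (0 : ℝ) ≤ if ok i j then (0 : ℝ) else 1 := by split_ifs <;> norm_num
      positivity
  have hnu : ∀ i j, nu A i j + nu B i j ≤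
      θ * ((nu A i j + nu B i j) / θ + (if ok i j then (0 : ℝ) else 1)) := fun i j => by
    have : (0 : ℝ) ≤ if ok i j then (0 : ℝ) else 1 := by split_ifs <;> norm_num
    rw [mul_add θ, mul_div_cancel₀ _ hθ.ne']
    nlinarith
  have hkF0 : 0 ≤ kF := le_trans (by positivity) hkF
  have hk20 : 0 ≤ k2 := le_trans (by positivity) hk2'
  refine ⟨fun i j => if ok i j ∧ nu A i j ≤ θ ∧ nu B i j ≤ θ then 1 - μ * (A * A - B * B) i j
    else 0, fun i j => (nu A i j + nu B i j) / θ + (if ok i j then (0 : ℝ) else 1), ?_, ?_, ?_, ?_⟩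
  · refine ⟨hθ, hθ', hkF0, hk20, le_trans (by positivity) hkO, fun i j => ?_, fun i j => ?_,
      fun i j => ?_, fun i j => ?_, fun i j => ?_, he0, fun i j => ?_, hKs, fun i => ?_, ?_,
      fun i => ?_, fun i => ?_, fun f g => ?_⟩
    · have := abs_le.1 (hK i j)
      split_ifs
      · linarith
      · exact le_rfl
    · have := abs_le.1 (hK i j)
      split_ifs <;> linarith
    · rw [nu_swap hA.symm i j, nu_swap hB.symm i j, ← hKs i j]
      simp only [hoks i j]
    · intro h hij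
      subst hij
      exact h (if_neg fun h' => hok.irr i h'.1)
    · by_cases hc : ok i j ∧ nu A i j ≤ θ ∧ nu B i j ≤ θ
      · rw [if_pos hc, sub_self, abs_zero]; linarith [he0 i j]
      · rw [if_neg hc, zero_sub, abs_neg]
        have h1 := abs_le.1 (hK i j)
        have h2 : 1 ≤ (nu A i j + nu B i j) / θ + (if ok i j then (0 : ℝ) else 1) := by
          have h3 := nu_nonneg A i j
          have h4 := nu_nonneg B i j
          by_cases ho : ok i j
          · rw [if_pos ho, add_zero, le_div_iff₀ hθ, one_mul]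
            by_contra h5
            exact hc ⟨ho, by linarith [not_le.1 h5], by linarith [not_le.1 h5]⟩
          · rw [if_neg ho]
            have : 0 ≤ (nu A i j + nu B i j) / θ := by positivity
            linarith
        exact abs_le.2 ⟨by linarith, by linarith⟩
    · rw [nu_swap hA.symm i j, nu_swap hB.symm i j]
      simp only [hoks i j]
    · simp only [Matrix.sub_apply, sum_sub_distrib]
      rw [rows_mul (fun k => hA.rows k (mem_univ k)) (fun k => hA.rows k (mem_univ k)),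
        rows_mul (fun k => hB.rows k (mem_univ k)) (fun k => hB.rows k (mem_univ k)), sub_self]
    · have hu : vn (fun p : ι × ι => if ok p.1 p.2 then (0 : ℝ) else 1) ≤ scd * sm := by
        refine vn_le_of_sq (by positivity) ?_
        rw [Fintype.sum_prod_type]
        refine (sum_le_sum fun i _ => (wt_ind_row hok i).trans hcd).trans ?_
        rw [sum_const, card_univ, nsmul_eq_mul, ← hcard, mul_pow, mul_comm]
      have h1 := wt_vn3 _ _ _ hθ (wt_fn_nu hA.symm hs hT2A hAdA)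
        (wt_fn_nu hB.symm hs hT2B hAdB) hu
      have h2 := pow_le_pow_left₀ (vn_nonneg _) (h1.trans hkF) 2
      rwa [vn_sq, Fintype.sum_prod_type] at h2
    · have hu : vn (fun j => if ok i j then (0 : ℝ) else 1) ≤ scd :=
        vn_le_of_sq hscd ((wt_ind_row hok i).trans hcd)
      have h1 := wt_vn3 _ _ _ hθ (wt_row_nu hA.symm hsR hal hrA hzA hAdA i)
        (wt_row_nu hB.symm hsR hal hrB hzB hAdB i) hu
      have h2 := pow_le_pow_left₀ (vn_nonneg _) (h1.trans hk2) 2
      rwa [vn_sq] at h2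
    · have h1 := vn_sub_le (fun j => (A * A) i j) (fun j => (B * B) i j)
      have h2 := wt_sq_row hA.symm hsR hL hrA hT4A i
      have h3 := wt_sq_row hB.symm hsR hL hrB hT4B i
      have h4 : vn (fun j => μ * (A * A - B * B) i j) ≤ k2 := by
        rw [vn_smul, abs_of_nonneg hμ]
        have h5 : vn (fun j => (A * A - B * B) i j) ≤ 2 * (L * sR) := h1.trans (by linarith)
        nlinarith [mul_le_mul_of_nonneg_left h5 hμ]
      have h6 := pow_le_pow_left₀ (vn_nonneg _) h4 2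
      rwa [vn_sq] at h6
    · have h1 := wt_bilin (A * A - B * B) f g
      have h2 := fn_sub_le (A * A) (B * B)
      have h3 := fn_sq_le_of_T4 hA.symm hT4A
      have h4 := fn_sq_le_of_T4 hB.symm hT4B
      have h5 : 0 ≤ vn f * vn g := mul_nonneg (vn_nonneg _) (vn_nonneg _)
      have h6 : μ * fn (A * A - B * B) ≤ kO := by
        nlinarith [mul_le_mul_of_nonneg_left (show fn (A * A - B * B) ≤ 2 * L ^ 2 by linarith) hμ]
      rw [abs_mul, abs_of_nonneg hμ]
      calc _ ≤ μ * (fn (A * A - B * B) * (vn f * vn g)) := mul_le_mul_of_nonneg_left h1 hμ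
        _ = μ * fn (A * A - B * B) * (vn f * vn g) := by ring
        _ ≤ _ := mul_le_mul_of_nonneg_right h6 h5
  · refine ⟨fun i j => ?_, fun i j h => ?_⟩
    · linarith [hnu i j, nu_nonneg B i j]
    · by_contra h'
      exact h (if_neg fun h'' => h' h''.2.1)
  · refine ⟨fun i j => ?_, fun i j h => ?_⟩
    · linarith [hnu i j, nu_nonneg A i j]
    · by_contra h'
      exact h (if_neg fun h'' => h' h''.2.2)
  · intro i j h
    by_contra h'
    exact h (if_neg fun h'' => h' h''.1)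

end Vale.Agent.P049
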