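import Vale.Agent.P049.CoreA
import Vale.Agent.P049.Ident
import Vale.Agent.P049.IdentM
import Vale.Agent.P049.Upd
import Vale.Agent.P049.AlgPT
import Vale.Agent.P049.Init
import Vale.Agent.P049.Step
import Vale.Agent.P049.Correct
import Vale.Agent.P049.End
import Vale.Agent.P049.Graph
import Vale.Agent.P049.Final
import Vale.Agent.P049.Rnd
import Vale.Agent.P049.Spec
import Vale.Agent.P049.Cast
import Vale.Agent.P049.LD4
import Vale.Agent.P049.LD3
import Vale.Agent.P049.LMgen
import Vale.Agent.P049.LD1
import Vale.Agent.P049.LT3
import Vale.Agent.P049.LA4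
import Vale.Agent.P049.LD
import Vale.Agent.P049.LD2
import Vale.Agent.P049.LT2
import Vale.Agent.P049.LQ2
import Vale.Agent.P049.LC
import Vale.Agent.P049.Prod
import Vale.Agent.P049.LM
import Vale.Agent.P049.Weights

/-! Assembly. -/

namespace Vale.Agent.P049

theorem coreA : CoreAS :=
  coreA_of (lt1_of ident) (lt2_of ident prodS specS) (lq2_of ident) (lt3_of ident prodS)
    (lt4_of (lmgen_of identM prodS) specS) (lm_of (lmgen_of identM prodS) specS)
    (ld_of ident (ld1_of specS) ld2 ld3 ld4) la2 la4 weightsS trABS

theorem coreC : CoreCS := coreC_of (lc_of ident prodS) weightsS baseS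

theorem correct : CorrectS :=
  correct_of (stepA_of coreA updS rndS lipS) (stepC_of coreC updS rndS lipS baseS)
    (switch_of baseS) updS baseS rndS finalS initS okS endS graphS castS parS

end Vale.Agent.P049
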