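import Vale.Agent.P049.Norms

/-! Numerical parameters: all of them are real powers of `t`. -/

namespace Vale.Agent.P049

open Real

/-- Range of the exponents. -/
structure Rng (t x g A : ℝ) : Prop where
  ht : 10 ^ 40 ≤ t
  x1 : 18103 ≤ x
  x2 : x ≤ 40001
  g1 : x ≤ g
  g2 : 27321 ≤ g
  cg : (g ≤ x + 1 ∧ 27321 ≤ x) ∨ (g ≤ 27322 ∧ x ≤ 27321)
  A1 : 37366 + x - 2 * g ≤ A
  A2 : 379 ≤ A
  cA : A ≤ 37366 + x - 2 * g ∨ A ≤ 379

theorem Rng.one {t x g A : ℝ} (h : Rng t x g A) : 1 ≤ t := le_trans (by norm_num) h.ht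
theorem Rng.pos {t x g A : ℝ} (h : Rng t x g A) : 0 < t := lt_of_lt_of_le one_pos h.one

noncomputable def par (t x g A : ℝ) : Par where
  m := t ^ x
  sm := t ^ (x / 2)
  qm := t ^ (x / 4)
  b1 := t ^ (14686 + x - g)
  b1' := t ^ (18205 + x - g)
  t2 := t ^ (2 * x - g + 1)
  s2 := t ^ ((2 * x - g + 1) / 2)
  b3 := t ^ (40251 + 2 * x - 2 * g)
  L := t ^ ((80786 + 3 * x - 4 * g) / 4)
  D := t ^ (81397 + x - 3 * g)
  sqD := t ^ ((81397 + x - 3 * g) / 2)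
  sD := t ^ (x / 2 + (81397 + x - 3 * g) / 2)
  R := t ^ ((81397 + x - 3 * g) / 4 + 1)
  sR := t ^ (((81397 + x - 3 * g) / 4 + 1) / 2)
  al := t ^ (A / 2 + 1)
  z := t ^ (174 / 4 : ℝ)
  Mx := t ^ (10035 + x)
  sM := t ^ ((10035 + x) / 2)
  sRF := t ^ (((80786 + 3 * x - 4 * g) / 2 + x / 2 + (81397 + x - 3 * g) / 2) / 2 + 1)
  H := t ^ (3 / 2 * (14686 + x - g) + 8101 / 2 + 1)
  β := t ^ ((14686 + x - g + 8101) / 2)
  Hd := t ^ (x + (81397 + x - 3 * g) - 2)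
  μ := t ^ (-8101 : ℝ)
  θ := t ^ (-44 : ℝ)
  ϑ := t ^ (-3 : ℝ)
  kF := t ^ (x / 2 + 46)
  k2 := t ^ (((81397 + x - 3 * g) / 4 + 1) / 2 - 8101 + (80786 + 3 * x - 4 * g) / 4 +
    (g - x) / 4 + 2)
  kO := t ^ (-8101 + (80786 + 3 * x - 4 * g) / 2 + 1)

namespace Rng

variable {t x g A : ℝ} (h : Rng t x g A)
include h

theorem E1_le : (par t x g A).E1 ≤ 5 * t ^ (x + (14686 + x - g) - 2) := by
  have h0 := h.pos
  have h1 := h.one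
  obtain ⟨-, x1, x2, g1, g2, cg, A1, A2, cA⟩ := h
  obtain ⟨e, he⟩ : ∃ e : ℝ, e = x + (14686 + x - g) - 2 := ⟨_, rfl⟩
  rw [← he]
  simp only [Par.E1, par, ← rpow_natCast, ← rpow_mul h0.le,
    ← rpow_add h0, Nat.cast_ofNat]
  calc _ ≤
      t ^ e + t ^ e + t ^ e + t ^ e + t ^ e := by
        gcongr <;> rcases cg with ⟨c1, c2⟩ | ⟨c1, c2⟩ <;> rcases cA with c3 | c3 <;> linarith
    _ = _ := by ring

theorem Q1_le : (par t x g A).Q1 ≤ 2 * t ^ (x + 2 * (14686 + x - g) - 2) := by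
  have h0 := h.pos
  have h1 := h.one
  obtain ⟨-, x1, x2, g1, g2, cg, A1, A2, cA⟩ := h
  obtain ⟨e, he⟩ : ∃ e : ℝ, e = x + 2 * (14686 + x - g) - 2 := ⟨_, rfl⟩
  rw [← he]
  simp only [Par.Q1, par, ← rpow_natCast, ← rpow_mul h0.le,
    ← rpow_add h0, Nat.cast_ofNat]
  calc _ ≤
      t ^ e + t ^ e := by
        gcongr <;> rcases cg with ⟨c1, c2⟩ | ⟨c1, c2⟩ <;> rcases cA with c3 | c3 <;> linarith
    _ = _ := by ring

theorem E2_le : (par t x g A).E2 ≤ 10 * t ^ (x + (27124 + 2 * x - 2 * g) - 2) := by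
  have h0 := h.pos
  have h1 := h.one
  obtain ⟨-, x1, x2, g1, g2, cg, A1, A2, cA⟩ := h
  obtain ⟨e, he⟩ : ∃ e : ℝ, e = x + (27124 + 2 * x - 2 * g) - 2 := ⟨_, rfl⟩
  rw [← he]
  simp only [Par.E2, par, ← rpow_natCast, ← rpow_mul h0.le,
    ← rpow_add h0, Nat.cast_ofNat]
  calc _ ≤
      t ^ e + t ^ e + t ^ e + t ^ e + t ^ e + t ^ e + t ^ e + t ^ e + t ^ e + t ^ e := by
        gcongr <;> rcases cg with ⟨c1, c2⟩ | ⟨c1, c2⟩ <;> rcases cA with c3 | c3 <;> linarith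
    _ = _ := by ring

theorem Q2_le : (par t x g A).Q2 ≤ 6 * t ^ (x + 2 * (27124 + 2 * x - 2 * g) - 2) := by
  have h0 := h.pos
  have h1 := h.one
  obtain ⟨-, x1, x2, g1, g2, cg, A1, A2, cA⟩ := h
  obtain ⟨e, he⟩ : ∃ e : ℝ, e = x + 2 * (27124 + 2 * x - 2 * g) - 2 := ⟨_, rfl⟩
  rw [← he]
  simp only [Par.Q2, par, ← rpow_natCast, ← rpow_mul h0.le,
    ← rpow_add h0, Nat.cast_ofNat]
  calc _ ≤
      t ^ e + t ^ e + t ^ e + t ^ e + t ^ e + t ^ e := by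
        gcongr <;> rcases cg with ⟨c1, c2⟩ | ⟨c1, c2⟩ <;> rcases cA with c3 | c3 <;> linarith
    _ = _ := by ring

theorem E3_le : (par t x g A).E3 ≤ 16 * t ^ (x + (40250 + 2 * x - 2 * g) - 2) := by
  have h0 := h.pos
  have h1 := h.one
  obtain ⟨-, x1, x2, g1, g2, cg, A1, A2, cA⟩ := h
  obtain ⟨e, he⟩ : ∃ e : ℝ, e = x + (40250 + 2 * x - 2 * g) - 2 := ⟨_, rfl⟩
  rw [← he]
  simp only [Par.E3, par, ← rpow_natCast, ← rpow_mul h0.le, ← rpow_neg h0.le,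
    ← rpow_add h0, Nat.cast_ofNat]
  calc _ ≤
      t ^ e + t ^ e + t ^ e + t ^ e + t ^ e + t ^ e + t ^ e + t ^ e + t ^ e + t ^ e + t ^ e +
      t ^ e + t ^ e + t ^ e + t ^ e + t ^ e := by
        gcongr <;> rcases cg with ⟨c1, c2⟩ | ⟨c1, c2⟩ <;> rcases cA with c3 | c3 <;> linarith
    _ = _ := by ring

theorem E4_le : (par t x g A).E4 ≤ 18 * t ^ (x + (80786 + 3 * x - 4 * g) - 2) := by
  have h0 := h.pos
  have h1 := h.one
  obtain ⟨-, x1, x2, g1, g2, cg, A1, A2, cA⟩ := h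
  obtain ⟨e, he⟩ : ∃ e : ℝ, e = x + (80786 + 3 * x - 4 * g) - 2 := ⟨_, rfl⟩
  rw [← he]
  simp only [Par.E4, Par.EM, ← add_assoc, par, ← rpow_natCast, ← rpow_mul h0.le, ← rpow_neg h0.le,
    ← rpow_add h0, Nat.cast_ofNat]
  calc _ ≤
      t ^ e + t ^ e + t ^ e + t ^ e + t ^ e + t ^ e + t ^ e + t ^ e + t ^ e + t ^ e + t ^ e +
      t ^ e + t ^ e + t ^ e + t ^ e + t ^ e + t ^ e + t ^ e := by
        gcongr <;> rcases cg with ⟨c1, c2⟩ | ⟨c1, c2⟩ <;> rcases cA with c3 | c3 <;> linarith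
    _ = _ := by ring

theorem E5_le : (par t x g A).E5 ≤ 19 * t ^ (x + (10035 + x) - 2) := by
  have h0 := h.pos
  have h1 := h.one
  obtain ⟨-, x1, x2, g1, g2, cg, A1, A2, cA⟩ := h
  obtain ⟨e, he⟩ : ∃ e : ℝ, e = x + (10035 + x) - 2 := ⟨_, rfl⟩
  rw [← he]
  simp only [Par.E5, Par.EM, ← add_assoc, par, ← rpow_natCast, ← rpow_mul h0.le, ← rpow_neg h0.le,
    ← rpow_add h0, Nat.cast_ofNat]
  calc _ ≤
      t ^ e + t ^ e + t ^ e + t ^ e + t ^ e + t ^ e + t ^ e + t ^ e + t ^ e + t ^ e + t ^ e +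
      t ^ e + t ^ e + t ^ e + t ^ e + t ^ e + t ^ e + t ^ e + t ^ e := by
        gcongr <;> rcases cg with ⟨c1, c2⟩ | ⟨c1, c2⟩ <;> rcases cA with c3 | c3 <;> linarith
    _ = _ := by ring

theorem ED_le : (par t x g A).ED ≤ 26 * t ^ (x + (81397 + x - 3 * g) - 2) := by
  have h0 := h.pos
  have h1 := h.one
  obtain ⟨-, x1, x2, g1, g2, cg, A1, A2, cA⟩ := h
  obtain ⟨e, he⟩ : ∃ e : ℝ, e = x + (81397 + x - 3 * g) - 2 := ⟨_, rfl⟩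
  rw [← he]
  simp only [Par.ED, mul_add, ← add_assoc, par, ← rpow_natCast, ← rpow_mul h0.le, ← rpow_neg h0.le,
    ← rpow_add h0, Nat.cast_ofNat]
  calc _ ≤
      t ^ e + t ^ e + t ^ e + t ^ e + t ^ e + t ^ e + t ^ e + t ^ e + t ^ e + t ^ e + t ^ e +
      t ^ e + t ^ e + t ^ e + t ^ e + t ^ e + t ^ e + t ^ e + t ^ e + t ^ e + t ^ e + t ^ e +
      t ^ e + t ^ e + t ^ e + t ^ e := by
        gcongr <;> rcases cg with ⟨c1, c2⟩ | ⟨c1, c2⟩ <;> rcases cA with c3 | c3 <;> linarith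
    _ = _ := by ring

theorem EA2_le : (par t x g A).EA2 ≤ 7 * t ^ (x + A - 2) := by
  have h0 := h.pos
  have h1 := h.one
  obtain ⟨-, x1, x2, g1, g2, cg, A1, A2, cA⟩ := h
  obtain ⟨e, he⟩ : ∃ e : ℝ, e = x + A - 2 := ⟨_, rfl⟩
  rw [← he]
  simp only [Par.EA2, par, ← rpow_natCast, ← rpow_mul h0.le, ← rpow_neg h0.le,
    ← rpow_add h0, Nat.cast_ofNat]
  calc _ ≤
      t ^ e + t ^ e + t ^ e + t ^ e + t ^ e + t ^ e + t ^ e := by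
        gcongr <;> rcases cg with ⟨c1, c2⟩ | ⟨c1, c2⟩ <;> rcases cA with c3 | c3 <;> linarith
    _ = _ := by ring

theorem EA4_le : (par t x g A).EA4 ≤ 9 * t ^ (x + 174 - 2) := by
  have h0 := h.pos
  have h1 := h.one
  obtain ⟨-, x1, x2, g1, g2, cg, A1, A2, cA⟩ := h
  obtain ⟨e, he⟩ : ∃ e : ℝ, e = x + 174 - 2 := ⟨_, rfl⟩
  rw [← he]
  simp only [Par.EA4, par, ← rpow_natCast, ← rpow_mul h0.le, ← rpow_neg h0.le,
    ← rpow_add h0, Nat.cast_ofNat]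
  calc _ ≤
      t ^ e + t ^ e + t ^ e + t ^ e + t ^ e + t ^ e + t ^ e + t ^ e + t ^ e := by
        gcongr <;> rcases cg with ⟨c1, c2⟩ | ⟨c1, c2⟩ <;> rcases cA with c3 | c3 <;> linarith
    _ = _ := by ring

end Rng

end Vale.Agent.P049
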