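import Vale.Agent.P049.Num1

/-! The numerical facts used by the potential argument. -/

namespace Vale.Agent.P049

open Real

namespace Rng

variable {t x g A : ℝ} (h : Rng t x g A)
include h

theorem le {a b : ℝ} (hab : a ≤ b) : t ^ a ≤ t ^ b := rpow_le_rpow_of_exponent_le h.one hab
theorem one_le {a : ℝ} (ha : 0 ≤ a) : 1 ≤ t ^ a := one_le_rpow h.one ha
theorem le_one {a : ℝ} (ha : a ≤ 0) : t ^ a ≤ 1 := rpow_le_one_of_one_le_of_nonpos h.one ha
theorem mul_le {c a b : ℝ} (hc : c ≤ 10 ^ 40) (hab : a + 1 ≤ b) : c * t ^ a ≤ t ^ b := by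
  refine le_trans ?_ (h.le hab)
  rw [rpow_add_one h.pos.ne', mul_comm]
  exact mul_le_mul_of_nonneg_left (hc.trans h.ht) (rpow_nonneg h.pos.le _)
theorem sq_eq {a b : ℝ} (hab : a * 2 = b) : (t ^ a) ^ 2 = t ^ b := by
  rw [← rpow_natCast, ← rpow_mul h.pos.le, ← hab]; norm_num
theorem four_eq {a b : ℝ} (hab : a * 4 = b) : (t ^ a) ^ 4 = t ^ b := by
  rw [← rpow_natCast, ← rpow_mul h.pos.le, ← hab]; norm_num
theorem mul_eq {a b c : ℝ} (hab : a + b = c) : t ^ a * t ^ b = t ^ c := by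
  rw [← rpow_add h.pos, hab]
theorem add_le {p q a b : ℝ} (hp : p ≤ t ^ a) (hq : q ≤ t ^ a) (hab : a + 1 ≤ b) :
    p + q ≤ t ^ b := by
  have := h.mul_le (c := 2) (by norm_num) hab; linarith

theorem ok : (par t x g A).OK := by
  have h0 := h.pos
  have h' := h
  obtain ⟨ht, x1, x2, g1, g2, cg, A1, A2, cA⟩ := h'
  have hθ : t ^ (-44 : ℝ) ≤ 1 / 1000 := by
    have := h.mul_le (c := 1000) (a := -44) (b := 0) (by norm_num) (by norm_num)
    rw [rpow_zero] at this; linarith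
  refine ⟨h.sq_eq (by ring), h.sq_eq (by ring), h.sq_eq (by ring), h.sq_eq (by ring),
    (h.mul_eq rfl).symm, h.sq_eq (by ring), h.sq_eq (by ring), h.one_le ?_, h.one_le ?_, h.le ?_,
    h.one_le ?_, h.one_le ?_, h.one_le ?_, h.one_le ?_, h.one_le ?_, h.one_le ?_, h.one_le ?_,
    h.one_le ?_, h.one_le ?_, h.one_le ?_, h.one_le ?_, h.le ?_, (h.sq_eq rfl).trans_le (h.le ?_),
    h.le ?_, rpow_pos_of_pos h0 _, h.le_one (by norm_num), rpow_pos_of_pos h0 _, hθ,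
    rpow_pos_of_pos h0 _, h.le_one (by norm_num), rpow_nonneg h0.le _, ?_, ?_, ?_, ?_⟩
  iterate 17
    rcases cg with ⟨c1, c2⟩ | ⟨c1, c2⟩ <;> rcases cA with c3 | c3 <;> linarith
  · simp only [par]
    have a1 := h.mul_eq (a := 14686 + x - g) (b := (14686 + x - g + 8101) / 2) rfl
    have a2 := h.mul_le (c := 3) (a := 14686 + x - g + (14686 + x - g + 8101) / 2)
      (b := 3 / 2 * (14686 + x - g) + 8101 / 2 + 1) (by norm_num) (by linarith)
    have a3 := h.le (a := 18205 + x - g) (b := 14686 + x - g + (14686 + x - g + 8101) / 2)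
      (by rcases cg with ⟨c1, c2⟩ | ⟨c1, c2⟩ <;> linarith)
    have a4 := h.le (a := -8101) (b := 14686 + x - g + (14686 + x - g + 8101) / 2)
      (by rcases cg with ⟨c1, c2⟩ | ⟨c1, c2⟩ <;> linarith)
    linarith
  · simp only [par]
    rw [h.sq_eq rfl, h.mul_eq rfl]; exact h.le (by linarith)
  · simp only [par]
    rw [h.sq_eq rfl, h.sq_eq rfl, h.four_eq rfl, mul_assoc, h.mul_eq rfl]
    have a2 := h.mul_le (c := 3) (a := (80786 + 3 * x - 4 * g) / 4 * 2 +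
        (x / 2 + (81397 + x - 3 * g) / 2))
      (b := (((80786 + 3 * x - 4 * g) / 2 + x / 2 + (81397 + x - 3 * g) / 2) / 2 + 1) * 2)
      (by norm_num) (by linarith)
    have a3 := h.le (a := (80786 + 3 * x - 4 * g) / 4 * 4) (b := (80786 + 3 * x - 4 * g) / 4 * 2 +
        (x / 2 + (81397 + x - 3 * g) / 2))
      (by rcases cg with ⟨c1, c2⟩ | ⟨c1, c2⟩ <;> linarith)
    linarith
  · simp only [par]
    rcases le_total 29152 x with c0 | c0
    · right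
      rw [h.mul_eq rfl, h.mul_eq rfl, h.mul_eq rfl]
      exact h.add_le (a := x + (81397 + x - 3 * g) - 3)
        (h.le (by rcases cg with ⟨c1, c2⟩ | ⟨c1, c2⟩ <;> linarith))
        (h.le (by rcases cg with ⟨c1, c2⟩ | ⟨c1, c2⟩ <;> linarith)) (by linarith)
    · left
      rw [h.mul_eq rfl]
      exact h.le (by rcases cg with ⟨c1, c2⟩ | ⟨c1, c2⟩ <;> linarith)

theorem err {E n a b : ℝ} (hE : E ≤ n * t ^ (a - 2)) (hn : n ≤ 10 ^ 9) (hab : a ≤ b) :
    C0 * E ≤ 1 / 10 * t ^ (b - 1) := by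
  have h1 := h.mul_le (c := 10 ^ 40) (a := a - 2) (b := b - 1) le_rfl (by linarith)
  have h2 : 0 ≤ t ^ (a - 2) := rpow_nonneg h.pos.le _
  have h3 : n * t ^ (a - 2) ≤ 10 ^ 9 * t ^ (a - 2) := mul_le_mul_of_nonneg_right hn h2
  unfold C0; linarith

theorem div_t (a b : ℝ) : t ^ a * t ^ b / t = t ^ (a + b - 1) := by
  rw [← rpow_add h.pos, rpow_sub_one h.pos.ne']

end Rng

/-- The numerical facts. -/
structure NumF (t m : ℝ) (P : Par) : Prop where
  ok : P.OK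
  ht : 10 ^ 40 ≤ t
  hm : P.m = m
  tm : t ^ 2 ≤ m
  eb1 : P.b1 = B1 t m
  eb1' : P.b1' = B1' t m
  eL : P.L ^ 4 = B4 t m
  eD : P.D = BD t m
  eM : P.Mx = BM t m
  ez : P.z ^ 4 = BZ t
  ht2 : Te t m + BS t m ≤ P.t2
  hTe : Te t m + BS t m ≤ m
  hb3 : B3 t m + m ≤ P.b3
  hR : ∀ p : ℝ, 0 ≤ p → p ^ 4 ≤ P.D → 1 + p ≤ P.R
  hal : BA t m ≤ P.al ^ 2
  r1 : C0 * P.E1 ≤ m * B1 t m / t
  r1' : C0 * (P.E1 + P.μ * P.L ^ 4) ≤ m * B1' t m / t
  q1 : C0 * P.Q1 ≤ m * B1 t m ^ 2 / t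
  r2 : C0 * P.E2 + 8 * P.kF * Te t m ≤ m * BS t m / t
  q2 : 2 * (C0 * P.Q2) + 64 * Te t m ^ 2 ≤ m * BS t m ^ 2 / t
  r3 : C0 * P.E3 + C0 * P.E2 + 6 * m ^ 2 ≤ m * B3 t m / t
  r4 : C0 * P.E4 ≤ m * B4 t m / t
  r5 : C0 * P.E5 ≤ m * BM t m / t
  rD : C0 * P.ED ≤ m * BD t m / t
  rA : C0 * P.EA2 ≤ m * BA t m / t
  rZ : C0 * P.EA4 ≤ m * BZ t / t
  hS : 8 * BS t m ≤ m / t
  hkF : P.kF ≤ m / t ^ 2
  w1 : 2 * (P.sm + P.al ^ 2) / P.θ + √t * P.sm ≤ P.kF
  w2 : 2 * (P.sR + P.z * P.al) / P.θ + √t ≤ P.k2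
  w3 : 2 * P.μ * P.L * P.sR ≤ P.k2
  w4 : 2 * P.μ * P.L ^ 2 ≤ P.kO
  w5 : 2 * P.μ * P.sR ^ 2 ≤ P.θ

theorem bud_rpow {t x g : ℝ} (h0 : 0 < t) (hg : t ^ x + t ^ eh = t ^ g) (e a b : ℕ) :
    bud e a b t (t ^ x) = t ^ (e + a * x - b * g) := by
  rw [bud, hg, ← rpow_natCast, ← rpow_natCast, ← rpow_natCast, ← rpow_mul h0.le, ← rpow_mul h0.le,
    ← rpow_add h0, ← rpow_sub h0]
  congr 1; ring

theorem exists_rng {t m : ℝ} (ht : 10 ^ 40 ≤ t) (h1 : t ^ en1 ≤ m) (h2 : m ≤ t ^ (eN + 1)) :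
    ∃ x g, m = t ^ x ∧ t ^ x + t ^ eh = t ^ g ∧ Rng t x g (max (37366 + x - 2 * g) 379) := by
  have t1 : 1 < t := lt_of_lt_of_le (by norm_num) ht
  have t0 : 0 < t := by linarith
  have m0 : 0 < m := lt_of_lt_of_le (pow_pos t0 _) h1
  have hh : 0 < t ^ eh := pow_pos t0 _
  have ex : t ^ logb t m = m := rpow_logb t0 t1.ne' m0
  have eg : t ^ logb t (m + t ^ eh) = m + t ^ eh := rpow_logb t0 t1.ne' (by linarith)
  have ee : t ^ eh = t ^ (27321 : ℝ) := by rw [← rpow_natCast]; unfold eh; norm_num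
  have key : ∀ {a b : ℝ}, t ^ a ≤ t ^ b → a ≤ b := fun h => (rpow_le_rpow_left_iff t1).1 h
  have two : ∀ a : ℝ, t ^ a + t ^ a ≤ t ^ (a + 1) := fun a => by
    rw [rpow_add_one t0.ne']; nlinarith [rpow_pos_of_pos t0 a]
  refine ⟨logb t m, logb t (m + t ^ eh), ex.symm, by rw [ex, eg], ht, key ?_, key ?_, key ?_,
    key ?_, ?_, le_max_left _ _, le_max_right _ _, ?_⟩
  · rw [ex]; refine le_trans (le_of_eq ?_) h1; rw [← rpow_natCast]; unfold en1; norm_num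
  · rw [ex]; refine h2.trans (le_of_eq ?_); rw [← rpow_natCast]; unfold eN; norm_num
  · rw [ex, eg]; linarith
  · rw [eg, ← ee]; linarith
  · rcases le_total m (t ^ eh) with h | h
    · refine Or.inr ⟨key ?_, key ?_⟩
      · have := two 27321
        rw [eg, show (27322 : ℝ) = 27321 + 1 by norm_num]; linarith
      · rw [ex, ← ee]; exact h
    · refine Or.inl ⟨key ?_, key ?_⟩
      · have := two (logb t m)
        rw [eg]; rw [ex] at this; linarith
      · rw [ex, ← ee]; exact h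
  · rcases le_total (37366 + logb t m - 2 * logb t (m + t ^ eh)) 379 with h | h
    · exact Or.inr (max_eq_right h).le
    · exact Or.inl (max_eq_left h).le

theorem exists_numF {t m : ℝ} (ht : 10 ^ 40 ≤ t) (h1 : t ^ en1 ≤ m) (h2 : m ≤ t ^ (eN + 1)) :
    ∃ P, NumF t m P := by
  obtain ⟨x, g, rfl, hg, h⟩ := exists_rng ht h1 h2
  obtain ⟨A, hA⟩ : ∃ A, A = max (37366 + x - 2 * g) 379 := ⟨_, rfl⟩
  rw [← hA] at h
  have h0 := h.pos
  have eTe : Te t (t ^ x) = t ^ (2 * x - g) := by rw [Te, bud_rpow h0 hg]; congr 1; push_cast; ring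
  have eB1 : B1 t (t ^ x) = t ^ (14686 + x - g) := by
    rw [B1, bud_rpow h0 hg]; unfold e1; congr 1; push_cast; ring
  have eB1' : B1' t (t ^ x) = t ^ (18205 + x - g) := by
    rw [B1', bud_rpow h0 hg]; unfold e1'; congr 1; push_cast; ring
  have eBS : BS t (t ^ x) = t ^ (27124 + 2 * x - 2 * g) := by
    rw [BS, bud_rpow h0 hg]; unfold eS; congr 1
  have eB3 : B3 t (t ^ x) = t ^ (40250 + 2 * x - 2 * g) := by
    rw [B3, bud_rpow h0 hg]; unfold e3; congr 1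
  have eB4 : B4 t (t ^ x) = t ^ (80786 + 3 * x - 4 * g) := by
    rw [B4, bud_rpow h0 hg]; unfold e4; congr 1
  have eBD : BD t (t ^ x) = t ^ (81397 + x - 3 * g) := by
    rw [BD, bud_rpow h0 hg]; unfold eD; congr 1; push_cast; ring
  have eBA : BA t (t ^ x) = t ^ (37366 + x - 2 * g) + t ^ (379 : ℝ) := by
    rw [BA, bud_rpow h0 hg, ← rpow_natCast]; unfold eA eA'; congr 2; push_cast; ring
  have eBZ : BZ t = t ^ (174 : ℝ) := by rw [BZ, ← rpow_natCast]; unfold eZ; norm_num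
  have eBM : BM t (t ^ x) = t ^ (10035 + x) := by
    rw [BM, ← rpow_natCast, ← rpow_add h0]; unfold eM; norm_num
  have hBA : t ^ A ≤ BA t (t ^ x) := by
    rw [eBA, hA]
    rcases le_total (37366 + x - 2 * g) 379 with c | c
    · rw [max_eq_right c]; exact le_add_of_nonneg_left (rpow_nonneg h0.le _)
    · rw [max_eq_left c]; exact le_add_of_nonneg_right (rpow_nonneg h0.le _)
  have pw : ∀ a : ℝ, 0 < t ^ a := rpow_pos_of_pos h0
  have e2 : t ^ 2 = t ^ (2 : ℝ) := by rw [← rpow_natCast]; norm_num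
  have hs : √t = t ^ (1 / 2 : ℝ) := sqrt_eq_rpow t
  have ten : ∀ {c a b : ℝ}, c ≤ 10 ^ 39 → a + 1 ≤ b → c * t ^ a ≤ 1 / 10 * t ^ b :=
    fun {c a b} hc hab => by
      have := h.mul_le (c := 10 * c) (by linarith) hab; linarith
  have h' := h
  obtain ⟨-, x1, x2, g1, g2, cg, A1, A2, cA⟩ := h'
  refine ⟨par t x g A, h.ok, ht, rfl, ?_, eB1.symm, eB1'.symm, ?_, eBD.symm, eBM.symm, ?_, ?_, ?_,
    ?_, ?_, ?_, ?_, ?_, ?_, ?_, ?_, ?_, ?_, ?_, ?_, ?_, ?_, ?_, ?_, ?_, ?_, ?_, ?_, ?_⟩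
  · rw [e2]; exact h.le (by linarith)
  · rw [eB4]; exact h.four_eq (by ring)
  · rw [eBZ]; exact h.four_eq (by norm_num)
  · rw [eTe, eBS]; exact h.add_le le_rfl (h.le (by linarith)) le_rfl
  · have a1 : t ^ x - Te t (t ^ x) = t ^ (27321 + x - g) := by
      have ee : t ^ eh = t ^ (27321 : ℝ) := by rw [← rpow_natCast]; unfold eh; norm_num
      have a2 : t ^ (27321 + x - g) = t ^ eh * t ^ x / (t ^ x + t ^ eh) := by
        rw [hg, ee, ← rpow_add h0, ← rpow_sub h0]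
      have := pw x
      have : 0 < t ^ eh := pow_pos h0 _
      rw [a2, Te, bud]; field_simp; ring
    have a2 := h.le (a := 27124 + 2 * x - 2 * g) (b := 27321 + x - g) (by linarith)
    rw [eBS]; linarith
  · rw [eB3]
    exact h.add_le le_rfl (h.le (by rcases cg with ⟨c1, c2⟩ | ⟨c1, c2⟩ <;> linarith))
      (by linarith)
  · intro p p0 hp
    have a1 : p ≤ t ^ ((81397 + x - 3 * g) / 4) := by
      refine (pow_le_pow_iff_left₀ p0 (pw _).le four_ne_zero).1 (hp.trans_eq ?_)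
      exact (h.four_eq (by ring)).symm
    exact h.add_le (h.one_le (by rcases cg with ⟨c1, c2⟩ | ⟨c1, c2⟩ <;> linarith)) a1 le_rfl
  · rw [eBA]
    exact (h.add_le (a := A) (h.le A1) (h.le A2) (by linarith)).trans_eq (h.sq_eq rfl).symm
  · rw [eB1, h.div_t]; linarith [h.err h.E1_le (by norm_num) le_rfl, pw (x + (14686 + x - g) - 1)]
  · have a1 := h.err h.E1_le (by norm_num) (b := x + (18205 + x - g)) (by linarith)
    have a2 : (par t x g A).μ * (par t x g A).L ^ 4 ≤ 1 * t ^ (x + (18205 + x - g) - 2) := by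
      simp only [par]
      rw [h.four_eq rfl, h.mul_eq rfl, one_mul]
      exact h.le (by rcases cg with ⟨c1, c2⟩ | ⟨c1, c2⟩ <;> linarith)
    rw [eB1', h.div_t, mul_add]
    linarith [h.err a2 (by norm_num) le_rfl, pw (x + (18205 + x - g) - 1)]
  · rw [eB1, h.sq_eq (b := 2 * (14686 + x - g)) (by ring), h.div_t]
    linarith [h.err h.Q1_le (by norm_num) le_rfl, pw (x + 2 * (14686 + x - g) - 1)]
  · have a2 := ten (c := 8) (a := x / 2 + 46 + (2 * x - g)) (b := x + (27124 + 2 * x - 2 * g) - 1)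
      (by norm_num) (by rcases cg with ⟨c1, c2⟩ | ⟨c1, c2⟩ <;> linarith)
    have a3 : 8 * (par t x g A).kF * t ^ (2 * x - g) = 8 * t ^ (x / 2 + 46 + (2 * x - g)) := by
      rw [mul_assoc]; simp only [par]; rw [h.mul_eq rfl]
    rw [eBS, eTe, h.div_t, a3]
    linarith [h.err h.E2_le (by norm_num) le_rfl, pw (x + (27124 + 2 * x - 2 * g) - 1)]
  · have a2 := ten (c := 64) (a := (2 * x - g) * 2) (b := x + 2 * (27124 + 2 * x - 2 * g) - 1)
      (by norm_num) (by rcases cg with ⟨c1, c2⟩ | ⟨c1, c2⟩ <;> linarith)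
    rw [eBS, eTe, h.sq_eq rfl, h.sq_eq (b := 2 * (27124 + 2 * x - 2 * g)) (by ring), h.div_t]
    linarith [h.err h.Q2_le (by norm_num) le_rfl, pw (x + 2 * (27124 + 2 * x - 2 * g) - 1)]
  · have a2 := ten (c := 6) (a := x * 2) (b := x + (40250 + 2 * x - 2 * g) - 1)
      (by norm_num) (by rcases cg with ⟨c1, c2⟩ | ⟨c1, c2⟩ <;> linarith)
    rw [eB3, h.sq_eq rfl, h.div_t]
    linarith [h.err h.E3_le (by norm_num) le_rfl, pw (x + (40250 + 2 * x - 2 * g) - 1),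
      h.err h.E2_le (by norm_num) (b := x + (40250 + 2 * x - 2 * g)) (by linarith)]
  · rw [eB4, h.div_t]
    linarith [h.err h.E4_le (by norm_num) le_rfl, pw (x + (80786 + 3 * x - 4 * g) - 1)]
  · rw [eBM, h.div_t]; linarith [h.err h.E5_le (by norm_num) le_rfl, pw (x + (10035 + x) - 1)]
  · rw [eBD, h.div_t]
    linarith [h.err h.ED_le (by norm_num) le_rfl, pw (x + (81397 + x - 3 * g) - 1)]
  · have a1 : t ^ x * t ^ A / t ≤ t ^ x * BA t (t ^ x) / t := by gcongr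
    rw [h.div_t] at a1
    linarith [h.err h.EA2_le (by norm_num) le_rfl, pw (x + A - 1)]
  · rw [eBZ, h.div_t]; linarith [h.err h.EA4_le (by norm_num) le_rfl, pw (x + 174 - 1)]
  · rw [eBS, ← rpow_sub_one h0.ne']
    exact h.mul_le (by norm_num) (by rcases cg with ⟨c1, c2⟩ | ⟨c1, c2⟩ <;> linarith)
  · rw [e2, ← rpow_sub h0]; exact h.le (by linarith)
  · simp only [par]
    rw [hs, h.sq_eq rfl, h.mul_eq rfl, div_eq_mul_inv, ← rpow_neg h0.le, mul_assoc, add_mul,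
      h.mul_eq rfl, h.mul_eq rfl]
    have a1 := h.mul_le (c := 5) (a := x / 2 + 44) (b := x / 2 + 46) (by norm_num) (by linarith)
    have a2 := h.le (a := x / 2 + - -44) (b := x / 2 + 44) (by linarith)
    have a3 := h.le (a := (A / 2 + 1) * 2 + - -44) (b := x / 2 + 44)
      (by rcases cg with ⟨c1, c2⟩ | ⟨c1, c2⟩ <;> rcases cA with c3 | c3 <;> linarith)
    have a4 := h.le (a := 1 / 2 + x / 2) (b := x / 2 + 44) (by linarith)
    linarith
  · simp only [par]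
    rw [hs, h.mul_eq rfl, div_eq_mul_inv, ← rpow_neg h0.le, mul_assoc, add_mul,
      h.mul_eq rfl, h.mul_eq rfl]
    obtain ⟨k, hk⟩ : ∃ k, k = ((81397 + x - 3 * g) / 4 + 1) / 2 - 8101 +
      (80786 + 3 * x - 4 * g) / 4 + (g - x) / 4 + 2 := ⟨_, rfl⟩
    rw [← hk]
    have a1 := h.mul_le (c := 5) (a := k - 1) (b := k) (by norm_num) (by linarith)
    have a2 := h.le (a := ((81397 + x - 3 * g) / 4 + 1) / 2 + - -44) (b := k - 1)
      (by rcases cg with ⟨c1, c2⟩ | ⟨c1, c2⟩ <;> linarith)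
    have a3 := h.le (a := 174 / 4 + (A / 2 + 1) + - -44) (b := k - 1)
      (by rcases cg with ⟨c1, c2⟩ | ⟨c1, c2⟩ <;> rcases cA with c3 | c3 <;> linarith)
    have a4 := h.le (a := 1 / 2) (b := k - 1)
      (by rcases cg with ⟨c1, c2⟩ | ⟨c1, c2⟩ <;> linarith)
    linarith
  · simp only [par]
    rw [mul_assoc, mul_assoc, h.mul_eq rfl, h.mul_eq rfl]
    exact h.mul_le (by norm_num) (by linarith)
  · simp only [par]
    rw [mul_assoc, h.sq_eq rfl, h.mul_eq rfl]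
    exact h.mul_le (by norm_num) (by linarith)
  · simp only [par]
    rw [mul_assoc, h.sq_eq rfl, h.mul_eq rfl]
    exact h.mul_le (by norm_num) (by rcases cg with ⟨c1, c2⟩ | ⟨c1, c2⟩ <;> linarith)

end Vale.Agent.P049
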