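import Vale.Agent.P049.Num2

/-! Scalar lemmas for the potential argument. -/

namespace Vale.Agent.P049

theorem eh_pos {t : ℝ} (h0 : 0 < t) : 0 < t ^ eh := pow_pos h0 _

theorem bud_pos {t m : ℝ} (h0 : 0 < t) (hm : 0 < m) (e a b : ℕ) : 0 < bud e a b t m := by
  have := eh_pos h0; unfold bud; positivity

theorem bud_sq (e a b : ℕ) (t m : ℝ) : bud e a b t m ^ 2 = bud (e * 2) (a * 2) (b * 2) t m := by
  simp only [bud, div_pow, mul_pow, ← pow_mul]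

theorem Te_eq (t m : ℝ) : Te t m = m ^ 2 / (m + t ^ eh) := by simp [Te, bud]

theorem Te_le {t m : ℝ} (h0 : 0 < t) (hm : 0 < m) : Te t m ≤ m := by
  have := eh_pos h0
  rw [Te_eq, div_le_iff₀ (by linarith)]; nlinarith

theorem bud_ratio {t m : ℝ} (h0 : 0 < t) (hm : 100 ≤ m) (e a b : ℕ) (ha : a ≤ 4) (hb : b ≤ 4) :
    bud e a b t m * (1 + (-(2 * a * m) + 2 * b * Te t m) / m ^ 2 - 64 / m ^ 2) ≤
      bud e a b t (m - 2) := by
  have hh := eh_pos h0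
  obtain ⟨h, eqh⟩ : ∃ h, h = t ^ eh := ⟨_, rfl⟩
  rw [← eqh] at hh
  have ha' : (a : ℝ) ≤ 4 := by exact_mod_cast ha
  have hb' : (b : ℝ) ≤ 4 := by exact_mod_cast hb
  have a0 : (0 : ℝ) ≤ a := Nat.cast_nonneg _
  have b0 : (0 : ℝ) ≤ b := Nat.cast_nonneg _
  have m0 : 0 < m := by linarith
  have e1 : bud e a b t (m - 2) = bud e a b t m * ((1 + -2 / m) ^ a *
      ((m + h) / (m - 2 + h)) ^ b) := by
    have : 1 + -2 / m = (m - 2) / m := by field_simp; ring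
    have h1 : 0 < m - 2 + h := by linarith
    have h2 : 0 < m + h := by linarith
    rw [bud, bud, ← eqh, this, div_pow, div_pow]; field_simp
  rw [e1]
  refine mul_le_mul_of_nonneg_left ?_ (bud_pos h0 m0 e a b).le
  rw [Te_eq, ← eqh]
  have h1 := one_add_mul_le_pow (a := -2 / m)
    (by rw [le_div_iff₀ m0]; linarith) a
  have h2 := one_add_mul_le_pow (a := 2 / (m + h)) 
    (le_trans (show (-2 : ℝ) ≤ 0 by norm_num) (by positivity)) b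
  have h3 : 1 + 2 / (m + h) ≤ (m + h) / (m - 2 + h) := by
    rw [le_div_iff₀ (by linarith)]
    have : 2 / (m + h) * (m - 2 + h) ≤ 2 := by
      rw [div_mul_eq_mul_div, div_le_iff₀ (by linarith)]; linarith
    linarith
  have h4 := h2.trans (pow_le_pow_left₀ (by positivity) h3 b)
  have h5 : 0 ≤ 1 + a * (-2 / m) := by
    have : a * (2 / m) ≤ 1 := by rw [← mul_div_assoc, div_le_one m0]; linarith
    rw [neg_div]; linarith
  refine le_trans ?_ (mul_le_mul h1 h4 (by positivity) (h5.trans h1))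
  have h6 : (-(2 * a * m) + 2 * b * (m ^ 2 / (m + h))) / m ^ 2 =
      a * (-2 / m) + b * (2 / (m + h)) := by field_simp
  have h7 : 2 / m * (2 / (m + h)) ≤ 4 / m ^ 2 := by
    rw [div_mul_div_comm, div_le_div_iff₀ (by positivity) (by positivity)]; nlinarith
  have h8 : a * b * (2 / m * (2 / (m + h))) ≤ 16 * (4 / m ^ 2) :=
    mul_le_mul (by nlinarith) h7 (by positivity) (by norm_num)
  rw [h6]
  have h9 : (64 : ℝ) / m ^ 2 = 16 * (4 / m ^ 2) := by ring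
  have h10 : -2 / m = -(2 / m) := neg_div _ _
  rw [h9, h10]
  nlinarith

theorem Te_step {t m : ℝ} (h0 : 0 < t) (hm : 100 ≤ m) :
    2 * Te t m ^ 2 - 4 * m * Te t m ≤ m ^ 2 * (Te t (m - 2) - Te t m) ∧
      |Te t (m - 2) - Te t m| * m ≤ 4 * Te t m := by
  have hh := eh_pos h0
  rw [Te_eq, Te_eq]
  obtain ⟨h, eqh⟩ : ∃ h, h = t ^ eh := ⟨_, rfl⟩
  rw [← eqh] at hh ⊢
  have h1 : 0 < m - 2 + h := by linarith
  have h2 : 0 < m + h := by linarith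
  have m0 : 0 < m := by linarith
  have a1 : 2 * (m ^ 2 / (m + h)) ^ 2 - 4 * m * (m ^ 2 / (m + h)) ≤
      m ^ 2 * ((m - 2) ^ 2 / (m - 2 + h) - m ^ 2 / (m + h)) := by
    have e : m ^ 2 * ((m - 2) ^ 2 / (m - 2 + h) - m ^ 2 / (m + h)) -
        (2 * (m ^ 2 / (m + h)) ^ 2 - 4 * m * (m ^ 2 / (m + h))) =
        4 * m ^ 2 * h ^ 2 / ((m + h) ^ 2 * (m - 2 + h)) := by field_simp; ring
    have : 0 ≤ 4 * m ^ 2 * h ^ 2 / ((m + h) ^ 2 * (m - 2 + h)) := by positivity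
    linarith
  refine ⟨a1, ?_⟩
  have a2 : (m - 2) ^ 2 / (m - 2 + h) ≤ m ^ 2 / (m + h) := by
    rw [div_le_div_iff₀ h1 h2]; nlinarith [mul_pos m0 hh]
  rw [abs_of_nonpos (by linarith)]
  refine le_of_mul_le_mul_left ?_ m0
  nlinarith [sq_nonneg (m ^ 2 / (m + h))]

theorem potCore {m u ω η ρ γ γ0 q : ℝ} (hm : 1000 ≤ m) (u1 : 1000 ≤ u) (η1 : η ≤ 1 / 1000)
    (η2 : η * m ≤ u / 1000) (hω : |ω - 1| ≤ η) (q0 : 0 ≤ q) (q1 : q ≤ 1) (hγ0 : |γ0| ≤ 8 * m)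
    (ρ3 : m ^ 2 + γ0 - 64 ≤ ρ * m ^ 2) (hγ : γ ≤ γ0 + u) :
    0 < ρ ∧ ω * m ^ 2 * q + γ * q + 3 * u ≤ (ω * m ^ 2 * q + 14 * ω * u) * ρ := by
  obtain ⟨ω1, ω2⟩ := abs_le.1 hω
  obtain ⟨γ1, γ2⟩ := abs_le.1 hγ0
  have ρ2 : 9 / 10 ≤ ρ := by
    refine le_of_mul_le_mul_right ?_ (show 0 < m ^ 2 by positivity)
    nlinarith
  have ρ4 : ω * m ^ 2 + γ0 - u ≤ ρ * (ω * m ^ 2) := by
    have a1 := mul_le_mul_of_nonneg_left ρ3 (show 0 ≤ ω by linarith)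
    have a2 : |γ0 * (ω - 1)| ≤ 8 * m * η := by
      rw [abs_mul]; exact mul_le_mul hγ0 hω (abs_nonneg _) (by linarith)
    have a3 := (abs_le.1 a2).1
    linarith
  have ρ5 : 12 * u ≤ ρ * (14 * ω) * u :=
    mul_le_mul_of_nonneg_right (by nlinarith) (by linarith)
  refine ⟨by linarith, ?_⟩
  linarith [mul_le_mul_of_nonneg_right ρ4 q0, mul_le_mul_of_nonneg_right hγ q0,
    mul_le_mul_of_nonneg_left q1 (show 0 ≤ u by linarith)]

theorem potTerm {m t W B B' Q a γ γ0 : ℝ} (ht : 10 ^ 40 ≤ t) (tm : t ^ 2 ≤ m)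
    (hW : |W - m ^ 2| ≤ 2 * m ^ 2 / t ^ 2) (hB : 0 < B)
    (hB' : B * (1 + γ0 / m ^ 2 - 64 / m ^ 2) ≤ B') (hγ0 : |γ0| ≤ 8 * m) (Q0 : 0 ≤ Q) (Q1 : Q ≤ B)
    (ha : a ≤ W * Q + γ * Q + 3 * (m * B / t)) (hγ : γ ≤ γ0 + m / t) :
    a / B' ≤ W * (Q / B + 14 / (t * m)) := by
  have t1 : 10000 ≤ t := le_trans (by norm_num) ht
  clear ht
  have t0 : 0 < t := by linarith
  have m1 : 1000 ≤ m := by nlinarith
  have m0 : 0 < m := by linarith
  have u1 : t ≤ m / t := by rw [le_div_iff₀ t0]; nlinarith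
  have η1 : 2 / t ^ 2 ≤ 1 / 1000 := by rw [div_le_iff₀ (by positivity)]; nlinarith
  have η2 : 2 / t ^ 2 * m ≤ m / t / 1000 := by
    rw [div_mul_eq_mul_div, div_div, div_le_div_iff₀ (by positivity) (by positivity)]
    nlinarith [mul_pos m0 t0]
  have hω1 : |W / m ^ 2 - 1| ≤ 2 / t ^ 2 := by
    rw [show W / m ^ 2 - 1 = (W - m ^ 2) / m ^ 2 by field_simp, abs_div,
      abs_of_pos (pow_pos m0 2), div_le_iff₀ (pow_pos m0 2)]
    exact hW.trans_eq (by ring)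
  have ρ3 : m ^ 2 + γ0 - 64 ≤ B' / B * m ^ 2 := by
    have ρ1 : 1 + γ0 / m ^ 2 - 64 / m ^ 2 ≤ B' / B := by rw [le_div_iff₀ hB]; linarith
    have := mul_le_mul_of_nonneg_right ρ1 (pow_pos m0 2).le
    rwa [show (1 + γ0 / m ^ 2 - 64 / m ^ 2) * m ^ 2 = m ^ 2 + γ0 - 64 by field_simp] at this
  obtain ⟨ρ0, key⟩ := potCore m1 (by linarith) η1 η2 hω1 (q := Q / B) (by positivity)
    ((div_le_one hB).2 Q1) hγ0 ρ3 hγ
  have B0 : 0 < B' := by rwa [div_pos_iff_of_pos_right hB] at ρ0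
  rw [div_le_iff₀ B0]
  refine ha.trans ((le_of_eq ?_).trans ((mul_le_mul_of_nonneg_right key hB.le).trans_eq ?_))
  · field_simp
  · field_simp

theorem pos_sq_le (x d : ℝ) : max (x + d) 0 ^ 2 ≤ max x 0 ^ 2 + 2 * max x 0 * d + d ^ 2 := by
  have h1 := le_max_left x 0
  have h2 := le_max_right x 0
  rcases le_total (x + d) 0 with h | h
  · rw [max_eq_right h]; nlinarith [sq_nonneg (max x 0 + d)]
  · rw [max_eq_left h]; nlinarith
theorem pos_mul (x : ℝ) : max x 0 * x = max x 0 ^ 2 := by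
  rcases le_total x 0 with h | h
  · simp [max_eq_right h]
  · rw [max_eq_left h, sq]

/-- The terms of one side are nonnegative and bounded by the side. -/
theorem sideV_terms {t m ε x1 x2 x3 x4 xD xA xZ : ℝ} (h0 : 0 < t) (m0 : 0 < m)
    (h3 : 0 ≤ ε * x3 + x2) (h4 : 0 ≤ x4) (hD : 0 ≤ xD) (hA : 0 ≤ xA) (hZ : 0 ≤ xZ) :
    0 ≤ sideV t m ε x1 x2 x3 x4 xD xA xZ ∧ (sideV t m ε x1 x2 x3 x4 xD xA xZ ≤ 1 →
      max (ε * x1) 0 ^ 2 ≤ B1 t m ^ 2 ∧ x1 ^ 2 ≤ B1' t m ^ 2 ∧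
      max (x2 - Te t m) 0 ^ 2 ≤ BS t m ^ 2 ∧ ε * x3 + x2 ≤ B3 t m ∧ x4 ≤ B4 t m ∧ xD ≤ BD t m ∧
      xA ≤ BA t m ∧ xZ ≤ BZ t) := by
  have b1 : 0 < B1 t m := bud_pos h0 m0 _ _ _
  have b2 : 0 < B1' t m := bud_pos h0 m0 _ _ _
  have b3 : 0 < BS t m := bud_pos h0 m0 _ _ _
  have b4 : 0 < B3 t m := bud_pos h0 m0 _ _ _
  have b5 : 0 < B4 t m := bud_pos h0 m0 _ _ _
  have b6 : 0 < BD t m := bud_pos h0 m0 _ _ _
  have b7 : 0 < BA t m := add_pos (bud_pos h0 m0 _ _ _) (pow_pos h0 _)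
  have b8 : 0 < BZ t := pow_pos h0 _
  have a1 : 0 ≤ max (ε * x1) 0 ^ 2 / B1 t m ^ 2 := by positivity
  have a2 : 0 ≤ x1 ^ 2 / B1' t m ^ 2 := by positivity
  have a3 : 0 ≤ max (x2 - Te t m) 0 ^ 2 / BS t m ^ 2 := by positivity
  have a4 : 0 ≤ (ε * x3 + x2) / B3 t m := by positivity
  have a5 : 0 ≤ x4 / B4 t m := by positivity
  have a6 : 0 ≤ xD / BD t m := by positivity
  have a7 : 0 ≤ xA / BA t m := by positivity
  have a8 : 0 ≤ xZ / BZ t := by positivity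
  unfold sideV
  refine ⟨by linarith, fun h => ⟨(div_le_one (by positivity)).1 (by linarith),
    (div_le_one (by positivity)).1 (by linarith), (div_le_one (by positivity)).1 (by linarith),
    (div_le_one b4).1 (by linarith), (div_le_one b5).1 (by linarith),
    (div_le_one b6).1 (by linarith), (div_le_one b7).1 (by linarith),
    (div_le_one b8).1 (by linarith)⟩⟩

end Vale.Agent.P049
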