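import Vale.Agent.P049.Pot1
import Vale.Agent.P049.Avg

/-! The potential does not increase much on average. -/

namespace Vale.Agent.P049

open Matrix Finset

variable {ι : Type} [Fintype ι]

theorem av_split (w f : ι → ι → ℝ) (c : ℝ) :
    av w f = av w (fun _ _ => 1) * c + av w (fun i j => f i j - c) := by
  rw [av_sub, av_const w c]; ring

theorem av_div (w f : ι → ι → ℝ) (c : ℝ) : av w (fun i j => f i j / c) = av w f / c := by
  rw [div_eq_inv_mul, ← av_mul]; simp only [div_eq_inv_mul]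

namespace NumF

variable {t m : ℝ} {P : Par} (n : NumF t m P)
include n

theorem t0 : 0 < t := lt_of_lt_of_le (by norm_num) n.ht
theorem m100 : 100 ≤ m := by
  have h1 : 10 ≤ t := le_trans (by norm_num) n.ht
  nlinarith [n.tm]
theorem m0 : 0 < m := by linarith [n.m100]
theorem Te0 : 0 < Te t m := bud_pos n.t0 n.m0 _ _ _
theorem BS0 : 0 < BS t m := bud_pos n.t0 n.m0 _ _ _
theorem Tem : Te t m ≤ m := Te_le n.t0 n.m0
theorem mt0 : 0 ≤ m / t := (div_pos n.m0 n.t0).le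

theorem term {W B B' Q a γ γ0 : ℝ} (hW : |W - m ^ 2| ≤ 2 * (P.kF * m)) (hB : 0 < B)
    (hB' : B * (1 + γ0 / m ^ 2 - 64 / m ^ 2) ≤ B') (h1 : -(8 * m) ≤ γ0) (h2 : γ0 ≤ 8 * m)
    (Q0 : 0 ≤ Q) (Q1 : Q ≤ B) (ha : a ≤ W * Q + γ * Q + 3 * (m * B / t))
    (hγ : γ ≤ γ0 + 8 * BS t m) : a / B' ≤ W * (Q / B + 14 / (t * m)) := by
  refine potTerm n.ht n.tm (hW.trans ?_) hB hB' (abs_le.2 ⟨h1, h2⟩) Q0 Q1 ha
    (by linarith [n.hS])
  have := mul_le_mul_of_nonneg_right n.hkF n.m0.le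
  calc 2 * (P.kF * m) ≤ 2 * (m / t ^ 2 * m) := by linarith
    _ = _ := by ring

theorem W_bd {W : ℝ} (hW : |W - m ^ 2| ≤ 2 * (P.kF * m)) : 0 < W ∧ W ≤ 2 * m ^ 2 := by
  have h1 : 10 ≤ t := le_trans (by norm_num) n.ht
  have h2 : m / t ^ 2 ≤ m / 100 := div_le_div_of_nonneg_left n.m0.le (by norm_num) (by nlinarith)
  have h3 := mul_le_mul_of_nonneg_right (n.hkF.trans h2) n.m0.le
  obtain ⟨h4, h5⟩ := abs_le.1 hW
  constructor <;> nlinarith [n.m0]

end NumF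

variable [DecidableEq ι]

section Side

variable {t m ε : ℝ} {P : Par} {Z Y : Mat ι} {w e : ι → ι → ℝ}

omit [DecidableEq ι] in
theorem Ctx.W_close (c : Ctx P ε Z Y w e) (n : NumF t m P) :
    |av w (fun _ _ => 1) - m ^ 2| ≤ 2 * (P.kF * m) := by
  have := c.wt.av_one (by linarith [c.ok.sm1]) (c.sZ.card_sq c.ok)
  rwa [c.ok.sm_sq, n.hm] at this

theorem term1 (h1 : LT1S) (c : Ctx P ε Z Y w e) (n : NumF t m P) (hT : T2 Z ≤ Te t m + BS t m) :
    av w (fun i j => max (ε * T1 (upd Z i j)) 0 ^ 2) / B1 t (m - 2) ^ 2 ≤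
      av w (fun _ _ => 1) * (max (ε * T1 Z) 0 ^ 2 / B1 t m ^ 2 + 14 / (t * m)) ∧
    av w (fun i j => T1 (upd Z i j) ^ 2) / B1' t (m - 2) ^ 2 ≤
      av w (fun _ _ => 1) * (T1 Z ^ 2 / B1' t m ^ 2 + 14 / (t * m)) := by
  obtain ⟨a1, a2, a3⟩ := h1 ι P ε Z Y w e c
  rw [n.hm] at a1 a2
  have b1 : 0 < B1 t m := bud_pos n.t0 n.m0 _ _ _
  have b2 : 0 < B1' t m := bud_pos n.t0 n.m0 _ _ _
  have := n.Te0; have := n.Tem; have := n.BS0; have := n.m0
  constructor
  · have x1 : max (ε * T1 Z) 0 ≤ B1 t m := max_le (n.eb1 ▸ c.sZ.hb1) b1.le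
    have x0 : 0 ≤ max (ε * T1 Z) 0 := le_max_right _ _
    have r := bud_ratio n.t0 n.m100 (e1 * 2) (1 * 2) (1 * 2) (by norm_num) (by norm_num)
    rw [← bud_sq, ← bud_sq] at r
    refine n.term (γ := 4 * (T2 Z - m)) (c.W_close n) (pow_pos b1 2) r (by push_cast; linarith)
      (by push_cast; linarith) (sq_nonneg _) (pow_le_pow_left₀ x0 x1 2) ?_ (by push_cast; linarith)
    refine (c.wt.av_mono (g := fun i j => max (ε * T1 Z) 0 ^ 2 + (2 * max (ε * T1 Z) 0 * ε) *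
      (T1 (upd Z i j) - T1 Z) + (T1 (upd Z i j) - T1 Z) ^ 2) fun i j _ => ?_).trans ?_
    · have p := pos_sq_le (ε * T1 Z) (ε * (T1 (upd Z i j) - T1 Z))
      rw [show ε * T1 Z + ε * (T1 (upd Z i j) - T1 Z) = ε * T1 (upd Z i j) by ring, mul_pow,
        sq ε, c.sZ.eps_sq] at p
      linarith
    · rw [av_add, av_add, av_mul, av_const]
      have p1 := mul_le_mul_of_nonneg_left (a1.trans (add_le_add_right n.r1 _)) x0
      have p2 := pos_mul (ε * T1 Z)
      have p3 := mul_le_mul_of_nonneg_right x1 (show 0 ≤ m * B1 t m / t from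
        div_nonneg (by positivity) n.t0.le)
      have p4 : B1 t m * (m * B1 t m / t) = m * B1 t m ^ 2 / t := by ring
      have p5 : max (ε * T1 Z) 0 * (2 * (ε * T1 Z) * (T2 Z - m)) =
        2 * (T2 Z - m) * max (ε * T1 Z) 0 ^ 2 := by rw [← p2]; ring
      linarith [n.q1]
  · have x1 : |T1 Z| ≤ B1' t m := n.eb1' ▸ c.sZ.hb1'
    have r := bud_ratio n.t0 n.m100 (e1' * 2) (1 * 2) (1 * 2) (by norm_num) (by norm_num)
    rw [← bud_sq, ← bud_sq] at r
    refine n.term (γ := 4 * (T2 Z - m)) (c.W_close n) (pow_pos b2 2) r (by push_cast; linarith)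
      (by push_cast; linarith) (sq_nonneg _) (by rw [← sq_abs]; gcongr) ?_
      (by push_cast; linarith)
    rw [av_congr (g := fun i j => T1 Z ^ 2 + (2 * T1 Z) * (T1 (upd Z i j) - T1 Z) +
      (T1 (upd Z i j) - T1 Z) ^ 2) fun i j _ => by ring, av_add, av_add, av_mul, av_const]
    have p1 : T1 Z * (av w (fun i j => T1 (upd Z i j) - T1 Z) - 2 * T1 Z * (T2 Z - m)) ≤
        B1' t m * (m * B1' t m / t) := by
      refine (le_abs_self _).trans ?_
      rw [abs_mul]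
      exact mul_le_mul x1 (a2.trans n.r1') (abs_nonneg _) b2.le
    have p4 : B1' t m * (m * B1' t m / t) = m * B1' t m ^ 2 / t := by ring
    have p5 : m * B1 t m ^ 2 / t ≤ m * B1' t m ^ 2 / t := by
      have := c.ok.b1_le
      rw [n.eb1, n.eb1'] at this
      have := n.t0
      gcongr
    linarith [n.q1]

theorem term2 (h2 : LT2S) (h3 : LQ2S) (c : Ctx P ε Z Y w e) (n : NumF t m P)
    (hT : T2 Z ≤ Te t m + BS t m) :
    av w (fun i j => max (T2 (upd Z i j) - Te t (m - 2)) 0 ^ 2) / BS t (m - 2) ^ 2 ≤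
      av w (fun _ _ => 1) * (max (T2 Z - Te t m) 0 ^ 2 / BS t m ^ 2 + 14 / (t * m)) := by
  have a1 := h2 ι P ε Z Y w e c
  have a2 := h3 ι P ε Z Y w e c
  rw [n.hm] at a1
  have := n.Te0; have := n.Tem; have b1 := n.BS0; have m0 := n.m0
  have x1 : max (T2 Z - Te t m) 0 ≤ BS t m := max_le (by linarith) b1.le
  have x0 : 0 ≤ max (T2 Z - Te t m) 0 := le_max_right _ _
  have r := bud_ratio n.t0 n.m100 (eS * 2) (2 * 2) (2 * 2) (by norm_num) (by norm_num)
  rw [← bud_sq, ← bud_sq] at r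
  obtain ⟨d1, d2⟩ := Te_step n.t0 n.m100
  obtain ⟨δ, hδ⟩ : ∃ δ, δ = Te t (m - 2) - Te t m := ⟨_, rfl⟩
  rw [← hδ] at d1 d2
  have hW := c.W_close n
  obtain ⟨W0, W2⟩ := n.W_bd hW
  refine n.term (γ := 4 * (T2 Z + Te t m - 2 * m)) hW (pow_pos b1 2) r
    (by push_cast; linarith) (by push_cast; linarith) (sq_nonneg _) (pow_le_pow_left₀ x0 x1 2) ?_
    (by push_cast; linarith)
  refine (c.wt.av_mono (g := fun i j => (max (T2 Z - Te t m) 0 ^ 2 -
    2 * max (T2 Z - Te t m) 0 * δ + 2 * δ ^ 2) + (2 * max (T2 Z - Te t m) 0) *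
    (T2 (upd Z i j) - T2 Z) + 2 * (T2 (upd Z i j) - T2 Z) ^ 2) fun i j _ => ?_).trans ?_
  · have p := pos_sq_le (T2 Z - Te t m) (T2 (upd Z i j) - T2 Z - δ)
    rw [show T2 Z - Te t m + (T2 (upd Z i j) - T2 Z - δ) = T2 (upd Z i j) - Te t (m - 2) by
      rw [hδ]; ring] at p
    nlinarith [sq_nonneg (T2 (upd Z i j) - T2 Z + δ)]
  · rw [av_add, av_add, av_mul, av_mul, av_const]
    obtain ⟨W, eW⟩ : ∃ W, W = av w (fun _ _ => 1) := ⟨_, rfl⟩
    rw [← eW] at hW W0 W2 ⊢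
    have k0 : 0 ≤ P.kF := c.wt.kF_nonneg
    have p0 : |(W - m ^ 2) * δ| ≤ 8 * P.kF * Te t m := by
      rw [abs_mul]
      nlinarith [mul_le_mul_of_nonneg_right hW (abs_nonneg δ), mul_le_mul_of_nonneg_left d2 k0]
    have p1 : av w (fun i j => T2 (upd Z i j) - T2 Z) - W * δ ≤
        (T2 Z - Te t m) * (2 * (T2 Z + Te t m - 2 * m)) + m * BS t m / t := by
      have := (abs_le.1 p0).1
      linarith [n.r2]
    have p2 := mul_le_mul_of_nonneg_left p1 x0
    have p3 := mul_le_mul_of_nonneg_right x1 (show 0 ≤ m * BS t m / t from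
      div_nonneg (by positivity) n.t0.le)
    have p4 : BS t m * (m * BS t m / t) = m * BS t m ^ 2 / t := by ring
    have p5 : max (T2 Z - Te t m) 0 * ((T2 Z - Te t m) * (2 * (T2 Z + Te t m - 2 * m))) =
      2 * (T2 Z + Te t m - 2 * m) * max (T2 Z - Te t m) 0 ^ 2 := by rw [← pos_mul]; ring
    have p6 : W * δ ^ 2 ≤ 32 * Te t m ^ 2 := by
      have q1 : (|δ| * m) ^ 2 ≤ (4 * Te t m) ^ 2 := by gcongr
      rw [mul_pow, sq_abs] at q1
      nlinarith [mul_le_mul_of_nonneg_right W2 (sq_nonneg δ)]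
    linarith [n.q2]

theorem term3 (h2 : LT2S) (h3 : LT3S) (c : Ctx P ε Z Y w e) (n : NumF t m P)
    (hT : T2 Z ≤ Te t m + BS t m) (hU : ε * T3 Z + T2 Z ≤ B3 t m) :
    av w (fun i j => ε * T3 (upd Z i j) + T2 (upd Z i j)) / B3 t (m - 2) ≤
      av w (fun _ _ => 1) * ((ε * T3 Z + T2 Z) / B3 t m + 14 / (t * m)) := by
  have a1 := h2 ι P ε Z Y w e c
  have a2 := h3 ι P ε Z Y w e c
  rw [n.hm] at a1 a2
  have := n.Te0; have := n.Tem; have := n.BS0; have m0 := n.m0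
  have b1 : 0 < B3 t m := bud_pos n.t0 n.m0 _ _ _
  have r := bud_ratio n.t0 n.m100 e3 2 2 (by norm_num) (by norm_num)
  refine n.term (γ := 6 * (T2 Z - m)) (c.W_close n) b1 r (by push_cast; linarith)
    (by push_cast; linarith) (T3_low c.sZ.symm c.sZ.low) hU ?_ (by push_cast; linarith)
  rw [av_add, av_mul, av_split w _ (T3 Z), av_split w (fun i j => T2 (upd Z i j)) (T2 Z)]
  have h0 := T2_nonneg c.sZ.symm
  have hm : T2 Z ≤ m := n.hm ▸ c.sZ.hm
  have : 0 ≤ m * B3 t m / t := div_nonneg (by positivity) n.t0.le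
  nlinarith [n.r3]

theorem term4 (h4 : LT4S) (hD : LDS) (hA : LA2S) (hZ : LA4S) (c : Ctx P ε Z Y w e)
    (n : NumF t m P) (hT : T2 Z ≤ Te t m + BS t m) (hAd : Ad Z ≤ BA t m) :
    av w (fun i j => T4 (upd Z i j)) / B4 t (m - 2) ≤
      av w (fun _ _ => 1) * (T4 Z / B4 t m + 14 / (t * m)) ∧
    av w (fun i j => Dp (upd Z i j)) / BD t (m - 2) ≤
      av w (fun _ _ => 1) * (Dp Z / BD t m + 14 / (t * m)) ∧
    av w (fun i j => Ad (upd Z i j)) / BA t (m - 2) ≤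
      av w (fun _ _ => 1) * (Ad Z / BA t m + 14 / (t * m)) ∧
    av w (fun i j => A4 (upd Z i j)) / BZ t ≤
      av w (fun _ _ => 1) * (A4 Z / BZ t + 14 / (t * m)) := by
  have a1 := h4 ι P ε Z Y w e c
  have a2 := hD ι P ε Z Y w e c
  have a3 := hA ι P ε Z Y w e c
  have a4 := hZ ι P ε Z Y w e c
  rw [n.hm] at a1 a2 a3
  have := n.Te0; have := n.Tem; have := n.BS0; have m0 := n.m0; have t0 := n.t0
  refine ⟨?_, ?_, ?_, ?_⟩
  · have b1 : 0 < B4 t m := bud_pos n.t0 n.m0 _ _ _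
    have r := bud_ratio n.t0 n.m100 e4 3 4 (by norm_num) (by norm_num)
    refine n.term (γ := 8 * (T2 Z - m)) (c.W_close n) b1 r (by push_cast; linarith)
      (by push_cast; linarith) (T4_nonneg c.sZ.symm) (n.eL ▸ c.sZ.hL) ?_ (by push_cast; linarith)
    rw [av_split w _ (T4 Z)]
    have : 0 ≤ m * B4 t m / t := by positivity
    linarith [n.r4]
  · have b1 : 0 < BD t m := bud_pos n.t0 n.m0 _ _ _
    have r := bud_ratio n.t0 n.m100 eD 1 3 (by norm_num) (by norm_num)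
    refine n.term (γ := 6 * T2 Z - 2 * m) (c.W_close n) b1 r (by push_cast; linarith)
      (by push_cast; linarith) (Dp_nonneg _) (n.eD ▸ c.sZ.hD) ?_ (by push_cast; linarith)
    rw [av_split w _ (Dp Z)]
    have : 0 ≤ m * BD t m / t := by positivity
    linarith [n.rD]
  · have b0 : 0 < bud eA 1 2 t m := bud_pos n.t0 n.m0 _ _ _
    have b2 : 0 < t ^ eA' := pow_pos t0 _
    have b1 : 0 < BA t m := add_pos b0 b2
    have r := bud_ratio n.t0 n.m100 eA 1 2 (by norm_num) (by norm_num)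
    have r' : BA t m * (1 + (2 * Te t m - 2 * m) / m ^ 2 - 64 / m ^ 2) ≤ BA t (m - 2) := by
      have s1 : (2 * Te t m - 2 * m) / m ^ 2 ≤
          (-(2 * (1 : ℕ) * m) + 2 * (2 : ℕ) * Te t m) / m ^ 2 := by
        gcongr; push_cast; linarith
      have s2 : (2 * Te t m - 2 * m) / m ^ 2 ≤ 0 :=
        div_nonpos_of_nonpos_of_nonneg (by linarith) (by positivity)
      have s3 : 0 ≤ 64 / m ^ 2 := by positivity
      unfold BA
      nlinarith
    refine n.term (γ := 2 * T2 Z - 2 * m) (c.W_close n) b1 r' (by linarith)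
      (by linarith) (Ad_nonneg _) hAd ?_ (by linarith)
    rw [av_split w _ (Ad Z)]
    have : 0 ≤ m * BA t m / t := by positivity
    linarith [n.rA]
  · have b1 : 0 < BZ t := pow_pos t0 _
    have r' : BZ t * (1 + 0 / m ^ 2 - 64 / m ^ 2) ≤ BZ t := by
      have s3 : 0 ≤ 64 / m ^ 2 := by positivity
      rw [zero_div]; nlinarith
    refine n.term (γ := 0) (c.W_close n) b1 r' (by linarith)
      (by linarith) (A4_nonneg _) (n.ez ▸ c.sZ.hz) ?_ (by linarith)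
    rw [av_split w _ (A4 Z)]
    have : 0 ≤ m * BZ t / t := by positivity
    linarith [n.rZ]

theorem term5 (h5 : LMS) (c : Ctx P ε Z Y w e) (n : NumF t m P)
    (htr : trace (Y * Z) ≤ P.m / 2 + 2 * P.b1 + 1) :
    av w (fun i j => Mq (upd Z i j) (upd Y i j)) / BM t (m - 2) ≤
      av w (fun _ _ => 1) * (Mq Z Y / BM t m + 14 / (t * m)) := by
  have a1 := h5 ι P ε Z Y w e c htr
  rw [n.hm] at a1
  have := n.BS0; have m0 := n.m0; have t0 := n.t0
  have b0 : 0 < t ^ eM := pow_pos t0 _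
  have b1 : 0 < BM t m := mul_pos b0 m0
  have r' : BM t m * (1 + -(2 * m) / m ^ 2 - 64 / m ^ 2) ≤ BM t (m - 2) := by
    have s1 : m * (1 + -(2 * m) / m ^ 2 - 64 / m ^ 2) = m - 2 - 64 / m := by field_simp; ring
    have s3 : 0 ≤ 64 / m := by positivity
    unfold BM
    rw [mul_assoc, s1]; nlinarith
  refine n.term (γ := -(2 * m)) (c.W_close n) b1 r' (by linarith)
    (by linarith) (Mq_nonneg c.sZ.symm c.sY.symm) (n.eM ▸ c.hM) ?_ (by linarith)
  rw [av_split w _ (Mq Z Y)]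
  have : 0 ≤ m * BM t m / t := by positivity
  linarith [n.r5]

theorem side_step (h1 : LT1S) (h2 : LT2S) (h2' : LQ2S) (h3 : LT3S) (h4 : LT4S) (hD : LDS)
    (hA : LA2S) (hZ : LA4S) (c : Ctx P ε Z Y w e) (n : NumF t m P)
    (hT : T2 Z ≤ Te t m + BS t m) (hU : ε * T3 Z + T2 Z ≤ B3 t m) (hAd : Ad Z ≤ BA t m) :
    av w (fun i j => side t (m - 2) ε (upd Z i j)) ≤
      av w (fun _ _ => 1) * (side t m ε Z + 8 * (14 / (t * m))) := by
  obtain ⟨a1, a2⟩ := term1 h1 c n hT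
  have a3 := term2 h2 h2' c n hT
  have a4 := term3 h2 h3 c n hT hU
  obtain ⟨a5, a6, a7, a8⟩ := term4 h4 hD hA hZ c n hT hAd
  simp only [side, sideV, av_add, av_div]
  rw [av_add] at a4
  linarith

end Side

end Vale.Agent.P049
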